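import Mathlib

/-!
The division-free Faddeev-LeVerrier recursion for real symmetric matrices.
-/

namespace Vale.Agent.P049

open Polynomial Finset

section Sym

variable {ι : Type} [DecidableEq ι] (lam : ι → ℝ)

/-- Elementary symmetric functions as coefficients. -/
noncomputable def flE (k : ℕ) (s : Finset ι) : ℝ := (∏ i ∈ s, (1 + C (lam i) * X)).coeff k

omit [DecidableEq ι] in
lemma flE_zero (s : Finset ι) : flE lam 0 s = 1 := by
  simp [flE, coeff_zero_eq_eval_zero, eval_prod]

lemma flE_erase (k : ℕ) {s : Finset ι} {i : ι} (hi : i ∈ s) :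
    flE lam (k + 1) s = flE lam (k + 1) (s.erase i) + lam i * flE lam k (s.erase i) := by
  unfold flE
  rw [← mul_prod_erase s _ hi, add_mul, one_mul, coeff_add, mul_assoc, coeff_C_mul, coeff_X_mul]

lemma flE_sum (k : ℕ) (s : Finset ι) :
    ∑ i ∈ s, lam i * flE lam k (s.erase i) = (k + 1) * flE lam (k + 1) s := by
  have h := congrArg (fun p => coeff p k)
    (derivative_prod_finset (s := s) (f := fun i => 1 + C (lam i) * X))
  simp only [coeff_derivative, finsetSum_coeff] at h
  unfold flE
  rw [mul_comm, h]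
  refine sum_congr rfl fun i _ => ?_
  rw [derivative_add, derivative_one, zero_add, derivative_C_mul_X, coeff_mul_C, mul_comm]

omit [DecidableEq ι] in
lemma fl_natDegree (s : Finset ι) : (∏ i ∈ s, (1 + C (lam i) * X)).natDegree ≤ s.card := by
  refine (natDegree_prod_le _ _).trans ?_
  rw [card_eq_sum_ones]
  refine sum_le_sum fun i _ => ?_
  rw [add_comm, ← C_1]
  exact natDegree_linear_le

omit [DecidableEq ι] in
lemma flE_eq_zero {k : ℕ} {s : Finset ι} (h : s.card < k) : flE lam k s = 0 :=
  coeff_eq_zero_of_natDegree_lt ((fl_natDegree lam s).trans_lt h)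

lemma flE_pos (h : ∀ i, 0 < lam i) : ∀ (k : ℕ) (s : Finset ι), k ≤ s.card → 0 < flE lam k s := by
  intro k
  induction k with
  | zero => intro s _; rw [flE_zero]; exact one_pos
  | succ k ih =>
    intro s hs
    have h1 : 0 < ∑ i ∈ s, lam i * flE lam k (s.erase i) :=
      sum_pos (fun i hi => mul_pos (h i) (ih _ (by rw [card_erase_of_mem hi]; omega)))
        (card_pos.1 (by omega))
    rw [flE_sum] at h1
    exact (mul_pos_iff_of_pos_left (by positivity)).1 h1

lemma pos_of_flE (s : Finset ι) (h : ∀ k < s.card, 0 < flE lam (k + 1) s) {i : ι} (hi : i ∈ s) :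
    0 < lam i := by
  have hc := card_pos.2 ⟨i, hi⟩
  rcases lt_trichotomy 0 (lam i) with h1 | h1 | h1
  · exact h1
  · have h2 := h (s.card - 1) (by omega)
    rw [flE_erase lam _ hi, ← h1, zero_mul, add_zero,
      flE_eq_zero lam (by rw [card_erase_of_mem hi]; omega)] at h2
    exact absurd h2 (lt_irrefl _)
  · have hx : 0 < -(lam i)⁻¹ := neg_pos.2 (inv_neg''.2 h1)
    have h2 := eval_eq_sum_range' (Nat.lt_succ_of_le (fl_natDegree lam s)) (-(lam i)⁻¹)
    have h3 : eval (-(lam i)⁻¹) (∏ i ∈ s, (1 + C (lam i) * X)) = 0 := by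
      rw [eval_prod]
      refine prod_eq_zero hi ?_
      simp [h1.ne]
    have h4 : 0 < ∑ k ∈ range (s.card + 1), flE lam k s * (-(lam i)⁻¹) ^ k := by
      refine sum_pos (fun k hk => mul_pos ?_ (pow_pos hx _)) nonempty_range_add_one
      cases k with
      | zero => rw [flE_zero]; exact one_pos
      | succ k => exact h k (by have := mem_range.1 hk; omega)
    rw [h3] at h2
    exact absurd (h4.trans_eq h2.symm) (lt_irrefl _)

end Sym

variable {n : ℕ}

/-- The recursion on real matrices. -/
noncomputable def flR (S : Matrix (Fin n) (Fin n) ℝ) : ℕ → Matrix (Fin n) (Fin n) ℝ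
  | 0 => 1
  | k + 1 => (S * flR S k).trace • (1 : Matrix (Fin n) (Fin n) ℝ) - ((k : ℝ) + 1) • (S * flR S k)

lemma flR_diag {S U V : Matrix (Fin n) (Fin n) ℝ} {lam : Fin n → ℝ} (h1 : U * V = 1)
    (h2 : V * U = 1) (hS : S = U * Matrix.diagonal lam * V) (k : ℕ) :
    flR S k = U * Matrix.diagonal (fun i => k.factorial * flE lam k (univ.erase i)) * V ∧
      (S * flR S k).trace = (k + 1).factorial * flE lam (k + 1) univ := by
  have key : ∀ k : ℕ,
      flR S k = U * Matrix.diagonal (fun i => k.factorial * flE lam k (univ.erase i)) * V →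
      S * flR S k =
        U * Matrix.diagonal (fun i => lam i * (k.factorial * flE lam k (univ.erase i))) * V ∧
      (S * flR S k).trace = (k + 1).factorial * flE lam (k + 1) univ := by
    intro k hk
    have h3 : S * flR S k =
        U * Matrix.diagonal (fun i => lam i * (k.factorial * flE lam k (univ.erase i))) * V := by
      rw [hk, ← Matrix.diagonal_mul_diagonal lam]
      conv_lhs => rw [hS]
      simp only [Matrix.mul_assoc]
      rw [← Matrix.mul_assoc V U, h2, Matrix.one_mul]
    refine ⟨h3, ?_⟩
    rw [h3, Matrix.trace_mul_cycle, h2, Matrix.one_mul, Matrix.trace_diagonal, Nat.factorial_succ]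
    push_cast
    rw [mul_comm ((k : ℝ) + 1), mul_assoc, ← flE_sum, mul_sum]
    exact sum_congr rfl fun i _ => by ring
  have key2 : ∀ k : ℕ,
      flR S k = U * Matrix.diagonal (fun i => k.factorial * flE lam k (univ.erase i)) * V := by
    intro k
    induction k with
    | zero => simp [flR, flE_zero, h1]
    | succ k ih =>
      obtain ⟨h3, h4⟩ := key k ih
      rw [flR, h4, h3, ← h1]
      have h5 : Matrix.diagonal (fun i => ((k + 1).factorial : ℝ) * flE lam (k + 1) (univ.erase i)) =
          (((k + 1).factorial : ℝ) * flE lam (k + 1) univ) • (1 : Matrix (Fin n) (Fin n) ℝ) -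
            ((k : ℝ) + 1) •
              Matrix.diagonal (fun i => lam i * (k.factorial * flE lam k (univ.erase i))) := by
        ext i j
        by_cases hij : i = j
        · subst hij
          simp only [Matrix.diagonal_apply_eq, Matrix.sub_apply, Matrix.smul_apply,
            Matrix.one_apply_eq, smul_eq_mul]
          rw [flE_erase lam k (mem_univ i), Nat.factorial_succ]
          push_cast
          ring
        · simp [hij]
      rw [h5]
      simp [Matrix.mul_sub, Matrix.sub_mul]
  exact ⟨key2 k, (key k (key2 k)).2⟩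

theorem flR_spec {S : Matrix (Fin n) (Fin n) ℝ} (hS : S.IsSymm) :
    ((∀ k < n, 0 < (S * flR S k).trace) ↔ S.PosDef) ∧
      (S.PosDef → ((n : ℝ) / (S * flR S (n - 1)).trace) • flR S (n - 1) = S⁻¹) := by
  have hH : S.IsHermitian := Matrix.isHermitian_iff_isSymm.2 hS
  have h0 := hH.spectral_theorem
  rw [Unitary.conjStarAlgAut_apply] at h0
  have h1 := Unitary.mul_star_self_of_mem hH.eigenvectorUnitary.2
  have h2 := Unitary.star_mul_self_of_mem hH.eigenvectorUnitary.2
  have h3 := flR_diag (lam := hH.eigenvalues) h1 h2 h0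
  have h4 : (∀ k < n, 0 < (S * flR S k).trace) ↔ S.PosDef := by
    rw [hH.posDef_iff_eigenvalues_pos]
    constructor
    · intro h i
      refine pos_of_flE _ univ (fun k hk => ?_) (mem_univ i)
      have h5 := h k (by simpa using hk)
      rw [(h3 k).2] at h5
      exact (mul_pos_iff_of_pos_left (by positivity)).1 h5
    · intro h k hk
      rw [(h3 k).2]
      exact mul_pos (by positivity) (flE_pos _ h _ _ (by simpa using hk))
  refine ⟨h4, fun hP => ?_⟩
  rcases Nat.eq_zero_or_pos n with rfl | hn
  · exact Subsingleton.elim _ _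
  obtain ⟨m, rfl⟩ : ∃ m, n = m + 1 := ⟨n - 1, by omega⟩
  have h5 := h4.2 hP m (by omega)
  have h6 : flR S (m + 1) = 0 := by
    rw [(h3 (m + 1)).1]
    have : (fun i => ((m + 1).factorial : ℝ) * flE hH.eigenvalues (m + 1) (univ.erase i)) =
        fun _ => 0 := funext fun i => by
      rw [flE_eq_zero _ (by simp), mul_zero]
    rw [this]
    simp
  rw [flR, sub_eq_zero] at h6
  refine (Matrix.inv_eq_right_inv ?_).symm
  rw [Nat.add_sub_cancel, Matrix.mul_smul, div_eq_inv_mul, mul_smul]
  push_cast
  rw [← h6, smul_smul, inv_mul_cancel₀ h5.ne', one_smul]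

end Vale.Agent.P049
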