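import Vale.Agent.P049.QCT
import Vale.Agent.P049.FLAux

/-!
Exact positivity test and inverse in polynomial time.
-/

namespace Vale.Agent.P049

open Vale.Agent.Lib.TM

/-- Product of list matrices. -/
def flMul (A B : List (List ℚ)) : List (List ℚ) :=
  mtab A fun i j => lsum A fun l => mget A i l * mget B l j

/-- Trace of the product. -/
def flTr (A B : List (List ℚ)) : ℚ := lsum A fun i => mget (flMul A B) i i

/-- One step of the recursion. -/
def flStep (A B : List (List ℚ)) (k : ℕ) : List (List ℚ) :=
  mtab A fun i j => (bif i == j then flTr A B else 0) - ((k + 1 : ℕ) : ℚ) * mget (flMul A B) i j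

/-- The recursion. -/
def flB (A : List (List ℚ)) : ℕ → List (List ℚ)
  | 0 => mtab A fun i j => bif i == j then 1 else 0
  | k + 1 => flStep A (flB A k) k

variable {α : Type} [Enc α] {e : ℕ}

@[fun_prop]
theorem ct_flMul {A B : α → List (List ℚ)} (hA : CT e A) (hB : CT e B) :
    CT e fun a => flMul (A a) (B a) := by
  refine ct_mtab hA (ct_lsum (by fun_prop) ?_)
  fun_prop

@[fun_prop]
theorem ct_flTr {A B : α → List (List ℚ)} (hA : CT e A) (hB : CT e B) :
    CT e fun a => flTr (A a) (B a) := by
  refine ct_lsum hA ?_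
  fun_prop

@[fun_prop]
theorem ct_flStep {A B : α → List (List ℚ)} {k : α → ℕ} (hA : CT e A) (hB : CT e B)
    (hk : CT e k) : CT e fun a => flStep (A a) (B a) (k a) := by
  refine ct_mtab hA ?_
  fun_prop

lemma qok_mtab {β : Type} {l : List β} {f : ℕ → ℕ → ℚ} {D B : ℕ} (h : ∀ i j, QOk D B (f i j))
    (i j : ℕ) : QOk D B (mget (mtab l f) i j) := by
  by_cases hi : i < l.length
  · by_cases hj : j < l.length
    · rw [mget_mtab l f hi hj]
      exact h i j
    · simpa [mget, mtab, List.getD_eq_getElem?_getD, hi, hj] using QOk.zero D B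
  · simpa [mget, mtab, List.getD_eq_getElem?_getD, hi] using QOk.zero D B

lemma qok_lsum {β : Type} {l : List β} {f : ℕ → ℚ} {D B : ℕ} (h : ∀ i, QOk D B (f i)) :
    QOk D (l.length * B) (lsum l f) := by
  have := QOk.sum (D := D) (B := B) (l := (List.range l.length).map f) fun x hx => by
    obtain ⟨i, -, rfl⟩ := List.mem_map.1 hx
    exact h i
  simpa [lsum] using this

lemma qok_mget (A : List (List ℚ)) (i j : ℕ) : QOk (A.flatten.map Rat.den).prod
    (A.flatten.map fun y => y.num.natAbs).sum (mget A i j) := by
  by_cases hi : i < A.length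
  · by_cases hj : j < A[i].length
    · refine QOk.of_mem (List.mem_flatten.2 ⟨A[i], List.getElem_mem hi, ?_⟩)
      simp [mget, List.getD_eq_getElem?_getD, hi, hj]
    · simpa [mget, List.getD_eq_getElem?_getD, hi, hj] using QOk.zero _ _
  · simpa [mget, List.getD_eq_getElem?_getD, hi] using QOk.zero _ _

lemma qok_flB (A : List (List ℚ)) {D M : ℕ} (h : ∀ i j, QOk D M (mget A i j)) :
    ∀ k ≤ A.length, ∀ i j,
      QOk (D ^ k) ((2 * A.length * A.length * M + 1) ^ k) (mget (flB A k) i j) := by
  intro k
  induction k with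
  | zero =>
    intro _
    refine qok_mtab fun i j => ?_
    cases i == j
    · exact QOk.zero _ _
    · simpa using QOk.nat 1
  | succ k ih =>
    intro hk
    have h1 : ∀ i j, QOk _ _ (mget (flMul A (flB A k)) i j) :=
      qok_mtab fun i j => qok_lsum fun l => (h i l).mul (ih (by omega) l j)
    have h2 : QOk _ _ (flTr A (flB A k)) := qok_lsum fun i => h1 i i
    refine qok_mtab fun i j => ?_
    have h3 : QOk (D * D ^ k)
        (A.length * (A.length * (M * (2 * A.length * A.length * M + 1) ^ k)))
        (bif i == j then flTr A (flB A k) else 0) := by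
      cases i == j
      · exact QOk.zero _ _
      · exact h2
    have h4 := ((QOk.nat (k + 1)).mul (h1 i j)).neg
    rw [one_mul] at h4
    rw [sub_eq_add_neg]
    refine (h3.add h4).mono (by rw [pow_succ']) ?_
    rw [pow_succ']
    generalize (2 * A.length * A.length * M + 1) ^ k = X
    have := Nat.mul_le_mul_right (A.length * (M * X)) hk
    nlinarith

lemma sz_mtab_le {β : Type} {l : List β} {f : ℕ → ℕ → ℚ} {S : ℕ}
    (h : ∀ i j, sz (mget (mtab l f) i j) ≤ S) :
    sz (mtab l f) ≤ l.length * (l.length * (S + 1) + 1 + 1) + 1 := by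
  have h1 := sz_list_le (l := mtab l f) (B := l.length * (S + 1) + 1) fun r hr => by
    obtain ⟨i, hi, rfl⟩ := List.mem_map.1 hr
    have h2 := sz_list_le (l := (List.range l.length).map fun j => f i j) (B := S) fun x hx => by
      obtain ⟨j, hj, rfl⟩ := List.mem_map.1 hx
      have h3 := h i j
      rwa [mget_mtab l f (List.mem_range.1 hi) (List.mem_range.1 hj)] at h3
    simpa using h2
  rwa [length_mtab] at h1

lemma flB_eq_mtab (A : List (List ℚ)) (k : ℕ) : ∃ f, flB A k = mtab A f := by
  cases k <;> exact ⟨_, rfl⟩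

lemma foldl_flB (A : List (List ℚ)) (m : ℕ) :
    (List.range m).foldl (fun B k => flStep A B k) (flB A 0) = flB A m := by
  induction m with
  | zero => rfl
  | succ m ih => rw [List.range_succ, List.foldl_append, ih]; rfl

theorem ct_flB {A : α → List (List ℚ)} {k : α → ℕ} (hA : CT e A) (hk : CT e k) :
    CT e fun a => flB (A a) (min (k a) (A a).length) := by
  have hD : CT e fun a => ((A a).flatten.map Rat.den).prod :=
    (CT.map (f := fun _ x => Rat.den x) (by fun_prop) hA.flatten).prod
  have hM : CT e fun a => ((A a).flatten.map fun y => y.num.natAbs).sum :=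
    (CT.map (f := fun _ (y : ℚ) => y.num.natAbs) (by fun_prop) hA.flatten).sum
  have hD' := hD.pow hA.length hA.bd_length
  have hM' := (((((CT.const 2).mul hA.length).mul hA.length).mul hM).add (CT.const 1)).pow
    hA.length hA.bd_length
  have hS := ((hM'.mul hD').size.add hD'.size).add (Bd.const 10)
  have hl : CT e fun a => List.range (min (k a) (A a).length) :=
    (hk.min hA.length).range (hA.bd_length.of_le fun _ => min_le_right _ _)
  have h0 : CT e fun a => flB (A a) 0 := by
    refine ct_mtab hA ?_
    fun_prop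
  refine (CT.foldl_inv (g := fun a B k => flStep (A a) B k) (by fun_prop) h0 hl
    ((hA.bd_length.mul (((hA.bd_length.mul (hS.add (Bd.const 1))).add (Bd.const 1)).add
      (Bd.const 1))).add (Bd.const 1))
    (fun a s r => ∃ m, m + r.length = min (k a) (A a).length ∧ r = List.range' m r.length ∧
      s = flB (A a) m) (fun a => ⟨0, by simp, by simp [List.range_eq_range'], rfl⟩) ?_ ?_).of_eq
    fun a => foldl_flB _ _
  · rintro a s x r ⟨m, h1, h2, rfl⟩
    rw [List.length_cons, List.range'_succ, List.cons.injEq] at h2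
    rw [List.length_cons] at h1
    exact ⟨m + 1, by omega, h2.2, by rw [h2.1]; rfl⟩
  · rintro a s r ⟨m, h1, -, rfl⟩
    have hm : m ≤ (A a).length := by omega
    have h2 := qok_flB (A a) (qok_mget (A a)) m hm
    obtain ⟨f, hf⟩ := flB_eq_mtab (A a) m
    rw [hf] at h2 ⊢
    exact sz_mtab_le fun i j => ((h2 i j).mono (pow_dvd_pow _ hm)
      (Nat.pow_le_pow_right (Nat.succ_pos _) hm)).sz_le (pow_pos (den_prod_pos _) _)

variable {n : ℕ} {A : List (List ℚ)}

lemma toMat_mtab (hn : A.length = n) (f : ℕ → ℕ → ℚ) (i j : Fin n) :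
    toMat n (mtab A f) i j = (f i j : ℝ) := by
  unfold toMat
  rw [mget_mtab A f (hn ▸ i.2) (hn ▸ j.2)]

lemma toMat_flMul (hn : A.length = n) (B : List (List ℚ)) :
    toMat n (flMul A B) = toMat n A * toMat n B := by
  ext i j
  rw [flMul, toMat_mtab hn, cast_lsum _ _ hn, Matrix.mul_apply]
  simp [toMat]

lemma cast_flTr (hn : A.length = n) (B : List (List ℚ)) :
    (flTr A B : ℝ) = (toMat n A * toMat n B).trace := by
  rw [flTr, cast_lsum _ _ hn, ← toMat_flMul hn]
  rfl

lemma toMat_flB (hn : A.length = n) (k : ℕ) : toMat n (flB A k) = flR (toMat n A) k := by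
  induction k with
  | zero =>
    ext i j
    rw [flB, toMat_mtab hn, flR, Matrix.one_apply]
    by_cases h : i = j
    · simp [h]
    · have : ((i : ℕ) == j) = false := by simpa [Fin.ext_iff] using h
      simp [h, this]
  | succ k ih =>
    ext i j
    have h1 : (mget (flMul A (flB A k)) i j : ℝ) = (toMat n A * flR (toMat n A) k) i j := by
      rw [← ih, ← toMat_flMul hn]
      rfl
    rw [flB, flStep, toMat_mtab hn, flR, Matrix.sub_apply, Matrix.smul_apply, Matrix.smul_apply,
      Matrix.one_apply]
    push_cast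
    rw [h1]
    by_cases h : i = j
    · simp [h, cast_flTr hn, ih]
    · have : ((i : ℕ) == j) = false := by simpa [Fin.ext_iff] using h
      simp [h, this]

/-- Suggested: the division-free Faddeev-LeVerrier recursion `B 0 = 1`,
`B (k + 1) = (k + 1) A (B k) - tr (A (B k)) 1`. With the eigenvalues `lam` of the symmetric matrix
`A` and Newton's identities, `B k = k! ∑ j ≤ k, (-1) ^ j e_j A ^ (k - j)` and
`tr (A (B k)) = (-1) ^ k (k + 1)! e_(k+1)`; `B n = 0` (Cayley-Hamilton or Vieta) gives the inverse
`n (B (n - 1)) / tr (A (B (n - 1)))`, and `A` is positive definite iff all `e_k > 0`. Sizes: the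
entries of `B k` have the common denominator `D ^ k` (`D` the product of all denominators of `A`)
and are bounded by `(2 n ^ 2 (max |A| + 1)) ^ k`; use `CT.foldl_inv` and `sz_q_le`. Any other
method (for instance symmetric Gaussian elimination with a size bound by minors) is fine. -/
theorem exists_pdInv : ∃ f : List (List ℚ) → Bool × List (List ℚ), CT 0 f ∧
    ∀ (n : ℕ) (A : List (List ℚ)), A.length = n → (toMat n A).IsSymm →
      ((f A).1 = true ↔ (toMat n A).PosDef) ∧
        ((toMat n A).PosDef → toMat n (f A).2 = (toMat n A)⁻¹) := by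
  refine ⟨fun A => ((List.range A.length).all fun k =>
      decide (0 < flTr A (flB A (min k A.length))),
    mtab A fun i j => (A.length : ℚ) / flTr A (flB A (min (A.length - 1) A.length)) *
      mget (flB A (min (A.length - 1) A.length)) i j), CT.mk ?_ ?_, fun n A hn hS => ?_⟩
  · refine CT.all (f := fun A k => decide (0 < flTr A (flB A (min k A.length)))) ?_
      CT.id.range_length
    exact ct_qlt (CT.const 0) (ct_flTr (by fun_prop) (ct_flB (by fun_prop) (by fun_prop)))
  · refine ct_mtab CT.id ?_
    have h : CT 0 fun p : List (List ℚ) × ℕ × ℕ =>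
        flB p.1 (min (p.1.length - 1) p.1.length) := ct_flB (by fun_prop) (by fun_prop)
    exact ct_qmul (ct_qdiv (by fun_prop) (ct_flTr (by fun_prop) h))
      (ct_mget h (by fun_prop) (by fun_prop))
  · obtain ⟨h1, h2⟩ := flR_spec hS
    refine ⟨Iff.trans ?_ h1, fun hP => ?_⟩
    · simp only [List.all_eq_true, List.mem_range, decide_eq_true_eq, hn]
      refine forall₂_congr fun k hk => ?_
      rw [min_eq_left hk.le, ← toMat_flB hn, ← cast_flTr hn, Rat.cast_pos]
    · rw [← h2 hP]
      ext i j
      simp only
      rw [toMat_mtab hn, hn, min_eq_left (Nat.sub_le _ _), Matrix.smul_apply, ← toMat_flB hn,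
        ← cast_flTr hn]
      simp [toMat]

end Vale.Agent.P049
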