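import Vale.Agent.P049.State
import Vale.Agent.P049.FL

/-!
Exact evaluation of the barrier test and of the potential in polynomial time.
-/

namespace Vale.Agent.P049

open Vale.Agent.Lib.TM Matrix

/-! ### The schedule -/

section Cast

variable (P : Prm) (j : Fin 4) (S : ℕ)

lemma ap_C0 : ((P.C0 : ℚ) : ℝ) = P.C0 := by
  simp only [Prm.C0, Rat.cast_div, Rat.cast_natCast]

lemma ap_E : ((P.E : ℚ) : ℝ) = P.E := by
  simp only [Prm.E, Rat.cast_mul, ap_C0, Rat.cast_ofNat]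

lemma ap_D0 : ((P.D0 : ℚ) : ℝ) = P.D0 := by
  simp only [Prm.D0, Rat.cast_mul, ap_C0, Rat.cast_ofNat, Rat.cast_sub, Rat.cast_natCast]

lemma ap_vec (a b c d : ℚ) : ((![a, b, c, d] j : ℚ) : ℝ) = ![(a : ℝ), b, c, d] j := by
  fin_cases j <;> rfl

lemma ap_β : ((P.β j : ℚ) : ℝ) = P.β j := by
  simp only [Prm.β, Rat.cast_add, ap_vec, Rat.cast_div, Rat.cast_pow, Rat.cast_natCast,
    Rat.cast_one, Rat.cast_zero, Rat.cast_ofNat]

lemma ap_C : ((P.C j : ℚ) : ℝ) = P.C j := by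
  simp only [Prm.C, Rat.cast_add, ap_C0, ap_β]

lemma ap_G : ((P.G : ℚ) : ℝ) = P.G := by
  simp only [Prm.G, Rat.cast_div, Rat.cast_mul, Rat.cast_pow, Rat.cast_natCast, ap_β, ap_D0]

lemma ap_Γ : ((P.Γ S : ℚ) : ℝ) = P.Γ S := by
  simp only [Prm.Γ, Rat.cast_div, Rat.cast_mul, Rat.cast_natCast, ap_G]

lemma ap_x : ((P.x j S : ℚ) : ℝ) = P.x j S := by
  simp only [Prm.x, Rat.cast_sub, Rat.cast_div, Rat.cast_mul, Rat.cast_pow, Rat.cast_natCast,
    ap_β, ap_D0, ap_Γ]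

lemma ap_ω : ((P.ω j S : ℚ) : ℝ) = P.ω j S := by
  simp only [Prm.ω, Rat.cast_div, Rat.cast_natCast, ap_x]

lemma ap_g : ((P.g j S : ℚ) : ℝ) = P.g j S := by
  simp only [Prm.g, Rat.cast_div, Rat.cast_add, Rat.cast_mul, Rat.cast_one, ap_ω, ap_C]

lemma ap_m : ((P.m j S : ℚ) : ℝ) = P.m j S := by
  simp only [Prm.m, Rat.cast_div, Rat.cast_add, Rat.cast_sub, Rat.cast_pow, Rat.cast_one, ap_ω,
    ap_C]

lemma ap_Lam : ((P.Lam j : ℚ) : ℝ) = P.Lam j := by
  unfold Prm.Lam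
  split_ifs <;> simp only [Rat.cast_pow, Rat.cast_natCast]

end Cast

section Sched

variable {α : Type} [Enc α] {e : ℕ} {d : ℕ} {u : α → List Bool} {r S : α → ℕ}

theorem ap_ct_npow (k : ℕ) (hr : CT e r) : CT e fun a => r a ^ k :=
  hr.pow (CT.const k) (Bd.const k)

theorem ap_ct_S1 (hr : CT e r) : CT e fun a => Prm.S1 ⟨(u a).length, d, r a⟩ :=
  ap_ct_npow 128800 hr

theorem ap_ct_S2 (hr : CT e r) : CT e fun a => Prm.S2 ⟨(u a).length, d, r a⟩ :=
  ap_ct_npow 123200 hr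

theorem ap_ct_S0 (hu : CT e u) : CT e fun a => Prm.S0 ⟨(u a).length, d, r a⟩ :=
  hu.length.mul (CT.const d)

theorem ap_ct_C0 (hu : CT e u) : CT e fun a => (Prm.C0 ⟨(u a).length, d, r a⟩ : ℚ) := by
  have h1 : CT e fun a => Nat.sqrt ((d - 1) * (u a).length ^ 2) :=
    CT.sqrt ((CT.const _).mul (ap_ct_npow 2 hu.length))
      (((Bd.const (d - 1)).mul (hu.bd_length.mul hu.bd_length)).of_le fun a => by rw [sq])
  exact ct_qdiv (ct_natCast h1) (ct_natCast hu.length)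

theorem ap_ct_E (hu : CT e u) : CT e fun a => (Prm.E ⟨(u a).length, d, r a⟩ : ℚ) :=
  ct_qmul (CT.const 2) (ap_ct_C0 hu)

theorem ap_ct_D0 (hu : CT e u) : CT e fun a => (Prm.D0 ⟨(u a).length, d, r a⟩ : ℚ) :=
  ct_qmul (CT.const ((d : ℚ) - 2)) (ap_ct_C0 hu)

theorem ap_ct_vec (j : Fin 4) {x y z w : α → ℚ} (hx : CT e x) (hy : CT e y) (hz : CT e z)
    (hw : CT e w) : CT e fun a => ![x a, y a, z a, w a] j := by
  fin_cases j
  exacts [hx, hy, hz, hw]

theorem ap_ct_β (j : Fin 4) (hr : CT e r) :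
    CT e fun a => (Prm.β ⟨(u a).length, d, r a⟩ j : ℚ) :=
  ct_qadd (ct_qdiv (CT.const 1) (ct_qpow 56200 (ct_natCast hr)))
    (ap_ct_vec j (ct_qdiv (CT.const 1) (ct_qpow 51280 (ct_natCast hr)))
      (ct_qdiv (CT.const 2) (ct_qpow 60720 (ct_natCast hr)))
      (ct_qdiv (CT.const 1) (ct_qpow 60720 (ct_natCast hr))) (CT.const 0))

theorem ap_ct_C (j : Fin 4) (hu : CT e u) (hr : CT e r) :
    CT e fun a => (Prm.C ⟨(u a).length, d, r a⟩ j : ℚ) :=
  ct_qadd (ap_ct_C0 hu) (ap_ct_β j hr)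

theorem ap_ct_G' (j : Fin 4) (hu : CT e u) (hr : CT e r) :
    CT e fun a => ((Prm.S0 ⟨(u a).length, d, r a⟩ : ℚ) * Prm.β ⟨(u a).length, d, r a⟩ j ^ 2 /
      Prm.D0 ⟨(u a).length, d, r a⟩ : ℚ) :=
  ct_qdiv (ct_qmul (ct_natCast (ap_ct_S0 hu)) (ct_qpow 2 (ap_ct_β j hr))) (ap_ct_D0 hu)

theorem ap_ct_Γ (hu : CT e u) (hr : CT e r) (hS : CT e S) :
    CT e fun a => (Prm.Γ ⟨(u a).length, d, r a⟩ (S a) : ℚ) :=
  ct_qdiv (ct_qmul (ap_ct_G' 3 hu hr) (ct_natCast
    ((((CT.const 2).mul (ap_ct_S1 (u := u) (d := d) hr)).sub hS).min (ap_ct_S1 hr))))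
    (ct_natCast (ap_ct_S1 hr))

theorem ap_ct_ω (j : Fin 4) (hu : CT e u) (hr : CT e r) (hS : CT e S) :
    CT e fun a => (Prm.ω ⟨(u a).length, d, r a⟩ j (S a) : ℚ) :=
  ct_qdiv (ct_qsub (ap_ct_Γ hu hr hS) (ap_ct_G' j hu hr)) (ct_natCast hS)

theorem ap_ct_g (j : Fin 4) (hu : CT e u) (hr : CT e r) (hS : CT e S) :
    CT e fun a => (Prm.g ⟨(u a).length, d, r a⟩ j (S a) : ℚ) :=
  ct_qdiv (ct_qadd (ct_qmul (ap_ct_ω j hu hr hS) (ap_ct_C j hu hr)) (CT.const 1))
    (ct_qadd (ap_ct_C j hu hr) (ap_ct_ω j hu hr hS))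

theorem ap_ct_m (j : Fin 4) (hu : CT e u) (hr : CT e r) (hS : CT e S) :
    CT e fun a => (Prm.m ⟨(u a).length, d, r a⟩ j (S a) : ℚ) :=
  ct_qdiv (ct_qadd (ap_ct_C j hu hr) (ap_ct_ω j hu hr hS))
    (ct_qsub (ct_qpow 2 (ap_ct_C j hu hr)) (CT.const 1))

theorem ap_ct_Lam (j : Fin 4) (hr : CT e r) :
    CT e fun a => (Prm.Lam ⟨(u a).length, d, r a⟩ j : ℚ) := by
  unfold Prm.Lam
  split_ifs
  · exact ct_qpow 67920 (ct_natCast hr)
  · exact ct_qpow 58480 (ct_natCast hr)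

end Sched

/-! ### Rational tables -/

/-- The number of free half-edges. -/
def apS (L : List ℕ) : ℕ := (List.range L.length).countP fun k => L.getD k 0 == k

/-- Entries of the averaging operator. -/
def apAvg (L : List ℕ) (k l : ℕ) : ℚ :=
  bif (L.getD k 0 == k) && (L.getD l 0 == l) then 1 / (apS L : ℚ) else 0

/-- Entries of the projection. -/
def apProj (L : List ℕ) (k l : ℕ) : ℚ :=
  bif (L.getD k 0 == k) && (L.getD l 0 == l) then (bif k == l then 1 else 0) - 1 / (apS L : ℚ)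
  else 0

/-- Entries of the matrix of matched pairs. -/
def apMat (L : List ℕ) (k l : ℕ) : ℚ := bif (L.getD k 0 == l) && !(k == l) then 1 else 0

/-- Entries of the incidence matrix. -/
def apIo (d x k : ℕ) : ℚ := bif k / d == x then 1 else 0

/-- The barrier matrix. -/
def apM (d : ℕ) (u : List Bool) (L : List ℕ) (E s g : ℚ) : List (List ℚ) :=
  mtab u fun x y => E * (bif x == y then 1 else 0) - (lsum L fun l => (lsum L fun k =>
    apIo d x k * (s * (apMat L k l + apAvg L k l) + g * apProj L k l)) * apIo d y l) + 1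

/-- The resolvent on the free half-edges. -/
def apN (d : ℕ) (L : List ℕ) (B : List (List ℚ)) : List (List ℚ) :=
  mtab L fun k l => lsum L fun l' =>
    (lsum L fun k' => apProj L k k' * mget B (k' / d) (l' / d)) * apProj L l' l

/-- The centered resolvent. -/
def apO (L : List ℕ) (A : List (List ℚ)) (m : ℚ) : List (List ℚ) :=
  mtab L fun k l => mget A k l - m * apProj L k l

/-- Trace. -/
def apZ (L : List ℕ) (A : List (List ℚ)) : ℚ := lsum L fun k => mget A k k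

/-- Squared norm of the diagonal. -/
def apV (L : List ℕ) (A : List (List ℚ)) : ℚ := lsum L fun k => mget A k k ^ 2

/-- Frobenius inner product. -/
def apIp (L : List ℕ) (A B : List (List ℚ)) : ℚ :=
  lsum L fun k => lsum L fun l => mget A k l * mget B k l

section CTs

variable {α : Type} [Enc α] {e : ℕ} {L : α → List ℕ} {k l : α → ℕ} {A B : α → List (List ℚ)}

@[fun_prop]
theorem ap_ct_S (hL : CT e L) : CT e fun a => apS (L a) := by
  unfold apS; fun_prop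

@[fun_prop]
theorem ap_ct_Avg (hL : CT e L) (hk : CT e k) (hl : CT e l) :
    CT e fun a => apAvg (L a) (k a) (l a) := by
  unfold apAvg; fun_prop

@[fun_prop]
theorem ap_ct_Proj (hL : CT e L) (hk : CT e k) (hl : CT e l) :
    CT e fun a => apProj (L a) (k a) (l a) := by
  unfold apProj; fun_prop

@[fun_prop]
theorem ap_ct_Mat (hL : CT e L) (hk : CT e k) (hl : CT e l) :
    CT e fun a => apMat (L a) (k a) (l a) := by
  unfold apMat; fun_prop

@[fun_prop]
theorem ap_ct_Io (d : ℕ) (hk : CT e k) (hl : CT e l) : CT e fun a => apIo d (k a) (l a) := by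
  unfold apIo; fun_prop

theorem ap_ct_M (d : ℕ) {u : α → List Bool} {E s g : α → ℚ} (hu : CT e u) (hL : CT e L)
    (hE : CT e E) (hs : CT e s) (hg : CT e g) :
    CT e fun a => apM d (u a) (L a) (E a) (s a) (g a) := by
  unfold apM; fun_prop

theorem ap_ct_N (d : ℕ) (hL : CT e L) (hB : CT e B) : CT e fun a => apN d (L a) (B a) := by
  unfold apN; fun_prop

theorem ap_ct_O {m : α → ℚ} (hL : CT e L) (hA : CT e A) (hm : CT e m) :
    CT e fun a => apO (L a) (A a) (m a) := by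
  unfold apO; fun_prop

theorem ap_ct_Z (hL : CT e L) (hA : CT e A) : CT e fun a => apZ (L a) (A a) := by
  unfold apZ; fun_prop

theorem ap_ct_V (hL : CT e L) (hA : CT e A) : CT e fun a => apV (L a) (A a) := by
  unfold apV; fun_prop

theorem ap_ct_Ip (hL : CT e L) (hA : CT e A) (hB : CT e B) :
    CT e fun a => apIp (L a) (A a) (B a) := by
  unfold apIp; fun_prop

end CTs

section Tables

variable {N n d : ℕ} {L : List ℕ}

lemma ap_mem_free (hL : Tab N L) (k : Fin N) : k ∈ free (toP N L) ↔ L.getD k 0 = k := by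
  simp [free, Fin.ext_iff, hL.toP_val]

lemma ap_S (hL : Tab N L) : apS L = (free (toP N L)).card := by
  rw [apS, hL.1, List.countP_eq_length_filter, ← List.toFinset_card_of_nodup
    (List.nodup_range.filter _), ← Finset.card_map Fin.valEmbedding]
  congr 1
  ext k
  simp only [List.mem_toFinset, List.mem_filter, List.mem_range, beq_iff_eq, Finset.mem_map,
    ap_mem_free hL, Fin.valEmbedding_apply]
  exact ⟨fun h => ⟨⟨k, h.1⟩, h.2, rfl⟩, fun ⟨x, h1, h2⟩ => h2 ▸ ⟨x.2, h1⟩⟩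

lemma ap_Avg (hL : Tab N L) (k l : Fin N) : (apAvg L k l : ℝ) = avgU (free (toP N L)) k l := by
  simp only [apAvg, avgU, ap_mem_free hL, ap_S hL, Bool.cond_eq_ite, Bool.and_eq_true, beq_iff_eq]
  split_ifs <;> simp

lemma ap_Proj (hL : Tab N L) (k l : Fin N) : (apProj L k l : ℝ) = proj (free (toP N L)) k l := by
  simp only [apProj, proj, ap_mem_free hL, ap_S hL, Bool.cond_eq_ite, Bool.and_eq_true,
    beq_iff_eq, Fin.ext_iff]
  split_ifs <;> simp

lemma ap_Mat (hL : Tab N L) (k l : Fin N) : (apMat L k l : ℝ) = mat (toP N L) k l := by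
  simp only [apMat, mat, Bool.cond_eq_ite, Bool.and_eq_true, beq_iff_eq, Fin.ext_iff, ne_eq,
    hL.toP_val, Bool.not_eq_true', beq_eq_false_iff_ne]
  split_ifs <;> simp

lemma ap_Io (x : Fin n) (k : Fin (n * d)) : (apIo d x k : ℝ) = iota (vxf n d) x k := by
  simp only [apIo, iota, Bool.cond_eq_ite, beq_iff_eq, Fin.ext_iff, vxf, Fin.coe_divNat]
  split_ifs <;> simp

lemma ap_M {u : List Bool} (hu : u.length = n) (hL : Tab (n * d) L) (E s g : ℚ) :
    toMat n (apM d u L E s g) = Mm (vxf n d) E s g (toP (n * d) L) := by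
  ext x y
  rw [toMat, apM, mget_mtab _ _ (hu ▸ x.2) (hu ▸ y.2)]
  simp only [Rat.cast_add, Rat.cast_sub, Rat.cast_mul, cast_lsum _ _ hL.1, ap_Io, ap_Mat hL,
    ap_Avg hL, ap_Proj hL, Mm, Matrix.add_apply, Matrix.sub_apply, Matrix.smul_apply,
    Matrix.mul_apply, Matrix.transpose_apply, smul_eq_mul, ones, Matrix.one_apply,
    Bool.cond_eq_ite, beq_iff_eq, Fin.ext_iff, Rat.cast_one]
  split_ifs <;> simp

lemma ap_iota {V H : Type} [Fintype V] [DecidableEq V] (vx : H → V) (G : Matrix V V ℝ) (k l : H) :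
    ((iota vx)ᵀ * G * iota vx) k l = G (vx k) (vx l) := by
  simp [Matrix.mul_apply, iota]

lemma ap_N (hL : Tab (n * d) L) {B : List (List ℚ)} {E s g : ℝ}
    (hB : toMat n B = (Mm (vxf n d) E s g (toP (n * d) L))⁻¹) :
    toMat (n * d) (apN d L B) = Nm (vxf n d) E s g (toP (n * d) L) := by
  ext k l
  rw [toMat, apN, mget_mtab _ _ (k.2.trans_eq hL.1.symm) (l.2.trans_eq hL.1.symm), Nm, ← hB,
    Matrix.mul_apply, cast_lsum _ _ hL.1]
  refine Finset.sum_congr rfl fun l' _ => ?_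
  rw [Matrix.mul_apply, Rat.cast_mul, cast_lsum _ _ hL.1, ap_Proj hL]
  refine congrArg (· * _) (Finset.sum_congr rfl fun k' _ => ?_)
  rw [Rat.cast_mul, ap_Proj hL, ap_iota]
  rfl

lemma ap_O (hL : Tab N L) (A : List (List ℚ)) (m : ℚ) :
    toMat N (apO L A m) = toMat N A - (m : ℝ) • proj (free (toP N L)) := by
  ext k l
  rw [toMat, apO, mget_mtab _ _ (hL.1 ▸ k.2) (hL.1 ▸ l.2), Rat.cast_sub, Rat.cast_mul, ap_Proj hL]
  rfl

lemma ap_Z (hL : Tab N L) (A : List (List ℚ)) : (apZ L A : ℝ) = Zf (toMat N A) :=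
  cast_lsum _ _ hL.1

lemma ap_V (hL : Tab N L) (A : List (List ℚ)) : (apV L A : ℝ) = Vf (toMat N A) := by
  simp only [apV, cast_lsum _ _ hL.1, Rat.cast_pow, Vf, toMat]

lemma ap_Ip (hL : Tab N L) (A B : List (List ℚ)) :
    (apIp L A B : ℝ) = ip (toMat N A) (toMat N B) := by
  simp only [apIp, cast_lsum _ _ hL.1, Rat.cast_mul, ip, toMat]

end Tables

/-! ### The potential -/

/-- The input. -/
abbrev ApIn : Type := (List Bool × ℕ) × List ℕ

section Pot

variable (inv : List (List ℚ) → Bool × List (List ℚ)) (d : ℕ)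

/-- The parameters of an input. -/
abbrev apP (a : ApIn) : Prm := ⟨a.1.1.length, d, a.1.2⟩

/-- The table of `Mp`. -/
def tM (s : Bool) (j : Fin 4) (a : ApIn) : List (List ℚ) :=
  apM d a.1.1 a.2 (apP d a).E (bif s then 1 else -1) ((apP d a).g j (apS a.2))

/-- The table of `Np`. -/
def tN (s : Bool) (j : Fin 4) (a : ApIn) : List (List ℚ) := apN d a.2 (inv (tM d s j a)).2

/-- The table of `Op`. -/
def tO (s : Bool) (j : Fin 4) (a : ApIn) : List (List ℚ) :=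
  apO a.2 (tN inv d s j a) ((apP d a).m j (apS a.2))

/-- The terms `tZ + tV`. -/
def qT (s : Bool) (j : Fin 4) (a : ApIn) : ℚ :=
  apZ a.2 (tO inv d s j a) ^ 2 / (apP d a).Lam j ^ 2 + apV a.2 (tO inv d s j a) / (a.1.2 : ℚ) ^ 26800

/-- The term `tD`. -/
def qD (s : Bool) (a : ApIn) : ℚ :=
  (apIp a.2 (tN inv d (!s) 3 a) (tN inv d s 3 a) - apIp a.2 (tN inv d (!s) 3 a) (tN inv d s 2 a)) *
    (a.1.2 : ℚ) ^ 9720 / apS a.2

/-- The terms of the last phase. -/
def qL (s : Bool) (a : ApIn) : ℚ :=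
  apZ a.2 (tO inv d s 3 a) ^ 2 * (a.1.2 : ℚ) ^ 123320 / (apS a.2 : ℚ) ^ 2 +
    apV a.2 (tO inv d s 3 a) * (a.1.2 : ℚ) ^ 62100 / apS a.2 +
    apIp a.2 (tO inv d s 3 a) (tO inv d s 3 a) * (a.1.2 : ℚ) ^ 123680 / (apS a.2 : ℚ) ^ 2

/-- The potential of the second phase. -/
def qB (a : ApIn) : ℚ :=
  (qT inv d true 1 a + (qT inv d true 2 a + qT inv d true 3 a)) +
    (qT inv d false 1 a + (qT inv d false 2 a + qT inv d false 3 a))

/-- The potential. -/
def qPsi (a : ApIn) : ℚ :=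
  bif decide ((apP d a).S1 < apS a.2) then qB inv d a +
    ((qT inv d true 0 a + qD inv d true a) + (qT inv d false 0 a + qD inv d false a))
  else bif decide ((apP d a).S2 ≤ apS a.2) then qB inv d a
  else qL inv d true a + qL inv d false a

variable {inv}

theorem ap_ct_tM (s : Bool) (j : Fin 4) : CT 0 (tM d s j) :=
  ap_ct_M d CT.id.fst.fst CT.id.snd (ap_ct_E CT.id.fst.fst) (CT.const _)
    (ap_ct_g j CT.id.fst.fst CT.id.fst.snd (ap_ct_S CT.id.snd))

theorem ap_ct_tN (hi : CT 0 inv) (s : Bool) (j : Fin 4) : CT 0 (tN inv d s j) :=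
  ap_ct_N d CT.id.snd (hi.comp (ap_ct_tM d s j)).snd

theorem ap_ct_tO (hi : CT 0 inv) (s : Bool) (j : Fin 4) : CT 0 (tO inv d s j) :=
  ap_ct_O CT.id.snd (ap_ct_tN d hi s j) (ap_ct_m j CT.id.fst.fst CT.id.fst.snd (ap_ct_S CT.id.snd))

theorem ap_ct_r (k : ℕ) : CT 0 fun a : ApIn => (a.1.2 : ℚ) ^ k :=
  ct_qpow k (ct_natCast CT.id.fst.snd)

theorem ap_ct_Sq : CT 0 fun a : ApIn => (apS a.2 : ℚ) := ct_natCast (ap_ct_S CT.id.snd)

theorem ap_ct_qT (hi : CT 0 inv) (s : Bool) (j : Fin 4) : CT 0 (qT inv d s j) :=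
  ct_qadd (ct_qdiv (ct_qpow 2 (ap_ct_Z CT.id.snd (ap_ct_tO d hi s j)))
    (ct_qpow 2 (ap_ct_Lam j CT.id.fst.snd)))
    (ct_qdiv (ap_ct_V CT.id.snd (ap_ct_tO d hi s j)) (ap_ct_r 26800))

theorem ap_ct_qD (hi : CT 0 inv) (s : Bool) : CT 0 (qD inv d s) :=
  ct_qdiv (ct_qmul (ct_qsub (ap_ct_Ip CT.id.snd (ap_ct_tN d hi _ _) (ap_ct_tN d hi _ _))
    (ap_ct_Ip CT.id.snd (ap_ct_tN d hi _ _) (ap_ct_tN d hi _ _))) (ap_ct_r 9720)) ap_ct_Sq

theorem ap_ct_qL (hi : CT 0 inv) (s : Bool) : CT 0 (qL inv d s) :=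
  ct_qadd (ct_qadd
    (ct_qdiv (ct_qmul (ct_qpow 2 (ap_ct_Z CT.id.snd (ap_ct_tO d hi s 3))) (ap_ct_r 123320))
      (ct_qpow 2 ap_ct_Sq))
    (ct_qdiv (ct_qmul (ap_ct_V CT.id.snd (ap_ct_tO d hi s 3)) (ap_ct_r 62100)) ap_ct_Sq))
    (ct_qdiv (ct_qmul (ap_ct_Ip CT.id.snd (ap_ct_tO d hi s 3) (ap_ct_tO d hi s 3))
      (ap_ct_r 123680)) (ct_qpow 2 ap_ct_Sq))

theorem ap_ct_qB (hi : CT 0 inv) : CT 0 (qB inv d) :=
  ct_qadd (ct_qadd (ap_ct_qT d hi _ _) (ct_qadd (ap_ct_qT d hi _ _) (ap_ct_qT d hi _ _)))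
    (ct_qadd (ap_ct_qT d hi _ _) (ct_qadd (ap_ct_qT d hi _ _) (ap_ct_qT d hi _ _)))

theorem ap_ct_qPsi (hi : CT 0 inv) : CT 0 (qPsi inv d) :=
  ((ap_ct_S1 CT.id.fst.snd).decLt (ap_ct_S CT.id.snd)).cond
    (ct_qadd (ap_ct_qB d hi) (ct_qadd (ct_qadd (ap_ct_qT d hi _ _) (ap_ct_qD d hi _))
      (ct_qadd (ap_ct_qT d hi _ _) (ap_ct_qD d hi _))))
    (((ap_ct_S2 CT.id.fst.snd).decLe (ap_ct_S CT.id.snd)).cond (ap_ct_qB d hi)
      (ct_qadd (ap_ct_qL d hi _) (ap_ct_qL d hi _)))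

variable {d} {a : ApIn}

lemma ap_tM (hL : Tab (a.1.1.length * d) a.2) (s : Bool) (j : Fin 4) :
    toMat a.1.1.length (tM d s j a) = (apP d a).Mp s j (toP (a.1.1.length * d) a.2) := by
  rw [tM, ap_M rfl hL, ap_E, ap_g, ap_S hL, Prm.Mp]
  cases s <;> simp [Prm.sg]

lemma ap_len (s : Bool) (j : Fin 4) : (tM d s j a).length = a.1.1.length := length_mtab _ _

variable (hi : ∀ (n : ℕ) (A : List (List ℚ)), A.length = n → (toMat n A).IsSymm →
      ((inv A).1 = true ↔ (toMat n A).PosDef) ∧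
        ((toMat n A).PosDef → toMat n (inv A).2 = (toMat n A)⁻¹))
  (hL : Tab (a.1.1.length * d) a.2) (hp : Function.Involutive (toP (a.1.1.length * d) a.2))
include hi hL hp

lemma ap_inv (s : Bool) (j : Fin 4) :
    ((inv (tM d s j a)).1 = true ↔ ((apP d a).Mp s j (toP (a.1.1.length * d) a.2)).PosDef) ∧
      (((apP d a).Mp s j (toP (a.1.1.length * d) a.2)).PosDef →
        toMat a.1.1.length (inv (tM d s j a)).2 =
          ((apP d a).Mp s j (toP (a.1.1.length * d) a.2))⁻¹) := by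
  have h := hi _ _ (ap_len s j) (by rw [ap_tM hL]; exact Mm_symm hp)
  rwa [ap_tM hL] at h

lemma ap_tN {s : Bool} {j : Fin 4} (h : ((apP d a).Mp s j (toP (a.1.1.length * d) a.2)).PosDef) :
    toMat (a.1.1.length * d) (tN inv d s j a) = (apP d a).Np s j (toP (a.1.1.length * d) a.2) :=
  ap_N hL ((ap_inv hi hL hp s j).2 h)

lemma ap_tO {s : Bool} {j : Fin 4} (h : ((apP d a).Mp s j (toP (a.1.1.length * d) a.2)).PosDef) :
    toMat (a.1.1.length * d) (tO inv d s j a) = (apP d a).Op s j (toP (a.1.1.length * d) a.2) := by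
  rw [tO, ap_O hL, ap_tN hi hL hp h, ap_m, ap_S hL, Prm.Op]

lemma ap_qT {s : Bool} {j : Fin 4} (h : ((apP d a).Mp s j (toP (a.1.1.length * d) a.2)).PosDef) :
    (qT inv d s j a : ℝ) = (apP d a).tZ s j (toP (a.1.1.length * d) a.2) +
      (apP d a).tV s j (toP (a.1.1.length * d) a.2) := by
  simp only [qT, Rat.cast_add, Rat.cast_div, Rat.cast_pow, Rat.cast_natCast, ap_Z hL, ap_V hL,
    ap_Lam, ap_tO hi hL hp h, Prm.tZ, Prm.tV]

lemma ap_qD (h3 : ∀ s, ((apP d a).Mp s 3 (toP (a.1.1.length * d) a.2)).PosDef) {s : Bool}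
    (h2 : ((apP d a).Mp s 2 (toP (a.1.1.length * d) a.2)).PosDef) :
    (qD inv d s a : ℝ) = (apP d a).tD s (toP (a.1.1.length * d) a.2) := by
  simp only [qD, Rat.cast_sub, Rat.cast_mul, Rat.cast_div, Rat.cast_pow, Rat.cast_natCast,
    ap_Ip hL, ap_tN hi hL hp (h3 _), ap_tN hi hL hp h2, ap_S hL, Prm.tD, Prm.Dl]

lemma ap_qL {s : Bool} (h : ((apP d a).Mp s 3 (toP (a.1.1.length * d) a.2)).PosDef) :
    (qL inv d s a : ℝ) = (apP d a).lZ s (toP (a.1.1.length * d) a.2) +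
      (apP d a).lV s (toP (a.1.1.length * d) a.2) +
      (apP d a).lY s (toP (a.1.1.length * d) a.2) := by
  simp only [qL, Rat.cast_add, Rat.cast_mul, Rat.cast_div, Rat.cast_pow, Rat.cast_natCast,
    ap_Z hL, ap_V hL, ap_Ip hL, ap_tO hi hL hp h, ap_S hL, Prm.lZ, Prm.lV, Prm.lY, Yf]

lemma ap_qB (h : ∀ s j, j ≠ 0 → ((apP d a).Mp s j (toP (a.1.1.length * d) a.2)).PosDef) :
    (qB inv d a : ℝ) = (apP d a).PsiB (toP (a.1.1.length * d) a.2) := by
  rw [Prm.PsiB, Fintype.sum_bool, Finset.sum_insert (by decide), Finset.sum_insert (by decide),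
    Finset.sum_singleton, Finset.sum_insert (by decide), Finset.sum_insert (by decide),
    Finset.sum_singleton, qB]
  simp only [Rat.cast_add]
  rw [ap_qT hi hL hp (h _ _ (by decide)), ap_qT hi hL hp (h _ _ (by decide)),
    ap_qT hi hL hp (h _ _ (by decide)), ap_qT hi hL hp (h _ _ (by decide)),
    ap_qT hi hL hp (h _ _ (by decide)), ap_qT hi hL hp (h _ _ (by decide))]

lemma ap_qPsi (hG : (apP d a).Good) (hS : (apP d a).St (toP (a.1.1.length * d) a.2)) :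
    (qPsi inv d a : ℝ) = (apP d a).Psi (toP (a.1.1.length * d) a.2) := by
  have h0 := Prm.card_free_le (P := apP d a) (toP (a.1.1.length * d) a.2)
  rw [qPsi, Prm.Psi, ap_S hL, Bool.cond_eq_ite, Bool.cond_eq_ite]
  simp only [decide_eq_true_eq]
  split_ifs with h1 h2
  · have a0 : (apP d a).Act 0 (free (toP (a.1.1.length * d) a.2)).card :=
      ⟨h0, by rw [if_pos rfl]; omega⟩
    have h : ∀ s j, ((apP d a).Mp s j (toP (a.1.1.length * d) a.2)).PosDef := fun s j =>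
      hS.pd_j hG (a0.two hG) s
    rw [Prm.PsiA, Fintype.sum_bool]
    simp only [Rat.cast_add]
    rw [ap_qB hi hL hp fun s j _ => h s j, ap_qT hi hL hp (h _ _), ap_qT hi hL hp (h _ _),
      ap_qD hi hL hp hS.pd (h _ _), ap_qD hi hL hp hS.pd (h _ _)]
  · refine ap_qB hi hL hp fun s j hj => ?_
    by_cases h3 : j = 3
    · rw [h3]; exact hS.pd s
    · exact hS.pd_j hG ⟨h0, by rw [if_neg hj, if_neg h3]; omega⟩ s
  · rw [Prm.PsiC, Fintype.sum_bool, Rat.cast_add, ap_qL hi hL hp (hS.pd _),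
      ap_qL hi hL hp (hS.pd _)]

end Pot

/-- The input is the order `n` in unary, the scale `r` in binary and the table of the state.
Define rational list versions of `Mp`, `Np`, `Op` with `mtab`, `lsum`, `mget`
(entries: `Mp s j p u w = E [u = w] + 1 - ∑ k l, [vx k = u] [vx l = w] (s (mat + avgU) + g proj) k l`,
`Np k l = G k l - (row mean) - (column mean) + (total mean)` over the free set for
`G k l = M⁻¹ (vx k) (vx l)`, see `fr_proj_mul_apply`, `fr_mul_proj_apply`), the inverse from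
`exists_pdInv` (`Mm_symm`; `St.pd_j` gives positivity at the points used by `Psi` in each phase),
and the schedule `P.g j S : ℚ` etc., which casts to the real schedule (`push_cast`; the definitions
are polymorphic in the field). The number of free half-edges is `countP` on the table. -/
theorem exists_eval (d : ℕ) : ∃ f : (List Bool × ℕ) × List ℕ → Bool × ℚ, CT 0 f ∧
    ∀ (u : List Bool) (r : ℕ) (L : List ℕ), Prm.Good ⟨u.length, d, r⟩ → Tab (u.length * d) L →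
      Function.Involutive (toP (u.length * d) L) →
      ((f ((u, r), L)).1 = true ↔ Prm.PD ⟨u.length, d, r⟩ (toP (u.length * d) L)) ∧
        (Prm.St ⟨u.length, d, r⟩ (toP (u.length * d) L) →
          ((f ((u, r), L)).2 : ℝ) = Prm.Psi ⟨u.length, d, r⟩ (toP (u.length * d) L)) := by
  obtain ⟨inv, hc, hi⟩ := exists_pdInv
  refine ⟨fun a => ((inv (tM d true 3 a)).1 && (inv (tM d false 3 a)).1, qPsi inv d a),
    ((hc.comp (ap_ct_tM d true 3)).fst.and (hc.comp (ap_ct_tM d false 3)).fst).mk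
      (ap_ct_qPsi d hc), fun u r L hG hL hp => ⟨?_, fun hS => ?_⟩⟩
  · rw [Bool.and_eq_true, (ap_inv (a := ((u, r), L)) hi hL hp true 3).1,
      (ap_inv (a := ((u, r), L)) hi hL hp false 3).1]
    exact ⟨fun h s => by cases s; exacts [h.2, h.1], fun h => ⟨h true, h false⟩⟩
  · exact ap_qPsi (a := ((u, r), L)) hi hL hp hG hS

end Vale.Agent.P049
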