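import Vale.Agent.P049.Main
import Vale.Agent.P049.AlgPsi

/-!
The algorithm: the scale, the greedy loop, the completion and the output.
-/

namespace Vale.Agent.P049

open Vale.Agent.Lib.TM

variable {α : Type} [Enc α] {e : ℕ}

/-- The integer root, by counting. -/
def rootL (k n : ℕ) : ℕ := (List.range n).countP fun i => decide ((i + 1) ^ k ≤ n)

lemma rootL_spec {k : ℕ} (hk : k ≠ 0) (n : ℕ) : rootL k n ^ k ≤ n ∧ n < (rootL k n + 1) ^ k := by
  have h3 : ∀ m, (List.range m).countP (fun i => decide ((i + 1) ^ k ≤ n)) =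
      min m (Nat.nthRoot k n) := by
    intro m
    induction m with
    | zero => simp
    | succ m ih =>
      rw [List.range_succ, List.countP_append, ih]
      have := Nat.le_nthRoot_iff (a := m + 1) (b := n) hk
      by_cases h : (m + 1) ^ k ≤ n
      · have := this.mpr h
        simp [h]; omega
      · have h' : ¬ m + 1 ≤ Nat.nthRoot k n := fun h' => h (this.mp h')
        simp [h]; omega
  have h4 := Nat.pow_nthRoot_le (n := k) (a := n) (Or.inl hk)
  have h5 : Nat.nthRoot k n ≤ n := le_trans (Nat.le_self_pow hk _) h4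
  rw [rootL, h3, min_eq_right h5]
  exact ⟨h4, Nat.lt_pow_nthRoot_add_one hk n⟩

lemma succ_pow_le {k r : ℕ} (h : 2 * k + 2 ≤ r) : (r + 1) ^ k ≤ r ^ (k + 1) := by
  have h1 : ∀ j ≤ k, (r + 1) ^ j * (r - j) ≤ r ^ (j + 1) := by
    intro j
    induction j with
    | zero => simp
    | succ j ih =>
      intro hj
      have h2 := ih (by omega)
      obtain ⟨t, ht⟩ : ∃ t, r = t + (j + 1) := ⟨r - (j + 1), by omega⟩
      have e1 : r - (j + 1) = t := by omega
      have e2 : r - j = t + 1 := by omega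
      rw [e1]
      rw [e2] at h2
      have h3 : (r + 1) * t ≤ r * (t + 1) := by nlinarith
      calc (r + 1) ^ (j + 1) * t = (r + 1) ^ j * ((r + 1) * t) := by ring
        _ ≤ (r + 1) ^ j * (r * (t + 1)) := Nat.mul_le_mul_left _ h3
        _ = r * ((r + 1) ^ j * (t + 1)) := by ring
        _ ≤ r * r ^ (j + 1) := Nat.mul_le_mul_left _ h2
        _ = r ^ (j + 1 + 1) := by ring
  exact le_trans (Nat.le_mul_of_pos_right _ (by omega)) (h1 k le_rfl)

lemma root_good {k B n : ℕ} (hk : k ≠ 0) (hB : 2 * k + 2 ≤ B) (hn : B ^ k ≤ n) :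
    B ≤ rootL k n ∧ rootL k n ^ k ≤ n ∧ n ≤ rootL k n ^ (k + 1) := by
  obtain ⟨h1, h2⟩ := rootL_spec hk n
  have h3 : B ≤ rootL k n := by
    have := lt_of_pow_lt_pow_left₀ k (Nat.zero_le _) (hn.trans_lt h2)
    omega
  exact ⟨h3, h1, h2.le.trans (succ_pow_le (hB.trans h3))⟩

theorem ct_rootL (k : ℕ) {β : Type} [Enc β] {l : α → List β} (hl : CT e l) :
    CT e fun a => rootL k (l a).length := by
  have h1 : CT e fun p : α × ℕ => (p.2 + 1) ^ k :=
    CT.pow (by fun_prop) (CT.const k) (Bd.const k)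
  exact CT.countP (f := fun a i => decide ((i + 1) ^ k ≤ (l a).length))
    (h1.decLe (by fun_prop)) hl.range_length

theorem exists_root {d : ℕ} (hd : 3 ≤ d) : ∃ f : List Bool → ℕ, CT 0 f ∧
    ∃ n₀, ∀ u, n₀ ≤ u.length → Prm.Good ⟨u.length, d, f u⟩ := by
  obtain ⟨k, hk⟩ : ∃ k : ℕ, k = 180000 := ⟨_, rfl⟩
  refine ⟨fun u => rootL k u.length, ct_rootL k CT.id, (10 ^ 9 * d ^ 4) ^ k, fun u hu => ?_⟩
  have h4 : 1 ≤ d ^ 4 := Nat.one_le_pow _ _ (by omega)
  obtain ⟨h1, h2, h3⟩ := root_good (k := k) (by omega) (by omega) hu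
  refine ⟨hd, h1, hk ▸ h2, ?_⟩
  have e1 : 180001 = k + 1 := by omega
  rw [e1]
  exact h3

/-- The number of free half-edges of a table. -/
def freeL (L : List ℕ) : ℕ := (List.range L.length).countP fun k => L.getD k 0 == k

lemma Tab.freeL_eq {N : ℕ} {L : List ℕ} (hL : Tab N L) : freeL L = (free (toP N L)).card := by
  have h1 : (free (toP N L)).map Fin.valEmbedding =
      (Finset.range N).filter fun k => L.getD k 0 = k := by
    ext k
    simp only [free, Finset.mem_map, Finset.mem_filter, Finset.mem_univ, true_and,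
      Finset.mem_range, Fin.valEmbedding_apply, Fin.ext_iff, hL.toP_val]
    exact ⟨fun ⟨a, h, e⟩ => e ▸ ⟨a.2, h⟩, fun h => ⟨⟨k, h.1⟩, h.2, rfl⟩⟩
  rw [← Finset.card_map Fin.valEmbedding, h1, freeL, hL.1, List.countP_eq_length_filter]
  rfl

/-- All allowed moves. -/
def movesL (d : ℕ) (L : List ℕ) : List (List ℕ) :=
  (List.range L.length).flatMap fun h =>
    ((List.range L.length).filter fun h' => allowedL d L h h').map fun h' => addL L h h'

lemma Tab.mem_movesL {n d : ℕ} {L M : List ℕ} (hL : Tab (n * d) L) : M ∈ movesL d L ↔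
    ∃ h h' : Fin (n * d), Allowed (vxf n d) (toP (n * d) L) h h' ∧ M = P049.addL L h h' := by
  simp only [movesL, List.mem_flatMap, List.mem_map, List.mem_filter, List.mem_range, hL.1]
  constructor
  · rintro ⟨h, hh, h', ⟨hh', ha⟩, rfl⟩
    exact ⟨⟨h, hh⟩, ⟨h', hh'⟩, (hL.allowedL_iff ⟨h, hh⟩ ⟨h', hh'⟩).1 ha, rfl⟩
  · rintro ⟨h, h', ha, rfl⟩
    exact ⟨h, h.2, h', ⟨h'.2, (hL.allowedL_iff h h').2 ha⟩, rfl⟩

/-- A minimizer of the second component in a list, with a default. -/
def argmin {β : Type} (v : β → ℚ) (c : List β) (x : β) : β :=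
  (c.filter fun M => c.all fun M' => decide (v M ≤ v M')).headD x

lemma argmin_cases {β : Type} (v : β → ℚ) (c : List β) (x : β) :
    argmin v c x = x ∨ argmin v c x ∈ c := by
  unfold argmin
  rcases h : c.filter fun M => c.all fun M' => decide (v M ≤ v M') with _ | ⟨y, l⟩
  · exact Or.inl rfl
  · exact Or.inr (List.mem_of_mem_filter (h ▸ List.mem_cons_self))

lemma argmin_spec {β : Type} (v : β → ℚ) {c : List β} (x : β) {y : β} (hy : y ∈ c) :
    argmin v c x ∈ c ∧ v (argmin v c x) ≤ v y := by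
  classical
  obtain ⟨z, hz, hm⟩ := c.toFinset.exists_min_image v ⟨y, List.mem_toFinset.2 hy⟩
  have h1 : z ∈ c.filter fun M => c.all fun M' => decide (v M ≤ v M') := by
    simpa using ⟨List.mem_toFinset.1 hz, fun w hw => hm w (List.mem_toFinset.2 hw)⟩
  unfold argmin
  rcases h : c.filter fun M => c.all fun M' => decide (v M ≤ v M') with _ | ⟨w, l⟩
  · simp [h] at h1
  · have h2 : w ∈ c.filter fun M => c.all fun M' => decide (v M ≤ v M') := h ▸ List.mem_cons_self
    simp only [List.mem_filter, List.all_eq_true, decide_eq_true_eq] at h2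
    exact ⟨h2.1, h2.2 y hy⟩

/-- One step of the loop. -/
def loopStep (d T : ℕ) (ev : List ℕ → Bool × ℚ) (L : List ℕ) : List ℕ :=
  bif Nat.blt T (freeL L) then
    argmin (fun M => (ev M).2) ((movesL d L).filter fun M => (ev M).1) L else L

lemma Tab.loopStep {n d : ℕ} {L : List ℕ} (hL : Tab (n * d) L) (T : ℕ) (ev : List ℕ → Bool × ℚ) :
    Tab (n * d) (loopStep d T ev L) := by
  unfold P049.loopStep
  cases Nat.blt T (freeL L)
  · exact hL
  · rcases argmin_cases (fun M => (ev M).2) ((movesL d L).filter fun M => (ev M).1) L with h | h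
    · exact h.symm ▸ hL
    · obtain ⟨a, b, -, h2⟩ := hL.mem_movesL.1 (List.mem_of_mem_filter h)
      exact h2.symm ▸ hL.addL a b

lemma tab_range (N : ℕ) : Tab N (List.range N) := ⟨by simp, by simp⟩

lemma toP_range (N : ℕ) : toP N (List.range N) = id := by
  funext k
  refine Fin.ext ?_
  rw [(tab_range N).toP_val]
  simp [List.getD_eq_getElem?_getD]

theorem ct_loopStep (d : ℕ) {T : α → ℕ} {ev : α → List ℕ → Bool × ℚ} {L : α → List ℕ}
    (hT : CT e T) (hev : CT e fun p : α × List ℕ => ev p.1 p.2) (hL : CT e L) :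
    CT e fun a => loopStep d (T a) (ev a) (L a) := by
  have h1 : CT e fun a => freeL (L a) := by
    unfold freeL
    fun_prop
  have h2 : CT e fun a => movesL d (L a) := by
    unfold movesL
    fun_prop
  have h3 : CT e fun a => (movesL d (L a)).filter fun M => (ev a M).1 :=
    CT.filter (f := fun a M => (ev a M).1) hev.fst h2
  have h4 : CT e fun p : (α × List ℕ) × List ℕ => decide ((ev p.1.1 p.1.2).2 ≤ (ev p.1.1 p.2).2) :=
    ct_qle (hev.comp (g := fun p : (α × List ℕ) × List ℕ => p.1) (by fun_prop)).snd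
      (hev.comp (g := fun p : (α × List ℕ) × List ℕ => (p.1.1, p.2)) (by fun_prop)).snd
  have h5 : CT e fun p : α × List ℕ => ((movesL d (L p.1)).filter fun M => (ev p.1 M).1).all
      fun M' => decide ((ev p.1 p.2).2 ≤ (ev p.1 M').2) :=
    CT.all (f := fun (p : α × List ℕ) M' => decide ((ev p.1 p.2).2 ≤ (ev p.1 M').2)) h4
      (h3.comp (g := fun p : α × List ℕ => p.1) (by fun_prop))
  exact (hT.blt h1).cond ((CT.filter (f := fun a M => ((movesL d (L a)).filter
    fun M => (ev a M).1).all fun M' => decide ((ev a M).2 ≤ (ev a M').2)) h5 h3).headD hL) hL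

/-- The invariant after `k` steps. -/
def LoopInv (P : Prm) (k : ℕ) (L : List ℕ) : Prop :=
  Tab (P.n * P.d) L ∧ P.Run (toP _ L) ∧
    (free (toP (P.n * P.d) L)).card % 2 = P.S0 % 2 ∧ P.S4 ≤ (free (toP (P.n * P.d) L)).card + 1 ∧
      ((free (toP (P.n * P.d) L)).card ≤ P.S4 ∨ (free (toP (P.n * P.d) L)).card + k ≤ P.S0)

lemma LoopInv.step {P : Prm} (hG : P.Good) {ev : List ℕ → Bool × ℚ}
    (hev : ∀ L, Tab (P.n * P.d) L → Function.Involutive (toP (P.n * P.d) L) →
      ((ev L).1 = true ↔ P.PD (toP _ L)) ∧ (P.St (toP _ L) → ((ev L).2 : ℝ) = P.Psi (toP _ L)))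
    {k : ℕ} {L : List ℕ} (h : LoopInv P k L) : LoopInv P (k + 1) (loopStep P.d P.S4 ev L) := by
  obtain ⟨hL, hR, h2, h3, h4⟩ := h
  unfold loopStep
  rw [hL.freeL_eq]
  by_cases hS : P.S4 < (free (toP (P.n * P.d) L)).card
  · rw [show Nat.blt P.S4 (free (toP (P.n * P.d) L)).card = true by simpa using hS, cond_true]
    obtain ⟨a, b, ha, hd, hP⟩ := hR.step hG hS
    have key : ∀ a b : P.HE, Allowed (vxf P.n P.d) (toP _ L) a b →
        (((ev (addL L a b)).1 = true ↔ P.PD (add (toP _ L) a b)) ∧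
          (P.PD (add (toP _ L) a b) → ((ev (addL L a b)).2 : ℝ) = P.Psi (add (toP _ L) a b))) := by
      intro a b ha
      have h5 := hev _ (hL.addL a b) (by
        rw [hL.toP_addL]; exact add_invol hR.1.inv ha.1 ha.2.1)
      rw [hL.toP_addL] at h5
      exact ⟨h5.1, fun hd => h5.2 (hR.1.next ha hd)⟩
    have hm : addL L a b ∈ (movesL P.d L).filter fun M => (ev M).1 :=
      List.mem_filter.2 ⟨hL.mem_movesL.2 ⟨a, b, ha, rfl⟩, (key a b ha).1.2 hd⟩
    obtain ⟨k1, k2⟩ := argmin_spec (fun M => (ev M).2) L hm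
    generalize argmin (fun M => (ev M).2) ((movesL P.d L).filter fun M => (ev M).1) L = M at k1 k2
    obtain ⟨k3, k4⟩ := List.mem_filter.1 k1
    obtain ⟨a', b', ha', rfl⟩ := hL.mem_movesL.1 k3
    have hd' := (key a' b' ha').1.1 k4
    obtain ⟨-, c1, c2⟩ := Prm.card_add (P := P) ha'
    have k5 : ((ev (addL L a' b')).2 : ℝ) ≤ (ev (addL L a b)).2 := by exact_mod_cast k2
    rw [(key a' b' ha').2 hd', (key a b ha).2 hd] at k5
    refine ⟨hL.addL a' b', ?_⟩
    rw [hL.toP_addL]
    refine ⟨⟨hR.1.next ha' hd', ?_⟩, ?_⟩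
    · rw [c1]
      exact k5.trans hP
    · rw [c1]
      omega
  · rw [show Nat.blt P.S4 (free (toP (P.n * P.d) L)).card = false by
      rw [← Bool.not_eq_true, Nat.blt_eq]; exact hS, cond_false]
    exact ⟨hL, hR, h2, h3, Or.inl (by omega)⟩

lemma LoopInv.fold {P : Prm} (hG : P.Good) {ev : List ℕ → Bool × ℚ}
    (hev : ∀ L, Tab (P.n * P.d) L → Function.Involutive (toP (P.n * P.d) L) →
      ((ev L).1 = true ↔ P.PD (toP _ L)) ∧ (P.St (toP _ L) → ((ev L).2 : ℝ) = P.Psi (toP _ L)))
    (c : List ℕ) : ∀ (j : ℕ) (L : List ℕ), LoopInv P j L →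
      LoopInv P (j + c.length) (c.foldl (fun L _ => loopStep P.d P.S4 ev L) L) := by
  induction c with
  | nil => exact fun j L h => h
  | cons x c ih =>
    intro j L h
    have h2 := ih _ _ (h.step hG hev)
    rw [List.length_cons, ← add_assoc, add_right_comm]
    exact h2

lemma loopInv_zero {P : Prm} (hG : P.Good) : LoopInv P 0 (List.range (P.n * P.d)) := by
  have h1 := hG.sizes
  refine ⟨tab_range _, ?_⟩
  rw [toP_range]
  refine ⟨hG.run_id, ?_⟩
  rw [P.card_free_id]
  omega

/-- The main loop. -/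
def loopL (N d T : ℕ) (ev : List ℕ → Bool × ℚ) : List ℕ :=
  (List.range N).foldl (fun L _ => loopStep d T ev L) (List.range N)

theorem ct_loopL (d : ℕ) {N T : α → ℕ} {ev : α → List ℕ → Bool × ℚ} (hN : CT e N) (hB : Bd 0 N)
    (hT : CT e T) (hev : CT e fun p : α × List ℕ => ev p.1 p.2) :
    CT e fun a => loopL (N a * d) d (T a) (ev a) := by
  have hN' : Bd 0 fun a => N a * d := hB.mul (Bd.const d)
  have hl : CT e fun a => List.range (N a * d) := CT.range (by fun_prop) hN'
  exact CT.foldl_inv (g := fun a L _ => loopStep d (T a) (ev a) L)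
    (ct_loopStep d (ev := fun (p : α × List ℕ × ℕ) M => ev p.1 M)
      (hT.comp (g := fun p : α × List ℕ × ℕ => p.1) (by fun_prop))
      (hev.comp (g := fun p : (α × List ℕ × ℕ) × List ℕ => (p.1.1, p.2)) (by fun_prop))
      (by fun_prop)) hl hl
    ((hN'.mul (((Bd.const 6).mul hN').add (Bd.const 2))).add (Bd.const 1))
    (fun a s _ => Tab (N a * d) s) (fun a => tab_range _)
    (fun a s _ _ h => h.loopStep _ _) (fun a s _ h => h.sz_le)

theorem exists_loop (d : ℕ) : ∃ f : List Bool × ℕ → List ℕ, CT 0 f ∧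
    ∀ (u : List Bool) (r : ℕ), Prm.Good ⟨u.length, d, r⟩ →
      LoopInv ⟨u.length, d, r⟩ (u.length * d) (f (u, r)) := by
  obtain ⟨ev, hc, hev⟩ := exists_eval d
  have hT : ∀ k : ℕ, CT 0 fun p : List Bool × ℕ => p.2 ^ k := fun k =>
    CT.pow (by fun_prop) (CT.const k) (Bd.const k)
  have hT' : CT 0 fun p : List Bool × ℕ => Prm.S4 ⟨p.1.length, d, p.2⟩ := by
    unfold Prm.S4
    exact hT _
  refine ⟨fun a => loopL (a.1.length * d) d (Prm.S4 ⟨a.1.length, d, a.2⟩) fun M => ev (a, M),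
    ct_loopL d (ev := fun a M => ev (a, M)) (by fun_prop)
      (CT.bd_length (e := 0) (l := fun a : List Bool × ℕ => a.1) (by fun_prop)) hT' hc,
    fun u r hG => ?_⟩
  have h1 := LoopInv.fold hG (ev := fun M => ev ((u, r), M)) (hev u r · hG)
    (List.range (u.length * d)) 0 _ (loopInv_zero hG)
  rw [List.length_range, zero_add] at h1
  exact h1

theorem LoopInv.fin {P : Prm} (hG : P.Good) (he : Even (P.d * P.n)) {L : List ℕ}
    (h : LoopInv P (P.n * P.d) L) : Even (free (toP (P.n * P.d) L)).card ∧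
      10 * P.d ^ 2 ≤ (free (toP (P.n * P.d) L)).card ∧
      (free (toP (P.n * P.d) L)).card ≤ P.S4 := by
  obtain ⟨-, -, k3, k4, k5⟩ := h
  have hs := hG.sizes
  rw [mul_comm, Nat.even_iff] at he
  rw [Nat.even_iff]
  unfold Prm.S0 at *
  omega

/-- The adjacency table of a table of half-edges. -/
def outL (n d : ℕ) (L : List ℕ) : List (List Bool) :=
  (List.range n).map fun u => (List.range n).map fun w =>
    (List.range L.length).any fun h => (h / d == u) && (L.getD h 0 / d == w)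

lemma Tab.outL_eq {n d : ℕ} {L : List ℕ} (hL : Tab (n * d) L)
    (hi : Function.Involutive (toP (n * d) L)) (hf : ∀ k, toP (n * d) L k ≠ k)
    (hs : Simple (vxf n d) (toP (n * d) L)) [DecidableRel (graphOf (vxf n d) (toP (n * d) L)).Adj] :
    outL n d L = adjTable (graphOf (vxf n d) (toP (n * d) L)) := by
  refine List.ext_getElem (by simp [outL, adjTable]) fun u h1 h2 => ?_
  refine List.ext_getElem (by simp [outL, adjTable]) fun w h3 h4 => ?_
  simp only [outL, adjTable, List.getElem_map, List.getElem_range, List.getElem_ofFn]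
  rw [Bool.eq_iff_iff, decide_eq_true_iff, graphOf_adj hi hf hs]
  simp only [List.any_eq_true, List.mem_range, Bool.and_eq_true, beq_iff_eq, hL.1, Fin.ext_iff,
    vxf, Fin.coe_divNat, hL.toP_val]
  exact ⟨fun ⟨x, hx, h⟩ => ⟨⟨x, hx⟩, h⟩, fun ⟨x, h⟩ => ⟨x, x.2, h⟩⟩

theorem exists_alg {d : ℕ} (hd : 3 ≤ d) : ∃ f : List Bool → List (List Bool), CT 0 f ∧
    ∃ n₀, ∀ u : List Bool, n₀ ≤ u.length → Even (d * u.length) →
      ∃ (G : SimpleGraph (Fin u.length)) (_ : DecidableRel G.Adj),
        f u = adjTable G ∧ IsRamanujan d G := by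
  classical
  obtain ⟨rt, c1, n₀, h1⟩ := exists_root hd
  obtain ⟨lp, c2, h2⟩ := exists_loop d
  obtain ⟨cp, c3, h3⟩ := exists_complete d (by omega)
  have c4 : CT 0 fun u : List Bool => cp (lp (u, rt u)) := c3.comp (c2.comp (CT.id.mk c1))
  refine ⟨fun u => outL u.length d (cp (lp (u, rt u))), ?_, n₀, fun u hu he => ?_⟩
  · unfold outL
    fun_prop
  · have hG := h1 u hu
    have k0 := h2 u _ hG
    obtain ⟨l1, l2, l3⟩ := k0.fin hG he
    obtain ⟨k1, k2, -, k4, -⟩ := k0
    obtain ⟨m1, m2, m3, m4, m5⟩ := h3 u.length _ k1 k2.1.inv k2.1.simple l1 l2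
    exact ⟨_, inferInstance, m1.outL_eq m2 m4 m3, k2.finish hG l3 k4 m2 m3 m4 m5⟩

lemma code_bool (b : Bool) : (enc b).code = codeBool b := by cases b <;> rfl

lemma code_list {β : Type} [Enc β] (l : List β) (f : β → List Bool)
    (h : ∀ x, (enc x).code = f x) : (enc l).code = codeList f l := by
  induction l with
  | nil => rfl
  | cons x l ih => simp [enc_cons, Tr.code, codeList, h, ih]

theorem construction {d : ℕ} (hd : 3 ≤ d) : ∃ (out : ℕ → List (List Bool))
    (M : Turing.TM2ComputableInPolyTime codeUnary (codeList (codeList codeBool)) out),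
    (∀ k, Finite (M.tm.Γ k)) ∧ ∃ n₀, ∀ n ≥ n₀, Even (d * n) →
      ∃ (G : SimpleGraph (Fin n)) (_ : DecidableRel G.Adj),
        out n = adjTable G ∧ IsRamanujan d G := by
  obtain ⟨f, hc, n₀, h⟩ := exists_alg hd
  obtain ⟨M, hM⟩ := hc.polyTime
  refine ⟨fun n => f (List.replicate n true),
    { toTM2ComputableAux := M.toTM2ComputableAux
      time := M.time
      outputsFun := fun n => ?_ }, hM, n₀, fun n hn he => ?_⟩
  · have := M.outputsFun (List.replicate n true)
    rwa [code_list _ _ code_bool, code_list _ _ fun x => code_list x _ code_bool] at this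
  · have := h (List.replicate n true) (by simpa using hn) (by simpa using he)
    rwa [List.length_replicate] at this

end Vale.Agent.P049
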