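import Vale.Agent.P049.Fro

/-!
Averaging lemmas and pointwise bounds on good pairs.
-/

namespace Vale.Agent.P049

open Matrix Finset

variable {H : Type} [Fintype H] [DecidableEq H] {c : Ctx H}

lemma Ctx.avg_add (f g : H → H → ℝ) :
    (c.avg fun h h' => f h h' + g h h') = c.avg f + c.avg g := by
  simp only [Ctx.avg, mul_add, sum_add_distrib]

lemma Ctx.avg_sub (f g : H → H → ℝ) :
    (c.avg fun h h' => f h h' - g h h') = c.avg f - c.avg g := by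
  simp only [Ctx.avg, mul_sub, sum_sub_distrib]

lemma Ctx.avg_mul (r : ℝ) (f : H → H → ℝ) : (c.avg fun h h' => r * f h h') = r * c.avg f := by
  simp only [Ctx.avg, mul_sum]
  exact sum_congr rfl fun p _ => by ring

lemma Ctx.avg_const (r : ℝ) : (c.avg fun _ _ => r) = c.N * r := by
  simp only [Ctx.N, Ctx.avg, sum_mul, mul_one]

lemma Ctx.avg_sum {ι : Type} (s : Finset ι) (f : ι → H → H → ℝ) :
    (c.avg fun h h' => ∑ i ∈ s, f i h h') = ∑ i ∈ s, c.avg (f i) := by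
  simp only [Ctx.avg, mul_sum]
  exact sum_comm

lemma Ctx.avg_congr {f g : H → H → ℝ} (h : ∀ p ∈ c.Pr, f p.1 p.2 = g p.1 p.2) :
    c.avg f = c.avg g := by
  exact sum_congr rfl fun p hp => by rw [h p hp]

lemma Ctx.Ok.av_wt_pos (hc : c.Ok) (k l : H) : 0 < 1 - c.F k l := by
  have := (abs_le.1 (hc.F_le k l)).2
  linarith

lemma Ctx.Ok.av_wt_le (hc : c.Ok) (k l : H) : 1 - c.F k l ≤ 1001 / 1000 := by
  have := (abs_le.1 (hc.F_le k l)).1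
  linarith

lemma Ctx.Ok.avg_mono (hc : c.Ok) {f g : H → H → ℝ} (h : ∀ p ∈ c.Pr, f p.1 p.2 ≤ g p.1 p.2) :
    c.avg f ≤ c.avg g := by
  exact sum_le_sum fun p hp => mul_le_mul_of_nonneg_left (h p hp) (hc.av_wt_pos _ _).le

lemma Ctx.Ok.abs_avg_le (hc : c.Ok) {f g : H → H → ℝ}
    (h : ∀ p ∈ c.Pr, |f p.1 p.2| ≤ g p.1 p.2) : |c.avg f| ≤ c.avg g := by
  refine (abs_sum_le_sum_abs _ _).trans (sum_le_sum fun p hp => ?_)
  rw [abs_mul, abs_of_pos (hc.av_wt_pos _ _)]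
  exact mul_le_mul_of_nonneg_left (h p hp) (hc.av_wt_pos _ _).le

lemma Ctx.Ok.avg_swap (hc : c.Ok) (f : H → H → ℝ) : (c.avg fun h h' => f h' h) = c.avg f := by
  refine sum_nbij' Prod.swap Prod.swap (fun p hp => hc.Pr_symm p.1 p.2 hp)
    (fun p hp => hc.Pr_symm p.1 p.2 hp) (fun p _ => rfl) (fun p _ => rfl) fun p _ => ?_
  rw [hc.F_symm p.1 p.2]
  rfl

lemma Ctx.Ok.card_ge (hc : c.Ok) : 100 ≤ c.U.card := by
  have h1 := hc.num.σ_ge
  have h2 : (100 : ℝ) ≤ c.U.card := by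
    rw [hc.card]
    nlinarith
  exact_mod_cast h2

lemma av_le_of_sq {x y : ℝ} (h : x ^ 2 ≤ y ^ 2) (hy : 0 ≤ y) : x ≤ y :=
  (abs_le_of_sq_le_sq' h hy).2

lemma Ctx.Ok.av_Pr_sub (hc : c.Ok) : c.Pr ⊆ c.U ×ˢ c.U := fun p hp =>
  mem_product.2 ⟨(hc.Pr_sub p hp).1, (hc.Pr_sub p hp).2.1⟩

lemma Ctx.Ok.dd_le (hc : c.Ok) {h : H} (hh : h ∈ c.U) : c.dd h ≤ c.v := by
  refine av_le_of_sq ?_ hc.num.v_nn
  exact (single_le_sum (f := fun k => c.dd k ^ 2) (fun k _ => sq_nonneg _) hh).trans hc.dd_sq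

/-- Nonnegative functions. -/
lemma Ctx.Ok.avg_le (hc : c.Ok) {f : H → H → ℝ} (h : ∀ k ∈ c.U, ∀ l ∈ c.U, 0 ≤ f k l) :
    c.avg f ≤ 1001 / 1000 * ∑ k ∈ c.U, ∑ l ∈ c.U, f k l := by
  rw [← sum_product', mul_sum]
  have h' : ∀ p ∈ c.U ×ˢ c.U, 0 ≤ f p.1 p.2 := fun p hp =>
    h _ (mem_product.1 hp).1 _ (mem_product.1 hp).2
  refine le_trans (sum_le_sum fun p hp => ?_)
    (sum_le_sum_of_subset_of_nonneg hc.av_Pr_sub fun p hp _ => mul_nonneg (by norm_num) (h' p hp))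
  exact mul_le_mul_of_nonneg_right (hc.av_wt_le _ _) (h' p (hc.av_Pr_sub hp))

lemma Ctx.Ok.N_le (hc : c.Ok) : c.N ≤ 1001 / 1000 * c.σ ^ 4 := by
  have := hc.avg_le (f := fun _ _ => 1) fun _ _ _ _ => zero_le_one
  simp only [sum_const, nsmul_eq_mul, mul_one, hc.card] at this
  refine this.trans (le_of_eq ?_)
  ring

lemma Ctx.Ok.N_nonneg (hc : c.Ok) : 0 ≤ c.N := by
  exact sum_nonneg fun p _ => mul_nonneg (hc.av_wt_pos _ _).le zero_le_one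

/-- Cauchy-Schwarz for the average. -/
lemma Ctx.Ok.avg_le_of_sq (hc : c.Ok) {f : H → H → ℝ} {x : ℝ} (hx : 0 ≤ x)
    (h : (c.avg fun h h' => f h h' ^ 2) ≤ x ^ 2) : (c.avg fun h h' => |f h h'|) ≤ 2 * c.σ ^ 2 * x := by
  have h1 : (c.avg fun h h' => |f h h'|) ^ 2 ≤ c.N * c.avg fun h h' => f h h' ^ 2 := by
    refine Finset.sum_sq_le_sum_mul_sum_of_sq_eq_mul _
      (fun p _ => mul_nonneg (hc.av_wt_pos _ _).le zero_le_one)
      (fun p _ => mul_nonneg (hc.av_wt_pos _ _).le (sq_nonneg _)) fun p _ => ?_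
    rw [mul_pow, sq_abs]
    ring
  refine av_le_of_sq (h1.trans ?_) (by positivity)
  have h2 : 0 ≤ c.σ ^ 4 * x ^ 2 := by positivity
  calc c.N * (c.avg fun h h' => f h h' ^ 2) ≤ c.N * x ^ 2 :=
        mul_le_mul_of_nonneg_left h hc.N_nonneg
    _ ≤ 1001 / 1000 * c.σ ^ 4 * x ^ 2 := mul_le_mul_of_nonneg_right hc.N_le (sq_nonneg _)
    _ ≤ (2 * c.σ ^ 2 * x) ^ 2 := by nlinarith

lemma Ctx.Ok.av_avg_eq (hc : c.Ok) (f : H → H → ℝ) :
    c.avg f = ∑ k ∈ c.U, ∑ l ∈ c.U, (1 - c.beta k l) * f k l := by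
  rw [← sum_product' (f := fun k l => (1 - c.beta k l) * f k l),
    ← sum_subset hc.av_Pr_sub fun p _ hp => by simp [Ctx.beta, hp]]
  exact sum_congr rfl fun p hp => by simp [Ctx.beta, hp]

omit [Fintype H] [DecidableEq H] in
lemma av_abs_sum_le {ι : Type} (s : Finset ι) {f g : ι → ℝ} {x y : ℝ} (hx : 0 ≤ x) (hy : 0 ≤ y)
    (hf : ∑ i ∈ s, f i ^ 2 ≤ x ^ 2) (hg : ∑ i ∈ s, g i ^ 2 ≤ y ^ 2) :
    |∑ i ∈ s, f i * g i| ≤ x * y := by
  refine abs_le.2 (abs_le_of_sq_le_sq' ?_ (mul_nonneg hx hy))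
  refine (Finset.sum_mul_sq_le_sq_mul_sq s f g).trans ?_
  rw [mul_pow]
  exact mul_le_mul hf hg (sum_nonneg fun _ _ => sq_nonneg _) (sq_nonneg _)

lemma Ctx.Ok.av_Θr_nn (hc : c.Ok) : 0 ≤ c.Θr := le_trans zero_le_one hc.num.Θr_ge

lemma Ctx.Ok.av_σ_nn (hc : c.Ok) : 0 ≤ c.σ := le_trans (by norm_num) hc.num.σ_ge

/-- Product test functions. Write the weight as `1 - beta` on `U × U` and use `beta_row`. -/
lemma Ctx.Ok.avg1 (hc : c.Ok) {u w : H → ℝ} {us w2 : ℝ} (hw : 0 ≤ w2)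
    (h1 : ∑ h ∈ c.U, |u h| * (1 + c.dd h) ≤ us) (h2 : ∑ h ∈ c.U, w h ^ 2 ≤ w2 ^ 2) :
    |(c.avg fun h h' => u h * w h') - (∑ h ∈ c.U, u h) * ∑ h ∈ c.U, w h| ≤ c.Θr * us * w2 := by
  have e : (c.avg fun h h' => u h * w h') - (∑ h ∈ c.U, u h) * ∑ h ∈ c.U, w h
      = -∑ k ∈ c.U, u k * ∑ l ∈ c.U, c.beta k l * w l := by
    rw [hc.av_avg_eq, sum_mul_sum, ← sum_sub_distrib, ← sum_neg_distrib]
    refine sum_congr rfl fun k _ => ?_
    rw [← sum_sub_distrib, mul_sum, ← sum_neg_distrib]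
    exact sum_congr rfl fun l _ => by ring
  rw [e, abs_neg]
  have hΘ := hc.av_Θr_nn
  calc |∑ k ∈ c.U, u k * ∑ l ∈ c.U, c.beta k l * w l|
      ≤ ∑ k ∈ c.U, |u k * ∑ l ∈ c.U, c.beta k l * w l| := abs_sum_le_sum_abs _ _
    _ ≤ ∑ k ∈ c.U, c.Θr * w2 * (|u k| * (1 + c.dd k)) := by
        refine sum_le_sum fun k hk => ?_
        have hd := hc.dd_nn k
        have h3 := av_abs_sum_le c.U (f := fun l => c.beta k l) (g := w)
          (x := c.Θr * (1 + c.dd k)) (by positivity) hw (by rw [mul_pow]; exact hc.beta_row k hk) h2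
        rw [abs_mul]
        refine (mul_le_mul_of_nonneg_left h3 (abs_nonneg _)).trans (le_of_eq ?_)
        ring
    _ ≤ c.Θr * w2 * us := by
        rw [← mul_sum]
        exact mul_le_mul_of_nonneg_left h1 (by positivity)
    _ = c.Θr * us * w2 := by ring

lemma Ctx.Ok.av_sum_one (hc : c.Ok) : ∑ _h ∈ c.U, (1 : ℝ) ^ 2 ≤ c.σ ^ 2 := by
  simp [hc.card]

lemma Ctx.Ok.star_one (hc : c.Ok) : ∑ h ∈ c.U, |(1 : ℝ)| * (1 + c.dd h) ≤ 2 * c.σ ^ 2 := by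
  have h1 := (abs_le.1 (av_abs_sum_le c.U (f := fun _ => (1 : ℝ)) (g := c.dd) hc.av_σ_nn
    hc.num.v_nn hc.av_sum_one hc.dd_sq)).2
  have h2 := mul_le_mul_of_nonneg_left hc.num.v_le hc.av_σ_nn
  simp only [abs_one, one_mul, sum_add_distrib, sum_const, nsmul_eq_mul, mul_one, hc.card] at h1 ⊢
  nlinarith

lemma Ctx.Ok.N_sub (hc : c.Ok) : |c.N - c.σ ^ 4| ≤ 2 * c.Θr * c.σ ^ 3 := by
  have := hc.avg1 (u := fun _ => (1 : ℝ)) (w := fun _ => (1 : ℝ)) hc.av_σ_nn hc.star_one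
    hc.av_sum_one
  simp only [mul_one, sum_const, nsmul_eq_mul, hc.card] at this
  rw [show c.σ ^ 4 = c.σ ^ 2 * c.σ ^ 2 by ring]
  refine this.trans (le_of_eq ?_)
  ring

omit [DecidableEq H] in
lemma av_sum_sq_le_ip (s : Finset (H × H)) (T : Matrix H H ℝ) :
    ∑ q ∈ s, T q.1 q.2 ^ 2 ≤ ip T T := by
  rw [fr_ip_eq_sum_prod]
  simp only [← sq]
  exact sum_le_sum_of_subset_of_nonneg (subset_univ s) fun _ _ _ => sq_nonneg _

/-- Matrix test functions with total sum zero. -/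
lemma Ctx.Ok.avg3 (hc : c.Ok) {T : Matrix H H ℝ} {τ : ℝ} (hτ : 0 ≤ τ)
    (h0 : ∑ k ∈ c.U, ∑ l ∈ c.U, T k l = 0) (h2 : ip T T ≤ τ ^ 2) :
    |(c.avg fun h h' => T h h') + ip c.F T| ≤ 2 * c.Θ * τ := by
  have e1 : ip c.F T = ∑ q ∈ c.U ×ˢ c.U, c.F q.1 q.2 * T q.1 q.2 := by
    rw [fr_ip_eq_sum_prod]
    refine (sum_subset (subset_univ _) fun q _ hq => ?_).symm
    rw [mem_product, not_and_or] at hq
    rcases hq with hq | hq
    · rw [hc.F_supp _ _ hq, zero_mul]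
    · rw [hc.F_symm, hc.F_supp _ _ hq, zero_mul]
  rw [← sum_product' (f := fun k l => T k l), ← sum_sdiff hc.av_Pr_sub] at h0
  rw [← sum_sdiff hc.av_Pr_sub] at e1
  have e2 : (c.avg fun h h' => T h h') + ip c.F T
      = ∑ q ∈ (c.U ×ˢ c.U) \ c.Pr, (c.F q.1 q.2 - 1) * T q.1 q.2 := by
    simp only [Ctx.avg, sub_mul, one_mul, sum_sub_distrib]
    linarith
  have hΘ : 0 ≤ c.Θ := le_trans zero_le_one hc.num.Θ_ge
  have e3 : (((c.U ×ˢ c.U) \ c.Pr).card : ℝ) ≤ c.Θ ^ 2 := by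
    rw [card_sdiff_of_subset hc.av_Pr_sub, Nat.cast_sub (card_le_card hc.av_Pr_sub), card_product,
      Nat.cast_mul, hc.card]
    have := hc.bad
    nlinarith
  rw [e2]
  refine av_abs_sum_le _ (by positivity) hτ ?_ ((av_sum_sq_le_ip _ T).trans h2)
  calc ∑ q ∈ (c.U ×ˢ c.U) \ c.Pr, (c.F q.1 q.2 - 1) ^ 2
      ≤ ∑ _q ∈ (c.U ×ˢ c.U) \ c.Pr, (4 : ℝ) := by
        refine sum_le_sum fun q _ => ?_
        have h3 := hc.av_wt_pos q.1 q.2
        have h4 := hc.av_wt_le q.1 q.2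
        nlinarith
    _ ≤ (2 * c.Θ) ^ 2 := by
        rw [sum_const, nsmul_eq_mul]
        nlinarith

/-- Existence of a pair below the average. -/
lemma Ctx.Ok.exists_le (hc : c.Ok) (hN : 0 < c.N) {f : H → H → ℝ} {x : ℝ}
    (h : c.avg f ≤ c.N * x) : ∃ p ∈ c.Pr, f p.1 p.2 ≤ x := by
  have hne : c.Pr.Nonempty := by
    rcases c.Pr.eq_empty_or_nonempty with h0 | h0
    · simp [Ctx.N, Ctx.avg, h0] at hN
    · exact h0
  rw [← Ctx.avg_const] at h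
  obtain ⟨p, hp, h1⟩ := exists_le_of_sum_le hne h
  exact ⟨p, hp, le_of_mul_le_mul_left h1 (hc.av_wt_pos _ _)⟩

variable {p : Par} {O : Matrix H H ℝ}

lemma Ctx.Ok.th_nonneg (hc : c.Ok) (O : Matrix H H ℝ) (h h' : H) : 0 ≤ c.th O h h' := by
  have h1 := hc.dd_nn h
  have h2 := hc.dd_nn h'
  have h3 := hc.num.a_nn
  unfold Ctx.th
  positivity

lemma Ctx.Pt.th_symm (hp : c.Pt p O) (h h' : H) : c.th O h' h = c.th O h h' := by
  simp only [Ctx.th, hp.cent.symm h' h]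
  ring

lemma av_th_sq_le (c : Ctx H) (O : Matrix H H ℝ) (h h' : H) : c.th O h h' ^ 2 ≤
    3 * (O h h' ^ 2 + 2 * c.a ^ 2 * c.dd h ^ 2 + 2 * c.a ^ 2 * c.dd h' ^ 2
      + c.dd h ^ 2 * c.dd h' ^ 2) := by
  have h1 : ∀ x y z : ℝ, (x + y + z) ^ 2 ≤ 3 * (x ^ 2 + y ^ 2 + z ^ 2) := fun x y z => by
    nlinarith [sq_nonneg (x - y), sq_nonneg (y - z), sq_nonneg (x - z)]
  refine (h1 _ _ _).trans ?_
  rw [sq_abs]
  nlinarith [sq_nonneg (c.a * (c.dd h - c.dd h'))]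

lemma av_th_row_aux {c : Ctx H} (hcard : (c.U.card : ℝ) = c.σ ^ 2)
    (hv : ∑ h ∈ c.U, c.dd h ^ 2 ≤ c.v ^ 2) (hO : Cent c.U O) (h : H) :
    ∑ h' ∈ c.U, c.th O h h' ^ 2 ≤
      3 * (sc O h + 2 * c.a ^ 2 * c.σ ^ 2 * c.dd h ^ 2 + 2 * c.a ^ 2 * c.v ^ 2
        + c.v ^ 2 * c.dd h ^ 2) := by
  refine (sum_le_sum fun h' _ => av_th_sq_le c O h h').trans ?_
  have e : ∑ h' ∈ c.U, O h h' ^ 2 = sc O h := by
    rw [sc, fr_sum_univ_eq_of_supp (U := c.U) fun k hk => by rw [hO.supp k h hk]; ring]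
    exact sum_congr rfl fun k _ => by rw [hO.symm]
  simp only [← mul_sum, sum_add_distrib, sum_const, nsmul_eq_mul, hcard, e]
  have h1 := mul_le_mul_of_nonneg_left hv (show 0 ≤ 2 * c.a ^ 2 by positivity)
  have h2 := mul_le_mul_of_nonneg_left hv (sq_nonneg (c.dd h))
  nlinarith

/-- Row bound, from `Num.Ok.row`; does not use `good`. -/
lemma th_row {c : Ctx H} (hn : c.toNum.Ok) (hcard : (c.U.card : ℝ) = c.σ ^ 2)
    (hd : ∀ h, 0 ≤ c.dd h) (hv : ∑ h ∈ c.U, c.dd h ^ 2 ≤ c.v ^ 2) (hO : Cent c.U O)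
    (hs : ∀ h, sc O h ≤ c.n1 * (1 + c.dd h)) (h : H) :
    ∑ h' ∈ c.U, c.th O h h' ^ 2 ≤
      3 * (c.n1 + 2 * c.a ^ 2 * c.σ ^ 2 + 2 * c.a ^ 2 * c.v ^ 2 + c.v ^ 2) * (1 + c.dd h) ^ 2 := by
  refine (av_th_row_aux hcard hv hO h).trans ?_
  have h0 := hd h
  have h1 : c.dd h ^ 2 ≤ (1 + c.dd h) ^ 2 := by nlinarith
  have h2 : 1 ≤ (1 + c.dd h) ^ 2 := by nlinarith
  have h3 : 1 + c.dd h ≤ (1 + c.dd h) ^ 2 := by nlinarith
  have h4 := (hs h).trans (mul_le_mul_of_nonneg_left h3 (le_trans zero_le_one hn.n1_ge))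
  have h5 := mul_le_mul_of_nonneg_left h1 (show 0 ≤ 2 * c.a ^ 2 * c.σ ^ 2 by positivity)
  have h6 := mul_le_mul_of_nonneg_left h2 (show 0 ≤ 2 * c.a ^ 2 * c.v ^ 2 by positivity)
  have h7 := mul_le_mul_of_nonneg_left h1 (sq_nonneg c.v)
  linarith

/-- Total bound; does not use `good`. -/
lemma th_tot {c : Ctx H} (hn : c.toNum.Ok) (hcard : (c.U.card : ℝ) = c.σ ^ 2)
    (hd : ∀ h, 0 ≤ c.dd h) (hv : ∑ h ∈ c.U, c.dd h ^ 2 ≤ c.v ^ 2) (hO : Cent c.U O)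
    (hY : Yf O ≤ c.y ^ 2) : ∑ h ∈ c.U, ∑ h' ∈ c.U, c.th O h h' ^ 2 ≤ c.Θt ^ 2 := by
  refine (sum_le_sum fun h _ => av_th_row_aux hcard hv hO h).trans (le_trans ?_ hn.tot)
  simp only [← mul_sum, sum_add_distrib, sum_const, nsmul_eq_mul, hcard, ← hO.Yf_eq]
  have h1 := mul_le_mul_of_nonneg_left hv (show 0 ≤ 2 * c.a ^ 2 * c.σ ^ 2 by positivity)
  have h2 := mul_le_mul_of_nonneg_left hv (sq_nonneg c.v)
  nlinarith

lemma Ctx.Pt.avg2 (hc : c.Ok) (hp : c.Pt p O) {u w : H → ℝ} {us w2 : ℝ} (hw : 0 ≤ w2)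
    (h1 : ∑ h ∈ c.U, |u h| * (1 + c.dd h) ≤ us) (h2 : ∑ h ∈ c.U, w h ^ 2 ≤ w2 ^ 2) :
    (c.avg fun h h' => c.th O h h' * (|u h| * |w h'|)) ≤ 2 * c.Θr * us * w2 := by
  have hΘ := hc.av_Θr_nn
  have hus : 0 ≤ us := le_trans (sum_nonneg fun k _ =>
    mul_nonneg (abs_nonneg _) (add_nonneg zero_le_one (hc.dd_nn k))) h1
  refine (hc.avg_le fun k _ l _ => mul_nonneg (hc.th_nonneg O k l) (by positivity)).trans ?_
  have h3 : ∑ k ∈ c.U, ∑ l ∈ c.U, c.th O k l * (|u k| * |w l|)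
      ≤ ∑ k ∈ c.U, c.Θr * w2 * (|u k| * (1 + c.dd k)) := by
    refine sum_le_sum fun k _ => ?_
    have hd := hc.dd_nn k
    have h4 : ∑ l ∈ c.U, c.th O k l ^ 2 ≤ (c.Θr * (1 + c.dd k)) ^ 2 := by
      rw [mul_pow]
      exact (th_row hc.num hc.card hc.dd_nn hc.dd_sq hp.cent hp.s_le k).trans
        (mul_le_mul_of_nonneg_right hc.num.row (sq_nonneg _))
    have h5 := (abs_le.1 (av_abs_sum_le c.U (f := fun l => c.th O k l) (g := fun l => |w l|)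
      (by positivity) hw h4 (by simpa only [sq_abs] using h2))).2
    have e : ∑ l ∈ c.U, c.th O k l * (|u k| * |w l|) = |u k| * ∑ l ∈ c.U, c.th O k l * |w l| := by
      rw [mul_sum]
      exact sum_congr rfl fun l _ => by ring
    rw [e]
    refine (mul_le_mul_of_nonneg_left h5 (abs_nonneg _)).trans (le_of_eq ?_)
    ring
  rw [← mul_sum] at h3
  have h6 := mul_le_mul_of_nonneg_left h1 (mul_nonneg hΘ hw)
  have h7 : 0 ≤ c.Θr * w2 * us := by positivity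
  nlinarith

lemma Ctx.Pt.av_th_tot (hc : c.Ok) (hp : c.Pt p O) :
    ∑ h ∈ c.U, ∑ h' ∈ c.U, c.th O h h' ^ 2 ≤ c.Θt ^ 2 :=
  th_tot hc.num hc.card hc.dd_nn hc.dd_sq hp.cent hp.Y_le

lemma Ctx.Pt.av_avg_th_mul (hc : c.Ok) (hp : c.Pt p O) {g : H → H → ℝ} {τ : ℝ} (hτ : 0 ≤ τ)
    (hg : ∀ k l, 0 ≤ g k l) (h2 : ∑ q ∈ c.U ×ˢ c.U, g q.1 q.2 ^ 2 ≤ τ ^ 2) :
    (c.avg fun h h' => c.th O h h' * g h h') ≤ 2 * c.Θt * τ := by
  refine (hc.avg_le fun k _ l _ => mul_nonneg (hc.th_nonneg O k l) (hg k l)).trans ?_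
  have h3 := hp.av_th_tot hc
  rw [← sum_product' (f := fun k l => c.th O k l ^ 2)] at h3
  have h4 := (abs_le.1 (av_abs_sum_le _ hc.num.Θt_nn hτ h3 h2)).2
  rw [← sum_product' (f := fun k l => c.th O k l * g k l)]
  have h5 := mul_nonneg hc.num.Θt_nn hτ
  linarith

lemma Ctx.Pt.avg4 (hc : c.Ok) (hp : c.Pt p O) {T : Matrix H H ℝ} {τ : ℝ} (hτ : 0 ≤ τ)
    (h2 : ip T T ≤ τ ^ 2) : (c.avg fun h h' => c.th O h h' * |T h h'|) ≤ 2 * c.Θt * τ := by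
  refine hp.av_avg_th_mul hc (g := fun k l => |T k l|) hτ (fun _ _ => abs_nonneg _) ?_
  simp only [sq_abs]
  exact (av_sum_sq_le_ip _ T).trans h2

lemma Ctx.Pt.avg_th (hc : c.Ok) (hp : c.Pt p O) :
    (c.avg fun h h' => c.th O h h') ≤ 2 * c.Θt * c.σ ^ 2 := by
  have := hp.av_avg_th_mul hc (g := fun _ _ => 1) (sq_nonneg c.σ) (fun _ _ => zero_le_one) (by
    simp only [one_pow, sum_const, card_product, nsmul_eq_mul, Nat.cast_mul, hc.card, mul_one]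
    exact le_of_eq (by ring))
  simpa only [mul_one] using this

lemma Ctx.Pt.avg_th_sq (hc : c.Ok) (hp : c.Pt p O) :
    (c.avg fun h h' => c.th O h h' ^ 2) ≤ 2 * c.Θt ^ 2 := by
  refine (hc.avg_le fun k _ l _ => sq_nonneg _).trans ?_
  have h1 := hp.av_th_tot hc
  have h2 := sq_nonneg c.Θt
  linarith

lemma Ctx.Pt.Vf_le (hc : c.Ok) (hp : c.Pt p O) : Vf O ≤ c.v ^ 2 := by
  rw [hp.cent.Vf_eq]
  refine le_trans (sum_le_sum fun k _ => ?_) hc.dd_sq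
  exact sq_le_sq' (abs_le.1 (hp.diag k)).1 (abs_le.1 (hp.diag k)).2

lemma Ctx.Pt.av_sum_dd_sc (hc : c.Ok) (hp : c.Pt p O) :
    ∑ h ∈ c.U, c.dd h * sc O h ≤ c.v * c.ξ := by
  refine (abs_le.1 (av_abs_sum_le _ hc.num.v_nn hc.num.ξ_nn hc.dd_sq (le_trans ?_ hp.Xi_le))).2
  exact sum_le_sum_of_subset_of_nonneg (subset_univ _) fun _ _ _ => sq_nonneg _

lemma Ctx.Pt.star_sc (hc : c.Ok) (hp : c.Pt p O) :
    ∑ h ∈ c.U, |sc O h| * (1 + c.dd h) ≤ c.ss := by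
  have e : ∑ h ∈ c.U, |sc O h| * (1 + c.dd h) = Yf O + ∑ h ∈ c.U, c.dd h * sc O h := by
    rw [hp.cent.Yf_eq, ← sum_add_distrib]
    refine sum_congr rfl fun k _ => ?_
    rw [abs_of_nonneg (sc_nonneg O k)]
    ring
  have h1 := hp.av_sum_dd_sc hc
  have h2 := hp.Y_le
  have h3 := hc.num.ss_ge
  linarith

lemma Ctx.Pt.sum_dd_sc (hc : c.Ok) (hp : c.Pt p O) : ∑ h ∈ c.U, c.dd h * sc O h ≤ c.v * c.ξ := by
  exact hp.av_sum_dd_sc hc

lemma Ctx.Ok.star_dd_sq (hc : c.Ok) :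
    ∑ h ∈ c.U, |c.dd h ^ 2| * (1 + c.dd h) ≤ c.v ^ 2 + c.v ^ 3 := by
  have h1 : ∑ h ∈ c.U, |c.dd h ^ 2| * (1 + c.dd h) ≤ ∑ h ∈ c.U, (1 + c.v) * c.dd h ^ 2 := by
    refine sum_le_sum fun k hk => ?_
    rw [abs_of_nonneg (sq_nonneg _), mul_comm]
    exact mul_le_mul_of_nonneg_right (by linarith [hc.dd_le hk]) (sq_nonneg _)
  rw [← mul_sum] at h1
  have h2 := mul_le_mul_of_nonneg_left hc.dd_sq (add_nonneg zero_le_one hc.num.v_nn)
  linarith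

lemma av_abs_mul_le {x y X Y : ℝ} (hx : |x| ≤ X) (hy : |y| ≤ Y) : |x * y| ≤ X * Y := by
  rw [abs_mul]
  exact mul_le_mul hx hy (abs_nonneg _) ((abs_nonneg _).trans hx)

lemma av_inv_le {R : ℝ} (hR : 995 / 1000 ≤ R) : 1 / R ≤ 1006 / 1000 := by
  rw [div_le_iff₀ (by linarith)]
  linarith

lemma av_div_le {n R B : ℝ} (hn : |n| ≤ B) (hR : 995 / 1000 ≤ R) :
    |n / R| ≤ 1006 / 1000 * B := by
  rw [div_eq_mul_one_div, mul_comm]
  refine av_abs_mul_le ?_ hn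
  rw [abs_of_nonneg (div_nonneg zero_le_one (by linarith))]
  exact av_inv_le hR

lemma av_div_sub {n R B e : ℝ} (hn : |n| ≤ B) (he : |1 / R - 1| ≤ e) : |n / R - n| ≤ e * B := by
  rw [show n / R - n = (1 / R - 1) * n by ring]
  exact av_abs_mul_le he hn

lemma av_add_div_sub {x n R B e C : ℝ} (hx : |x| ≤ B) (he : |1 / R - 1| ≤ e) (hn : |n| ≤ C)
    (hR : 995 / 1000 ≤ R) : |(x + n) / R - x| ≤ e * B + 1006 / 1000 * C := by
  rw [show (x + n) / R - x = (x / R - x) + n / R by ring]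
  exact (abs_add_le _ _).trans (add_le_add (av_div_sub hx he) (av_div_le hn hR))

lemma av_div_sub_one {n R C : ℝ} (hn : |n - R| ≤ C) (hR : 995 / 1000 ≤ R) :
    |n / R - 1| ≤ 1006 / 1000 * C := by
  have h0 : R ≠ 0 := by linarith
  rw [show n / R - 1 = (n - R) / R by field_simp]
  exact av_div_le hn hR

lemma av_abs_add {x y X Y : ℝ} (hx : |x| ≤ X) (hy : |y| ≤ Y) : |x + y| ≤ X + Y :=
  (abs_add_le _ _).trans (add_le_add hx hy)

lemma av_abs_sub {x y X Y : ℝ} (hx : |x| ≤ X) (hy : |y| ≤ Y) : |x - y| ≤ X + Y :=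
  (abs_sub _ _).trans (add_le_add hx hy)

/-- All pointwise bounds on a good pair. -/
structure Ctx.Loc (c : Ctx H) (p : Par) (O : Matrix H H ℝ) (h h' : H) : Prop where
  R_sub : |Rh p O h h' - 1| ≤ 5 * c.th O h h'
  R_pos : 995 / 1000 ≤ Rh p O h h'
  inv_le : 1 / Rh p O h h' ≤ 1006 / 1000
  inv_sub : |1 / Rh p O h h' - 1| ≤ 6 * c.th O h h'
  det_le : |O h h * O h' h' - O h h' ^ 2| ≤ c.th O h h'
  y1_le : |y1 p O h h'| ≤ 1006 / 1000 * (c.a + 2 * c.dd h')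
  y2_le : |y2 p O h h'| ≤ 1006 / 1000 * (c.a + 2 * c.dd h)
  y1_sub : |y1 p O h h' - (p.A1 + p.vp * O h' h')| ≤ 6 * c.th O h h' * (c.a + 2 * c.dd h')
  y2_sub : |y2 p O h h' - (p.A1 + p.vp * O h h)| ≤ 6 * c.th O h h' * (c.a + 2 * c.dd h)
  y0_le : |y0 p O h h'| ≤ 3
  y0_sub : |y0 p O h h' - p.A0| ≤ 15 * c.th O h h'
  B11_sub : |Bm p O h h' h h - O h h| ≤ 6 * c.th O h h' * c.dd h + 2 * c.a * c.th O h h'
  B22_sub : |Bm p O h h' h' h' - O h' h'| ≤ 6 * c.th O h h' * c.dd h' + 2 * c.a * c.th O h h'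
  B11_le : |Bm p O h h' h h| ≤ 2 * (c.dd h + c.th O h h')
  B22_le : |Bm p O h h' h' h'| ≤ 2 * (c.dd h' + c.th O h h')
  B12_le : |Bm p O h h' h h'| ≤ 4 * c.th O h h'
  J11 : |(1 + p.A1 * O h' h' + p.A0 * O h h') / Rh p O h h' - 1| ≤ 5 * c.th O h h'
  J22 : |(1 + p.A1 * O h h + p.A0 * O h h') / Rh p O h h' - 1| ≤ 5 * c.th O h h'
  J21 : |(p.A0 * O h h + p.A1 * O h h') / Rh p O h h'| ≤ 3 * (c.dd h + c.th O h h')
  J12 : |(p.A0 * O h' h' + p.A1 * O h h') / Rh p O h h'| ≤ 3 * (c.dd h' + c.th O h h')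

lemma Ctx.Pt.loc (hc : c.Ok) (hp : c.Pt p O) {h h' : H} (hh : (h, h') ∈ c.Pr) :
    c.Loc p O h h' := by
  have hθ : c.th O h h' ≤ 1 / 1000 := hp.good _ hh
  have ha0 := hc.num.a_nn
  have ha1 := hc.num.a_le
  have hd := hc.dd_nn h
  have hd' := hc.dd_nn h'
  have hx := hp.diag h
  have hx' := hp.diag h'
  have hA1 := hp.A1_le
  have hA0 := hp.A0_le
  have hvp := hp.vp_le
  have hθ0 := hc.th_nonneg O h h'
  have ho0 := abs_nonneg (O h h')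
  have had := mul_nonneg ha0 hd
  have had' := mul_nonneg ha0 hd'
  have hdd := mul_nonneg hd hd'
  have hθe : c.th O h h' = |O h h'| + c.a * c.dd h + c.a * c.dd h' + c.dd h * c.dd h' := by
    rw [Ctx.th]
    ring
  have ho : |O h h'| ≤ c.th O h h' := by linarith
  have ho2 : |O h h' ^ 2| ≤ |O h h'| * (1 / 1000) := by
    rw [sq]
    exact av_abs_mul_le le_rfl (ho.trans hθ)
  have hdet0 := av_abs_sub (av_abs_mul_le hx hx') ho2
  have hdet : |O h h * O h' h' - O h h' ^ 2| ≤ c.th O h h' := by linarith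
  have hAx := av_abs_mul_le hA1 hx
  have hAx' := av_abs_mul_le hA1 hx'
  have hAo := av_abs_mul_le hA0 (le_refl |O h h'|)
  have hvd := av_abs_mul_le hvp hdet0
  have hR1 : |Rh p O h h' - 1| ≤ 5 * c.th O h h' := by
    rw [show Rh p O h h' - 1 = p.A1 * O h h + p.A1 * O h' h' + p.A0 * O h h' + p.A0 * O h h'
      + p.vp * (O h h * O h' h' - O h h' ^ 2) by rw [Rh]; ring]
    refine (av_abs_add (av_abs_add (av_abs_add (av_abs_add hAx hAx') hAo) hAo) hvd).trans ?_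
    linarith
  have hR : 995 / 1000 ≤ Rh p O h h' := by
    have := (abs_le.1 hR1).1
    linarith
  have hR0 : Rh p O h h' ≠ 0 := by linarith
  have hinv : |1 / Rh p O h h' - 1| ≤ 6 * c.th O h h' := by
    refine (av_div_sub_one (C := 5 * c.th O h h') (by rwa [abs_sub_comm]) hR).trans ?_
    linarith
  have hn1 := av_abs_add hA1 (av_abs_mul_le hvp hx')
  have hn2 := av_abs_add hA1 (av_abs_mul_le hvp hx)
  have hvo := av_abs_mul_le hvp ho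
  have hA1d := av_abs_mul_le hA1 hdet
  have haθ := mul_nonneg ha0 hθ0
  have haθ1 : c.a * c.th O h h' ≤ c.th O h h' := mul_le_of_le_one_left hθ0 ha1
  obtain ⟨e11, e22, e12⟩ := hp.cent.bm_block p hR0
  have hA1o := av_abs_mul_le (hA1.trans ha1) ho
  refine ⟨hR1, hR, av_inv_le hR, hinv, hdet, av_div_le hn1 hR, av_div_le hn2 hR,
    av_div_sub hn1 hinv, av_div_sub hn2 hinv, ?_, ?_, ?_, ?_, ?_, ?_, ?_, ?_, ?_, ?_, ?_⟩
  · refine (av_div_le (av_abs_sub hA0 hvo) hR).trans ?_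
    linarith
  · rw [y0, sub_eq_add_neg p.A0]
    refine (av_add_div_sub hA0 hinv ((abs_neg _).trans_le hvo) hR).trans ?_
    linarith
  · rw [e11]
    refine (av_add_div_sub hx hinv hA1d hR).trans ?_
    linarith
  · rw [e22]
    refine (av_add_div_sub hx' hinv hA1d hR).trans ?_
    linarith
  · rw [e11]
    refine (av_div_le (av_abs_add hx hA1d) hR).trans ?_
    linarith
  · rw [e22]
    refine (av_div_le (av_abs_add hx' hA1d) hR).trans ?_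
    linarith
  · rw [e12]
    refine (av_div_le (av_abs_sub ho (av_abs_mul_le hA0 hdet)) hR).trans ?_
    linarith
  · refine (av_div_sub_one (C := 3 * c.th O h h') ?_ hR).trans (by linarith)
    rw [abs_sub_comm, show Rh p O h h' - (1 + p.A1 * O h' h' + p.A0 * O h h') = p.A1 * O h h
      + p.A0 * O h h' + p.vp * (O h h * O h' h' - O h h' ^ 2) by rw [Rh]; ring]
    refine (av_abs_add (av_abs_add hAx hAo) hvd).trans ?_
    linarith
  · refine (av_div_sub_one (C := 3 * c.th O h h') ?_ hR).trans (by linarith)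
    rw [abs_sub_comm, show Rh p O h h' - (1 + p.A1 * O h h + p.A0 * O h h') = p.A1 * O h' h'
      + p.A0 * O h h' + p.vp * (O h h * O h' h' - O h h' ^ 2) by rw [Rh]; ring]
    refine (av_abs_add (av_abs_add hAx' hAo) hvd).trans ?_
    linarith
  · refine (av_div_le (av_abs_add (av_abs_mul_le hA0 hx) hA1o) hR).trans ?_
    linarith
  · refine (av_div_le (av_abs_add (av_abs_mul_le hA0 hx') hA1o) hR).trans ?_
    linarith

end Vale.Agent.P049
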