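import Mathlib

/-!
Abstract layer: centered matrices, the homogeneous rank-two update `sharp`, averaging contexts.
-/

namespace Vale.Agent.P049

open Matrix Finset

variable {H : Type} [Fintype H] [DecidableEq H]

/-- Frobenius inner product. -/
def ip (A B : Matrix H H ℝ) : ℝ := ∑ k, ∑ l, A k l * B k l

/-- Frobenius norm. -/
noncomputable def fro (A : Matrix H H ℝ) : ℝ := √(ip A A)

/-- Orthogonal projection onto sum-zero vectors supported on `U`. -/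
noncomputable def proj (U : Finset H) : Matrix H H ℝ := fun k l =>
  if k ∈ U ∧ l ∈ U then (if k = l then 1 else 0) - 1 / (U.card : ℝ) else 0

/-- Symmetric, supported on `U`, zero row sums. -/
structure Cent (U : Finset H) (O : Matrix H H ℝ) : Prop where
  symm : ∀ k l, O k l = O l k
  supp : ∀ k l, k ∉ U → O k l = 0
  row : ∀ k, ∑ l, O k l = 0

/-- Squared norm of a column. -/
def sc (O : Matrix H H ℝ) (h : H) : ℝ := ∑ k, O k h ^ 2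

/-- Trace. -/
def Zf (O : Matrix H H ℝ) : ℝ := ∑ k, O k k

/-- Squared norm of the diagonal. -/
def Vf (O : Matrix H H ℝ) : ℝ := ∑ k, O k k ^ 2

/-- Squared Frobenius norm. -/
def Yf (O : Matrix H H ℝ) : ℝ := ip O O

/-- Sum of squares of the squared column norms. -/
def Xif (O : Matrix H H ℝ) : ℝ := ∑ h, sc O h ^ 2

/-- Squared Frobenius norm of the square. -/
def T4 (O : Matrix H H ℝ) : ℝ := ip (O * O) (O * O)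

/-- Sum of fourth powers of the off-diagonal entries. -/
def Q4 (O : Matrix H H ℝ) : ℝ := ∑ h, ∑ k, if k = h then 0 else O k h ^ 4

/-- The weighted column sums of the `V` step. -/
def aa (O : Matrix H H ℝ) (h : H) : ℝ := ∑ k, if k = h then 0 else O k k * O k h ^ 2

/-- Operator norm bound. -/
def OpB (O : Matrix H H ℝ) (ν : ℝ) : Prop :=
  ∀ x : H → ℝ, (O *ᵥ x) ⬝ᵥ (O *ᵥ x) ≤ ν ^ 2 * (x ⬝ᵥ x)

/-- Two-sided quadratic form bound. -/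
def QB (F : Matrix H H ℝ) (φ : ℝ) : Prop := ∀ x : H → ℝ, |x ⬝ᵥ (F *ᵥ x)| ≤ φ * (x ⬝ᵥ x)

/-- Upper quadratic form bound. -/
def Top (N : Matrix H H ℝ) (ν : ℝ) : Prop := ∀ x : H → ℝ, x ⬝ᵥ (N *ᵥ x) ≤ ν * (x ⬝ᵥ x)

/-- The coefficients of the update. -/
structure Par where
  A1 : ℝ
  A0 : ℝ
  vp : ℝ

/-- The determinant ratio. -/
def Rh (p : Par) (O : Matrix H H ℝ) (h h' : H) : ℝ :=
  1 + p.A1 * (O h h + O h' h') + 2 * p.A0 * O h h' + p.vp * (O h h * O h' h' - O h h' ^ 2)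

noncomputable def y1 (p : Par) (O : Matrix H H ℝ) (h h' : H) : ℝ :=
  (p.A1 + p.vp * O h' h') / Rh p O h h'

noncomputable def y2 (p : Par) (O : Matrix H H ℝ) (h h' : H) : ℝ :=
  (p.A1 + p.vp * O h h) / Rh p O h h'

noncomputable def y0 (p : Par) (O : Matrix H H ℝ) (h h' : H) : ℝ :=
  (p.A0 - p.vp * O h h') / Rh p O h h'

/-- The rank-two update before projection. -/
noncomputable def Bm (p : Par) (O : Matrix H H ℝ) (h h' : H) : Matrix H H ℝ := fun k l =>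
  O k l - y1 p O h h' * (O k h * O l h) - y2 p O h h' * (O k h' * O l h')
    - y0 p O h h' * (O k h * O l h' + O k h' * O l h)

/-- The set of free half-edges after removing a pair. -/
def rem (U : Finset H) (h h' : H) : Finset H := (U.erase h).erase h'

/-- The homogeneous update. -/
noncomputable def sharp (p : Par) (U : Finset H) (O : Matrix H H ℝ) (h h' : H) : Matrix H H ℝ :=
  proj (rem U h h') * Bm p O h h' * proj (rem U h h')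

/-- The shift of the boundary parameter, for centered matrices. -/
def Shift (u ζ : ℝ) (X O' : Matrix H H ℝ) : Prop := O' = u ^ 2 • X + ζ • (X * O')

/-- The numerical bounds of one step. -/
structure Num where
  σ : ℝ
  Θ : ℝ
  Θt : ℝ
  Θr : ℝ
  v : ℝ
  a : ℝ
  y : ℝ
  ξ : ℝ
  t : ℝ
  n1 : ℝ
  nu : ℝ
  φ : ℝ
  ss : ℝ
  as : ℝ
  X : ℝ
  xb : ℝ
  nsh : ℝ

/-- Relations between the numerical bounds. -/
structure Num.Ok (c : Num) : Prop where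
  σ_ge : 10 ≤ c.σ
  Θ_ge : 1 ≤ c.Θ
  Θt_nn : 0 ≤ c.Θt
  Θt_le : c.Θt ≤ c.Θ
  Θr_ge : 1 ≤ c.Θr
  v_nn : 0 ≤ c.v
  v_le : c.v ≤ c.σ
  a_nn : 0 ≤ c.a
  a_le : c.a ≤ 1
  y_nn : 0 ≤ c.y
  ξ_nn : 0 ≤ c.ξ
  t_nn : 0 ≤ c.t
  n1_ge : 1 ≤ c.n1
  nu_nn : 0 ≤ c.nu
  φ_nn : 0 ≤ c.φ
  X_nn : 0 ≤ c.X
  row : 3 * (c.n1 + 2 * c.a ^ 2 * c.σ ^ 2 + 2 * c.a ^ 2 * c.v ^ 2 + c.v ^ 2) ≤ c.Θr ^ 2
  tot : 3 * (c.y ^ 2 + 4 * c.a ^ 2 * c.σ ^ 2 * c.v ^ 2 + c.v ^ 4) ≤ c.Θt ^ 2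
  ss_ge : c.y ^ 2 + c.v * c.ξ ≤ c.ss
  as_ge : 2 * c.v * c.ξ + 2 * c.n1 * c.v ^ 2 + 17 * c.v ^ 4 ≤ c.as
  X_ge : 300 * (c.a ^ 2 * c.σ ^ 2 * c.ξ ^ 2 + c.v ^ 2 * c.ξ ^ 2 + c.y ^ 4 + c.σ ^ 2 * c.y ^ 2)
    ≤ c.X ^ 2
  xb_ge : 20 * (c.n1 + c.n1 * c.v) ≤ c.xb
  nsh_ge : c.y + c.xb ≤ c.nsh

def Num.errZ (c : Num) : ℝ :=
  c.Θr * c.σ ^ 2 * c.v + c.Θr * c.a * c.σ * c.ss + c.Θr * c.v * c.ss + c.Θ * c.t
    + c.Θ * c.a * c.σ ^ 2 + c.Θ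

def Num.qvZ (c : Num) : ℝ :=
  c.a ^ 2 * c.σ ^ 2 * c.ξ ^ 2 + c.v ^ 2 * c.ξ ^ 2 + c.t ^ 2 + c.σ ^ 2 * c.v ^ 2 + c.Θt ^ 2

def Num.errV (c : Num) (zb Q : ℝ) : ℝ :=
  c.Θr * c.σ * c.v ^ 2 + c.Θr * c.σ * c.v ^ 3 + c.Θr * c.a * c.σ * c.as + c.Θr * c.v * c.as
    + c.a * c.σ ^ 2 * c.v ^ 3 + zb * c.v ^ 3 + zb * c.v * c.ξ + c.Θ * c.v * c.ξ + c.φ * c.v * c.ξ
    + c.v * c.σ * c.y + c.Θ + c.a ^ 2 * c.σ ^ 2 * Q + c.ξ ^ 2 + c.y ^ 2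

def Num.errT (c : Num) (a1 zb U1 φG : ℝ) : ℝ :=
  a1 * c.σ ^ 2 * U1 + zb * U1 + c.Θr * c.a * c.σ * c.nu * c.ss + c.Θr * c.v * c.nu * c.ss + φG
    + c.Θ * c.nu * c.t + c.a ^ 2 * c.σ ^ 2 * c.ξ ^ 2 + c.v ^ 2 * c.ξ ^ 2 + c.t ^ 2
    + c.Θr * c.ss * c.ξ + c.Θr * c.ss * c.σ + c.σ * c.v * c.t + c.Θ * c.t + c.v ^ 2 * c.y ^ 2
    + c.σ ^ 2 * c.v ^ 2 + c.Θt ^ 2 + c.y ^ 2

def Num.E1 (c : Num) (z Γ : ℝ) : ℝ :=
  c.errZ + Γ + z * c.y ^ 2 * c.Θr * c.σ ^ 3 + z * c.y * c.σ ^ 2 * c.X + z * c.X ^ 2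
    + z ^ 2 * c.nsh ^ 3 * c.σ ^ 4

def Num.E2 (c : Num) (z : ℝ) : ℝ := c.qvZ + z ^ 2 * c.nsh ^ 4 * c.σ ^ 4

def Num.EV (c : Num) (zb Q z χ : ℝ) : ℝ :=
  c.errV zb Q + χ * c.σ ^ 2 * c.v * c.ξ + z * c.Θr * c.σ ^ 3 * c.v * c.ξ + z * c.σ ^ 2 * c.X * c.ξ
    + z * c.y * c.X ^ 2 + z * c.xb * c.X ^ 2 + z * c.v * c.y * c.σ ^ 2 * c.X + z * c.v * c.X ^ 2
    + z ^ 2 * c.v * c.σ ^ 4 * c.nsh ^ 3 + z ^ 2 * c.σ ^ 2 * c.X * c.nsh ^ 3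
    + z ^ 2 * c.σ ^ 4 * c.ξ ^ 2 + z ^ 2 * c.nsh ^ 2 * c.X ^ 2 + z ^ 4 * c.nsh ^ 6 * c.σ ^ 4

def Num.ED (c : Num) (a1 zb U1 φG η δ z nn : ℝ) : ℝ :=
  c.errT a1 zb U1 φG + c.errZ + c.σ ^ 2 * zb + a1 * c.σ ^ 2 * c.y ^ 2 + zb * c.y ^ 2
    + c.φ * c.y ^ 2 + η * c.σ ^ 4 + η * c.y ^ 4 + η * c.σ ^ 2 * c.y ^ 2 + zb * δ
    + z * c.σ ^ 4 * U1 + z * c.σ ^ 2 * c.X * nn ^ 2 + z * c.σ ^ 4 * nn ^ 2
    + z ^ 2 * nn ^ 4 * c.σ ^ 4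

/-- An averaging context: free set, good pairs, tilt, vertex weights and numerical bounds. -/
structure Ctx (H : Type) [Fintype H] [DecidableEq H] extends Num where
  U : Finset H
  Pr : Finset (H × H)
  F : Matrix H H ℝ
  dd : H → ℝ

/-- The (unnormalized) tilted average over good pairs. -/
def Ctx.avg (c : Ctx H) (f : H → H → ℝ) : ℝ := ∑ p ∈ c.Pr, (1 - c.F p.1 p.2) * f p.1 p.2

/-- The total weight. -/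
def Ctx.N (c : Ctx H) : ℝ := c.avg fun _ _ => 1

/-- The smallness function of a pair. -/
def Ctx.th (c : Ctx H) (O : Matrix H H ℝ) (h h' : H) : ℝ :=
  |O h h'| + c.a * (c.dd h + c.dd h') + c.dd h * c.dd h'

/-- The defect of the weight. -/
def Ctx.beta (c : Ctx H) (h h' : H) : ℝ := if (h, h') ∈ c.Pr then c.F h h' else 1

structure Ctx.Ok (c : Ctx H) : Prop where
  num : c.toNum.Ok
  card : (c.U.card : ℝ) = c.σ ^ 2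
  Pr_sub : ∀ p ∈ c.Pr, p.1 ∈ c.U ∧ p.2 ∈ c.U ∧ p.1 ≠ p.2
  Pr_symm : ∀ h h', (h, h') ∈ c.Pr → (h', h) ∈ c.Pr
  F_symm : ∀ k l, c.F k l = c.F l k
  F_supp : ∀ k l, k ∉ c.U → c.F k l = 0
  F_le : ∀ k l, |c.F k l| ≤ 1 / 1000
  F_qb : QB c.F c.φ
  dd_nn : ∀ h, 0 ≤ c.dd h
  dd_sq : ∑ h ∈ c.U, c.dd h ^ 2 ≤ c.v ^ 2
  beta_row : ∀ h ∈ c.U, ∑ h' ∈ c.U, c.beta h h' ^ 2 ≤ c.Θr ^ 2 * (1 + c.dd h) ^ 2
  bad : c.σ ^ 4 - (c.Pr.card : ℝ) ≤ c.Θ ^ 2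

/-- A tracked point in a context. -/
structure Ctx.Pt (c : Ctx H) (p : Par) (O : Matrix H H ℝ) : Prop where
  cent : Cent c.U O
  A1_le : |p.A1| ≤ c.a
  A0_le : |p.A0| ≤ 2
  vp_le : |p.vp| ≤ 2
  diag : ∀ h, |O h h| ≤ c.dd h
  good : ∀ pr ∈ c.Pr, c.th O pr.1 pr.2 ≤ 1 / 1000
  Y_le : Yf O ≤ c.y ^ 2
  Xi_le : Xif O ≤ c.ξ ^ 2
  T_le : T4 O ≤ c.t ^ 2
  s_le : ∀ h, sc O h ≤ c.n1 * (1 + c.dd h)
  op : OpB O c.nu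

/-- The entry bound coming from positive semidefiniteness. -/
def Ent (dd : H → ℝ) (m : ℝ) (O : Matrix H H ℝ) : Prop :=
  ∀ k h, k ≠ h → O k h ^ 2 ≤ 101 / 100 * (m + dd k) * (m + dd h)

end Vale.Agent.P049
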