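import Vale.Agent.P049.Update
import Vale.Agent.Lib.PCP.Base

/-!
Completion of a simple partial matching in polynomial time.
-/

namespace Vale.Agent.P049

open Vale.Agent.Lib.TM

/-- The vertex of a half-edge. -/
def vxf (n d : ℕ) : Fin (n * d) → Fin n := Fin.divNat

/-- The map of half-edges given by a table. -/
def toP (N : ℕ) (L : List ℕ) : Fin N → Fin N := fun h =>
  if hh : L.getD h 0 < N then ⟨L.getD h 0, hh⟩ else h

/-- A table of a map of `Fin N`. -/
def Tab (N : ℕ) (L : List ℕ) : Prop := L.length = N ∧ ∀ x ∈ L, x < N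

/-- The table after matching two half-edges. -/
def addL (L : List ℕ) (h h' : ℕ) : List ℕ :=
  (List.range L.length).map fun k => bif k == h then h' else bif k == h' then h else L.getD k 0

/-- The test for an allowed pair. -/
def allowedL (d : ℕ) (L : List ℕ) (h h' : ℕ) : Bool :=
  (L.getD h 0 == h) && (L.getD h' 0 == h') && !(h / d == h' / d) &&
    (List.range L.length).all fun k =>
      (L.getD k 0 == k) || !(k / d == h / d) || !(L.getD k 0 / d == h' / d)

lemma Tab.getD_lt {N : ℕ} {L : List ℕ} (hL : Tab N L) {k : ℕ} (hk : k < N) : L.getD k 0 < N := by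
  have hk' : k < L.length := hL.1.symm ▸ hk
  rw [List.getD_eq_getElem _ _ hk']
  exact hL.2 _ (List.getElem_mem hk')

lemma Tab.toP_val {N : ℕ} {L : List ℕ} (hL : Tab N L) (k : Fin N) :
    (toP N L k : ℕ) = L.getD k 0 := by
  rw [toP, dif_pos (hL.getD_lt k.2)]

lemma getD_addL {L : List ℕ} {h h' k : ℕ} (hk : k < L.length) :
    (addL L h h').getD k 0 = bif k == h then h' else bif k == h' then h else L.getD k 0 := by
  rw [List.getD_eq_getElem _ _ (by simpa [addL] using hk)]
  simp [addL]

lemma card_fiber (n d : ℕ) (u : Fin n) :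
    (Finset.univ.filter fun k => vxf n d k = u).card = d := by
  have h : (Finset.univ.filter fun k => vxf n d k = u) =
      Finset.univ.map ⟨fun j : Fin d => finProdFinEquiv (u, j), fun a b hab => by
        simpa using finProdFinEquiv.injective hab⟩ := by
    ext k
    rw [Finset.mem_filter, Finset.mem_map]
    constructor
    · rintro ⟨-, rfl⟩
      exact ⟨k.modNat, Finset.mem_univ _, finProdFinEquiv.apply_symm_apply k⟩
    · rintro ⟨j, -, rfl⟩
      exact ⟨Finset.mem_univ _, congrArg Prod.fst (finProdFinEquiv.symm_apply_apply (u, j))⟩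
  rw [h]
  simp

lemma Tab.addL {N : ℕ} {L : List ℕ} (hL : Tab N L) (h h' : Fin N) : Tab N (addL L h h') := by
  refine ⟨by simp [P049.addL, hL.1], fun x hx => ?_⟩
  simp only [P049.addL, List.mem_map, List.mem_range] at hx
  obtain ⟨k, hk, rfl⟩ := hx
  have h3 := hL.getD_lt (k := k) (hL.1 ▸ hk)
  cases (k == (h : ℕ)) <;> cases (k == (h' : ℕ)) <;> simp only [cond_true, cond_false, Fin.is_lt, h3]

lemma Tab.toP_addL {N : ℕ} {L : List ℕ} (hL : Tab N L) (h h' : Fin N) :
    toP N (P049.addL L h h') = add (toP N L) h h' := by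
  funext k
  refine Fin.ext ?_
  rw [(hL.addL h h').toP_val, getD_addL (hL.1.symm ▸ k.2), add]
  by_cases h1 : k = h
  · simp [h1]
  · have h1' : ¬ ((k : ℕ) = h) := fun e => h1 (Fin.ext e)
    by_cases h2 : k = h'
    · subst h2
      simp [h1, beq_eq_false_iff_ne.2 h1']
    · have h2' : ¬ ((k : ℕ) = h') := fun e => h2 (Fin.ext e)
      rw [if_neg h1, if_neg h2, hL.toP_val]
      simp [beq_eq_false_iff_ne.2 h1', beq_eq_false_iff_ne.2 h2']

lemma Tab.allowedL_iff {n d : ℕ} {L : List ℕ} (hL : Tab (n * d) L) (h h' : Fin (n * d)) :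
    allowedL d L h h' = true ↔ Allowed (vxf n d) (toP (n * d) L) h h' := by
  simp only [allowedL, Allowed, Bool.and_eq_true, beq_iff_eq, Bool.not_eq_true',
    beq_eq_false_iff_ne, List.all_eq_true, List.mem_range, Bool.or_eq_true, hL.1, ne_eq,
    Fin.ext_iff, hL.toP_val, vxf, Fin.coe_divNat, and_assoc]
  refine and_congr_right fun _ => and_congr_right fun _ => and_congr_right fun _ => ?_
  constructor
  · intro H k h1 h2
    rcases H k k.2 with (h3 | h3) | h3
    · exact absurd h3 h1
    · exact absurd h2 h3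
    · exact h3
  · intro H k hk
    have := H ⟨k, hk⟩
    simp only at this
    tauto

lemma Tab.sz_le {N : ℕ} {L : List ℕ} (hL : Tab N L) : sz L ≤ N * (6 * N + 2) + 1 := by
  have h := sz_list_le (l := L) (B := 6 * N + 1) fun x hx =>
    le_trans (sz_le_self x) (by have := hL.2 x hx; omega)
  rwa [hL.1] at h

variable {α : Type} [Enc α] {e : ℕ}

@[fun_prop]
theorem ct_addL {L : α → List ℕ} {h h' : α → ℕ} (hL : CT e L) (hh : CT e h) (hh' : CT e h') :
    CT e fun a => addL (L a) (h a) (h' a) := by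
  unfold addL
  fun_prop

@[fun_prop]
theorem ct_allowedL (d : ℕ) {L : α → List ℕ} {h h' : α → ℕ} (hL : CT e L) (hh : CT e h)
    (hh' : CT e h') : CT e fun a => allowedL d (L a) (h a) (h' a) := by
  unfold allowedL
  fun_prop

section Switch

variable {V H : Type} [Fintype V] [DecidableEq V] [Fintype H] [DecidableEq H]
  {vx : H → V} {p0 p : H → H}

/-- Unmatch a half-edge and its partner. -/
def unmP (p : H → H) (k : H) : H → H := add (add p k k) (p k) (p k)

omit [Fintype H] in
lemma unmP_apply (p : H → H) (k j : H) : unmP p k j = if j = p k ∨ j = k then j else p j := by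
  unfold unmP add
  by_cases h1 : j = p k
  · simp [h1]
  · by_cases h2 : j = k
    · subst h2
      simp [h1]
    · simp [h1, h2]

omit [Fintype H] in
lemma unmP_invol (hp : Function.Involutive p) (k : H) : Function.Involutive (unmP p k) := by
  intro j
  by_cases h : j = p k ∨ j = k
  · rw [unmP_apply p k j, if_pos h, unmP_apply, if_pos h]
  · rw [unmP_apply p k j, if_neg h, unmP_apply, if_neg, hp]
    rintro (h1 | h1)
    · exact h (Or.inr (hp.injective h1))
    · exact h (Or.inl (by rw [← h1, hp]))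

omit [Fintype H] in
lemma unmP_ne {k j : H} (h : unmP p k j ≠ j) : unmP p k j = p j := by
  rw [unmP_apply] at h ⊢
  split_ifs at h ⊢ with h1
  · exact absurd rfl h
  · rfl

omit [Fintype V] [DecidableEq V] [Fintype H] in
lemma unmP_simple (hs : Simple vx p) (k : H) : Simple vx (unmP p k) := by
  refine ⟨fun j hj => ?_, fun j i hj hi h1 h2 => ?_⟩
  · have e := unmP_ne hj
    rw [e] at hj ⊢
    exact hs.1 j hj
  · have e := unmP_ne hj
    have e' := unmP_ne hi
    rw [e] at hj h2
    rw [e'] at hi h2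
    exact hs.2 j i hj hi h1 h2

lemma card_free_unmP (hp : Function.Involutive p) {k : H} (hk : p k ≠ k) :
    (free (unmP p k)).card = (free p).card + 2 := by
  have e : free (unmP p k) = insert (p k) (insert k (free p)) := by
    ext j
    simp only [free, Finset.mem_filter, Finset.mem_univ, true_and, Finset.mem_insert, unmP_apply]
    by_cases h : j = p k ∨ j = k
    · rw [if_pos h]
      tauto
    · rw [if_neg h]
      tauto
  rw [e, Finset.card_insert_of_notMem, Finset.card_insert_of_notMem]
  · simpa [free] using hk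
  · simp only [free, Finset.mem_insert, Finset.mem_filter, Finset.mem_univ, true_and, hp k]
    rintro (h | h)
    · exact hk h
    · exact hk h.symm

omit [Fintype V] [DecidableEq V] in
lemma card_free_add {h h' : H} (ha : Allowed vx p h h') :
    (free (add p h h')).card + 2 = (free p).card := by
  have hne : h ≠ h' := fun e => ha.2.2.1 (by rw [e])
  have h1 : h ∈ free p := by simpa [free] using ha.1
  have h2 : h' ∈ (free p).erase h := by simpa [free] using ⟨hne.symm, ha.2.1⟩
  rw [free_add ha.1 ha.2.1 hne, rem]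
  have := Finset.card_erase_add_one h1
  have := Finset.card_erase_add_one h2
  omega

omit [Fintype V] [DecidableEq V] [Fintype H] in
lemma add_ne {h h' j : H} (ha : Allowed vx p h h') (hj : p j ≠ j) : add p h h' j = p j := by
  unfold add
  rw [if_neg, if_neg]
  · rintro rfl
    exact hj ha.2.1
  · rintro rfl
    exact hj ha.1

/-- The invariant of the completion. -/
def Inv (vx : H → V) (p0 p : H → H) : Prop :=
  Function.Involutive p ∧ Simple vx p ∧ Even (free p).card ∧ ∀ k, p0 k ≠ k → p k = p0 k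

omit [Fintype V] [DecidableEq V] in
lemma Inv.add (hI : Inv vx p0 p) {h h' : H} (ha : Allowed vx p h h') :
    Inv vx p0 (add p h h') := by
  refine ⟨add_invol hI.1 ha.1 ha.2.1, ha.simple hI.1 hI.2.1, ?_, fun k hk => ?_⟩
  · have h1 := card_free_add ha
    have h2 := hI.2.2.1
    rw [← h1] at h2
    simpa [Nat.even_add] using h2
  · have e := hI.2.2.2 k hk
    rw [add_ne ha (by rwa [e]), e]

omit [Fintype V] [DecidableEq V] in
lemma Inv.unm (hI : Inv vx p0 p) (h0 : Function.Involutive p0) {k : H} (hk0 : p0 k = k)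
    (hk : p k ≠ k) : Inv vx p0 (unmP p k) := by
  refine ⟨unmP_invol hI.1 k, unmP_simple hI.2.1 k, ?_, fun j hj => ?_⟩
  · rw [card_free_unmP hI.1 hk]
    simpa [Nat.even_add] using hI.2.2.1
  · have e := hI.2.2.2 j hj
    rw [unmP_apply, if_neg, e]
    rintro (h | h)
    · rw [h, hI.1] at e
      have e2 : p0 k = p k := by
        conv_lhs => rw [e]
        exact h0 _
      exact hk (by rw [← e2, hk0])
    · exact hj (by rw [h, hk0])

lemma card_nbr {d : ℕ} (hd : ∀ u, (Finset.univ.filter fun k => vx k = u).card = d) (h : H) :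
    (Finset.univ.filter fun k => ∃ j, vx j = vx h ∧ vx (p j) = vx k).card ≤ d ^ 2 := by
  have e : (Finset.univ.filter fun k => ∃ j, vx j = vx h ∧ vx (p j) = vx k) =
      (Finset.univ.filter fun j => vx j = vx h).biUnion
        fun j => Finset.univ.filter fun k => vx k = vx (p j) := by
    ext k
    simp only [Finset.mem_filter, Finset.mem_univ, true_and, Finset.mem_biUnion]
    exact exists_congr fun j => and_congr_right fun _ => eq_comm
  rw [e]
  refine le_trans Finset.card_biUnion_le ?_
  simp [hd, sq]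

theorem exists_switch {d : ℕ} (hd0 : 0 < d)
    (hd : ∀ u, (Finset.univ.filter fun k => vx k = u).card = d) (hI : Inv vx p0 p)
    (h10 : 10 * d ^ 2 ≤ (free p0).card) (hne : (free p).card ≠ 0)
    (hno : ∀ h h', ¬ Allowed vx p h h') : ∃ h h' k, p0 k = k ∧ p k ≠ k ∧
      Allowed vx (unmP p k) h k ∧ Allowed vx (add (unmP p k) h k) h' (p k) := by
  classical
  obtain ⟨hp, hs, he, -⟩ := hI
  have h2 : 1 < (free p).card := by
    obtain ⟨r, hr⟩ := he
    omega
  obtain ⟨h, hh, h', hh', hne'⟩ := Finset.one_lt_card.1 h2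
  have hf : p h = h := by simpa [free] using hh
  have hf' : p h' = h' := by simpa [free] using hh'
  have c1 : (free p).card ≤ d ^ 2 + d := by
    have := card_not_allowed (vx := vx) hd hf
    rwa [Finset.filter_true_of_mem fun x _ => hno h x] at this
  have c2 := card_nbr (p := p) hd h
  have c3 : (Finset.univ.filter fun k => ∃ j, vx j = vx h' ∧ vx (p j) = vx (p k)).card ≤ d ^ 2 := by
    refine le_trans (Finset.card_le_card_of_injOn p (fun k hk => ?_) hp.injective.injOn)
      (card_nbr (p := p) hd h')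
    simpa using hk
  have c4 := hd (vx h')
  have c5 : (free p ∪ (Finset.univ.filter fun k => ∃ j, vx j = vx h ∧ vx (p j) = vx k) ∪
      (Finset.univ.filter fun k => ∃ j, vx j = vx h' ∧ vx (p j) = vx (p k)) ∪
      (Finset.univ.filter fun k => vx k = vx h')).card < (free p0).card := by
    refine lt_of_le_of_lt (Finset.card_union_le _ _) ?_
    refine lt_of_le_of_lt (Nat.add_le_add_right (Finset.card_union_le _ _) _) ?_
    refine lt_of_le_of_lt (Nat.add_le_add_right (Nat.add_le_add_right
      (Finset.card_union_le _ _) _) _) ?_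
    nlinarith
  obtain ⟨k, hk0, hk⟩ := Finset.exists_mem_notMem_of_card_lt_card c5
  simp only [free, Finset.mem_union, Finset.mem_filter, Finset.mem_univ, true_and, not_or,
    not_exists, not_and] at hk hk0
  obtain ⟨⟨⟨k1, k2⟩, k3⟩, k4⟩ := hk
  have u1 : ∀ j, p j = j → unmP p k j = j := fun j hj => by
    rw [unmP_apply]
    split_ifs
    · rfl
    · exact hj
  have u2 : unmP p k k = k := by rw [unmP_apply, if_pos (Or.inr rfl)]
  have u3 : unmP p k (p k) = p k := by rw [unmP_apply, if_pos (Or.inl rfl)]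
  have a1 : Allowed vx (unmP p k) h k := by
    refine ⟨u1 h hf, u2, fun e => k2 h rfl (by rw [hf, e]), fun j hj e => ?_⟩
    rw [unmP_ne hj]
    exact k2 j e
  refine ⟨h, h', k, hk0, k1, a1, ?_, ?_, fun e => k3 h' rfl (by rw [hf', e]), fun j hj e => ?_⟩
  · unfold add
    rw [if_neg hne'.symm, if_neg, u1 h' hf']
    rintro rfl
    exact k1 hf'
  · unfold add
    rw [if_neg, if_neg k1, u3]
    intro e
    apply k1
    rw [← hp k, e, hf, hf]
  · unfold add at hj ⊢
    by_cases j1 : j = h
    · rw [if_pos j1]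
      exact (hs.1 k k1).symm
    · rw [if_neg j1] at hj ⊢
      by_cases j2 : j = k
      · exact absurd (j2 ▸ e) k4
      · rw [if_neg j2] at hj ⊢
        rw [unmP_ne hj]
        exact k3 j e

end Switch

/-- The table after unmatching. -/
def unmL (L : List ℕ) (k : ℕ) : List ℕ := addL (addL L k k) (L.getD k 0) (L.getD k 0)

/-- The table after a switch. -/
def swL (L : List ℕ) (h h' k : ℕ) : List ℕ := addL (addL (unmL L k) h k) h' (L.getD k 0)

/-- The test for a switch. -/
def swOK (d : ℕ) (L0 L : List ℕ) (h h' k : ℕ) : Bool :=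
  (L0.getD k 0 == k) && !(L.getD k 0 == k) && allowedL d (unmL L k) h k &&
    allowedL d (addL (unmL L k) h k) h' (L.getD k 0)

/-- All admissible next tables. -/
def cands (d : ℕ) (L0 L : List ℕ) : List (List ℕ) :=
  ((List.range L.length).flatMap fun h =>
    ((List.range L.length).filter fun h' => allowedL d L h h').map fun h' => addL L h h') ++
  ((List.range L.length).flatMap fun h => (List.range L.length).flatMap fun h' =>
    ((List.range L.length).filter fun k => swOK d L0 L h h' k).map fun k => swL L h h' k)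

/-- One step of the completion. -/
def stepL (d : ℕ) (L0 L : List ℕ) : List ℕ := (cands d L0 L).headD L

/-- The completion. -/
def compl (d : ℕ) (L0 : List ℕ) : List ℕ := L0.foldl (fun s _ => stepL d L0 s) L0

@[fun_prop]
theorem ct_unmL {L : α → List ℕ} {k : α → ℕ} (hL : CT e L) (hk : CT e k) :
    CT e fun a => unmL (L a) (k a) := by
  unfold unmL
  fun_prop

@[fun_prop]
theorem ct_swL {L : α → List ℕ} {h h' k : α → ℕ} (hL : CT e L) (hh : CT e h) (hh' : CT e h')
    (hk : CT e k) : CT e fun a => swL (L a) (h a) (h' a) (k a) := by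
  unfold swL
  fun_prop

@[fun_prop]
theorem ct_swOK (d : ℕ) {L0 L : α → List ℕ} {h h' k : α → ℕ} (hL0 : CT e L0) (hL : CT e L)
    (hh : CT e h) (hh' : CT e h') (hk : CT e k) :
    CT e fun a => swOK d (L0 a) (L a) (h a) (h' a) (k a) := by
  unfold swOK
  fun_prop

theorem ct_stepL (d : ℕ) {L0 L : α → List ℕ} (hL0 : CT e L0) (hL : CT e L) :
    CT e fun a => stepL d (L0 a) (L a) := by
  unfold stepL cands
  fun_prop

lemma mem_cands {d : ℕ} {L0 L c : List ℕ} : c ∈ cands d L0 L ↔
    (∃ h < L.length, ∃ h' < L.length, allowedL d L h h' = true ∧ addL L h h' = c) ∨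
      ∃ h < L.length, ∃ h' < L.length, ∃ k < L.length, swOK d L0 L h h' k = true ∧
        swL L h h' k = c := by
  simp only [cands, List.mem_append, List.mem_flatMap, List.mem_map, List.mem_filter,
    List.mem_range, and_assoc]

lemma stepL_cases (d : ℕ) (L0 L : List ℕ) :
    stepL d L0 L ∈ cands d L0 L ∨ (stepL d L0 L = L ∧ cands d L0 L = []) := by
  unfold stepL
  cases cands d L0 L with
  | nil => exact Or.inr ⟨rfl, rfl⟩
  | cons c r => exact Or.inl (by simp)

/-- Length and entry bound of a table. -/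
def Sm (N B : ℕ) (L : List ℕ) : Prop := L.length = N ∧ ∀ x ∈ L, x ≤ B

lemma Sm.getD {N B : ℕ} {L : List ℕ} (hL : Sm N B L) (k : ℕ) : L.getD k 0 ≤ B := by
  by_cases hk : k < L.length
  · rw [List.getD_eq_getElem _ _ hk]
    exact hL.2 _ (List.getElem_mem hk)
  · rw [List.getD_eq_default _ _ (by omega)]
    exact Nat.zero_le _

lemma Sm.addL {N B : ℕ} {L : List ℕ} (hL : Sm N B L) {h h' : ℕ} (hh : h ≤ B) (hh' : h' ≤ B) :
    Sm N B (addL L h h') := by
  refine ⟨by simp [P049.addL, hL.1], fun x hx => ?_⟩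
  simp only [P049.addL, List.mem_map, List.mem_range] at hx
  obtain ⟨k, -, rfl⟩ := hx
  have h3 := hL.getD k
  cases (k == h) <;> cases (k == h') <;> simp only [cond_true, cond_false] <;> assumption

lemma Sm.stepL {N B : ℕ} {L : List ℕ} (hL : Sm N B L) (hB : N ≤ B) (d : ℕ) (L0 : List ℕ) :
    Sm N B (stepL d L0 L) := by
  rcases stepL_cases d L0 L with h | h
  · have e := hL.1
    rcases mem_cands.1 h with ⟨h, h1, h', h2, -, h3⟩ | ⟨h, h1, h', h2, k, h3, -, h4⟩
    · rw [← h3]
      exact hL.addL (by omega) (by omega)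
    · rw [← h4]
      have g := hL.getD k
      exact (((hL.addL (by omega) (by omega)).addL g g).addL (by omega) (by omega)).addL
        (by omega) g
  · rw [h.1]
    exact hL

theorem ct_compl (d : ℕ) : CT 0 (compl d) := by
  have hs : CT 0 fun a : List ℕ => a.sum + a.length := by fun_prop
  refine CT.foldl_inv (g := fun (a : List ℕ) s (_ : ℕ) => stepL d a s) (init := fun a => a)
    (l := fun a => a) (B := fun a => a.length * (sz (a.sum + a.length) + 1) + 1)
    (ct_stepL d (by fun_prop) (by fun_prop)) CT.id CT.id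
    (((CT.id (e := 0)).bd_length.mul (hs.size.add (Bd.const 1))).add (Bd.const 1))
    (fun a s _ => Sm a.length (a.sum + a.length) s)
    (fun a => ⟨rfl, fun x hx => le_trans (List.single_le_sum (fun _ _ => Nat.zero_le _) x hx)
      (Nat.le_add_right _ _)⟩)
    (fun a s x r h => h.stepL (Nat.le_add_left _ _) d a) (fun a s r h => ?_)
  have h1 := sz_list_le (l := s) fun x hx => sz_mono (h.2 x hx)
  rwa [h.1] at h1

lemma Tab.unmL {N : ℕ} {L : List ℕ} (hL : Tab N L) (k : Fin N) :
    Tab N (unmL L k) ∧ toP N (P049.unmL L k) = unmP (toP N L) k := by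
  unfold P049.unmL unmP
  rw [← hL.toP_val k]
  exact ⟨(hL.addL k k).addL _ _, by rw [(hL.addL k k).toP_addL, hL.toP_addL]⟩

lemma swOK_iff {n d : ℕ} {L0 L : List ℕ} (hL0 : Tab (n * d) L0) (hL : Tab (n * d) L)
    (h h' k : Fin (n * d)) : swOK d L0 L h h' k = true ↔
      toP (n * d) L0 k = k ∧ toP (n * d) L k ≠ k ∧
        Allowed (vxf n d) (unmP (toP (n * d) L) k) h k ∧
        Allowed (vxf n d) (add (unmP (toP (n * d) L) k) h k) h' (toP (n * d) L k) := by
  obtain ⟨t1, t2⟩ := hL.unmL k
  unfold swOK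
  rw [← hL.toP_val k, ← hL0.toP_val k]
  simp only [Bool.and_eq_true, beq_iff_eq, Bool.not_eq_true', beq_eq_false_iff_ne, and_assoc,
    t1.allowedL_iff, (t1.addL h k).allowedL_iff, t1.toP_addL, t2, ne_eq, Fin.ext_iff]

lemma step_inv {n d : ℕ} (hd : 0 < d) {L0 L : List ℕ} (hL0 : Tab (n * d) L0)
    (h0 : Function.Involutive (toP (n * d) L0)) (h10 : 10 * d ^ 2 ≤ (free (toP (n * d) L0)).card)
    (hI : Tab (n * d) L ∧ Inv (vxf n d) (toP (n * d) L0) (toP (n * d) L)) :
    (Tab (n * d) (stepL d L0 L) ∧ Inv (vxf n d) (toP (n * d) L0) (toP (n * d) (stepL d L0 L))) ∧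
      (free (toP (n * d) (stepL d L0 L))).card ≤ (free (toP (n * d) L)).card - 1 := by
  obtain ⟨hL, hI⟩ := hI
  have e := hL.1
  rcases stepL_cases d L0 L with h | h
  · rcases mem_cands.1 h with ⟨h, h1, h', h2, h3, h4⟩ | ⟨h, h1, h', h2, k, h3, h4, h5⟩
    · rw [e] at h1 h2
      have a := (hL.allowedL_iff ⟨h, h1⟩ ⟨h', h2⟩).1 h3
      have t1 := hL.addL ⟨h, h1⟩ ⟨h', h2⟩
      have t2 := hL.toP_addL ⟨h, h1⟩ ⟨h', h2⟩
      simp only at t1 t2
      rw [← h4, t2]
      have := card_free_add a
      exact ⟨⟨t1, hI.add a⟩, by omega⟩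
    · rw [e] at h1 h2 h3
      obtain ⟨a1, a2, a3, a4⟩ := (swOK_iff hL0 hL ⟨h, h1⟩ ⟨h', h2⟩ ⟨k, h3⟩).1 h4
      obtain ⟨t1, t2⟩ := hL.unmL ⟨k, h3⟩
      have t3 := t1.addL ⟨h, h1⟩ ⟨k, h3⟩
      have t4 := t3.addL ⟨h', h2⟩ (toP (n * d) L ⟨k, h3⟩)
      have t5 := t3.toP_addL ⟨h', h2⟩ (toP (n * d) L ⟨k, h3⟩)
      rw [t1.toP_addL, t2] at t5
      rw [hL.toP_val] at t4 t5
      simp only at t4 t5
      rw [← h5, swL, t5]
      have c1 := card_free_unmP hI.1 a2
      have c2 := card_free_add a3
      have c3 := card_free_add a4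
      exact ⟨⟨t4, ((hI.unm h0 a1 a2).add a3).add a4⟩, by omega⟩
  · rw [h.1]
    refine ⟨⟨hL, hI⟩, ?_⟩
    by_contra hc
    have f : ∀ a : Fin (n * d), (a : ℕ) < L.length := fun a => by
      rw [e]
      exact a.2
    have hno : ∀ a b, ¬ Allowed (vxf n d) (toP (n * d) L) a b := fun a b hab => by
      have : addL L a b ∈ cands d L0 L :=
        mem_cands.2 (Or.inl ⟨a, f a, b, f b, (hL.allowedL_iff a b).2 hab, rfl⟩)
      simp [h.2] at this
    obtain ⟨a, b, k, hk⟩ := exists_switch hd (card_fiber n d) hI h10 (by omega) hno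
    have : swL L a b k ∈ cands d L0 L :=
      mem_cands.2 (Or.inr ⟨a, f a, b, f b, k, f k, (swOK_iff hL0 hL a b k).2 hk, rfl⟩)
    simp [h.2] at this

lemma fold_inv {n d : ℕ} (hd : 0 < d) {L0 : List ℕ} (hL0 : Tab (n * d) L0)
    (h0 : Function.Involutive (toP (n * d) L0)) (h10 : 10 * d ^ 2 ≤ (free (toP (n * d) L0)).card)
    (l : List ℕ) : ∀ L : List ℕ, Tab (n * d) L ∧ Inv (vxf n d) (toP (n * d) L0) (toP (n * d) L) →
      (Tab (n * d) (l.foldl (fun s _ => stepL d L0 s) L) ∧
        Inv (vxf n d) (toP (n * d) L0) (toP (n * d) (l.foldl (fun s _ => stepL d L0 s) L))) ∧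
      (free (toP (n * d) (l.foldl (fun s _ => stepL d L0 s) L))).card ≤
        (free (toP (n * d) L)).card - l.length := by
  induction l with
  | nil => exact fun L h => ⟨h, by simp⟩
  | cons x r ih =>
    intro L h
    obtain ⟨h1, h2⟩ := step_inv hd hL0 h0 h10 h
    obtain ⟨h3, h4⟩ := ih _ h1
    rw [List.foldl_cons, List.length_cons]
    exact ⟨h3, by omega⟩

/-- Repeat (a number of times equal to the length of the table): if an allowed pair of free
half-edges exists, match it; otherwise, if free half-edges `h ≠ h'` remain (then at most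
`d ^ 2 + d` remain, by `card_not_allowed`), find a half-edge `k` that was free in the input table
and is now matched to `k'`, such that after unmatching `k, k'` the pair `(h, k)` is allowed and
then `(h', k')` is allowed; at most `2 (d ^ 2 + d) + d` values of `k` are bad. -/
theorem exists_complete (d : ℕ) (hd : 0 < d) : ∃ f : List ℕ → List ℕ, CT 0 f ∧
    ∀ (n : ℕ) (L : List ℕ), Tab (n * d) L → Function.Involutive (toP (n * d) L) →
      Simple (vxf n d) (toP (n * d) L) → Even (free (toP (n * d) L)).card →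
      10 * d ^ 2 ≤ (free (toP (n * d) L)).card →
      Tab (n * d) (f L) ∧ Function.Involutive (toP (n * d) (f L)) ∧
        Simple (vxf n d) (toP (n * d) (f L)) ∧ (∀ k, toP (n * d) (f L) k ≠ k) ∧
        ∀ k, toP (n * d) L k ≠ k → toP (n * d) (f L) k = toP (n * d) L k := by
  refine ⟨compl d, ct_compl d, fun n L hL hi hs he h10 => ?_⟩
  obtain ⟨h1, h2⟩ := fold_inv hd hL hi h10 L L ⟨hL, hi, hs, he, fun _ _ => rfl⟩
  refine ⟨h1.1, h1.2.1, h1.2.2.1, fun k hk => ?_, h1.2.2.2.2⟩
  have h3 : (free (toP (n * d) L)).card ≤ L.length := by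
    rw [hL.1]
    exact le_trans (Finset.card_le_univ _) (by simp)
  have h4 : free (toP (n * d) (compl d L)) = ∅ := Finset.card_eq_zero.1 (by
    unfold compl
    omega)
  have h5 : k ∈ free (toP (n * d) (compl d L)) := by simpa [free] using hk
  simp [h4] at h5

end Vale.Agent.P049
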