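import Vale.Agent.P049.Early

/-!
The normalized drift of the terms of the potential in the first two phases, and the steps.
Below `R = r`, `S = card (free p) = R ^ x`, `ε = R ^ (-2)`.
-/

namespace Vale.Agent.P049.Prm

open Matrix Finset

variable {P : Prm} {p : P.HE → P.HE} {j : Fin 4} {s : Bool} {c : Ctx P.HE}

lemma dr_pow (R : ℝ) (n : ℕ) {a : ℝ} (h : (n : ℝ) = a) : R ^ n = Ex R a := by rw [Ex_nat, h]

lemma dr_eps (hG : P.Good) : 0 ≤ Ex P.r (-2) ∧ Ex P.r (-2) ≤ 1 / 100 := by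
  have hR := hG.one_lt
  have hR9 := hG.R_ge
  exact ⟨(Ex_pos hR _).le, Ex_le_const hR (by linarith) (by norm_num)⟩

lemma Fit.dr_card (hc : P.Fit p c) : c.σ ^ 2 = (free p).card ∧ (100 : ℝ) ≤ (free p).card := by
  refine ⟨by rw [← hc.ok.card, hc.U], ?_⟩
  have := hc.ok.card_ge
  rw [hc.U] at this
  exact_mod_cast this

lemma dr_avg_div (f : P.HE → P.HE → ℝ) (L : ℝ) :
    (c.avg fun h h' => f h h' / L) = c.avg f / L := by
  rw [div_eq_inv_mul (c.avg f), ← c.avg_mul]
  exact c.avg_congr fun _ _ => div_eq_inv_mul _ _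

/-- The data of one move in normalized form. -/
lemma St.dr_move (hG : P.Good) (hp : P.St p) (hc : P.Fit p c) (hj : P.Act j (free p).card)
    (hj' : P.Act j ((free p).card - 2)) (hpt : c.Pt (P.pr s j (free p).card) (P.Op s j p))
    {X z : ℝ} (hX : |(P.x j (free p).card : ℝ)| ≤ X) (hX' : P.dx (free p).card * (free p).card ≤ X)
    (hz : 5 * X / ((free p).card : ℝ) ^ 2 ≤ z) (hu : 100 * X / (free p).card ≤ Ex P.r (-2))
    (hn : z * (c.nsh + 2) ≤ 1 / 2) :
    (∀ pr ∈ c.Pr, (P.Mp s j (add p pr.1 pr.2)).PosDef) ∧ P.uu j (free p).card ≠ 0 ∧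
      (∀ pr ∈ c.Pr, Shift (P.uu j (free p).card) (P.dg j (free p).card * P.uu j (free p).card)
        (sharp (P.pr s j (free p).card) c.U (P.Op s j p) pr.1 pr.2) (P.Op s j (add p pr.1 pr.2))) ∧
      |P.dg j (free p).card * P.uu j (free p).card| ≤ z ∧ z * c.nsh ≤ 1 / 2 ∧
      P.uu j (free p).card ^ 4 ≤ 1 + Ex P.r (-2) / (free p).card := by
  obtain ⟨-, -, a1, a2, a3, a4⟩ := hG.step hj hj' hX hX'
  have h0 := hc.ok.num.full_nsh
  have hz0 : 0 ≤ z := (abs_nonneg _).trans (a2.trans hz)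
  have hS : (0 : ℝ) < (free p).card := by linarith [hc.dr_card.2]
  have hm := hp.move hG hc hj hj' hpt (by
    have := mul_le_mul_of_nonneg_right (a3.trans hz) (show 0 ≤ c.nsh + 2 by linarith)
    linarith)
  refine ⟨hm.1, a1, hm.2.2, a2.trans hz, by nlinarith, a4.trans ?_⟩
  have : 100 * X / ((free p).card : ℝ) ^ 2 = 100 * X / (free p).card / (free p).card := by
    rw [div_div, sq]
  rw [this]
  gcongr

/-- `fullZ` with `u = uu`, `ζ = dg * uu` (`St.move`, `Good.step`), then `norm_const` with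
`L = Lam ^ 2`, `κ = - 4 (S + vp Y) ≤ 4 ε S`. -/
theorem St.driftZ (hG : P.Good) (hp : P.St p) (hc : P.Fit p c) (hj : P.Act j (free p).card)
    (hj' : P.Act j ((free p).card - 2)) (hpt : c.Pt (P.pr s j (free p).card) (P.Op s j p))
    (hN : c.N ≤ 2 * ((free p).card : ℝ) ^ 2) {X z Γ : ℝ}
    (hX : |(P.x j (free p).card : ℝ)| ≤ X) (hX' : P.dx (free p).card * (free p).card ≤ X)
    (hz : 5 * X / ((free p).card : ℝ) ^ 2 ≤ z) (hu : 100 * X / (free p).card ≤ Ex P.r (-2))
    (hn : z * (c.nsh + 2) ≤ 1 / 2) (hZ : |Zf (P.Op s j p)| ≤ P.Lam j)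
    (hv : |(P.pr s j (free p).card).vp| * Yf (P.Op s j p) ≤ (1 + Ex P.r (-2)) * (free p).card)
    (hΓ : |P.dg j (free p).card * P.uu j (free p).card * ((free p).card : ℝ) ^ 2 * Yf (P.Op s j p)
      - 2 * (P.pr s j (free p).card).A1 * (free p).card * Yf (P.Op s j p)
      + 2 * (P.pr s j (free p).card).A0 * ip c.F (P.Op s j p * P.Op s j p)| ≤ Γ)
    (he : 1000 * P.Lam j * c.E1 z Γ + 10000 * c.E2 z
      ≤ Ex P.r (-2) * (P.Lam j : ℝ) ^ 2 * (free p).card) :
    (c.avg fun h h' => P.tZ s j (add p h h')) - c.N * P.tZ s j p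
      ≤ 20 * Ex P.r (-2) * (free p).card := by
  have hR := hG.one_lt
  obtain ⟨-, a1, a2, a3, a4, a5⟩ := hp.dr_move hG hc hj hj' hpt hX hX' hz hu hn
  obtain ⟨hσ, hS⟩ := hc.dr_card
  have hσ4 : c.σ ^ 4 = ((free p).card : ℝ) ^ 2 := by rw [← hσ]; ring
  have hL : (0 : ℝ) < P.Lam j := by
    unfold Lam
    split_ifs <;> exact pow_pos (by linarith) _
  have hf := hpt.fullZ hc.ok (O' := fun h h' => P.Op s j (add p h h')) (Γ := Γ) a1 a2 a3 a4 hZ
    (by rw [hσ4, hσ]; exact hΓ)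
  have hY0 : 0 ≤ Yf (P.Op s j p) := ip_self_nonneg _
  have hq := norm_const (A := c.avg fun h h' => Zf (P.Op s j (add p h h')) ^ 2) (N := c.N)
    (S := (free p).card) (ε := Ex P.r (-2)) (Z := Zf (P.Op s j p) ^ 2) (L := (P.Lam j : ℝ) ^ 2)
    (u := P.uu j (free p).card ^ 4)
    (κ := -4 * ((free p).card + (P.pr s j (free p).card).vp * Yf (P.Op s j p)))
    (e := 1000 * P.Lam j * c.E1 z Γ + 10000 * c.E2 z) hS (dr_eps hG).1 (dr_eps hG).2
    (pow_pos hL 2) (sq_nonneg _) (sq_le_sq' (abs_le.1 hZ).1 (abs_le.1 hZ).2) hc.ok.N_nonneg hN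
    (by positivity) a5
    (by
      have := mul_le_mul_of_nonneg_right (neg_le_abs (P.pr s j (free p).card).vp) hY0
      linarith) he
    (by
      rw [hσ] at hf
      refine hf.trans (le_of_eq ?_)
      ring)
  simp only [tZ]
  rw [dr_avg_div]
  exact hq

/-- `fullV` with the `Q` of `St.exists_Q`, `Num.Ok.EV_mono`, then `norm_const` with
`L = R ^ 26800`, `κ = - 2 S + 3 vp ^ 2 Q ≤ 0`. -/
theorem St.driftV (hG : P.Good) (hp : P.St p) (hc : P.Fit p c) (hj : P.Act j (free p).card)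
    (hj' : P.Act j ((free p).card - 2)) (hpt : c.Pt (P.pr s j (free p).card) (P.Op s j p))
    (hN : c.N ≤ 2 * ((free p).card : ℝ) ^ 2) {x X z χ zb : ℝ}
    (hx : ((free p).card : ℝ) = Ex P.r x)
    (hX : |(P.x j (free p).card : ℝ)| ≤ X) (hX' : P.dx (free p).card * (free p).card ≤ X)
    (hz : 5 * X / ((free p).card : ℝ) ^ 2 ≤ z) (hu : 100 * X / (free p).card ≤ Ex P.r (-2))
    (hn : z * (c.nsh + 2) ≤ 1 / 2) (hZ : |Zf (P.Op s j p)| ≤ zb)
    (hV : Vf (P.Op s j p) ≤ Ex P.r 26800) (hY : Yf (P.Op s j p) ≤ 12 * (free p).card)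
    (hv : |(P.pr s j (free p).card).vp| * Yf (P.Op s j p) ≤ (1 + Ex P.r (-2)) * (free p).card)
    (hχ : |P.dg j (free p).card * P.uu j (free p).card * (free p).card
      - 2 * (P.pr s j (free p).card).A1| ≤ χ)
    (hQ : 40 * c.n1 * c.v ^ 2 / (1 / P.r) ^ 2 + 83 * c.v ^ 4 / (1 / P.r) ^ 4 ≤ Ex P.r (x - 1))
    (he : 20000 * c.EV zb (Ex P.r (x + 2)) z χ ≤ Ex P.r (26800 + x - 2)) :
    (c.avg fun h h' => P.tV s j (add p h h')) - c.N * P.tV s j p
      ≤ 20 * Ex P.r (-2) * (free p).card := by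
  have hR := hG.one_lt
  obtain ⟨-, a1, a2, a3, a4, a5⟩ := hp.dr_move hG hc hj hj' hpt hX hX' hz hu hn
  obtain ⟨hσ, hS⟩ := hc.dr_card
  obtain ⟨m0, m2, -⟩ := hG.basic hj
  obtain ⟨hE, Q, q1, q2, q3⟩ := hp.exists_Q hG hc hj hpt hx hY hv hQ
  have hf := hpt.fullV hc.ok (O' := fun h h' => P.Op s j (add p h h')) (χ := χ) a1 a2 a3 a4
    (by rw [hσ]; exact hχ) m0.le m2 hE hZ q1
  have hm := hc.ok.num.EV_mono (zb := zb) (χ := χ) le_rfl q2 ((abs_nonneg _).trans a3) le_rfl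
  have hq := norm_const (A := c.avg fun h h' => Vf (P.Op s j (add p h h'))) (N := c.N)
    (S := (free p).card) (ε := Ex P.r (-2)) (Z := Vf (P.Op s j p)) (L := Ex P.r 26800)
    (u := P.uu j (free p).card ^ 4)
    (κ := -2 * (free p).card + 3 * (P.pr s j (free p).card).vp ^ 2 * Q)
    (e := 20000 * c.EV zb Q z χ) hS (dr_eps hG).1 (dr_eps hG).2
    (Ex_pos hR _) (sum_nonneg fun _ _ => sq_nonneg _) hV hc.ok.N_nonneg hN
    (by positivity) a5
    (by
      have := mul_nonneg (dr_eps hG).1 (show (0 : ℝ) ≤ (free p).card by linarith)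
      linarith)
    (by
      rw [hx, Ex_mul hR, Ex_mul hR]
      refine le_trans (by linarith) (he.trans (Ex_le hR (by linarith))))
    (by
      rw [hσ] at hf
      refine hf.trans (le_of_eq ?_)
      ring)
  simp only [tV]
  rw [dr_avg_div, dr_pow (P.r : ℝ) 26800 (a := 26800) (by norm_num)]
  exact hq

/-- From `Good.mismatch`: `|ζ S - 2 A1| ≤ (dx S + 3) / (S - 2)`. -/
lemma Good.chi_le (hG : P.Good) {S : ℕ} (hj : P.Act j S) (hj' : P.Act j (S - 2)) (s : Bool) :
    |P.dg j S * P.uu j S * S - 2 * (P.pr s j S).A1| ≤ (2 * (P.dx S * S) + 4) / S := by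
  have hR := hG.one_lt
  have hR9 := hG.R_ge
  obtain ⟨h1, -⟩ := hG.mismatch hj hj' s
  obtain ⟨-, -, h2, -⟩ := hG.basic hj
  have h3 : |(P.ω j S : ℝ)| ≤ 1 / 2 :=
    (hG.ω_le hj).trans (Ex_le_const hR (by linarith) (by norm_num))
  have hS : (100 : ℝ) ≤ S := (const_le_Ex hR (by linarith) (by norm_num)).trans (hj.big hG)
  have h4 : 0 ≤ P.dx S * S := mul_nonneg (hG.dx_nonneg S) (by linarith)
  have h5 : |sg s| = 1 := by cases s <;> simp [sg]
  have h6 : |P.dx S * S + 2 * P.ω j S + 2 * sg s| ≤ P.dx S * S + 3 := by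
    have a := abs_le.1 h3
    have b := abs_le.1 h5.le
    rw [abs_le]
    constructor <;> linarith [a.1, a.2, b.1, b.2]
  have h7 := congrArg abs h1
  rw [abs_mul, abs_div, abs_of_nonneg (show (0 : ℝ) ≤ P.ρ j S by linarith),
    abs_of_nonneg (show (0 : ℝ) ≤ S - 2 by linarith)] at h7
  generalize P.dx S * S = a at h4 h6 h7 ⊢
  calc _ ≤ _ := le_mul_of_one_le_right (abs_nonneg _) h2
    _ = _ := h7
    _ ≤ (a + 3) / (S - 2) := div_le_div_of_nonneg_right h6 (by linarith)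
    _ ≤ _ := by
      rw [div_le_div_iff₀ (by linarith) (by linarith)]
      nlinarith

lemma Early.dr_fit (hG : P.Good) (hp : P.Early p) (hS : (free p).card ≤ P.S1) {x : ℝ}
    (hx : ((free p).card : ℝ) = Ex P.r x) (h1 : 123200 ≤ x) (h2 : x ≤ 128800) :
    ∃ c : Ctx P.HE, c.toNum = numB P.r x ∧ c.F = 0 ∧ P.Fit p c ∧
      ∀ s j, j ≠ 0 → c.Pt (P.pr s j (free p).card) (P.Op s j p) := by
  have hR := hG.one_lt
  have hR9 := hG.R_ge
  have hI : ∀ i ∈ (univ ×ˢ ({1, 2, 3} : Finset (Fin 4)) : Finset (Bool × Fin 4)), i.2 ≠ 0 := by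
    decide
  have hc : (univ ×ˢ ({1, 2, 3} : Finset (Fin 4)) : Finset (Bool × Fin 4)).card = 6 := by decide
  obtain ⟨c, e1, e2, e3, e4⟩ := hp.toSt.exists_fit hG (univ ×ˢ ({1, 2, 3} : Finset (Fin 4)))
    (hc.trans_le (by norm_num)) (numB P.r x) (numB_ok hR9 h1 h2) (by
      simp only [numB]
      rw [hx, Ex_pow hR]
      congr 1
      push_cast
      ring) (numB_ctx hR9 h1 h2) 0 (fun _ _ => rfl) (fun _ _ _ => rfl)
    (fun _ _ => by simp) (fun y => by simp [numB]) (fun _ => by simp)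
    (fun i : Bool × Fin 4 => P.pr i.1 i.2 (free p).card) (fun i => P.Op i.1 i.2 p)
    (fun i _ => hp.toSt.cent i.1 i.2)
    (fun i hi => by
      obtain ⟨a1, a2, a3, -⟩ := hG.pr_le (hp.act hG (hI i hi)).1 i.1 (hG.x_late (hI i hi) hS)
      refine ⟨a1.trans ?_, a2, a3⟩
      simp only [numB]
      rw [hx, div_le_iff₀ (Ex_pos hR _), Ex_mul hR]
      have b1 : (1 : ℝ) ≤ Ex P.r 63083 := one_le_Ex hR (by norm_num)
      have b2 : 4 * Ex P.r 63083 ≤ Ex P.r (63084 - x + x) := mul_Ex_le hR (by linarith) (by linarith)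
      linarith)
    (by
      refine (sum_le_card_nsmul _ _ _ fun i hi => hp.V i.1 i.2 (hI i hi)).trans ?_
      simp only [numB]
      rw [hc, nsmul_eq_mul, Ex_pow hR]
      exact mul_Ex_le hR (by push_cast; linarith) (by norm_num))
    (fun i hi => by
      have e := hp.eb hG (hp.act hG (hI i hi)).1 i.1
      simp only [numB]
      refine ⟨e.Y.trans ?_, e.Xi.trans ?_, e.T.trans ?_, e.op⟩
      · rw [hx, Ex_pow hR]
        exact mul_Ex_le hR (by linarith) (by push_cast; linarith)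
      · rw [hx, Ex_pow hR]
        have b1 : P.r * Ex P.r x ≤ Ex P.r 148243 := mul_Ex_le hR le_rfl (by linarith)
        have b2 : 2 * Ex P.r 148243 ≤ Ex P.r ((2 : ℕ) * 74122) :=
          mul_Ex_le hR (by linarith) (by norm_num)
        linarith
      · rw [Ex_pow hR]
        exact Ex_le hR (by norm_num))
    (fun i hi => (hp.eb hG (hp.act hG (hI i hi)).1 i.1).sc)
  refine ⟨c, e1, e2, e3, fun s j hj => e4 (s, j) ?_⟩
  revert j
  cases s <;> decide

/-- The second phase: context `numB R x` with `F = 0` for the six points `Bool × {1, 2, 3}`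
(`St.exists_fit`, `Early.eb`), `X = R ^ 63083` (`Good.x_late`, `dx = 0`), `z = R ^ (63084 - 2 x)`,
`Γ = R ^ (x + 5)`, `χ = R ^ (1 - x)`; sum the twelve drifts and use `Fit.pick`; `St.move` at
`j = 3` gives the barrier condition. -/
theorem Early.stepB (hG : P.Good) (hp : P.Early p) (hS : (free p).card ≤ P.S1) :
    ∃ h h', Allowed (vxf P.n P.d) p h h' ∧ P.PD (add p h h') ∧
      P.PsiB (add p h h') ≤ P.PsiB p + 1 / (P.r * (free p).card) := by
  have hR := hG.one_lt
  have hR9 := hG.R_ge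
  have st := hp.toSt
  obtain ⟨z1, z2, -⟩ := hG.sizes
  have lo := hp.lo
  obtain ⟨x, hx⟩ := exists_Ex (x := ((free p).card : ℝ)) hR (by exact_mod_cast (by omega))
  have x1 : 123200 ≤ x := by
    rw [← Ex_le_iff hR, ← hx, ← dr_pow (P.r : ℝ) 123200 (by norm_num)]
    exact_mod_cast lo
  have x2 : x ≤ 128800 := by
    rw [← Ex_le_iff hR, ← hx, ← dr_pow (P.r : ℝ) 128800 (by norm_num)]
    exact_mod_cast hS
  obtain ⟨c, e1, e2, hc, hpt⟩ := hp.dr_fit hG hS hx x1 x2
  obtain ⟨n1, n2⟩ := hc.N_near hG hx (by rw [e1]; exact numB_N hR9 x1 x2)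
  have hS0 : (0 : ℝ) < (free p).card := by linarith [hc.dr_card.2]
  have hN : c.N ≤ 2 * ((free p).card : ℝ) ^ 2 := by
    have := mul_le_mul_of_nonneg_right (dr_eps hG).2 (sq_nonneg ((free p).card : ℝ))
    have := sq_nonneg ((free p).card : ℝ)
    linarith
  have d0 : P.dx (free p).card = 0 := hG.dx_zero (Or.inl hS)
  have hX' : P.dx (free p).card * (free p).card ≤ Ex P.r 63083 := by
    rw [d0, zero_mul]
    exact (Ex_pos hR _).le
  have hz : 5 * Ex P.r 63083 / ((free p).card : ℝ) ^ 2 ≤ Ex P.r (63084 - 2 * x) := by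
    rw [hx, Ex_pow hR, mul_div_assoc, Ex_div hR]
    exact mul_Ex_le hR (by linarith) (by push_cast; linarith)
  have hu : 100 * Ex P.r 63083 / (free p).card ≤ Ex P.r (-2) := by
    rw [hx, mul_div_assoc, Ex_div hR]
    exact mul_Ex_le hR (by linarith) (by linarith)
  have hn : Ex P.r (63084 - 2 * x) * (c.nsh + 2) ≤ 1 / 2 := by
    have a1 : c.nsh = Ex P.r 73406 := by rw [e1]; rfl
    have a2 : (1 : ℝ) ≤ Ex P.r 73406 := one_le_Ex hR (by norm_num)
    have a3 := Ex_pos hR (63084 - 2 * x)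
    have a4 : Ex P.r (63084 - 2 * x) * Ex P.r 73406 ≤ 1 / 6 := by
      rw [Ex_mul hR]
      exact Ex_le_const hR (by linarith) (by linarith)
    rw [a1]
    nlinarith
  have hχ : ∀ s j, j ≠ 0 → |P.dg j (free p).card * P.uu j (free p).card * (free p).card
      - 2 * (P.pr s j (free p).card).A1| ≤ 4 / (free p).card := fun s j hj => by
    have := hG.chi_le (hp.act hG hj).1 (hp.act hG hj).2 s
    rwa [d0, zero_mul, mul_zero, zero_add] at this
  have hL : ∀ j : Fin 4, j ≠ 0 → (P.Lam j : ℝ) = Ex P.r 58480 := fun j hj => by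
    unfold Lam
    rw [if_neg hj, dr_pow (P.r : ℝ) 58480 (a := 58480) (by norm_num)]
  have dZ : ∀ s j, j ≠ 0 → (c.avg fun h h' => P.tZ s j (add p h h')) - c.N * P.tZ s j p
      ≤ 20 * Ex P.r (-2) * (free p).card := fun s j hj => by
    obtain ⟨a, a'⟩ := hp.act hG hj
    have e := hp.eb hG a s
    refine st.driftZ hG hc a a' (hpt s j hj) hN (Γ := Ex P.r (x + 5)) (hG.x_late hj hS) hX' hz hu hn
      (by rw [hL j hj]; exact hp.Z s j hj) e.Yvp ?_ ?_
    · have b0 : ip (0 : Matrix P.HE P.HE ℝ) (P.Op s j p * P.Op s j p) = 0 := by simp [ip]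
      have b1 : 0 ≤ Yf (P.Op s j p) := ip_self_nonneg _
      have b2 := hχ s j hj
      rw [le_div_iff₀ hS0] at b2
      have b3 : 48 * ((free p).card : ℝ) ≤ Ex P.r (x + 5) := by
        rw [hx]
        exact mul_Ex_le hR (by linarith) (by linarith)
      rw [e2, b0, mul_zero, add_zero]
      calc _ = |P.dg j (free p).card * P.uu j (free p).card * (free p).card
            - 2 * (P.pr s j (free p).card).A1| * (free p).card * Yf (P.Op s j p) := by
            rw [← abs_of_nonneg b1, ← abs_of_pos hS0, ← abs_mul, ← abs_mul, abs_of_nonneg b1,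
              abs_of_pos hS0]
            congr 1
            ring
        _ ≤ 4 * (12 * (free p).card) := mul_le_mul b2 e.Y b1 (by norm_num)
        _ ≤ _ := by linarith
    · have := numB_Z hR9 x1 x2
      rw [← e1] at this
      rw [hL j hj]
      refine this.trans ?_
      rw [hx, Ex_pow hR, Ex_mul hR, Ex_mul hR]
      exact Ex_le hR (by push_cast; linarith)
  have dV : ∀ s j, j ≠ 0 → (c.avg fun h h' => P.tV s j (add p h h')) - c.N * P.tV s j p
      ≤ 20 * Ex P.r (-2) * (free p).card := fun s j hj => by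
    obtain ⟨a, a'⟩ := hp.act hG hj
    have e := hp.eb hG a s
    refine st.driftV hG hc a a' (hpt s j hj) hN (χ := Ex P.r (1 - x)) hx (hG.x_late hj hS) hX' hz hu
      hn (hp.Z s j hj) (hp.V s j hj) e.Y e.Yvp ((hχ s j hj).trans ?_) ?_ ?_
    · rw [hx, div_le_iff₀ (Ex_pos hR _), Ex_mul hR]
      exact const_le_Ex hR (by linarith) (by linarith)
    · rw [e1]
      exact numB_Q hR9 x1 x2
    · rw [e1]
      exact numB_V hR9 x1 x2
  obtain ⟨pr, hpr, hle⟩ := hc.pick hG n1 (f := fun h h' => P.PsiB (add p h h')) (y := P.PsiB p) (by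
    have hs : ∀ f : Fin 4 → ℝ, ∑ j ∈ ({1, 2, 3} : Finset (Fin 4)), f j = f 1 + f 2 + f 3 :=
      fun f => by rw [sum_insert (by decide), sum_pair (by decide), add_assoc]
    simp only [PsiB, Fintype.sum_bool, hs, Ctx.avg_add]
    have := mul_nonneg (dr_eps hG).1 hS0.le
    linarith [dZ true 1 (by decide), dZ true 2 (by decide), dZ true 3 (by decide),
      dZ false 1 (by decide), dZ false 2 (by decide), dZ false 3 (by decide),
      dV true 1 (by decide), dV true 2 (by decide), dV true 3 (by decide),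
      dV false 1 (by decide), dV false 2 (by decide), dV false 3 (by decide)])
  obtain ⟨a, a'⟩ := hp.act hG (j := 3) (by decide)
  exact ⟨pr.1, pr.2, hc.al pr hpr, fun s => (st.dr_move hG hc a a' (hpt s 3 (by decide))
    (hG.x_late (by decide) hS) hX' hz hu hn).1 pr hpr, hle⟩

end Vale.Agent.P049.Prm
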