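import Vale.Agent.P049.State

/-!
Structural bounds in the first two phases. Below `R = r`, `S = card (free p)`, `Λ = R ^ 58480`,
`N j = Np s j p`, `Z j = Zf (Op s j p)`.
-/

namespace Vale.Agent.P049.Prm

open Matrix Finset

variable {P : Prm} {p : P.HE → P.HE} {j : Fin 4}

/-- The invariant of the first two phases. -/
structure Early (P : Prm) (p : P.HE → P.HE) : Prop extends P.St p where
  lo : P.S2 ≤ (free p).card
  Z : ∀ s j, j ≠ 0 → |Zf (P.Op s j p)| ≤ Ex P.r 58480
  V : ∀ s j, j ≠ 0 → Vf (P.Op s j p) ≤ Ex P.r 26800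

/-- The invariant of the first phase. -/
structure First (P : Prm) (p : P.HE → P.HE) : Prop extends P.Early p where
  lo1 : P.S1 < (free p).card
  Z0 : ∀ s, |Zf (P.Op s 0 p)| ≤ Ex P.r 67920
  V0 : ∀ s, Vf (P.Op s 0 p) ≤ Ex P.r 26800
  D : ∀ s, P.Dl s p * Ex P.r 9720 / (free p).card ≤ 1

lemma Good.e_big (hG : P.Good) {a b : ℝ} (h : a + 1 ≤ b) : 10 ^ 9 * Ex P.r a ≤ Ex P.r b :=
  mul_Ex_le hG.one_lt hG.R_ge h

lemma Good.e_pos (hG : P.Good) (a : ℝ) : 0 < Ex P.r a := Ex_pos hG.one_lt a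

lemma Good.e_mul (hG : P.Good) {a b c : ℝ} (h : a + b = c) : Ex P.r a * Ex P.r b = Ex P.r c := by
  rw [Ex_mul hG.one_lt, h]

lemma Good.e_sq (hG : P.Good) {a c : ℝ} (h : a + a = c) : Ex P.r a ^ 2 = Ex P.r c := by
  rw [sq, hG.e_mul h]

lemma Good.e_one (hG : P.Good) {a : ℝ} (h : 1 ≤ a) : 10 ^ 9 ≤ Ex P.r a :=
  const_le_Ex hG.one_lt hG.R_ge h

lemma Good.e_small (hG : P.Good) {a : ℝ} (h : a ≤ -1) : 10 ^ 9 * Ex P.r a ≤ 1 := by
  have := hG.e_big (a := a) (b := 0) (by linarith)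
  rwa [Ex_zero] at this

lemma Good.e_inv (hG : P.Good) {a η : ℝ} (h : Ex P.r (-a) ≤ η) : 1 / η ≤ Ex P.r a := by
  have := one_div_le_one_div_of_le (hG.e_pos _) h
  rwa [Ex_inv hG.one_lt, neg_neg] at this

lemma early_pow (P : Prm) (n : ℕ) [n.AtLeastTwo] :
    (P.r : ℝ) ^ (ofNat(n) : ℕ) = Ex P.r ofNat(n) := by
  rw [Ex_nat, Nat.cast_ofNat]

lemma early_Lam (hj : j ≠ 0) : (P.Lam j : ℝ) = Ex P.r 58480 := by
  rw [Lam, if_neg hj, early_pow]

lemma early_Lam0 : (P.Lam 0 : ℝ) = Ex P.r 67920 := by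
  rw [Lam, if_pos rfl, early_pow]

lemma early_S1 : (P.S1 : ℝ) = Ex P.r 128800 := by
  rw [S1, Nat.cast_pow, early_pow]

lemma early_S2 : (P.S2 : ℝ) = Ex P.r 123200 := by
  rw [S2, Nat.cast_pow, early_pow]

lemma Good.e_Lam_pos (hG : P.Good) (j : Fin 4) : (0 : ℝ) < P.Lam j := by
  by_cases hj : j = 0
  · rw [hj, early_Lam0]
    exact hG.e_pos _
  · rw [early_Lam hj]
    exact hG.e_pos _

lemma early_Vf_nonneg {H : Type} [Fintype H] (O : Matrix H H ℝ) : 0 ≤ Vf O :=
  sum_nonneg fun _ _ => sq_nonneg _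

lemma early_tZ_nonneg (s : Bool) (j : Fin 4) (p : P.HE → P.HE) : 0 ≤ P.tZ s j p :=
  div_nonneg (sq_nonneg _) (sq_nonneg _)

lemma early_tV_nonneg (s : Bool) (j : Fin 4) (p : P.HE → P.HE) : 0 ≤ P.tV s j p :=
  div_nonneg (early_Vf_nonneg _) (pow_nonneg (Nat.cast_nonneg _) _)

lemma early_of_tZ (hG : P.Good) {s : Bool} (h : P.tZ s j p ≤ 1) : |Zf (P.Op s j p)| ≤ P.Lam j :=
  abs_le_of_sq_le_sq ((div_le_one (pow_pos (hG.e_Lam_pos j) 2)).1 h) (hG.e_Lam_pos j).le

lemma early_of_tV (hG : P.Good) {s : Bool} (h : P.tV s j p ≤ 1) :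
    Vf (P.Op s j p) ≤ Ex P.r 26800 := by
  rw [tV, early_pow] at h
  exact (div_le_one (hG.e_pos _)).1 h

lemma early_proj {H : Type} [DecidableEq H] (U : Finset H) (k : H) :
    0 ≤ proj U k k ∧ proj U k k ≤ 1 := by
  unfold proj
  split_ifs with h h1
  · have h2 : (1 : ℝ) ≤ U.card := by exact_mod_cast card_pos.2 ⟨k, h.1⟩
    have h3 : 1 / (U.card : ℝ) ≤ 1 := (div_le_one (by linarith)).2 h2
    have h4 : 0 ≤ 1 / (U.card : ℝ) := by positivity
    constructor <;> linarith
  · exact absurd rfl h1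
  · exact ⟨le_rfl, zero_le_one⟩

lemma St.early (hG : P.Good) (hp : P.St p) (hS : P.S2 ≤ (free p).card) (h : P.PsiB p ≤ 1) :
    P.Early p := by
  have key : ∀ s j, j ≠ 0 → P.tZ s j p + P.tV s j p ≤ 1 := fun s j hj => by
    have h0 : ∀ s j, 0 ≤ P.tZ s j p + P.tV s j p := fun s j =>
      add_nonneg (early_tZ_nonneg s j p) (early_tV_nonneg s j p)
    refine le_trans ?_ ((single_le_sum (f := fun s => ∑ j ∈ ({1, 2, 3} : Finset (Fin 4)),
      (P.tZ s j p + P.tV s j p)) (fun s _ => sum_nonneg fun j _ => h0 s j) (mem_univ s)).trans h)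
    exact single_le_sum (f := fun j => P.tZ s j p + P.tV s j p) (fun j _ => h0 s j)
      (by revert j; decide)
  refine ⟨hp, hS, fun s j hj => ?_, fun s j hj => early_of_tV hG ?_⟩
  · rw [← early_Lam hj]
    exact early_of_tZ hG (by linarith [key s j hj, early_tV_nonneg s j p])
  · linarith [key s j hj, early_tZ_nonneg s j p]

lemma St.first (hG : P.Good) (hp : P.St p) (hS : P.S1 < (free p).card) (h : P.PsiA p ≤ 1) :
    P.First p := by
  have h1 := hG.sizes
  have h2 : P.Act 2 (free p).card := ⟨card_free_le p, show P.S2 ≤ _ by omega⟩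
  have h3 : ∀ s, 0 ≤ P.tD s p := fun s => div_nonneg (mul_nonneg (hp.Dl_nonneg hG h2 s)
    (pow_nonneg (Nat.cast_nonneg _) _)) (Nat.cast_nonneg _)
  have h4 : 0 ≤ P.PsiB p := sum_nonneg fun s _ => sum_nonneg fun j _ =>
    add_nonneg (early_tZ_nonneg s j p) (early_tV_nonneg s j p)
  have key : ∀ s, P.tZ s 0 p + P.tV s 0 p + P.tD s p ≤ 1 := fun s => by
    have := single_le_sum (f := fun s => P.tZ s 0 p + P.tV s 0 p + P.tD s p) (fun s _ =>
      add_nonneg (add_nonneg (early_tZ_nonneg s 0 p) (early_tV_nonneg s 0 p)) (h3 s)) (mem_univ s)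
    unfold PsiA at h
    linarith
  refine ⟨hp.early hG (by omega) ((hp.PsiB_le hG h2).trans h), hS, fun s => ?_,
    fun s => early_of_tV hG ?_, fun s => ?_⟩
  · rw [← early_Lam0]
    exact early_of_tZ hG (by linarith [key s, early_tV_nonneg s 0 p, h3 s])
  · linarith [key s, early_tZ_nonneg s 0 p, h3 s]
  · rw [← early_pow]
    change P.tD s p ≤ 1
    linarith [key s, early_tZ_nonneg s 0 p, early_tV_nonneg s 0 p]

lemma Early.act (hG : P.Good) (hp : P.Early p) (hj : j ≠ 0) :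
    P.Act j (free p).card ∧ P.Act j ((free p).card - 2) := by
  have h1 := hG.sizes
  have h2 := hp.lo
  have h3 := card_free_le p
  unfold Act
  rw [if_neg hj, if_neg hj]
  split_ifs <;> omega

lemma First.act (hG : P.Good) (hp : P.First p) (j : Fin 4) :
    P.Act j (free p).card ∧ P.Act j ((free p).card - 2) := by
  by_cases hj : j = 0
  · have h1 := hG.sizes
    have h2 := hp.lo1
    have h3 := card_free_le p
    unfold Act
    rw [if_pos hj, if_pos hj]
    omega
  · exact hp.toEarly.act hG hj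

lemma Early.e_lo (hp : P.Early p) : Ex P.r 123200 ≤ (free p).card := by
  rw [← early_S2]
  exact Nat.cast_le.2 hp.lo

lemma Good.e_hi (hG : P.Good) (p : P.HE → P.HE) : ((free p).card : ℝ) ≤ Ex P.r 180002 :=
  (Nat.cast_le.2 (card_free_le p)).trans hG.S0_le

lemma early_div {a b A B η G : ℝ} (ha : |a| ≤ A) (hb : |b| ≤ B) (hη : 0 < η) (hG : 1 / η ≤ G) :
    |(a - b) / η| ≤ (A + B) * G := by
  rw [abs_div, abs_of_pos hη, div_eq_mul_one_div]
  exact mul_le_mul ((abs_sub _ _).trans (add_le_add ha hb)) hG (by positivity)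
    (add_nonneg ((abs_nonneg _).trans ha) ((abs_nonneg _).trans hb))

lemma Early.e_dd (hG : P.Good) (hp : P.Early p) (s : Bool) {i j : Fin 4} (hi : i ≠ 0)
    (hij : i < j) :
    |(Zf (P.Op s j p) - Zf (P.Op s i p)) / P.gap i j (free p).card| ≤ 2 * Ex P.r 119201 := by
  have hj : j ≠ 0 := hij.ne_bot
  have h1 := (hG.gap_near (hp.act hG hi).1 (hp.act hG hj).1 hi hij).1
  refine (early_div (hp.Z s j hj) (hp.Z s i hi) ((hG.e_pos _).trans_le h1) (hG.e_inv h1)).trans_eq ?_
  rw [add_mul, hG.e_mul (c := 119201) (by norm_num), two_mul]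

/-- `Low.second` for the points `3, 1, 2`, `St.ip_eq`, `Good.second_le` give
`ip (N 1 * N 2) (N 3) ≤ R ^ 180004`; then `norm_bound`. -/
theorem Early.norm (hG : P.Good) (hp : P.Early p) (s : Bool) :
    Top (P.Np s 3 p) (Ex P.r 60002) ∧
      ip (P.Np s 3 p * P.Np s 3 p) (P.Np s 3 p) ≤ Ex P.r 180005 := by
  have a1 := (hp.act hG (j := 1) (by decide)).1
  have a2 := (hp.act hG (j := 2) (by decide)).1
  have a3 := (hp.act hG (j := 3) (by decide)).1
  have l1 := hp.low hG a1 a3 (by decide) s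
  have l2 := hp.low hG a2 a3 (by decide) s
  have c1 := hp.cp hG a1 s
  have c2 := hp.cp hG a2 s
  have c3 := hp.cp hG a3 s
  obtain ⟨g1, g2, -⟩ := hG.gap_near a1 a3 (by decide) (by decide)
  have g0 := (hG.e_pos _).trans_le g1
  have h1 := Low.second l1 l2 c3 c1 c2
  rw [hp.ip_eq hG a2 a3 (by decide), hp.ip_eq hG a1 a2 (by decide)] at h1
  have h2 := abs_le.1 (hp.e_dd hG s (i := 2) (j := 3) (by decide) (by decide))
  have h3 := abs_le.1 (hp.e_dd hG s (i := 1) (j := 2) (by decide) (by decide))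
  have h4 := hG.second_le a1
  have h5 := mul_le_mul_of_nonneg_left g1 (hG.e_pos 179922).le
  rw [hG.e_mul (c := 119201) (by norm_num)] at h5
  have hT : ip (P.Np s 1 p * P.Np s 2 p) (P.Np s 3 p) ≤ Ex P.r 180004 := by
    refine le_trans (le_of_mul_le_mul_left (c := Ex P.r 180003 + 4 * Ex P.r 179922)
      (by linarith) g0) ?_
    linarith [hG.e_big (a := 180003) (b := 180004) (by norm_num), hG.e_pos 180003,
      hG.e_big (a := 179922) (b := 180003) (by norm_num), hG.e_pos 179922]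
  have h6 := hG.e_big (a := 180004) (b := 180005) (by norm_num)
  have h7 := hG.e_pos 180004
  refine (norm_bound l1 l2 c3 c1 c2 ?_ hT ?_ (hG.e_pos _).le ?_).imp_right
    fun h => by linarith
  · have := hG.gap_pos a1 a2 (by decide)
    unfold gap at this ⊢
    linarith
  · have h8 := mul_le_mul_of_nonneg_right (pow_le_pow_left₀ g0.le g2 3) h7.le
    rw [Ex_pow hG.one_lt, hG.e_mul (c := -338) (by norm_num)] at h8
    linarith [hG.e_small (a := -338) (by norm_num), hG.e_pos (-338)]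
  · rw [Ex_pow hG.one_lt]
    exact mul_Ex_le hG.one_lt (by linarith [hG.R_ge]) (by norm_num)

lemma Early.e_two (hG : P.Good) (hp : P.Early p) (s : Bool) : ∃ F η μ m : ℝ, 0 ≤ F ∧
    F ≤ 1 + Ex P.r (-100) ∧ η = P.gap 2 3 (free p).card ∧ |μ| ≤ 2 ∧ |m| ≤ 2 ∧
    ∀ k, sc (P.Op s 3 p) k ≤ F * (proj (free p) k k * P.yv 2 3 (free p).card +
      (P.Op s 3 p k k - P.Op s 2 p k k) / η - μ * P.Op s 3 p k k - m * P.Op s 2 p k k) := by
  have a2 := (hp.act hG (j := 2) (by decide)).1
  have a3 := (hp.act hG (j := 3) (by decide)).1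
  obtain ⟨-, g2, -⟩ := hG.gap_near a2 a3 (by decide) (by decide)
  have g0 := hG.gap_pos a2 a3 (by decide)
  obtain ⟨m0, m2, -⟩ := hG.basic a3
  have h1 := hG.e_pos 60002
  refine ⟨_, _, _, _, by positivity, ?_, rfl, ?_, (abs_of_pos m0).trans_le m2,
    (hp.low hG a2 a3 (by decide) s).sc_two (hp.cp hG a3 s) (hp.cp hG a2 s) g0 (hp.norm hG s).1
      h1.le m0.le⟩
  · have h2 := mul_le_mul_of_nonneg_right g2 h1.le
    rw [hG.e_mul (c := -112) (by norm_num)] at h2
    have h3 := mul_le_mul g2 m2 m0.le (hG.e_pos _).le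
    have h4 := hG.e_big (a := -60114) (b := -112) (by norm_num)
    have h5 := hG.e_big (a := -112) (b := -100) (by norm_num)
    have h6 := hG.e_small (a := -112) (by norm_num)
    have h7 := hG.e_pos (-112)
    have h8 := hG.e_pos (-60114)
    calc _ ≤ (1 + Ex P.r (-112)) * (1 + Ex P.r (-112)) := by
          gcongr
          linarith
      _ ≤ _ := by nlinarith
  · exact (abs_of_nonneg (low_nonneg g0.le m0.le)).trans_le ((low_le g0.le m0.le).trans m2)

/-- Sum `Low.sc_two` for the points `3, 2`; here `gap * ν ≤ R ^ (-112)`. -/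
theorem Early.Y3 (hG : P.Good) (hp : P.Early p) (s : Bool) : Yf (P.Op s 3 p) ≤
    (1 + Ex P.r (-100)) * ((free p).card * P.yv 2 3 (free p).card + Ex P.r 119202) := by
  obtain ⟨F, η, μ, m, F0, F1, rfl, h1, h2, h3⟩ := hp.e_two hG s
  have a2 := (hp.act hG (j := 2) (by decide)).1
  have a3 := (hp.act hG (j := 3) (by decide)).1
  have y0 := (hG.yv_le a2 a3 (by decide)).1
  rw [← sum_sc]
  refine (sum_le_sum fun k _ => h3 k).trans ?_
  rw [← mul_sum]
  have h4 := hG.e_pos 119202
  refine (mul_le_mul_of_nonneg_left ?_ F0).trans (mul_le_mul_of_nonneg_right F1 (by positivity))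
  simp only [sum_sub_distrib, sum_add_distrib, ← sum_mul, ← mul_sum, ← sum_div]
  have h5 := mul_le_mul_of_nonneg_right (Zf_proj_le (free p)) y0
  have h6 := (abs_le.1 (hp.e_dd hG s (i := 2) (j := 3) (by decide) (by decide))).2
  have h7 := (abs_le.1 (av_abs_mul_le h1 (hp.Z s 3 (by decide)))).1
  have h8 := (abs_le.1 (av_abs_mul_le h2 (hp.Z s 2 (by decide)))).1
  unfold Zf at h5 h6 h7 h8
  linarith [hG.e_big (a := 119201) (b := 119202) (by norm_num), hG.e_pos 119201,
    hG.e_big (a := 58480) (b := 119201) (by norm_num), hG.e_pos 58480]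

/-- Square `Low.sc_two` for the points `3, 2` and sum over the free set. -/
theorem Early.Xi3 (hG : P.Good) (hp : P.Early p) (s : Bool) :
    Xif (P.Op s 3 p) ≤ 1000 * (free p).card + 100 * Ex P.r 148242 := by
  obtain ⟨F, η, μ, m, F0, F1, rfl, h1, h2, h3⟩ := hp.e_two hG s
  have a2 := (hp.act hG (j := 2) (by decide)).1
  have a3 := (hp.act hG (j := 3) (by decide)).1
  obtain ⟨y0, y1⟩ := hG.yv_le a2 a3 (by decide)
  have g1 := hG.e_inv (hG.gap_near a2 a3 (by decide) (by decide)).1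
  have g0 := hG.gap_pos a2 a3 (by decide)
  have F2 : F ≤ 2 := by linarith [hG.e_small (a := -100) (by norm_num), hG.e_pos (-100)]
  have e1 := hG.e_one (a := 60721) (by norm_num)
  have h4 : ∀ k, sc (P.Op s 3 p) k ^ 2 ≤ 800 * proj (free p) k k +
      36 * Ex P.r 60721 ^ 2 * (P.Op s 3 p k k ^ 2 + P.Op s 2 p k k ^ 2) := fun k => by
    obtain ⟨p0, p1⟩ := early_proj (free p) k
    have h5 := (abs_le.1 (early_div (le_refl |P.Op s 3 p k k|) (le_refl |P.Op s 2 p k k|) g0 g1)).2
    have h6 := (abs_le.1 (av_abs_mul_le h1 (le_refl |P.Op s 3 p k k|))).1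
    have h7 := (abs_le.1 (av_abs_mul_le h2 (le_refl |P.Op s 2 p k k|))).1
    have h8 := mul_le_mul_of_nonneg_left y1 p0
    have h9 := h3 k
    rw [← sq_abs (P.Op s 3 p k k), ← sq_abs (P.Op s 2 p k k)]
    have b3 := abs_nonneg (P.Op s 3 p k k)
    have b2 := abs_nonneg (P.Op s 2 p k k)
    generalize |P.Op s 3 p k k| = a at *
    generalize |P.Op s 2 p k k| = b at *
    generalize Ex P.r 60721 = G at *
    have h10 : sc (P.Op s 3 p) k ≤ 2 * (10 * proj (free p) k k + 3 / 2 * (G * (a + b))) := by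
      refine h9.trans ((mul_le_mul_of_nonneg_left ?_ F0).trans
        (mul_le_mul_of_nonneg_right F2 (by positivity)))
      nlinarith
    refine (pow_le_pow_left₀ (sc_nonneg _ _) h10 2).trans ?_
    nlinarith [sq_nonneg (20 * proj (free p) k k - 3 * (G * (a + b))), sq_nonneg (G * (a - b))]
  refine (sum_le_sum fun k _ => h4 k).trans ?_
  simp only [sum_add_distrib, ← mul_sum]
  have h5 := Zf_proj_le (free p)
  have h6 := mul_le_mul_of_nonneg_left (add_le_add (hp.V s 3 (by decide)) (hp.V s 2 (by decide)))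
    (sq_nonneg (Ex P.r 60721))
  rw [← two_mul, mul_left_comm, hG.e_sq (c := 121442) (by norm_num),
    hG.e_mul (c := 148242) (by norm_num), ← hG.e_sq (a := 60721) (by norm_num)] at h6
  unfold Zf Vf at *
  linarith [hG.e_pos 148242, Nat.cast_nonneg (α := ℝ) (free p).card]

/-- The bounds at one point. -/
structure EB (P : Prm) (p : P.HE → P.HE) (s : Bool) (j : Fin 4) : Prop where
  top : Top (P.Np s j p) (Ex P.r 60002)
  Y : Yf (P.Op s j p) ≤ 12 * (free p).card
  Yvp : |(P.pr s j (free p).card).vp| * Yf (P.Op s j p) ≤ (1 + Ex P.r (-2)) * (free p).card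
  Xi : Xif (P.Op s j p) ≤ P.r * (free p).card + Ex P.r 148243
  T : T4 (P.Op s j p) ≤ Ex P.r 240008
  op : OpB (P.Op s j p) (Ex P.r 60003)
  sc : ∀ h, sc (P.Op s j p) h ≤ Ex P.r 60003 * (1 + |P.Op s j p h h|)

lemma early_Y {Y Y3 S y v ε : ℝ} (hS : 0 ≤ S) (h0 : 0 ≤ ε) (h1 : ε ≤ 1) (hv : 0 ≤ v) (hv' : v ≤ 2)
    (hY : Y ≤ (1 + ε) * Y3 + ε * S) (h3 : Y3 ≤ (1 + ε) * (S * y + ε * S)) (hy : v * y ≤ 1 + ε) :
    v * Y ≤ (1 + 17 * ε) * S := by
  have h4 : v * (S * y + ε * S) ≤ (1 + 3 * ε) * S := by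
    nlinarith [mul_le_mul_of_nonneg_left hy hS, mul_le_mul_of_nonneg_left hv' (mul_nonneg h0 hS)]
  calc v * Y ≤ v * ((1 + ε) * ((1 + ε) * (S * y + ε * S)) + ε * S) := by
        gcongr
        exact hY.trans (by gcongr)
    _ = (1 + ε) ^ 2 * (v * (S * y + ε * S)) + v * (ε * S) := by ring
    _ ≤ (1 + ε) ^ 2 * ((1 + 3 * ε) * S) + 2 * (ε * S) := by gcongr
    _ = (1 + 7 * ε + 7 * ε ^ 2 + 3 * ε ^ 3) * S := by ring
    _ ≤ _ := by
        refine mul_le_mul_of_nonneg_right ?_ hS
        nlinarith [mul_le_mul_of_nonneg_left h1 h0, mul_le_mul_of_nonneg_left h1 (sq_nonneg ε)]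

/-- Transfer from the point `3` by `Low.sc_low` (`δ = R ^ (-50000)` from `Good.m_low`; `γ = 1` for
`Xi`, `γ = R ^ (-1000)` for `Y`), `Low.top`, `Low.T4_le`, `CP.bounds`; `Good.yv_le`,
`Good.yv_vp`. -/
theorem Early.eb (hG : P.Good) (hp : P.Early p) (hj : P.Act j (free p).card) (s : Bool) :
    P.EB p s j := by
  have a2 := (hp.act hG (j := 2) (by decide)).1
  have a3 := (hp.act hG (j := 3) (by decide)).1
  have l := hp.low hG hj a3 (Fin.le_last j) s
  have cj := hp.cp hG hj s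
  have c3 := hp.cp hG a3 s
  obtain ⟨n1, n2⟩ := hp.norm hG s
  obtain ⟨m0, m2, -⟩ := hG.basic hj
  have hS := Nat.cast_nonneg (α := ℝ) (free p).card
  have hl := fun {γ : ℝ} (hγ : 0 < γ) => l.sc_low c3 cj (hG.basic a3).1.le hγ (hG.m_low hj a3)
  have ht := l.top c3 cj n1
  obtain ⟨b1, b2⟩ := cj.bounds ht (hG.e_pos _).le m0.le m2
  have e0 := hG.e_pos (-3)
  have e1 := hG.e_small (a := -3) (by norm_num)
  have e2 : Ex P.r (-1000) ≤ Ex P.r (-3) := Ex_le hG.one_lt (by norm_num)
  obtain ⟨y0, y1⟩ := hG.yv_le a2 a3 (by decide)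
  have hY : Yf (P.Op s j p) ≤ (1 + Ex P.r (-3)) * Yf (P.Op s 3 p) + Ex P.r (-3) * (free p).card := by
    rw [← sum_sc]
    refine (sum_le_sum fun k _ => hl (hG.e_pos (-3)) k).trans ?_
    rw [sum_add_distrib, ← mul_sum, ← mul_sum, sum_sc]
    refine add_le_add le_rfl (mul_le_mul ?_ (Zf_proj_le _)
      (sum_nonneg fun k _ => (early_proj _ k).1) e0.le)
    rw [Ex_inv hG.one_lt, add_mul, hG.e_sq (c := -100000) (by norm_num),
      hG.e_mul (c := -99997) (by norm_num)]
    linarith [hG.e_big (a := -100000) (b := -99997) (by norm_num), hG.e_pos (-100000),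
      hG.e_big (a := -99997) (b := -3) (by norm_num)]
  have hY3 : Yf (P.Op s 3 p) ≤ (1 + Ex P.r (-3)) *
      ((free p).card * P.yv 2 3 (free p).card + Ex P.r (-3) * (free p).card) := by
    refine (hp.Y3 hG s).trans ?_
    have h1 := mul_le_mul_of_nonneg_left hp.e_lo e0.le
    rw [hG.e_mul (c := 123197) (by norm_num)] at h1
    have h2 := hG.e_pos 119202
    gcongr
    · exact Ex_le hG.one_lt (by norm_num)
    · exact (Ex_le hG.one_lt (by norm_num)).trans h1
  have e3 := hG.e_big (a := 60002) (b := 60003) (by norm_num)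
  have e4 := hG.e_one (a := 60002) (by norm_num)
  refine ⟨ht, ?_, ?_, ?_, ?_, b1.mono (by linarith) (by linarith), fun k => (b2 k).trans
    (mul_le_mul_of_nonneg_right (by linarith) (by positivity))⟩
  · have h1 := early_Y (v := 1 / 10) hS e0.le (by linarith) (by norm_num) (by norm_num) hY hY3
      (by linarith)
    nlinarith
  · refine (early_Y hS e0.le (by linarith) (abs_nonneg _) (hG.pr_le hj s le_rfl).2.2.1 hY hY3
      ((hG.yv_vp a2 a3 (by decide) hj s).trans (by linarith))).trans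
      (mul_le_mul_of_nonneg_right ?_ hS)
    linarith [hG.e_big (a := -3) (b := -2) (by norm_num)]
  · have h1 : ∀ k, sc (P.Op s j p) k ^ 2 ≤ 8 * sc (P.Op s 3 p) k ^ 2 + 8 * proj (free p) k k := by
      intro k
      obtain ⟨p0, p1⟩ := early_proj (free p) k
      have h2 : Ex P.r (-50000) ^ 2 ≤ 1 :=
        pow_le_one₀ (hG.e_pos _).le (Ex_le_one hG.one_lt (by norm_num))
      have h3 : sc (P.Op s j p) k ≤ 2 * sc (P.Op s 3 p) k + 2 * proj (free p) k k :=
        (hl one_pos k).trans (by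
          change (1 + 1) * sc (P.Op s 3 p) k + _ ≤ _
          nlinarith)
      refine (pow_le_pow_left₀ (sc_nonneg _ _) h3 2).trans ?_
      nlinarith [sq_nonneg (sc (P.Op s 3 p) k - proj (free p) k k)]
    refine (sum_le_sum fun k _ => h1 k).trans ?_
    rw [sum_add_distrib, ← mul_sum, ← mul_sum]
    have h2 := hp.Xi3 hG s
    have h3 := Zf_proj_le (free p)
    have h4 := mul_le_mul_of_nonneg_right hG.R_ge hS
    unfold Zf Xif at *
    linarith [hG.e_big (a := 148242) (b := 148243) (by norm_num), hG.e_pos 148242]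
  · refine (l.T4_le c3 cj n1 (hG.e_pos _).le m0.le m2).trans ?_
    have h1 := mul_le_mul_of_nonneg_left n2 (hG.e_pos 60002).le
    rw [hG.e_mul (c := 240007) (by norm_num)] at h1
    linarith [hG.e_big (a := 240007) (b := 240008) (by norm_num), hG.e_pos 180002, hG.e_hi p,
      hG.e_big (a := 180002) (b := 240007) (by norm_num)]

/-- The change of potential (`Early.Y3`, `Good.yv_late`). -/
theorem Early.trans (hG : P.Good) (hp : P.Early p) (hS : (free p).card ≤ P.S2 + 1) :
    P.PsiC p ≤ 1 / 2 := by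
  have a2 := (hp.act hG (j := 2) (by decide)).1
  have lo := hp.e_lo
  have e0 := hG.e_pos 123200
  have hS0 := e0.trans_le lo
  have lo2 := pow_le_pow_left₀ e0.le lo 2
  rw [hG.e_sq (c := 246400) (by norm_num)] at lo2
  have key : ∀ s, P.lZ s p + P.lV s p + P.lY s p ≤ 1 / 4 := fun s => by
    have h1 : P.lZ s p ≤ 1 / 12 := by
      rw [lZ, early_pow, div_le_iff₀ (by positivity)]
      have h2 := mul_le_mul_of_nonneg_right
        (sq_le_sq' (abs_le.1 (hp.Z s 3 (by decide))).1 (abs_le.1 (hp.Z s 3 (by decide))).2)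
        (hG.e_pos 123320).le
      rw [hG.e_sq (c := 116960) (by norm_num), hG.e_mul (c := 240280) (by norm_num)] at h2
      linarith [hG.e_big (a := 240280) (b := 246400) (by norm_num), hG.e_pos 240280]
    have h2 : P.lV s p ≤ 1 / 12 := by
      rw [lV, early_pow, div_le_iff₀ hS0]
      have h3 := mul_le_mul_of_nonneg_right (hp.V s 3 (by decide)) (hG.e_pos 62100).le
      rw [hG.e_mul (c := 88900) (by norm_num)] at h3
      linarith [hG.e_big (a := 88900) (b := 123200) (by norm_num), hG.e_pos 88900]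
    have h3 : P.lY s p ≤ 1 / 12 := by
      rw [lY, early_pow, div_le_iff₀ (by positivity)]
      have h4 : Yf (P.Op s 3 p) ≤ 2 * ((free p).card * Ex P.r (-590) + Ex P.r 119202) := by
        have h5 := hG.e_pos 119202
        have h6 := (hG.yv_le a2 (a2.three hG) (by decide)).1
        refine (hp.Y3 hG s).trans ?_
        gcongr
        · linarith [hG.e_small (a := -100) (by norm_num), hG.e_pos (-100)]
        · exact hG.yv_late a2 hS
      have h5 := mul_le_mul_of_nonneg_right h4 (hG.e_pos 123680).le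
      rw [mul_assoc, add_mul, mul_assoc, hG.e_mul (c := 123090) (by norm_num),
        hG.e_mul (c := 242882) (by norm_num)] at h5
      have h6 := mul_le_mul_of_nonneg_left
        ((hG.e_big (a := 123090) (b := 123200) (by norm_num)).trans lo) hS0.le
      linarith [hG.e_big (a := 242882) (b := 246400) (by norm_num), hG.e_pos 242882,
        mul_pos hS0 (hG.e_pos 123090), sq (((free p).card : ℝ))]
    linarith
  rw [PsiC, Fintype.sum_bool]
  linarith [key true, key false]

/-- With `A = Np (!s) 3`, `B = Np s 3`, `C = Np s 2`: `Dl s = gap * ip A (C * B)` (`Low.ip_sub`),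
and `Low.ip_sq_le_two`. -/
theorem First.cross (hG : P.Good) (hp : P.First p) (s : Bool) :
    ip (P.Np (!s) 3 p) (P.Np s 3 p * P.Np s 3 p) ≤ 2 * Ex P.r 51001 * (free p).card := by
  have a2 := (hp.act hG 2).1
  have a3 := (hp.act hG 3).1
  have l := hp.low hG a2 a3 (by decide) s
  obtain ⟨g1, g2, -⟩ := hG.gap_near a2 a3 (by decide) (by decide)
  have g0 := hG.gap_pos a2 a3 (by decide)
  have hS0 := (hG.e_pos _).trans_le hp.e_lo
  refine (l.ip_sq_le_two (hp.cp hG a3 s) (hp.cp hG a2 s) (hp.cp hG a3 _).psd (hp.norm hG s).1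
    ((mul_le_mul_of_nonneg_right g2 (hG.e_pos _).le).trans ?_)).trans ?_
  · rw [hG.e_mul (c := -112) (by norm_num)]
    exact Ex_le_one hG.one_lt (by norm_num)
  · have h1 := hp.D s
    rw [Dl, l.ip_sub, div_le_one hS0] at h1
    rw [mul_assoc]
    refine mul_le_mul_of_nonneg_left (le_of_mul_le_mul_left (a := P.gap 2 3 (free p).card *
      Ex P.r 9720) ?_ (mul_pos g0 (hG.e_pos _))) zero_le_two
    have h2 := mul_le_mul_of_nonneg_right g1 (mul_pos (hG.e_pos 60721) hS0).le
    rw [← mul_assoc, hG.e_mul (c := 0) (by norm_num), Ex_zero,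
      ← hG.e_mul (a := 9720) (b := 51001) (by norm_num)] at h2
    linarith

lemma Early.e_NN (hG : P.Good) (hp : P.Early p) (hj : P.Act j (free p).card) (s : Bool) :
    Yf (P.Np s j p) ≤ 32 * (free p).card := by
  obtain ⟨m0, m2, -⟩ := hG.basic hj
  rw [← Np_eq]
  refine (tilt_Yf_add _ _).trans ?_
  have h1 : Yf ((P.m j (free p).card : ℝ) • proj (free p)) ≤ 2 * (2 * (free p).card) := by
    rw [Yf, ip_smul_left, ip_smul_right, (cent_proj _).ip_proj]
    have h2 : 0 ≤ Zf (proj (free p)) := sum_nonneg fun k _ => (early_proj _ k).1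
    gcongr
    exact Zf_proj_le _
  linarith [(hp.eb hG hj s).Y]

lemma First.e_L (hG : P.Good) (hp : P.First p) (hS : (free p).card ≤ 2 * P.S1 + 1) (s : Bool) :
    Ex P.r 179998 ≤ ip (P.Np s 0 p * P.Np s 2 p) (P.Np s 3 p) := by
  have a := fun j => (hp.act hG j).1
  have h1 := Low.second (hp.low hG (a 0) (a 3) (by decide) s) (hp.low hG (a 2) (a 3) (by decide) s)
    (hp.cp hG (a 3) s) (hp.cp hG (a 0) s) (hp.cp hG (a 2) s)
  rw [hp.ip_eq hG (a 2) (a 3) (by decide), hp.ip_eq hG (a 0) (a 2) (by decide)] at h1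
  have h2 := abs_le.1 (hp.e_dd hG s (i := 2) (j := 3) (by decide) (by decide))
  have h3 := abs_le.1 (early_div (hp.Z s 2 (by decide)) (hp.Z0 s) (hG.gap_pos (a 0) (a 2) (by decide))
    (hG.e_inv (hG.gap_far (a 0) (a 2) (by decide)).1))
  rw [add_mul, hG.e_mul (c := 109762) (by norm_num), hG.e_mul (c := 119202) (by norm_num)] at h3
  have h4 := hG.second_ge (a 0) hS
  have g1 := (hG.gap_far (a 0) (a 3) (by decide)).1
  have g0 := (hG.e_pos _).trans_le g1
  have h5 := mul_le_mul_of_nonneg_left g1 (hG.e_pos 170484).le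
  rw [hG.e_mul (c := 119202) (by norm_num)] at h5
  refine le_trans ?_ (le_of_mul_le_mul_left (b := Ex P.r 179999 - 3 * Ex P.r 170484) ?_ g0)
  · linarith [hG.e_big (a := 179998) (b := 179999) (by norm_num), hG.e_pos 170484,
      hG.e_big (a := 170484) (b := 179998) (by norm_num)]
  · linarith [hG.e_big (a := 119201) (b := 119202) (by norm_num), hG.e_pos 109762,
      hG.e_big (a := 109762) (b := 119201) (by norm_num)]

/-- The tilt. If `dx = 0` take `F = 0`. Otherwise `S ≤ 2 S1 + 1` (`Good.dx_zero`); apply `tilt` with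
`Na s = Np s 0`, `O s = Op s 3`, `t s = dx S ^ 2 Y / (2 (S - 1 - sg s ω))`, `tm = R ^ 196405`,
`νa = R ^ 51282` (`Low.opB`), `ξa = ξ = R ^ 74124` (`Low.sc_le`), `K = R ^ 20000`,
`Pi = R ^ 231191`, `lam = R ^ (-34780)`. For `hown` use `payoff` with the points `3, 0, 2`,
`L = R ^ 179998` (`Low.second`, `St.ip_eq`, `Good.second_ge`), `T₂ = R ^ 128802`; for `hcr` use
`cross_loss`, `Low.ip_sq_le_inv`, `First.cross`, `Low.ip_le`. -/
theorem First.tilt (hG : P.Good) (hp : P.First p) : ∃ F : Matrix P.HE P.HE ℝ,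
    (∀ k l, F k l = F l k) ∧ (∀ k l, k ∉ free p → F k l = 0) ∧ (∀ k l, |F k l| ≤ 1 / 1000) ∧
      QB F (Ex P.r 67785) ∧ (∀ h, ∑ h', F h h' ^ 2 ≤ Ex P.r 53005) ∧
      ∀ s, 2 * sg s * (((free p).card : ℝ) - 1 - sg s * P.ω 3 (free p).card)
          * ip F (P.Op s 3 p * P.Op s 3 p) =
        P.dx (free p).card * ((free p).card : ℝ) ^ 2 * Yf (P.Op s 3 p) := by
  have a := fun j => (hp.act hG j).1
  have hq : ∀ x : P.HE → ℝ, 0 ≤ x ⬝ᵥ x := fr_dot_self_nn
  by_cases h0 : P.dx (free p).card = 0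
  · refine ⟨0, fun _ _ => rfl, fun _ _ _ => rfl, fun _ _ => by simp, fun x => ?_, fun h => ?_,
      fun s => by simp [h0, ip]⟩
    · simpa using mul_nonneg (hG.e_pos _).le (hq x)
    · simpa using (hG.e_pos _).le
  have hS : (free p).card ≤ 2 * P.S1 + 1 := by
    by_contra h
    exact h0 (hG.dx_zero (Or.inr (by omega)))
  have e0 := hG.e_one (a := 128800) (by norm_num)
  have hi : ((free p).card : ℝ) ≤ 3 * Ex P.r 128800 := by
    have : ((free p).card : ℝ) ≤ 2 * P.S1 + 1 := by exact_mod_cast hS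
    rw [early_S1] at this
    linarith
  have lo := (hG.e_one (by norm_num)).trans hp.e_lo
  have e1 := hG.e_big (a := 128800) (b := 128801) (by norm_num)
  have e2 := hG.e_big (a := 128801) (b := 128802) (by norm_num)
  have hN : ∀ s j, Yf (P.Np s j p) ≤ Ex P.r 128802 := fun s j =>
    (hp.e_NN hG (a j) s).trans (by linarith)
  have hX : ∀ s j, Xif (P.Op s j p) ≤ 2 * Ex P.r 148243 := fun s j => by
    have h1 := mul_le_mul_of_nonneg_left hi (Nat.cast_nonneg (α := ℝ) P.r)
    have h2 := hG.e_mul (a := 1) (b := 128800) (c := 128801) (by norm_num)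
    rw [Ex_one] at h2
    linarith [(hp.eb hG (a j) s).Xi, hG.e_big (a := 128801) (b := 148243) (by norm_num)]
  have l := fun s => hp.low hG (a 0) (a 3) (by decide) s
  have c := fun s j => hp.cp hG (a j) s
  have g1 := hG.e_inv (hG.gap_far (a 0) (a 3) (by decide)).1
  have g0 := hG.gap_pos (a 0) (a 3) (by decide)
  obtain ⟨m0, m2, -⟩ := hG.basic (a 3)
  have hD : ∀ s, ((free p).card : ℝ) ≤
      2 * (((free p).card : ℝ) - 1 - sg s * P.ω 3 (free p).card) := fun s => by
    have h1 := abs_le.1 ((hG.ω_le (a 3)).trans (Ex_le_one hG.one_lt (by norm_num)))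
    cases s <;> simp only [sg, cond] <;> linarith
  have e3 := hG.e_big (a := 148243) (b := 148248) (by norm_num)
  have e4 := hG.e_big (a := 128802) (b := 148243) (by norm_num)
  have e5 := hG.e_big (a := 128802) (b := 231083) (by norm_num)
  have e6 := hG.e_big (a := 231083) (b := 231191) (by norm_num)
  obtain ⟨F, f1, f2, f3, f4, f5, f6, f7⟩ := P049.tilt (U := free p) (Na := fun s => P.Np s 0 p)
    (O := fun s => P.Op s 3 p) (νa := Ex P.r 51282) (K := Ex P.r 20000) (Pi := Ex P.r 231191)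
    (tm := Ex P.r 196405) (ξa := Ex P.r 74124) (ξ := Ex P.r 74124) (lam := Ex P.r (-34780))
    (t := fun s => P.dx (free p).card * ((free p).card : ℝ) ^ 2 * Yf (P.Op s 3 p) /
      (2 * (((free p).card : ℝ) - 1 - sg s * P.ω 3 (free p).card)))
    (fun s => (c s 0).cent) (fun s => hp.cent s 3) (hG.e_pos _).le
    (fun s => ((l s).opB (c s 3) (c s 0) g0).mono (by positivity) g1) (hG.e_pos _) (hG.e_pos _)
    (hG.e_pos _).le (hG.e_pos _).le
    (fun s => by
      rw [hG.e_sq (c := 148248) (by norm_num), Xif, fr_sum_univ_eq_of_supp (U := free p)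
        fun k hk => by simp [sc, (c s 0).cent.fr_supp2 _ _ hk]]
      refine (sum_le_sum (g := fun k => 8 * sc (P.Op s 0 p) k ^ 2 + 128) fun k _ => ?_).trans ?_
      · refine (pow_le_pow_left₀ (sc_nonneg _ _) ((hp.low hG (a 0) (a 0) le_rfl s).sc_le (c s 0)
          (c s 0) (hG.basic (a 0)).1.le (hG.basic (a 0)).2.1 k) 2).trans ?_
        change (2 * sc (P.Op s 0 p) k + 8) ^ 2 ≤ _
        nlinarith [sq_nonneg (sc (P.Op s 0 p) k - 4)]
      · rw [sum_add_distrib, ← mul_sum, sum_const, nsmul_eq_mul]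
        have h1 := (sum_le_univ_sum_of_nonneg (s := free p)
          fun k => sq_nonneg (sc (P.Op s 0 p) k)).trans (hX s 0)
        linarith)
    (fun s => by
      rw [hG.e_sq (c := 148248) (by norm_num)]
      linarith [hX s 3])
    (fun s => by
      refine le_trans ?_ (payoff (l s) (hp.low hG (a 2) (a 3) (by decide) s) (c s 3) (c s 0) (c s 2)
        m0.le m2 (hG.e_pos _).le (hp.e_L hG hS s) (hN s 3) (hG.e_pos _))
      rw [hG.e_sq (c := 359996) (by norm_num), mul_comm 2, ← div_div, Ex_div hG.one_lt,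
        show (359996 - 128802 : ℝ) = 231194 by norm_num]
      have h1 := hG.e_big (a := 231191) (b := 231194) (by norm_num)
      have h4 : Ex P.r 128802 ≤ Ex P.r 231191 := Ex_le hG.one_lt (by norm_num)
      have h5 := hG.e_pos 231191
      linarith only [h1, h4, h5])
    (fun s => by
      refine (cross_loss (c s 3) (c (!s) 0) m0.le m2).trans ?_
      have h1 := (l (!s)).ip_sq_le_inv (c _ 3) (c _ 0) (psd_mul_self (c s 3).cent.transpose) g0
      have h2 := hp.cross hG s
      rw [ip_comm] at h2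
      have h3 := mul_le_mul g1 (h2.trans (mul_le_mul_of_nonneg_left hi
        (mul_pos two_pos (hG.e_pos _)).le))
        (ip_psd_nonneg (psd_mul_self (c s 3).cent.transpose) (c _ 3).psd) (hG.e_pos _).le
      have h4 := hG.e_mul (a := 51282) (b := 179801) (c := 231083) (by norm_num)
      rw [← hG.e_mul (a := 51001) (b := 128800) (c := 179801) (by norm_num)] at h4
      linarith [hN (!s) 0, hG.e_pos 231083, hG.e_pos 128802])
    (by
      rw [hG.e_sq (c := 102564) (by norm_num), mul_assoc, mul_div_assoc, Ex_mul hG.one_lt,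
        Ex_div hG.one_lt, mul_left_comm, Ex_mul hG.one_lt]
      exact mul_Ex_le hG.one_lt (by linarith [hG.R_ge]) (by norm_num))
    (fun s => by
      have h1 := hG.dx_nonneg (free p).card
      have h2 : 0 ≤ Yf (P.Op s 3 p) := ip_self_nonneg _
      have h3 := hD s
      refine ⟨div_nonneg (by positivity) (by linarith), (div_le_iff₀ (by linarith)).2 ?_⟩
      refine le_trans ?_ (mul_le_mul_of_nonneg_left h3 (hG.e_pos _).le)
      rw [sq, ← mul_assoc, mul_right_comm]
      refine mul_le_mul_of_nonneg_right ((mul_le_mul (hG.dx_le _) ((hp.eb hG (a 3) s).Y.trans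
        (show _ ≤ Ex P.r 128801 by linarith)) h2 (hG.e_pos _).le).trans ?_) (by linarith)
      rw [Ex_mul hG.one_lt]
      exact Ex_le hG.one_lt (by norm_num))
    (by
      rw [Ex_div hG.one_lt]
      exact Ex_le hG.one_lt (by norm_num))
    (by
      rw [hG.e_mul (c := -14780) (by norm_num)]
      linarith [hG.e_small (a := -14780) (by norm_num), hG.e_pos (-14780)])
  refine ⟨F, f1, f2, f3, fun x => (f4 x).trans (mul_le_mul_of_nonneg_right ?_ (hq x)),
    fun h => (f5 h).trans ?_, fun s => ?_⟩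
  · rw [hG.e_sq (c := 102564) (by norm_num), mul_assoc, Ex_mul hG.one_lt]
    exact mul_Ex_le hG.one_lt (by linarith [hG.R_ge]) (by norm_num)
  · rw [hG.e_sq (a := 51282) (c := 102564) (by norm_num),
      hG.e_sq (a := -34780) (c := -69560) (by norm_num), mul_assoc,
      mul_assoc, Ex_mul hG.one_lt, Ex_mul hG.one_lt]
    exact mul_Ex_le hG.one_lt (by linarith [hG.R_ge]) (by norm_num)
  · have h1 : 2 * (((free p).card : ℝ) - 1 - sg s * P.ω 3 (free p).card) ≠ 0 := by
      linarith [hD s]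
    rw [← div_mul_cancel₀ (_ * Yf _) h1]
    cases s
    · rw [f7]
      simp only [sg, cond]
      ring
    · rw [f6]
      simp only [sg, cond]
      ring

end Vale.Agent.P049.Prm
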