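import Vale.Agent.P049.Basic

/-!
Frobenius calculus, the projection `proj`, and exact formulas for `sharp`.
-/

namespace Vale.Agent.P049

open Matrix Finset

variable {H : Type} [Fintype H] [DecidableEq H]

omit [DecidableEq H] in
lemma ip_comm (A B : Matrix H H ℝ) : ip A B = ip B A := by
  simp only [ip, mul_comm]

omit [DecidableEq H] in
lemma ip_self_nonneg (A : Matrix H H ℝ) : 0 ≤ ip A A := by
  exact sum_nonneg fun k _ => sum_nonneg fun l _ => mul_self_nonneg _

omit [DecidableEq H] in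
lemma ip_add_left (A B C : Matrix H H ℝ) : ip (A + B) C = ip A C + ip B C := by
  simp only [ip, Matrix.add_apply, add_mul, sum_add_distrib]

omit [DecidableEq H] in
lemma ip_add_right (A B C : Matrix H H ℝ) : ip A (B + C) = ip A B + ip A C := by
  simp only [ip, Matrix.add_apply, mul_add, sum_add_distrib]

omit [DecidableEq H] in
lemma ip_sub_left (A B C : Matrix H H ℝ) : ip (A - B) C = ip A C - ip B C := by
  simp only [ip, Matrix.sub_apply, sub_mul, sum_sub_distrib]

omit [DecidableEq H] in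
lemma ip_sub_right (A B C : Matrix H H ℝ) : ip A (B - C) = ip A B - ip A C := by
  simp only [ip, Matrix.sub_apply, mul_sub, sum_sub_distrib]

omit [DecidableEq H] in
lemma ip_smul_left (r : ℝ) (A B : Matrix H H ℝ) : ip (r • A) B = r * ip A B := by
  simp only [ip, Matrix.smul_apply, smul_eq_mul, mul_sum, mul_assoc]

omit [DecidableEq H] in
lemma ip_smul_right (r : ℝ) (A B : Matrix H H ℝ) : ip A (r • B) = r * ip A B := by
  rw [ip_comm, ip_smul_left, ip_comm]

omit [DecidableEq H] in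
lemma ip_eq_trace (A B : Matrix H H ℝ) : ip A B = (Aᵀ * B).trace := by
  simp only [ip, Matrix.trace, Matrix.diag, Matrix.mul_apply, Matrix.transpose_apply]
  exact sum_comm

omit [DecidableEq H] in
lemma ip_mul_left (A B C : Matrix H H ℝ) : ip (A * B) C = ip B (Aᵀ * C) := by
  rw [ip_eq_trace, ip_eq_trace, Matrix.transpose_mul, Matrix.mul_assoc]

omit [DecidableEq H] in
lemma ip_mul_right (A B C : Matrix H H ℝ) : ip (A * B) C = ip A (C * Bᵀ) := by
  rw [ip_eq_trace, ip_eq_trace, Matrix.transpose_mul, Matrix.mul_assoc, Matrix.trace_mul_comm,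
    Matrix.mul_assoc]

omit [DecidableEq H] in
lemma fro_nonneg (A : Matrix H H ℝ) : 0 ≤ fro A := Real.sqrt_nonneg _

omit [DecidableEq H] in
lemma fro_sq (A : Matrix H H ℝ) : fro A ^ 2 = ip A A := Real.sq_sqrt (ip_self_nonneg A)

omit [DecidableEq H] in
lemma fro_le {A : Matrix H H ℝ} {x : ℝ} (hx : 0 ≤ x) (h : ip A A ≤ x ^ 2) : fro A ≤ x := by
  exact Real.sqrt_le_iff.mpr ⟨hx, h⟩

omit [DecidableEq H] in
lemma fr_ip_eq_sum_prod (A B : Matrix H H ℝ) : ip A B = ∑ q : H × H, A q.1 q.2 * B q.1 q.2 := by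
  rw [ip, ← Finset.sum_product']
  rfl

omit [DecidableEq H] in
lemma fr_ip_sq_le (A B : Matrix H H ℝ) : ip A B ^ 2 ≤ ip A A * ip B B := by
  simp only [fr_ip_eq_sum_prod, ← sq]
  exact Finset.sum_mul_sq_le_sq_mul_sq _ _ _

omit [DecidableEq H] in
lemma abs_ip_le (A B : Matrix H H ℝ) : |ip A B| ≤ fro A * fro B := by
  rw [fro, fro, ← Real.sqrt_mul (ip_self_nonneg A)]
  exact Real.abs_le_sqrt (fr_ip_sq_le A B)

omit [DecidableEq H] in
lemma fro_add_le (A B : Matrix H H ℝ) : fro (A + B) ≤ fro A + fro B := by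
  refine fro_le (add_nonneg (fro_nonneg A) (fro_nonneg B)) ?_
  rw [ip_add_left, ip_add_right, ip_add_right, ip_comm B A, add_sq, fro_sq, fro_sq]
  have := (abs_le.1 (abs_ip_le A B)).2
  linarith

omit [DecidableEq H] in
lemma fro_sub_le (A B : Matrix H H ℝ) : fro (A - B) ≤ fro A + fro B := by
  refine fro_le (add_nonneg (fro_nonneg A) (fro_nonneg B)) ?_
  rw [ip_sub_left, ip_sub_right, ip_sub_right, ip_comm B A, add_sq, fro_sq, fro_sq]
  have := (abs_le.1 (abs_ip_le A B)).1
  linarith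

omit [DecidableEq H] in
lemma fro_smul (r : ℝ) (A : Matrix H H ℝ) : fro (r • A) = |r| * fro A := by
  rw [fro, fro, ip_smul_left, ip_smul_right, ← mul_assoc, Real.sqrt_mul (mul_self_nonneg r),
    Real.sqrt_mul_self_eq_abs]

omit [DecidableEq H] in
lemma fro_transpose (A : Matrix H H ℝ) : fro Aᵀ = fro A := by
  have : ip Aᵀ Aᵀ = ip A A := by
    simp only [ip, Matrix.transpose_apply]
    exact sum_comm
  rw [fro, fro, this]

omit [DecidableEq H] in
lemma fr_opB_fro_aux (O : Matrix H H ℝ) : OpB O (fro O) := by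
  intro x
  rw [fro_sq]
  simp only [dotProduct, Matrix.mulVec, ip, sum_mul]
  refine sum_le_sum fun k _ => ?_
  have := Finset.sum_mul_sq_le_sq_mul_sq univ (fun l => O k l) x
  simpa only [sq, sum_mul] using this

omit [DecidableEq H] in
lemma fr_fro_mul_le_aux {O : Matrix H H ℝ} {ν : ℝ} (h : OpB O ν) (hν : 0 ≤ ν) (B : Matrix H H ℝ) :
    fro (O * B) ≤ ν * fro B := by
  refine fro_le (mul_nonneg hν (fro_nonneg B)) ?_
  rw [mul_pow, fro_sq, ip, ip, sum_comm, sum_comm (f := fun k l => B k l * B k l), mul_sum]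
  refine sum_le_sum fun l _ => ?_
  exact h fun k => B k l

omit [DecidableEq H] in
lemma fro_mul_le (A B : Matrix H H ℝ) : fro (A * B) ≤ fro A * fro B := by
  exact fr_fro_mul_le_aux (fr_opB_fro_aux A) (fro_nonneg A) B

omit [DecidableEq H] in
lemma OpB.fro_mul_le {O : Matrix H H ℝ} {ν : ℝ} (h : OpB O ν) (hν : 0 ≤ ν) (B : Matrix H H ℝ) :
    fro (O * B) ≤ ν * fro B := by
  exact fr_fro_mul_le_aux h hν B

omit [DecidableEq H] in
lemma opB_fro (O : Matrix H H ℝ) : OpB O (fro O) := by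
  exact fr_opB_fro_aux O

omit [DecidableEq H] in
lemma fr_dot_self_nn (x : H → ℝ) : 0 ≤ x ⬝ᵥ x := sum_nonneg fun _ _ => mul_self_nonneg _

omit [DecidableEq H] in
lemma fr_dot_sq_le (x y : H → ℝ) : (x ⬝ᵥ y) ^ 2 ≤ (x ⬝ᵥ x) * (y ⬝ᵥ y) := by
  simp only [dotProduct, ← sq]
  exact Finset.sum_mul_sq_le_sq_mul_sq _ _ _

omit [DecidableEq H] in
lemma OpB.mono {O : Matrix H H ℝ} {ν ν' : ℝ} (h : OpB O ν) (hν : 0 ≤ ν) (h' : ν ≤ ν') :
    OpB O ν' := by
  intro x
  exact (h x).trans (mul_le_mul_of_nonneg_right (pow_le_pow_left₀ hν h' 2) (fr_dot_self_nn x))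

omit [DecidableEq H] in
lemma OpB.qb {O : Matrix H H ℝ} {ν : ℝ} (h : OpB O ν) (hν : 0 ≤ ν) : QB O ν := by
  intro x
  refine abs_le_of_sq_le_sq' ?_ (mul_nonneg hν (fr_dot_self_nn x)) |> abs_le.2
  calc (x ⬝ᵥ O *ᵥ x) ^ 2 ≤ (x ⬝ᵥ x) * ((O *ᵥ x) ⬝ᵥ (O *ᵥ x)) := fr_dot_sq_le _ _
    _ ≤ (x ⬝ᵥ x) * (ν ^ 2 * (x ⬝ᵥ x)) := mul_le_mul_of_nonneg_left (h x) (fr_dot_self_nn x)
    _ = (ν * (x ⬝ᵥ x)) ^ 2 := by ring

omit [DecidableEq H] in
/-- The diagonal is dominated by the Frobenius norm. -/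
lemma Vf_le_ip (A : Matrix H H ℝ) : Vf A ≤ ip A A := by
  refine sum_le_sum fun k _ => ?_
  rw [sq]
  exact single_le_sum (f := fun l => A k l * A k l) (fun l _ => mul_self_nonneg _) (mem_univ k)

omit [DecidableEq H] in
lemma sum_sc (O : Matrix H H ℝ) : ∑ h, sc O h = Yf O := by
  simp only [sc, Yf, ip, sq]
  exact sum_comm

omit [DecidableEq H] in
lemma sc_nonneg (O : Matrix H H ℝ) (h : H) : 0 ≤ sc O h := by
  exact sum_nonneg fun _ _ => sq_nonneg _

omit [DecidableEq H] in
lemma Cent.transpose {U : Finset H} {O : Matrix H H ℝ} (h : Cent U O) : Oᵀ = O := by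
  ext k l
  exact h.symm l k

omit [DecidableEq H] in
lemma Cent.mul_self_apply {U : Finset H} {O : Matrix H H ℝ} (hO : Cent U O) (h : H) :
    (O * O) h h = sc O h := by
  simp only [Matrix.mul_apply, sc, sq]
  exact sum_congr rfl fun k _ => by rw [hO.symm h k]

omit [DecidableEq H] in
lemma Cent.add {U : Finset H} {A B : Matrix H H ℝ} (hA : Cent U A) (hB : Cent U B) :
    Cent U (A + B) := by
  refine ⟨fun k l => ?_, fun k l hk => ?_, fun k => ?_⟩
  · rw [Matrix.add_apply, Matrix.add_apply, hA.symm, hB.symm]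
  · rw [Matrix.add_apply, hA.supp k l hk, hB.supp k l hk, add_zero]
  · simp only [Matrix.add_apply, sum_add_distrib, hA.row, hB.row, add_zero]

omit [DecidableEq H] in
lemma Cent.sub {U : Finset H} {A B : Matrix H H ℝ} (hA : Cent U A) (hB : Cent U B) :
    Cent U (A - B) := by
  refine ⟨fun k l => ?_, fun k l hk => ?_, fun k => ?_⟩
  · rw [Matrix.sub_apply, Matrix.sub_apply, hA.symm, hB.symm]
  · rw [Matrix.sub_apply, hA.supp k l hk, hB.supp k l hk, sub_zero]
  · simp only [Matrix.sub_apply, sum_sub_distrib, hA.row, hB.row, sub_zero]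

omit [DecidableEq H] in
lemma Cent.smul {U : Finset H} {A : Matrix H H ℝ} (r : ℝ) (hA : Cent U A) : Cent U (r • A) := by
  refine ⟨fun k l => ?_, fun k l hk => ?_, fun k => ?_⟩
  · rw [Matrix.smul_apply, Matrix.smul_apply, hA.symm]
  · rw [Matrix.smul_apply, hA.supp k l hk, smul_zero]
  · simp only [Matrix.smul_apply, smul_eq_mul, ← mul_sum, hA.row, mul_zero]

omit [DecidableEq H] in
lemma fr_sum_univ_eq_of_supp {U : Finset H} {f : H → ℝ} (hf : ∀ k, k ∉ U → f k = 0) :
    ∑ k, f k = ∑ k ∈ U, f k :=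
  (sum_subset (subset_univ U) fun k _ hk => hf k hk).symm

omit [DecidableEq H] in
lemma Cent.fr_supp2 {U : Finset H} {O : Matrix H H ℝ} (h : Cent U O) (k l : H) (hl : l ∉ U) :
    O k l = 0 := by
  rw [h.symm, h.supp l k hl]

omit [DecidableEq H] in
lemma Cent.fr_row_U {U : Finset H} {O : Matrix H H ℝ} (h : Cent U O) (k : H) :
    ∑ l ∈ U, O k l = 0 := by
  rw [← fr_sum_univ_eq_of_supp fun l hl => h.fr_supp2 k l hl, h.row]

omit [DecidableEq H] in
lemma Cent.fr_col_U {U : Finset H} {O : Matrix H H ℝ} (h : Cent U O) (l : H) :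
    ∑ k ∈ U, O k l = 0 := by
  rw [← h.fr_row_U l]
  exact sum_congr rfl fun k _ => h.symm k l

omit [DecidableEq H] in
lemma Cent.fr_col {U : Finset H} {O : Matrix H H ℝ} (h : Cent U O) (l : H) : ∑ k, O k l = 0 := by
  rw [← h.row l]
  exact sum_congr rfl fun k _ => h.symm k l

omit [DecidableEq H] in
lemma Cent.fr_mono {U V : Finset H} {O : Matrix H H ℝ} (h : Cent U O) (hUV : U ⊆ V) : Cent V O :=
  ⟨h.symm, fun k l hk => h.supp k l fun hU => hk (hUV hU), h.row⟩

omit [DecidableEq H] in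
lemma Cent.Zf_eq {U : Finset H} {O : Matrix H H ℝ} (h : Cent U O) : Zf O = ∑ k ∈ U, O k k := by
  exact fr_sum_univ_eq_of_supp fun k hk => h.supp k k hk

omit [DecidableEq H] in
lemma Cent.Vf_eq {U : Finset H} {O : Matrix H H ℝ} (h : Cent U O) :
    Vf O = ∑ k ∈ U, O k k ^ 2 := by
  exact fr_sum_univ_eq_of_supp fun k hk => by rw [h.supp k k hk]; ring

omit [DecidableEq H] in
lemma Cent.Yf_eq {U : Finset H} {O : Matrix H H ℝ} (h : Cent U O) : Yf O = ∑ k ∈ U, sc O k := by
  rw [← sum_sc]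
  refine fr_sum_univ_eq_of_supp fun k hk => ?_
  exact sum_eq_zero fun l _ => by rw [h.fr_supp2 l k hk]; ring

lemma fr_proj_mul_apply (U : Finset H) (B : Matrix H H ℝ) (k l : H) :
    (proj U * B) k l = if k ∈ U then B k l - (∑ m ∈ U, B m l) / (U.card : ℝ) else 0 := by
  rw [Matrix.mul_apply]
  split_ifs with hk
  · rw [fr_sum_univ_eq_of_supp (U := U) fun m hm => by simp [proj, hm]]
    have : ∀ m ∈ U, proj U k m * B m l
        = (if k = m then B m l else 0) - B m l / (U.card : ℝ) := by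
      intro m hm
      simp only [proj, hk, hm, and_self, if_true]
      split_ifs <;> ring
    rw [sum_congr rfl this, sum_sub_distrib, sum_ite_eq, if_pos hk, sum_div]
  · exact sum_eq_zero fun m _ => by simp [proj, hk]

omit [Fintype H] in
lemma fr_proj_symm (U : Finset H) (k l : H) : proj U k l = proj U l k := by
  simp only [proj, and_comm, eq_comm]

omit [Fintype H] in
lemma fr_proj_transpose (U : Finset H) : (proj U)ᵀ = proj U := by
  ext k l
  exact fr_proj_symm U l k

lemma fr_mul_proj_apply (U : Finset H) (B : Matrix H H ℝ) (k l : H) :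
    (B * proj U) k l = if l ∈ U then B k l - (∑ m ∈ U, B k m) / (U.card : ℝ) else 0 := by
  have : (B * proj U) k l = (proj U * Bᵀ) l k := by
    conv_rhs => rw [← fr_proj_transpose, ← Matrix.transpose_mul, Matrix.transpose_apply]
  rw [this, fr_proj_mul_apply]
  rfl

lemma fr_row_mul_proj (U : Finset H) (B : Matrix H H ℝ) (k : H) : ∑ l, (B * proj U) k l = 0 := by
  rw [fr_sum_univ_eq_of_supp (U := U) fun l hl => by rw [fr_mul_proj_apply, if_neg hl],
    sum_congr rfl fun l hl => by rw [fr_mul_proj_apply, if_pos hl], sum_sub_distrib, sum_const,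
    nsmul_eq_mul]
  rcases U.eq_empty_or_nonempty with rfl | hU
  · simp
  · have : (U.card : ℝ) ≠ 0 := by exact_mod_cast hU.card_pos.ne'
    field_simp
    ring

lemma cent_proj (U : Finset H) : Cent U (proj U) := by
  refine ⟨fr_proj_symm U, fun k l hk => by simp [proj, hk], fun k => ?_⟩
  have := fr_row_mul_proj U 1 k
  rwa [Matrix.one_mul] at this

lemma Cent.fr_proj_mul_aux {U : Finset H} {O : Matrix H H ℝ} (h : Cent U O) : proj U * O = O := by
  ext k l
  rw [fr_proj_mul_apply, h.fr_col_U]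
  split_ifs with hk
  · simp
  · rw [h.supp k l hk]

lemma proj_mul_proj (U : Finset H) : proj U * proj U = proj U := by
  exact (cent_proj U).fr_proj_mul_aux

lemma Cent.proj_mul {U : Finset H} {O : Matrix H H ℝ} (h : Cent U O) : proj U * O = O := by
  exact h.fr_proj_mul_aux

lemma Cent.mul_proj {U : Finset H} {O : Matrix H H ℝ} (h : Cent U O) : O * proj U = O := by
  have := congrArg Matrix.transpose h.proj_mul
  rwa [Matrix.transpose_mul, fr_proj_transpose, h.transpose] at this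

lemma cent_proj_mul (U : Finset H) {B : Matrix H H ℝ} (hB : Bᵀ = B) :
    Cent U (proj U * B * proj U) := by
  refine ⟨fun k l => ?_, fun k l hk => ?_, fun k => fr_row_mul_proj U _ k⟩
  · have : (proj U * B * proj U)ᵀ = proj U * B * proj U := by
      rw [Matrix.transpose_mul, Matrix.transpose_mul, fr_proj_transpose, hB, Matrix.mul_assoc]
    conv_lhs => rw [← this]
    rfl
  · rw [Matrix.mul_assoc, fr_proj_mul_apply, if_neg hk]

lemma Zf_proj {U : Finset H} (hU : U.Nonempty) : Zf (proj U) = (U.card : ℝ) - 1 := by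
  rw [(cent_proj U).Zf_eq, sum_congr rfl (g := fun _ => 1 - 1 / (U.card : ℝ))
    fun k hk => by simp [proj, hk], sum_const, nsmul_eq_mul]
  have : (U.card : ℝ) ≠ 0 := by exact_mod_cast hU.card_pos.ne'
  field_simp

lemma Cent.ip_proj {U : Finset H} {O : Matrix H H ℝ} (h : Cent U O) : ip O (proj U) = Zf O := by
  rw [ip_eq_trace, h.transpose, h.mul_proj]
  rfl

lemma opB_proj (U : Finset H) : OpB (proj U) 1 := by
  intro x
  have h1 : (proj U *ᵥ x) ⬝ᵥ (proj U *ᵥ x) = x ⬝ᵥ (proj U *ᵥ x) := by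
    rw [Matrix.dotProduct_mulVec, ← Matrix.mulVec_transpose, fr_proj_transpose, Matrix.mulVec_mulVec,
      proj_mul_proj, dotProduct_comm]
  have h2 := fr_dot_self_nn (x - proj U *ᵥ x)
  rw [sub_dotProduct, dotProduct_sub, dotProduct_sub, dotProduct_comm (proj U *ᵥ x) x] at h2
  linarith

lemma fro_proj_mul_le (U : Finset H) (B : Matrix H H ℝ) : fro (proj U * B * proj U) ≤ fro B := by
  have h1 := (opB_proj U).fro_mul_le zero_le_one (B * proj U)
  have h2 := (opB_proj U).fro_mul_le zero_le_one Bᵀ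
  rw [← fro_transpose (B * proj U), Matrix.transpose_mul, fr_proj_transpose] at h1
  rw [fro_transpose] at h2
  rw [Matrix.mul_assoc]
  linarith

omit [Fintype H] in
lemma card_rem {U : Finset H} {h h' : H} (hh : h ∈ U) (hh' : h' ∈ U) (hne : h ≠ h') :
    ((rem U h h').card : ℝ) = (U.card : ℝ) - 2 := by
  have h1 : h' ∈ U.erase h := mem_erase.2 ⟨hne.symm, hh'⟩
  have h2 := card_erase_add_one h1
  have h3 := card_erase_add_one hh
  have h4 : (rem U h h').card + 2 = U.card := by rw [rem]; omega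
  rw [← h4]
  push_cast
  ring

omit [Fintype H] in
lemma mem_rem {U : Finset H} {h h' k : H} : k ∈ rem U h h' ↔ k ∈ U ∧ k ≠ h ∧ k ≠ h' := by
  simp only [rem, mem_erase]
  tauto

omit [Fintype H] in
lemma fr_rem_subset (U : Finset H) (h h' : H) : rem U h h' ⊆ U := fun _ hk => (mem_rem.1 hk).1

omit [Fintype H] in
lemma fr_rem_nonempty {U : Finset H} {h h' : H} (hh : h ∈ U) (hh' : h' ∈ U) (hne : h ≠ h')
    (hS : 3 ≤ U.card) : (rem U h h').Nonempty := by
  have h1 := card_rem hh hh' hne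
  have h2 : (3 : ℝ) ≤ U.card := by exact_mod_cast hS
  have h3 : (0 : ℝ) < (rem U h h').card := by linarith
  exact card_pos.1 (by exact_mod_cast h3)

omit [Fintype H] in
lemma fr_sum_rem_eq {U : Finset H} {h h' : H} (hh : h ∈ U) (hh' : h' ∈ U) (hne : h ≠ h')
    (f : H → ℝ) : ∑ k ∈ rem U h h', f k = ∑ k ∈ U, f k - f h - f h' := by
  have h1 : h' ∈ U.erase h := mem_erase.2 ⟨hne.symm, hh'⟩
  rw [rem, sum_erase_eq_sub h1, sum_erase_eq_sub hh]

lemma fro_proj_sub_rem {U : Finset H} {h h' : H} (hh : h ∈ U) (hh' : h' ∈ U) (hne : h ≠ h')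
    (hS : 3 ≤ U.card) : fro (proj (rem U h h') - proj U) ≤ 2 := by
  have hc : Cent U (proj (rem U h h')) := (cent_proj _).fr_mono (fr_rem_subset U h h')
  refine fro_le (by norm_num) ?_
  rw [ip_sub_left, ip_sub_right, ip_sub_right, ip_comm (proj U) (proj (rem U h h')),
    (cent_proj _).ip_proj, (cent_proj _).ip_proj, hc.ip_proj, Zf_proj ⟨h, hh⟩,
    Zf_proj (fr_rem_nonempty hh hh' hne hS), card_rem hh hh' hne]
  linarith

omit [DecidableEq H] in
lemma Cent.bm {U : Finset H} {O : Matrix H H ℝ} (hO : Cent U O) (p : Par) (h h' : H) :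
    Cent U (Bm p O h h') := by
  refine ⟨fun k l => ?_, fun k l hk => ?_, fun k => ?_⟩
  · simp only [Bm, hO.symm k l]
    ring
  · simp only [Bm, hO.supp k _ hk]
    ring
  · simp only [Bm, sum_sub_distrib, sum_add_distrib, ← mul_sum, hO.row, hO.fr_col]
    ring

lemma Cent.sharp {U : Finset H} {O : Matrix H H ℝ} (hO : Cent U O) (p : Par) (h h' : H) :
    Cent (rem U h h') (sharp p U O h h') := by
  exact cent_proj_mul _ (hO.bm p h h').transpose

lemma Cent.fr_row_rem {U : Finset H} {B : Matrix H H ℝ} (hB : Cent U B) {h h' : H}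
    (hh : h ∈ U) (hh' : h' ∈ U) (hne : h ≠ h') (k : H) :
    ∑ l ∈ rem U h h', B k l = -(B k h + B k h') := by
  rw [fr_sum_rem_eq hh hh' hne, hB.fr_row_U]
  ring

lemma Cent.fr_col_rem {U : Finset H} {B : Matrix H H ℝ} (hB : Cent U B) {h h' : H}
    (hh : h ∈ U) (hh' : h' ∈ U) (hne : h ≠ h') (l : H) :
    ∑ k ∈ rem U h h', B k l = -(B l h + B l h') := by
  rw [← hB.fr_row_rem hh hh' hne]
  exact sum_congr rfl fun k _ => hB.symm k l

lemma Cent.fr_cols_rem {U : Finset H} {B : Matrix H H ℝ} (hB : Cent U B) {h h' : H}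
    (hh : h ∈ U) (hh' : h' ∈ U) (hne : h ≠ h') :
    ∑ k ∈ rem U h h', (B k h + B k h') = -(B h h + 2 * B h h' + B h' h') := by
  rw [sum_add_distrib, hB.fr_col_rem hh hh' hne, hB.fr_col_rem hh hh' hne, hB.symm h' h]
  ring

/-- Entries of a projected centered matrix. -/
lemma Cent.proj_rem_apply {U : Finset H} {B : Matrix H H ℝ} (hB : Cent U B) {h h' : H}
    (hh : h ∈ U) (hh' : h' ∈ U) (hne : h ≠ h') (hS : 3 ≤ U.card) {k l : H}
    (hk : k ∈ rem U h h') (hl : l ∈ rem U h h') :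
    (proj (rem U h h') * B * proj (rem U h h')) k l =
      B k l + (B k h + B k h' + (B l h + B l h')) / ((U.card : ℝ) - 2)
        + (B h h + 2 * B h h' + B h' h') / ((U.card : ℝ) - 2) ^ 2 := by
  rw [fr_mul_proj_apply, if_pos hl]
  simp only [fr_proj_mul_apply, if_pos hk, hB.fr_col_rem hh hh' hne, sum_sub_distrib,
    hB.fr_row_rem hh hh' hne, ← sum_div, sum_neg_distrib, hB.fr_cols_rem hh hh' hne,
    card_rem hh hh' hne]
  have h2 : (3 : ℝ) ≤ U.card := by exact_mod_cast hS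
  have h3 : (U.card : ℝ) - 2 ≠ 0 := by linarith
  field_simp
  ring

/-- Trace after projection. -/
lemma Cent.Zf_proj_rem {U : Finset H} {B : Matrix H H ℝ} (hB : Cent U B) {h h' : H}
    (hh : h ∈ U) (hh' : h' ∈ U) (hne : h ≠ h') (hS : 3 ≤ U.card) :
    Zf (proj (rem U h h') * B * proj (rem U h h')) =
      Zf B - B h h - B h' h' - (B h h + 2 * B h h' + B h' h') / ((U.card : ℝ) - 2) := by
  rw [(cent_proj_mul _ hB.transpose).Zf_eq,
    sum_congr rfl fun k hk => hB.proj_rem_apply hh hh' hne hS hk hk, sum_add_distrib,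
    sum_add_distrib, ← sum_div, sum_add_distrib (f := fun k => B k h + B k h'),
    hB.fr_cols_rem hh hh' hne, sum_const, nsmul_eq_mul, card_rem hh hh' hne, fr_sum_rem_eq hh hh' hne,
    hB.Zf_eq]
  have h2 : (3 : ℝ) ≤ U.card := by exact_mod_cast hS
  have h3 : (U.card : ℝ) - 2 ≠ 0 := by linarith
  field_simp
  ring

omit [DecidableEq H] in
lemma Cent.fr_ip_eq {U : Finset H} {B : Matrix H H ℝ} (hB : Cent U B) (C : Matrix H H ℝ) :
    ip B C = ∑ k ∈ U, ∑ l ∈ U, B k l * C k l := by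
  rw [ip, fr_sum_univ_eq_of_supp (U := U) fun k hk => sum_eq_zero fun l _ => by
    rw [hB.supp k l hk, zero_mul]]
  exact sum_congr rfl fun k _ => fr_sum_univ_eq_of_supp fun l hl => by rw [hB.fr_supp2 k l hl, zero_mul]

omit [DecidableEq H] in
lemma Cent.fr_mul_apply_eq {U : Finset H} {B C : Matrix H H ℝ} (hB : Cent U B) (hC : Cent U C)
    (k : H) : (B * C) k k = ∑ l ∈ U, B k l * C k l := by
  rw [Matrix.mul_apply, fr_sum_univ_eq_of_supp (U := U) fun l hl => by rw [hB.fr_supp2 k l hl, zero_mul]]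
  exact sum_congr rfl fun l _ => by rw [hC.symm l k]

lemma Cent.fr_ip_rem {U : Finset H} {B C : Matrix H H ℝ} (hB : Cent U B) (hC : Cent U C)
    {h h' : H} (hh : h ∈ U) (hh' : h' ∈ U) (hne : h ≠ h') :
    ∑ k ∈ rem U h h', ∑ l ∈ rem U h h', B k l * C k l =
      ip B C - 2 * ((B * C) h h + (B * C) h' h')
        + (B h h * C h h + 2 * (B h h' * C h h') + B h' h' * C h' h') := by
  have e : ∀ m, ∑ k ∈ U, B k m * C k m = ∑ k ∈ U, B m k * C m k := fun m =>
    sum_congr rfl fun k _ => by rw [hB.symm k m, hC.symm k m]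
  simp only [fr_sum_rem_eq hh hh' hne, sum_sub_distrib]
  rw [hB.fr_ip_eq, hB.fr_mul_apply_eq hC, hB.fr_mul_apply_eq hC, e h, e h', hB.symm h' h, hC.symm h' h]
  ring

/-- Inner product after projection. -/
lemma Cent.ip_proj_rem {U : Finset H} {B C : Matrix H H ℝ} (hB : Cent U B) (hC : Cent U C)
    {h h' : H} (hh : h ∈ U) (hh' : h' ∈ U) (hne : h ≠ h') (hS : 3 ≤ U.card) :
    ip (proj (rem U h h') * B * proj (rem U h h')) (proj (rem U h h') * C * proj (rem U h h')) =
      ip B C - 2 * ((B * C) h h + (B * C) h' h')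
        + (B h h * C h h + 2 * (B h h' * C h h') + B h' h' * C h' h')
        - 2 * (∑ k ∈ rem U h h', (B k h + B k h') * (C k h + C k h')) / ((U.card : ℝ) - 2)
        + (B h h + 2 * B h h' + B h' h') * (C h h + 2 * C h h' + C h' h')
          / ((U.card : ℝ) - 2) ^ 2 := by
  have hX := cent_proj_mul (rem U h h') hB.transpose
  have e1 : ip (proj (rem U h h') * B * proj (rem U h h'))
      (proj (rem U h h') * C * proj (rem U h h'))
      = ip (proj (rem U h h') * B * proj (rem U h h')) C := by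
    rw [ip_comm, ip_mul_right, ip_mul_left, fr_proj_transpose, hX.mul_proj, hX.proj_mul, ip_comm]
  have e2 : ∀ k ∈ rem U h h', ∑ l ∈ rem U h h',
      (proj (rem U h h') * B * proj (rem U h h')) k l * C k l
      = ∑ l ∈ rem U h h', B k l * C k l
        - (B k h + B k h') * (C k h + C k h') / ((U.card : ℝ) - 2)
        + (∑ l ∈ rem U h h', (B l h + B l h') * C k l) / ((U.card : ℝ) - 2)
        - (B h h + 2 * B h h' + B h' h') / ((U.card : ℝ) - 2) ^ 2 * (C k h + C k h') := by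
    intro k hk
    have e3 : ∀ l ∈ rem U h h', (proj (rem U h h') * B * proj (rem U h h')) k l * C k l
        = B k l * C k l + (B k h + B k h') / ((U.card : ℝ) - 2) * C k l
          + (B l h + B l h') * C k l / ((U.card : ℝ) - 2)
          + (B h h + 2 * B h h' + B h' h') / ((U.card : ℝ) - 2) ^ 2 * C k l := by
      intro l hl
      rw [hB.proj_rem_apply hh hh' hne hS hk hl]
      ring
    rw [sum_congr rfl e3, sum_add_distrib, sum_add_distrib, sum_add_distrib, ← mul_sum, ← mul_sum,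
      ← sum_div, hC.fr_row_rem hh hh' hne]
    ring
  have e4 : ∑ k ∈ rem U h h', ∑ l ∈ rem U h h', (B l h + B l h') * C k l
      = -∑ k ∈ rem U h h', (B k h + B k h') * (C k h + C k h') := by
    rw [sum_comm, ← sum_neg_distrib]
    refine sum_congr rfl fun l _ => ?_
    rw [← mul_sum, hC.fr_col_rem hh hh' hne]
    ring
  rw [e1, hX.fr_ip_eq, sum_congr rfl e2, sum_sub_distrib, sum_add_distrib, sum_sub_distrib, ← sum_div,
    ← sum_div, ← mul_sum, e4, hC.fr_cols_rem hh hh' hne, hB.fr_ip_rem hC hh hh' hne]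
  ring

omit [DecidableEq H] in
/-- The column of `Bm` at `h`. -/
lemma Cent.bm_col {U : Finset H} {O : Matrix H H ℝ} (hO : Cent U O) (p : Par) {h h' : H}
    (hR : Rh p O h h' ≠ 0) (k : H) : Bm p O h h' k h =
      (1 + p.A1 * O h' h' + p.A0 * O h h') / Rh p O h h' * O k h
        - (p.A0 * O h h + p.A1 * O h h') / Rh p O h h' * O k h' := by
  simp only [Bm, y0, y1, y2]
  field_simp
  simp only [Rh]
  ring

omit [DecidableEq H] in
/-- The column of `Bm` at `h'`. -/
lemma Cent.bm_col' {U : Finset H} {O : Matrix H H ℝ} (hO : Cent U O) (p : Par) {h h' : H}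
    (hR : Rh p O h h' ≠ 0) (k : H) : Bm p O h h' k h' =
      (1 + p.A1 * O h h + p.A0 * O h h') / Rh p O h h' * O k h'
        - (p.A0 * O h' h' + p.A1 * O h h') / Rh p O h h' * O k h := by
  simp only [Bm, y0, y1, y2, hO.symm h' h]
  field_simp
  simp only [Rh]
  ring

omit [DecidableEq H] in
lemma Cent.bm_block {U : Finset H} {O : Matrix H H ℝ} (hO : Cent U O) (p : Par) {h h' : H}
    (hR : Rh p O h h' ≠ 0) :
    Bm p O h h' h h = (O h h + p.A1 * (O h h * O h' h' - O h h' ^ 2)) / Rh p O h h' ∧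
    Bm p O h h' h' h' = (O h' h' + p.A1 * (O h h * O h' h' - O h h' ^ 2)) / Rh p O h h' ∧
    Bm p O h h' h h' = (O h h' - p.A0 * (O h h * O h' h' - O h h' ^ 2)) / Rh p O h h' := by
  refine ⟨?_, ?_, ?_⟩
  · rw [hO.bm_col p hR]
    field_simp
    ring
  · rw [hO.bm_col' p hR, hO.symm h' h]
    field_simp
    ring
  · rw [hO.bm_col' p hR]
    field_simp
    ring

omit [DecidableEq H] in
lemma Cent.Zf_bm {U : Finset H} {O : Matrix H H ℝ} (hO : Cent U O) (p : Par) (h h' : H) :
    Zf (Bm p O h h') = Zf O - y1 p O h h' * sc O h - y2 p O h h' * sc O h'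
      - 2 * y0 p O h h' * (O * O) h h' := by
  have e : ∑ k, O k h * O k h' = (O * O) h h' := by
    rw [Matrix.mul_apply]
    exact sum_congr rfl fun k _ => by rw [hO.symm k h]
  have e' : ∑ k, O k h' * O k h = (O * O) h h' := by
    rw [← e]
    exact sum_congr rfl fun k _ => mul_comm _ _
  simp only [Zf, Bm, sc, sq, sum_sub_distrib, sum_add_distrib, ← mul_sum, e, e']
  ring

end Vale.Agent.P049
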