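import Vale.Agent.P049.StepZ

/-!
Auxiliary estimates for the full step.
-/

namespace Vale.Agent.P049

open Matrix Finset

variable {H : Type} [Fintype H] [DecidableEq H] {c : Ctx H} {p : Par} {O : Matrix H H ℝ}

lemma Num.Ok.full_xb {c : Num} (h : c.Ok) : 0 ≤ c.xb := by
  have := h.n1_ge; have := h.v_nn
  exact le_trans (by positivity) h.xb_ge

lemma Num.Ok.full_nsh {c : Num} (h : c.Ok) : 0 ≤ c.nsh :=
  (add_nonneg h.y_nn h.full_xb).trans h.nsh_ge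

lemma Num.Ok.full_ss {c : Num} (h : c.Ok) : 0 ≤ c.ss := by
  have := h.ξ_nn; have := h.v_nn
  exact le_trans (by positivity) h.ss_ge

lemma Num.Ok.full_as {c : Num} (h : c.Ok) : 0 ≤ c.as := by
  have := h.ξ_nn; have := h.v_nn; have := h.n1_ge
  exact le_trans (by positivity) h.as_ge

lemma Num.Ok.full_errZ {c : Num} (h : c.Ok) : 0 ≤ c.errZ := by
  have := h.σ_ge; have := h.Θ_ge; have := h.Θr_ge; have := h.v_nn; have := h.a_nn
  have := h.t_nn; have := h.full_ss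
  unfold Num.errZ
  positivity

lemma Num.Ok.full_qvZ {c : Num} : 0 ≤ c.qvZ := by
  unfold Num.qvZ
  positivity

lemma Num.Ok.full_errV {c : Num} (h : c.Ok) {zb Q : ℝ} (hz : 0 ≤ zb) (hQ : 0 ≤ Q) :
    0 ≤ c.errV zb Q := by
  have := h.σ_ge; have := h.Θ_ge; have := h.Θr_ge; have := h.v_nn; have := h.a_nn
  have := h.full_as; have := h.ξ_nn; have := h.φ_nn; have := h.y_nn
  unfold Num.errV
  positivity

lemma Num.Ok.full_errT {c : Num} (h : c.Ok) {a1 zb U1 φG : ℝ} (ha : 0 ≤ a1) (hz : 0 ≤ zb)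
    (hU : 0 ≤ U1) (hG : 0 ≤ φG) : 0 ≤ c.errT a1 zb U1 φG := by
  have := h.σ_ge; have := h.Θ_ge; have := h.Θr_ge; have := h.v_nn; have := h.a_nn
  have := h.full_ss; have := h.ξ_nn; have := h.nu_nn; have := h.t_nn
  unfold Num.errT
  positivity

omit [DecidableEq H] in
lemma full_fix {X W : Matrix H H ℝ} {ζ : ℝ} (h : W = X + ζ • (X * W))
    (hz : |ζ| * fro X ≤ 1 / 2) : fro W ≤ 2 * fro X := by
  have h1 : fro W ≤ fro X + |ζ| * fro (X * W) := by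
    rw [← fro_smul]
    exact (congrArg fro h).trans_le (fro_add_le _ _)
  have h2 := mul_le_mul_of_nonneg_left (fro_mul_le X W) (abs_nonneg ζ)
  have h3 := mul_le_mul_of_nonneg_right hz (fro_nonneg W)
  rw [mul_assoc] at h3
  linarith

omit [DecidableEq H] in
lemma full_ip_le {A B : Matrix H H ℝ} {a b : ℝ} (ha : fro A ≤ a) (hb : fro B ≤ b) :
    |ip A B| ≤ a * b :=
  (abs_ip_le A B).trans (mul_le_mul ha hb (fro_nonneg _) ((fro_nonneg _).trans ha))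

omit [DecidableEq H] in
lemma full_mul_le {A B : Matrix H H ℝ} {a b : ℝ} (ha : fro A ≤ a) (hb : fro B ≤ b) :
    fro (A * B) ≤ a * b :=
  (fro_mul_le A B).trans (mul_le_mul ha hb (fro_nonneg _) ((fro_nonneg _).trans ha))

omit [DecidableEq H] in
lemma full_smul_le {A : Matrix H H ℝ} {r a b : ℝ} (hr : |r| ≤ a) (hb : fro A ≤ b) :
    fro (r • A) ≤ a * b := by
  rw [fro_smul]
  exact mul_le_mul hr hb (fro_nonneg _) ((abs_nonneg _).trans hr)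

lemma full_abs_mul {r s a b : ℝ} (hr : |r| ≤ a) (hs : |s| ≤ b) : |r * s| ≤ a * b := by
  rw [abs_mul]
  exact mul_le_mul hr hs (abs_nonneg _) ((abs_nonneg _).trans hr)

omit [DecidableEq H] in
/-- The normalised shifted matrix. -/
lemma full_shift {u ζ : ℝ} {X O' : Matrix H H ℝ} (hu : u ≠ 0) (h : Shift u ζ X O') :
    ∃ W : Matrix H H ℝ, O' = u ^ 2 • W ∧ W = X + ζ • (X * W) := by
  have hu2 : u ^ 2 ≠ 0 := pow_ne_zero 2 hu
  refine ⟨(u ^ 2)⁻¹ • O', (smul_inv_smul₀ hu2 O').symm, ?_⟩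
  rw [Matrix.mul_smul, smul_comm ζ]
  conv_lhs => rw [show O' = _ from h]
  rw [smul_add, inv_smul_smul₀ hu2]

omit [DecidableEq H] in
lemma full_expand {X W : Matrix H H ℝ} {ζ : ℝ} (h : W = X + ζ • (X * W)) :
    W = X + ζ • (X * X) + ζ ^ 2 • (X * (X * W)) := by
  have e : X * W = X * X + ζ • (X * (X * W)) := by
    conv_lhs => rw [h]
    rw [Matrix.mul_add, Matrix.mul_smul]
  conv_lhs => rw [h, e]
  rw [smul_add, smul_smul, sq, add_assoc]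

omit [DecidableEq H] in
lemma full_Zf_mul {U : Finset H} {X : Matrix H H ℝ} (hX : Cent U X) (B : Matrix H H ℝ) :
    Zf (X * B) = ip X B := by
  rw [ip_eq_trace, hX.transpose]
  rfl

omit [DecidableEq H] in
lemma full_Zf_lin (A B C : Matrix H H ℝ) (r s : ℝ) :
    Zf (A + r • B + s • C) = Zf A + r * Zf B + s * Zf C := by
  simp only [Zf, Matrix.add_apply, Matrix.smul_apply, smul_eq_mul, sum_add_distrib, mul_sum]

omit [DecidableEq H] in
lemma full_Zf_smul (A : Matrix H H ℝ) (r : ℝ) : Zf (r • A) = r * Zf A := by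
  simp only [Zf, Matrix.smul_apply, smul_eq_mul, mul_sum]

omit [DecidableEq H] in
lemma full_Vf_smul (A : Matrix H H ℝ) (r : ℝ) : Vf (r • A) = r ^ 2 * Vf A := by
  simp only [Vf, Matrix.smul_apply, smul_eq_mul, mul_sum, mul_pow]

omit [DecidableEq H] in
lemma full_sq_sub {X O : Matrix H H ℝ} {y : ℝ} (hy : fro O ≤ y) :
    fro (X * X - O * O) ≤ 2 * y * fro (X - O) + fro (X - O) ^ 2 := by
  have e : X * X - O * O = (X - O) * (X - O) + O * (X - O) + (X - O) * O := by noncomm_ring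
  have h1 := fro_mul_le (X - O) (X - O)
  have h2 := full_mul_le hy (le_refl (fro (X - O)))
  have h3 := full_mul_le (le_refl (fro (X - O))) hy
  have h4 := fro_add_le ((X - O) * (X - O) + O * (X - O)) ((X - O) * O)
  have h5 := fro_add_le ((X - O) * (X - O)) (O * (X - O))
  rw [e]
  linarith

omit [DecidableEq H] in
lemma full_Yf_sub {X O : Matrix H H ℝ} {y : ℝ} (hy : fro O ≤ y) :
    |Yf X - Yf O| ≤ 2 * y * fro (X - O) + fro (X - O) ^ 2 := by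
  have e : Yf X - Yf O = 2 * ip O (X - O) + ip (X - O) (X - O) := by
    simp only [Yf, ip_sub_left, ip_sub_right, ip_comm X O]
    ring
  have h1 := abs_le.1 (full_ip_le hy (le_refl (fro (X - O))))
  have h2 := ip_self_nonneg (X - O)
  rw [e, fro_sq, abs_le]
  constructor <;> linarith [h1.1, h1.2]

lemma Ctx.Pt.full_fro (hc : c.Ok) (hp : c.Pt p O) : fro O ≤ c.y := fro_le hc.num.y_nn hp.Y_le

/-- Averages of bounds that are quadratic in the size of the perturbation. -/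
lemma Ctx.Pt.full_avg (hc : c.Ok) (hp : c.Pt p O) {f : H → H → ℝ} {a b d : ℝ} (ha : 0 ≤ a)
    (hb : 0 ≤ b) (hd : 0 ≤ d) (h : ∀ pr ∈ c.Pr, f pr.1 pr.2 ≤
      a + b * fro (sharp p c.U O pr.1 pr.2 - O) + d * fro (sharp p c.U O pr.1 pr.2 - O) ^ 2) :
    c.avg f ≤ 2 * c.σ ^ 4 * a + b * (2 * c.σ ^ 2 * c.X) + d * c.X ^ 2 := by
  refine (hc.avg_mono (g := fun h h' => a + b * fro (sharp p c.U O h h' - O)
    + d * fro (sharp p c.U O h h' - O) ^ 2) h).trans ?_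
  rw [Ctx.avg_add, Ctx.avg_add, Ctx.avg_const, Ctx.avg_mul, Ctx.avg_mul]
  have h1 : c.N ≤ 2 * c.σ ^ 4 := hc.N_le.trans (by nlinarith [sq_nonneg (c.σ ^ 2)])
  exact add_le_add (add_le_add (mul_le_mul_of_nonneg_right h1 ha)
    (mul_le_mul_of_nonneg_left (hp.avg_pert hc) hb))
    (mul_le_mul_of_nonneg_left (hp.avg_pert_sq hc) hd)

lemma Ctx.Pt.full_avg_abs (hc : c.Ok) (hp : c.Pt p O) {f : H → H → ℝ} {a b d : ℝ} (ha : 0 ≤ a)
    (hb : 0 ≤ b) (hd : 0 ≤ d) (h : ∀ pr ∈ c.Pr, |f pr.1 pr.2| ≤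
      a + b * fro (sharp p c.U O pr.1 pr.2 - O) + d * fro (sharp p c.U O pr.1 pr.2 - O) ^ 2) :
    |c.avg f| ≤ 2 * c.σ ^ 4 * a + b * (2 * c.σ ^ 2 * c.X) + d * c.X ^ 2 :=
  (hc.abs_avg_le (g := fun h h' => |f h h'|) fun _ _ => le_rfl).trans (hp.full_avg hc ha hb hd h)

/-- The diagonal of a matrix. -/
def dgm (A : Matrix H H ℝ) : Matrix H H ℝ := fun k l => if k = l then A k k else 0

lemma ip_dgm (A B : Matrix H H ℝ) : ip (dgm A) (dgm B) = ∑ k, A k k * B k k := by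
  simp [ip, dgm]

lemma ip_dgm_self (A : Matrix H H ℝ) : ip (dgm A) (dgm A) = Vf A := by
  simp only [ip_dgm, Vf, sq]

omit [Fintype H] in
lemma dgm_sub (A B : Matrix H H ℝ) : dgm (A - B) = dgm A - dgm B := by
  ext k l
  simp only [dgm, Matrix.sub_apply]
  split_ifs <;> simp

omit [Fintype H] in
lemma dgm_lin (A B C : Matrix H H ℝ) (r s : ℝ) :
    dgm (A + r • B + s • C) = dgm A + (r • dgm B + s • dgm C) := by
  ext k l
  simp only [dgm, Matrix.add_apply, Matrix.smul_apply, smul_eq_mul]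
  split_ifs <;> ring

lemma fro_dgm_le (A : Matrix H H ℝ) : fro (dgm A) ≤ fro A :=
  fro_le (fro_nonneg A) (by rw [ip_dgm_self, fro_sq]; exact Vf_le_ip A)

omit [DecidableEq H] in
/-- Pointwise estimate for the trace after the shift. -/
lemma full_ptZ {U : Finset H} {X W : Matrix H H ℝ} {ζ z n : ℝ} (hX : Cent U X)
    (h : W = X + ζ • (X * W)) (hζ : |ζ| ≤ z) (hn : fro X ≤ n) (hz : z * n ≤ 1 / 2) :
    |Zf W - (Zf X + ζ * Yf X)| ≤ 2 * (z ^ 2 * n ^ 3) := by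
  have hW : fro W ≤ 2 * n := (full_fix h ((mul_le_mul hζ hn (fro_nonneg _)
    ((abs_nonneg _).trans hζ)).trans hz)).trans (by linarith)
  have e : Zf W - (Zf X + ζ * Yf X) = ζ * ζ * ip X (X * W) := by
    conv_lhs => rw [full_expand h]
    rw [full_Zf_lin, full_Zf_mul hX, full_Zf_mul hX, Yf]
    ring
  rw [e]
  refine (full_abs_mul (full_abs_mul hζ hζ) (full_ip_le hn (full_mul_le hn hW))).trans_eq ?_
  ring

/-- Pointwise estimate for the squared diagonal after the shift. -/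
lemma full_ptV {X W O : Matrix H H ℝ} {ζ z n y v ξ b : ℝ}
    (h : W = X + ζ • (X * W)) (hζ : |ζ| ≤ z) (hn : fro X ≤ n) (hz : z * n ≤ 1 / 2)
    (hy : fro O ≤ y) (hv : fro (dgm O) ≤ v) (hξ : fro (dgm (O * O)) ≤ ξ) (hb : fro (X - O) ≤ b)
    (hyb : y + b ≤ n) :
    Vf W - Vf X - 2 * ζ * ip (dgm O) (dgm (O * O)) ≤
      (4 * (z ^ 2 * v * n ^ 3) + 4 * (z ^ 2 * ξ ^ 2) + 8 * (z ^ 4 * n ^ 6))
      + (2 * z * (ξ + 2 * v * y) + 4 * z ^ 2 * n ^ 3) * fro (X - O)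
      + (2 * z * (v + 2 * y + b) + 16 * z ^ 2 * n ^ 2) * fro (X - O) ^ 2 := by
  have z0 : 0 ≤ z := (abs_nonneg _).trans hζ
  have hW : fro W ≤ 2 * n := (full_fix h ((mul_le_mul hζ hn (fro_nonneg _) z0).trans hz)).trans
    (by linarith)
  set x := fro (X - O) with hx
  have x0 : 0 ≤ x := fro_nonneg _
  have y0 : 0 ≤ y := (fro_nonneg _).trans hy
  have h1 : fro (dgm X - dgm O) ≤ x := dgm_sub X O ▸ fro_dgm_le _
  have h2 : fro (dgm (X * X) - dgm (O * O)) ≤ 2 * y * x + x ^ 2 :=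
    dgm_sub (X * X) (O * O) ▸ (fro_dgm_le _).trans (full_sq_sub hy)
  have h3 : fro (dgm (X * (X * W))) ≤ n * (n * (2 * n)) :=
    (fro_dgm_le _).trans (full_mul_le hn (full_mul_le hn hW))
  have h4 : fro (dgm X) ≤ v + x := by
    have := fro_add_le (dgm O) (dgm X - dgm O)
    rw [add_sub_cancel] at this
    linarith
  have h5 : fro (dgm (X * X)) ≤ ξ + 2 * n * x := by
    have := fro_add_le (dgm (O * O)) (dgm (X * X) - dgm (O * O))
    rw [add_sub_cancel] at this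
    nlinarith [mul_le_mul_of_nonneg_right hb x0, mul_le_mul_of_nonneg_right hyb x0,
      mul_nonneg x0 (x0.trans hb)]
  have hζ2 : |ζ ^ 2| ≤ z * z := by rw [sq]; exact full_abs_mul hζ hζ
  have h6 : fro (ζ • dgm (X * X) + ζ ^ 2 • dgm (X * (X * W))) ≤
      z * (ξ + 2 * n * x) + z * z * (n * (n * (2 * n))) :=
    (fro_add_le _ _).trans (add_le_add (full_smul_le hζ h5) (full_smul_le hζ2 h3))
  have h7 := pow_le_pow_left₀ (fro_nonneg _) h6 2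
  rw [fro_sq] at h7
  have e : Vf W - Vf X - 2 * ζ * ip (dgm O) (dgm (O * O)) =
      2 * (ζ * (ip (dgm X - dgm O) (dgm (O * O)) + ip (dgm X) (dgm (X * X) - dgm (O * O))))
      + 2 * (ζ ^ 2 * ip (dgm X) (dgm (X * (X * W))))
      + ip (ζ • dgm (X * X) + ζ ^ 2 • dgm (X * (X * W)))
          (ζ • dgm (X * X) + ζ ^ 2 • dgm (X * (X * W))) := by
    rw [← ip_dgm_self W, ← ip_dgm_self X]
    conv_lhs => rw [full_expand h, dgm_lin]
    rw [ip_add_left (dgm X), ip_add_right _ (dgm X), ip_add_right _ (dgm X),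
      ip_comm (ζ • dgm (X * X) + ζ ^ 2 • dgm (X * (X * W))) (dgm X),
      ip_add_right (dgm X), ip_smul_right, ip_smul_right, ip_sub_left, ip_sub_right]
    ring
  have h8 := (le_abs_self _).trans (full_abs_mul hζ ((abs_add_le _ _).trans
    (add_le_add (full_ip_le h1 hξ) (full_ip_le h4 h2))))
  have h9 := (le_abs_self _).trans (full_abs_mul hζ2 (full_ip_le h4 h3))
  have h10 : (z * (ξ + 2 * n * x) + z * z * (n * (n * (2 * n)))) ^ 2 ≤
      4 * (z ^ 2 * ξ ^ 2) + 16 * z ^ 2 * n ^ 2 * x ^ 2 + 8 * (z ^ 4 * n ^ 6) := by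
    nlinarith [sq_nonneg (z * (ξ + 2 * n * x) - z * z * (n * (n * (2 * n)))),
      sq_nonneg (z * ξ - z * (2 * n * x))]
  have h11 : z * x ^ 2 * x ≤ z * x ^ 2 * b := mul_le_mul_of_nonneg_left hb (by positivity)
  rw [e]
  nlinarith

omit [DecidableEq H] in
/-- Pointwise estimate for the inner product of two shifted resolvents. -/
lemma full_ptT {A B A' B' N₁ N₂ : Matrix H H ℝ} {d₁ d₂ z n U1 e₁ e₂ : ℝ}
    (hA : A' = A + d₁ • (A * A')) (hB : B' = B + d₂ • (B * B')) (hd₁ : |d₁| ≤ z) (hd₂ : |d₂| ≤ z)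
    (nA : fro A ≤ n) (nB : fro B ≤ n) (n₁ : fro N₁ ≤ n) (n₂ : fro N₂ ≤ n) (hz : z * n ≤ 1 / 2)
    (h₁ : fro (A - N₁) ≤ e₁) (h₂ : fro (B - N₂) ≤ e₂) (u₁ : |ip (N₁ * N₁) N₂| ≤ U1)
    (u₂ : |ip N₁ (N₂ * N₂)| ≤ U1) :
    |ip A' B' - ip A B| ≤ 2 * z * U1 + 3 * z * n ^ 2 * (e₁ + e₂) + 8 * z ^ 2 * n ^ 4 := by
  have z0 : 0 ≤ z := (abs_nonneg _).trans hd₁
  have wA : fro A' ≤ 2 * n := (full_fix hA ((mul_le_mul hd₁ nA (fro_nonneg _) z0).trans hz)).trans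
    (by linarith)
  have wB : fro B' ≤ 2 * n := (full_fix hB ((mul_le_mul hd₂ nB (fro_nonneg _) z0).trans hz)).trans
    (by linarith)
  have dA : fro (A' - A) ≤ z * (n * (2 * n)) := by
    rw [sub_eq_of_eq_add' hA]
    exact full_smul_le hd₁ (full_mul_le nA wA)
  have dB : fro (B' - B) ≤ z * (n * (2 * n)) := by
    rw [sub_eq_of_eq_add' hB]
    exact full_smul_le hd₂ (full_mul_le nB wB)
  have e : ip A' B' - ip A B = d₁ * (ip (N₁ * N₁) N₂ + ip (A * (A' - A)) B'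
      + ip (A * A) (B' - B) + ip ((A - N₁) * A) B + ip (N₁ * (A - N₁)) B + ip (N₁ * N₁) (B - N₂))
      + d₂ * (ip N₁ (N₂ * N₂) + ip A (B * (B' - B)) + ip (A - N₁) (B * B)
        + ip N₁ ((B - N₂) * B) + ip N₁ (N₂ * (B - N₂))) := by
    have e1 : ip A' B' = ip A B' + d₁ * ip (A * A') B' := by
      conv_lhs => rw [hA]
      rw [ip_add_left, ip_smul_left]
    have e2 : ip A B' = ip A B + d₂ * ip A (B * B') := by
      conv_lhs => rw [hB]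
      rw [ip_add_right, ip_smul_right]
    rw [e1, e2]
    simp only [Matrix.mul_sub, Matrix.sub_mul, ip_sub_left, ip_sub_right]
    ring
  have a1 := abs_le.1 u₁
  have a2 := abs_le.1 (full_ip_le (full_mul_le nA dA) wB)
  have a3 := abs_le.1 (full_ip_le (full_mul_le nA nA) dB)
  have a4 := abs_le.1 (full_ip_le (full_mul_le h₁ nA) nB)
  have a5 := abs_le.1 (full_ip_le (full_mul_le n₁ h₁) nB)
  have a6 := abs_le.1 (full_ip_le (full_mul_le n₁ n₁) h₂)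
  have b1 := abs_le.1 u₂
  have b2 := abs_le.1 (full_ip_le nA (full_mul_le nB dB))
  have b3 := abs_le.1 (full_ip_le h₁ (full_mul_le nB nB))
  have b4 := abs_le.1 (full_ip_le n₁ (full_mul_le h₂ nB))
  have b5 := abs_le.1 (full_ip_le n₁ (full_mul_le n₂ h₂))
  rw [e]
  refine (abs_add_le _ _).trans ((add_le_add
    (full_abs_mul hd₁ (b := U1 + 6 * z * n ^ 4 + n ^ 2 * (2 * e₁ + e₂)) (abs_le.2 ⟨?_, ?_⟩))
    (full_abs_mul hd₂ (b := U1 + 2 * z * n ^ 4 + n ^ 2 * (e₁ + 2 * e₂))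
      (abs_le.2 ⟨?_, ?_⟩))).trans_eq (by ring))
  · linarith [a1.1, a2.1, a3.1, a4.1, a5.1, a6.1]
  · linarith [a1.2, a2.2, a3.2, a4.2, a5.2, a6.2]
  · linarith [b1.1, b2.1, b3.1, b4.1, b5.1]
  · linarith [b1.2, b2.2, b3.2, b4.2, b5.2]

lemma full_ip_proj {U : Finset H} (hU : U.Nonempty) :
    ip (proj U) (proj U) = (U.card : ℝ) - 1 := by
  rw [(cent_proj U).ip_proj, Zf_proj hU]

lemma full_ip_add {U : Finset H} (hU : U.Nonempty) {A B : Matrix H H ℝ} (hA : Cent U A)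
    (hB : Cent U B) (m m' : ℝ) : ip (A + m • proj U) (B + m' • proj U) =
      ip A B + m' * Zf A + m * Zf B + m * m' * ((U.card : ℝ) - 1) := by
  rw [ip_add_left, ip_add_right, ip_add_right, ip_smul_right, ip_smul_left, ip_smul_left,
    ip_smul_right, hA.ip_proj, ip_comm (proj U) B, hB.ip_proj, full_ip_proj hU]
  ring

lemma Ctx.Ok.full_U (hc : c.Ok) : c.U.Nonempty :=
  card_pos.1 (lt_of_lt_of_le (by norm_num) hc.card_ge)

lemma Ctx.Ok.full_rem (hc : c.Ok) {pr : H × H} (h : pr ∈ c.Pr) :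
    (rem c.U pr.1 pr.2).Nonempty ∧ ((rem c.U pr.1 pr.2).card : ℝ) = c.σ ^ 2 - 2 := by
  obtain ⟨h1, h2, h3⟩ := hc.Pr_sub pr h
  have e := card_rem h1 h2 h3
  rw [hc.card] at e
  refine ⟨card_pos.1 ?_, e⟩
  have : (0 : ℝ) < (rem c.U pr.1 pr.2).card := by
    rw [e]
    nlinarith [hc.num.σ_ge]
  exact_mod_cast this

omit [DecidableEq H] in
lemma full_ip_F {U : Finset H} {F : Matrix H H ℝ} {φ : ℝ} (hF : QB F φ) (hO : Cent U O) :
    |ip F (O * O)| ≤ φ * Yf O := by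
  have e : ip F (O * O) = ∑ h, (fun k => O k h) ⬝ᵥ (F *ᵥ fun k => O k h) := by
    simp only [ip, Matrix.mul_apply, dotProduct, Matrix.mulVec, mul_sum]
    rw [sum_comm]
    refine (sum_congr rfl fun l _ => sum_comm).trans (sum_comm.trans ?_)
    refine sum_congr rfl fun h _ => sum_comm.trans (sum_congr rfl fun k _ =>
      sum_congr rfl fun l _ => ?_)
    rw [hO.symm h l]
    ring
  rw [e, ← sum_sc, mul_sum]
  refine (abs_sum_le_sum_abs _ _).trans (sum_le_sum fun h _ => (hF _).trans_eq ?_)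
  simp only [sc, dotProduct, sq]

/-- Crude bound for the drift of the trace. -/
lemma Ctx.Pt.full_crude (hc : c.Ok) (hp : c.Pt p O) {a1 zb : ℝ} (ha : |p.A1| ≤ a1)
    (hZ : |Zf O| ≤ zb) : |c.avg fun h h' => Zf (sharp p c.U O h h') - Zf O| ≤
      2 * (c.σ ^ 2 * zb) + 2 * (a1 * c.σ ^ 2 * c.y ^ 2) + 4 * (zb * c.y ^ 2)
        + 4 * (c.φ * c.y ^ 2) + 100 * c.errZ := by
  have hY : |Yf O| ≤ c.y ^ 2 := by
    rw [abs_of_nonneg (show 0 ≤ Yf O from ip_self_nonneg O)]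
    exact hp.Y_le
  have hS : |c.σ ^ 2| ≤ c.σ ^ 2 := (abs_of_nonneg (sq_nonneg _)).le
  have h0 := abs_le.1 (hp.stepZ hc)
  have h1 := abs_le.1 (full_abs_mul hS hZ)
  have h2 := abs_le.1 (full_abs_mul (full_abs_mul ha hS) hY)
  have h3 := abs_le.1 (full_abs_mul (full_abs_mul hp.vp_le hZ) hY)
  have h4 := abs_le.1 (full_abs_mul hp.A0_le ((full_ip_F hc.F_qb hp.cent).trans
    (mul_le_mul_of_nonneg_left hp.Y_le hc.num.φ_nn)))
  rw [abs_le]
  constructor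
  · linarith [h0.1, h1.2, h2.2, h3.2, h4.1]
  · linarith [h0.2, h1.1, h2.1, h3.1, h4.2]

/-- The main term of the cross term. -/
lemma full_main {S m₁ m₂ m₃ Z₁ Z₂ Z₃ Y₂ Y₃ y zb η κ e Δ δ : ℝ} (hS : 1 ≤ S)
    (hm₁ : 0 ≤ m₁ ∧ m₁ ≤ 2) (hm₂ : 0 ≤ m₂ ∧ m₂ ≤ 2) (hm₃ : 0 ≤ m₃ ∧ m₃ ≤ 2)
    (hZ₁ : |Z₁| ≤ zb) (hZ₂ : |Z₂| ≤ zb) (hZ₃ : |Z₃| ≤ zb) (hY₂ : |Y₂| ≤ y * y) (hY₃ : |Y₃| ≤ y * y)
    (hη : |m₂ - m₃| ≤ η) (hη1 : η ≤ 1) (hκ : 0 ≤ κ) (hκ4 : κ ≤ 2 * 2) (_he : 0 ≤ e)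
    (hr : κ * (m₁ * (m₂ + m₃)) ≤ 1 + e)
    (t₂ : 0 ≤ Y₂ + m₂ * Z₁ + m₁ * Z₂ + m₁ * m₂ * (S - 1))
    (t₃ : 0 ≤ Y₃ + m₃ * Z₁ + m₁ * Z₃ + m₁ * m₃ * (S - 1))
    (hΔ : Δ = Y₂ + m₂ * Z₁ + m₁ * Z₂ + m₁ * m₂ * (S - 1)
      - (Y₃ + m₃ * Z₁ + m₁ * Z₃ + m₁ * m₃ * (S - 1))) (h0 : 0 ≤ Δ) (hδ : Δ ≤ δ) :
    -4 * S * (Y₂ - Y₃) - 2 * κ * (Y₂ ^ 2 - Y₃ ^ 2) ≤ -2 * S * Δ + 2 * e * S * Δ
      + 20 * (S * zb) + 8 * (η * S ^ 2) + 64 * (zb * δ) + 80 * (zb * y ^ 2)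
      + 32 * (η * S * y ^ 2) := by
  have k₁ : |m₁| ≤ 2 := by rw [abs_of_nonneg hm₁.1]; exact hm₁.2
  have k₂ : |m₂| ≤ 2 := by rw [abs_of_nonneg hm₂.1]; exact hm₂.2
  have k₃ : |m₃| ≤ 2 := by rw [abs_of_nonneg hm₃.1]; exact hm₃.2
  have zb0 : 0 ≤ zb := (abs_nonneg _).trans hZ₁
  have hS1 : |S - 1| ≤ S := by rw [abs_of_nonneg (by linarith)]; linarith
  have b1 := abs_le.1 (full_abs_mul (hη.trans hη1) hZ₁)
  have b2 := abs_le.1 (full_abs_mul k₁ hZ₂)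
  have b3 := abs_le.1 (full_abs_mul k₁ hZ₃)
  have b4 := abs_le.1 (full_abs_mul (full_abs_mul k₁ hη) hS1)
  have b5 := abs_le.1 (full_abs_mul k₂ hZ₁)
  have b6 := abs_le.1 (full_abs_mul k₃ hZ₁)
  obtain ⟨e₀, he₀⟩ : ∃ e₀, e₀ = Δ - (Y₂ - Y₃) := ⟨_, rfl⟩
  have h1 : |e₀| ≤ 5 * zb + 2 * η * S := by
    rw [abs_le, he₀, hΔ]
    constructor
    · linarith [b1.1, b2.1, b3.2, b4.1]
    · linarith [b1.2, b2.2, b3.1, b4.2]
  have h2 : -(Y₂ + Y₃) ≤ m₁ * (m₂ + m₃) * S + 8 * zb := by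
    have := mul_nonneg hm₁.1 (add_nonneg hm₂.1 hm₃.1)
    linarith [b2.2, b3.2, b5.2, b6.2]
  have h3 := mul_le_mul_of_nonneg_left h2 (mul_nonneg hκ h0)
  have h4 := mul_le_mul_of_nonneg_right hr (mul_nonneg h0 (zero_le_one.trans hS))
  have h5 : κ * (zb * Δ) ≤ 2 * 2 * (zb * δ) :=
    mul_le_mul hκ4 (mul_le_mul_of_nonneg_left hδ zb0) (mul_nonneg zb0 h0) (by norm_num)
  have h6 := (le_abs_self _).trans (full_abs_mul (full_abs_mul ((abs_of_nonneg hκ).trans_le hκ4) h1)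
    ((abs_add_le _ _).trans (add_le_add hY₂ hY₃)))
  have h7 := mul_le_mul_of_nonneg_left ((le_abs_self _).trans h1) (zero_le_one.trans hS)
  have e1 : Y₂ - Y₃ = Δ - e₀ := by rw [he₀]; ring
  have e2 : Y₂ ^ 2 - Y₃ ^ 2 = (Δ - e₀) * (Y₂ + Y₃) := by rw [← e1]; ring
  rw [e1, e2]
  linarith

end Vale.Agent.P049
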