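import Vale.Agent.P049.StepTAuxB

/-!
Drift of the inner product of two tracked points under `sharp`.
-/

namespace Vale.Agent.P049

open Matrix Finset

variable {H : Type} [Fintype H] [DecidableEq H] {c : Ctx H} {p p' : Par} {O O' : Matrix H H ℝ}

lemma Ctx.Pt.st_col1 (hc : c.Ok) (hp : c.Pt p O) (hp' : c.Pt p' O') {h h' : H}
    (hh : (h, h') ∈ c.Pr) :
    |(Bm p O h h' * Bm p' O' h h') h h - (O * O') h h| ≤
      6 * (c.th O h h' * |(O * O') h h|) + 5 * (c.th O' h h' * |(O * O') h h|)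
        + 4 * (c.dd h * |(O * O') h h'|) + 4 * (c.th O' h h' * |(O * O') h h'|)
        + 4 * (c.dd h * |(O * O') h' h|) + 4 * (c.th O h h' * |(O * O') h' h|)
        + 18 * (c.dd h ^ 2 * |(O * O') h' h'|) + 9 * (c.th O h h' * |(O * O') h' h'|)
        + 9 * (c.th O' h h' * |(O * O') h' h'|) := by
  have hl := hp.loc hc hh
  have hl' := hp'.loc hc hh
  have hR : Rh p O h h' ≠ 0 := by linarith [hl.R_pos]
  have hR' : Rh p' O' h h' ≠ 0 := by linarith [hl'.R_pos]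
  rw [st_col_sum hp.cent (hp.cent.bm p h h') (hp.cent.bm_col p hR) (hp'.cent.bm_col p' hR')]
  exact st_col_le hl.J11 hl'.J11 hl.J21 hl'.J21 (hc.th_nonneg O h h') (hp.sz_small hc hh).1
    (hc.th_nonneg O' h h') (hp'.sz_small hc hh).1

lemma Ctx.Pt.st_col2 (hc : c.Ok) (hp : c.Pt p O) (hp' : c.Pt p' O') {h h' : H}
    (hh : (h, h') ∈ c.Pr) :
    |(Bm p O h h' * Bm p' O' h h') h' h' - (O * O') h' h'| ≤
      6 * (c.th O h h' * |(O * O') h' h'|) + 5 * (c.th O' h h' * |(O * O') h' h'|)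
        + 4 * (c.dd h' * |(O * O') h' h|) + 4 * (c.th O' h h' * |(O * O') h' h|)
        + 4 * (c.dd h' * |(O * O') h h'|) + 4 * (c.th O h h' * |(O * O') h h'|)
        + 18 * (c.dd h' ^ 2 * |(O * O') h h|) + 9 * (c.th O h h' * |(O * O') h h|)
        + 9 * (c.th O' h h' * |(O * O') h h|) := by
  have hl := hp.loc hc hh
  have hl' := hp'.loc hc hh
  have hR : Rh p O h h' ≠ 0 := by linarith [hl.R_pos]
  have hR' : Rh p' O' h h' ≠ 0 := by linarith [hl'.R_pos]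
  rw [st_col_sum hp.cent (hp.cent.bm p h h') (hp.cent.bm_col' p hR) (hp'.cent.bm_col' p' hR')]
  exact st_col_le hl.J22 hl'.J22 hl.J12 hl'.J12 (hc.th_nonneg O h h') (hp.sz_small hc hh).1
    (hc.th_nonneg O' h h') (hp'.sz_small hc hh).1

/-- The column terms. -/
lemma Ctx.Pt.st_col (hc : c.Ok) (hp : c.Pt p O) (hp' : c.Pt p' O') :
    |(c.avg fun h h' => (Bm p O h h' * Bm p' O' h h') h h + (Bm p O h h' * Bm p' O' h h') h' h')
      - 2 * c.σ ^ 2 * ip O O'| ≤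
      118 * (c.Θr * c.ss * c.σ) + 18 * (c.σ * c.v * c.t) + 32 * (c.Θ * c.t)
        + 40 * (c.v ^ 2 * c.y ^ 2) := by
  have hst := hp.st_W_star hc hp'
  have hW := hp.st_W_ip hc hp'
  have ht := hc.num.t_nn
  have a1 := hp.sz_th_fst hc hst
  have a2 := hp'.sz_th_fst hc hst
  have a3 := hp.sz_th_snd hc hst
  have a4 := hp'.sz_th_snd hc hst
  have b1 := hc.sz_dd_mat ht hW
  have b2 := hc.sz_dd_mat12 ht hW
  have b3 := hc.sz_dd_mat21 ht hW
  have b4 := hc.sz_dd_mat22 ht hW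
  have c1 := hp.avg4 hc ht hW
  have c2 := hp'.avg4 hc ht hW
  have c3 := hp.sz_th_mat' hc ht hW
  have c4 := hp'.sz_th_mat' hc ht hW
  have d1 := hc.sz_prod (u := fun h => c.dd h ^ 2) (w := fun h => |(O * O') h h|)
    (fun _ => sq_nonneg _) (fun _ => abs_nonneg _) hc.dd_sq (hp.st_W_abs hp')
  have d2 := hc.sz_prod' (u := fun h => c.dd h ^ 2) (w := fun h => |(O * O') h h|)
    (fun _ => sq_nonneg _) (fun _ => abs_nonneg _) hc.dd_sq (hp.st_W_abs hp')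
  have k2 : c.Θt * c.t ≤ c.Θ * c.t := mul_le_mul_of_nonneg_right hc.num.Θt_le ht
  have z1 : 0 ≤ c.σ * c.v * c.t := mul_nonneg (mul_nonneg hc.sz_σ_pos.le hc.num.v_nn) ht
  have z2 : 0 ≤ c.v ^ 2 * c.y ^ 2 := by positivity
  have e1 := hc.sz_abs (fun h h' hq => hp.st_col1 hc hp' (h := h) (h' := h') hq)
  have e2 := hc.sz_abs (fun h h' hq => hp.st_col2 hc hp' (h := h) (h' := h') hq)
  rw [Ctx.avg_sub] at e1 e2
  simp only [Ctx.avg_add, Ctx.avg_mul] at e1 e2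
  have m1 := hc.sz_avg1_fst hst
  have m2 := hc.sz_avg1_snd hst
  rw [hp.cent.st_W_tr hp'.cent] at m1 m2
  have f1 := abs_le.1 e1
  have f2 := abs_le.1 e2
  have f3 := abs_le.1 m1
  have f4 := abs_le.1 m2
  rw [Ctx.avg_add, abs_le]
  constructor <;> linarith [f1.1, f1.2, f2.1, f2.2, f3.1, f3.2, f4.1, f4.2]

omit [DecidableEq H] in
lemma st_zz (s : Finset H) (z z' : H → ℝ) :
    |∑ k ∈ s, z k * z' k| ≤ 1 / 2 * (∑ k, z k ^ 2 + ∑ k, z' k ^ 2) := by
  rw [← Finset.sum_add_distrib, Finset.mul_sum]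
  refine (Finset.abs_sum_le_sum_abs _ _).trans
    ((Finset.sum_le_sum_of_subset_of_nonneg (Finset.subset_univ _)
      fun k _ _ => abs_nonneg _).trans (Finset.sum_le_sum fun k _ => ?_))
  rw [abs_le]
  constructor <;> nlinarith [sq_nonneg (z k - z' k), sq_nonneg (z k + z' k)]

lemma Ctx.Pt.st_rest_err (hc : c.Ok) (hp : c.Pt p O) (hp' : c.Pt p' O') {h h' : H}
    (hh : (h, h') ∈ c.Pr) :
    |(Bm p O h h' h h * Bm p' O' h h' h h + 2 * (Bm p O h h' h h' * Bm p' O' h h' h h')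
          + Bm p O h h' h' h' * Bm p' O' h h' h' h')
        - 2 * (∑ k ∈ rem c.U h h', (Bm p O h h' k h + Bm p O h h' k h')
          * (Bm p' O' h h' k h + Bm p' O' h h' k h')) / (c.σ ^ 2 - 2)
        + (Bm p O h h' h h + 2 * Bm p O h h' h h' + Bm p O h h' h' h')
          * (Bm p' O' h h' h h + 2 * Bm p' O' h h' h h' + Bm p' O' h h' h' h')
          / (c.σ ^ 2 - 2) ^ 2| ≤
      9 * c.dd h ^ 2 + 9 * c.dd h' ^ 2 + 25 * c.th O h h' ^ 2 + 25 * c.th O' h h' ^ 2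
        + 2 / c.σ ^ 2 * ∑ k, (Bm p O h h' k h + Bm p O h h' k h') ^ 2
        + 2 / c.σ ^ 2 * ∑ k, (Bm p' O' h h' k h + Bm p' O' h h' k h') ^ 2 := by
  have hl := hp.loc hc hh
  have hl' := hp'.loc hc hh
  have e1 := abs_le.1 (st_block hl.B11_le hl'.B11_le)
  have e2 := abs_le.1 (st_block hl.B22_le hl'.B22_le)
  have e3 : |Bm p O h h' h h' * Bm p' O' h h' h h'| ≤ 8 * c.th O h h' ^ 2 + 8 * c.th O' h h' ^ 2 := by
    have h1 := sz_sq_of_abs hl.B12_le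
    have h2 := sz_sq_of_abs hl'.B12_le
    rw [abs_le]
    constructor <;> nlinarith [sq_nonneg (Bm p O h h' h h' - Bm p' O' h h' h h'),
      sq_nonneg (Bm p O h h' h h' + Bm p' O' h h' h h')]
  have e3' := abs_le.1 e3
  have e4 := abs_le.1 (sz_div_le hc.sz_S_ge (st_zz (rem c.U h h')
    (fun k => Bm p O h h' k h + Bm p O h h' k h') (fun k => Bm p' O' h h' k h + Bm p' O' h h' k h')))
  have t1 := hp.sz_tau_sq hc hh
  have t2 := hp'.sz_tau_sq hc hh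
  have e5 : ∀ x y S : ℝ, x * y / S ^ 2 = x / S * (y / S) := fun x y S => by ring
  rw [e5, mul_div_assoc]
  generalize (Bm p O h h' h h + 2 * Bm p O h h' h h' + Bm p O h h' h' h') / (c.σ ^ 2 - 2) = x at *
  generalize (Bm p' O' h h' h h + 2 * Bm p' O' h h' h h' + Bm p' O' h h' h' h') / (c.σ ^ 2 - 2) = y
    at *
  have e6 : |x * y| ≤ c.dd h ^ 2 + c.dd h' ^ 2 + c.th O h h' ^ 2 + c.th O' h h' ^ 2 :=
    st_abs_mul_le (by linarith [sq_nonneg (c.th O' h h')]) (by linarith [sq_nonneg (c.th O h h')])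
  have e7 := abs_le.1 e6
  rw [abs_le]
  constructor <;> linarith [e1.1, e1.2, e2.1, e2.2, e3'.1, e3'.2, e4.1, e4.2, e7.1, e7.2]

/-- The remaining terms. -/
lemma Ctx.Pt.st_rest (hc : c.Ok) (hp : c.Pt p O) (hp' : c.Pt p' O') :
    |c.avg fun h h' =>
      (Bm p O h h' h h * Bm p' O' h h' h h + 2 * (Bm p O h h' h h' * Bm p' O' h h' h h')
          + Bm p O h h' h' h' * Bm p' O' h h' h' h')
        - 2 * (∑ k ∈ rem c.U h h', (Bm p O h h' k h + Bm p O h h' k h')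
          * (Bm p' O' h h' k h + Bm p' O' h h' k h')) / (c.σ ^ 2 - 2)
        + (Bm p O h h' h h + 2 * Bm p O h h' h h' + Bm p O h h' h' h')
          * (Bm p' O' h h' h h + 2 * Bm p' O' h h' h h' + Bm p' O' h h' h' h')
          / (c.σ ^ 2 - 2) ^ 2| ≤
      20 * (c.σ ^ 2 * c.v ^ 2) + 100 * c.Θt ^ 2 + 800 * c.y ^ 2 := by
  refine (hc.sz_abs (fun h h' hq => hp.st_rest_err hc hp' (h := h) (h' := h') hq)).trans ?_
  simp only [Ctx.avg_add, Ctx.avg_mul]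
  have b1 := hc.sz_fst (u := fun h => c.dd h ^ 2) (fun _ => sq_nonneg _) hc.dd_sq
  have b2 := hc.sz_snd (u := fun h => c.dd h ^ 2) (fun _ => sq_nonneg _) hc.dd_sq
  have b3 := hp.avg_th_sq hc
  have b4 := hp'.avg_th_sq hc
  have hσ := hc.sz_σ_pos
  have hi : 0 ≤ 2 / c.σ ^ 2 := by positivity
  have b5 := mul_le_mul_of_nonneg_left (hp.avg_z_sq hc) hi
  have b6 := mul_le_mul_of_nonneg_left (hp'.avg_z_sq hc) hi
  have r : 2 / c.σ ^ 2 * (200 * c.σ ^ 2 * c.y ^ 2) = 400 * c.y ^ 2 := by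
    field_simp
    ring
  rw [r] at b5 b6
  have z1 : 0 ≤ c.σ ^ 2 * c.v ^ 2 := by positivity
  linarith

/-- Use `Cent.ip_proj_rem` for `B = Bm p O h h'`, `B' = Bm p' O' h h'`. With `W = O * O'`,
`G = O * O' * O`, `G' = O' * O * O'`:
`ip B B' = ip O O' - (y1 G h h + y2 G h' h' + 2 y0 G h h') - (same with primes)
  + ∑ Y a b * Y' c d * W a c * W b d` (indices in `{h, h'}`), whose main term is
`2 y0 y0' W h h * W h' h'`; the columns of `B` are given by `Cent.bm_col`. Bounds: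
`|W h h| ≤ (s + s') / 2`, `|G h h| ≤ nu s`, `fro W ≤ t`, `fro G ≤ nu t`,
`(a + 2 d) (a + 2 d') ≤ 2` on good pairs. -/
theorem Ctx.Pt.stepT (hc : c.Ok) (hp : c.Pt p O) (hp' : c.Pt p' O') {a1 zb U1 φG : ℝ}
    (ha : |p.A1| ≤ a1) (ha' : |p'.A1| ≤ a1) (hz : |Zf O| ≤ zb) (hz' : |Zf O'| ≤ zb)
    (hU : ∑ h, |(O * O' * O) h h| ≤ U1) (hU' : ∑ h, |(O' * O * O') h h| ≤ U1)
    (hG : |ip c.F (O * O' * O)| ≤ φG) (hG' : |ip c.F (O' * O * O')| ≤ φG) :
    |(c.avg fun h h' => ip (sharp p c.U O h h') (sharp p' c.U O' h h') - ip O O')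
      + 4 * c.σ ^ 2 * ip O O' - 2 * p.A0 * p'.A0 * ip O O' ^ 2| ≤ 10000 * c.errT a1 zb U1 φG := by
  have l1 := abs_le.1 (hp.st_lin hc hp' ha hz hU hG)
  have l2 := abs_le.1 (hp'.st_lin hc hp ha' hz' hU' hG')
  have l3 := abs_le.1 (hp.st_quad hc hp')
  have l4 := abs_le.1 (hp.st_col hc hp')
  have l5 := abs_le.1 (hp.st_rest hc hp')
  have key := Ctx.avg_congr (c := c)
    (f := fun h h' => ip (sharp p c.U O h h') (sharp p' c.U O' h h') - ip O O')
    (g := fun h h' => (y1 p O h h' * y1 p' O' h h' * (O * O') h h ^ 2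
        + y1 p O h h' * y2 p' O' h h' * (O * O') h h' ^ 2
        + 2 * y1 p O h h' * y0 p' O' h h' * ((O * O') h h * (O * O') h h')
        + y2 p O h h' * y1 p' O' h h' * (O * O') h' h ^ 2
        + y2 p O h h' * y2 p' O' h h' * (O * O') h' h' ^ 2
        + 2 * y2 p O h h' * y0 p' O' h h' * ((O * O') h' h' * (O * O') h' h)
        + 2 * y0 p O h h' * y1 p' O' h h' * ((O * O') h h * (O * O') h' h)
        + 2 * y0 p O h h' * y2 p' O' h h' * ((O * O') h' h' * (O * O') h h')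
        + 2 * y0 p O h h' * y0 p' O' h h' * ((O * O') h h' * (O * O') h' h)
        + 2 * y0 p O h h' * y0 p' O' h h' * ((O * O') h h * (O * O') h' h'))
      - (y1 p O h h' * (O * O' * O) h h + y2 p O h h' * (O * O' * O) h' h'
        + 2 * y0 p O h h' * (O * O' * O) h h')
      - (y1 p' O' h h' * (O' * O * O') h h + y2 p' O' h h' * (O' * O * O') h' h'
        + 2 * y0 p' O' h h' * (O' * O * O') h h')
      - 2 * ((Bm p O h h' * Bm p' O' h h') h h + (Bm p O h h' * Bm p' O' h h') h' h')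
      + ((Bm p O h h' h h * Bm p' O' h h' h h + 2 * (Bm p O h h' h h' * Bm p' O' h h' h h')
          + Bm p O h h' h' h' * Bm p' O' h h' h' h')
        - 2 * (∑ k ∈ rem c.U h h', (Bm p O h h' k h + Bm p O h h' k h')
          * (Bm p' O' h h' k h + Bm p' O' h h' k h')) / (c.σ ^ 2 - 2)
        + (Bm p O h h' h h + 2 * Bm p O h h' h h' + Bm p O h h' h' h')
          * (Bm p' O' h h' h h + 2 * Bm p' O' h h' h h' + Bm p' O' h h' h' h')
          / (c.σ ^ 2 - 2) ^ 2)) (fun q hq => by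
      obtain ⟨h1, h2, h3⟩ := hc.Pr_sub _ hq
      unfold sharp
      rw [(hp.cent.bm p q.1 q.2).ip_proj_rem (hp'.cent.bm p' q.1 q.2) h1 h2 h3 hc.sz_three,
        hp.cent.st_ip_bm hp'.cent, hc.card]
      ring)
  rw [key, Ctx.avg_add, Ctx.avg_sub, Ctx.avg_sub, Ctx.avg_sub, Ctx.avg_mul]
  have hσ := hc.sz_σ_pos.le
  have hv := hc.num.v_nn
  have hΘr : 0 ≤ c.Θr := by linarith [hc.num.Θr_ge]
  have hΘ : 0 ≤ c.Θ := by linarith [hc.num.Θ_ge]
  have hss := hc.sz_ss_nn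
  have hca := hc.num.a_nn
  have ht := hc.num.t_nn
  have hnu := hc.num.nu_nn
  have hξ := hc.num.ξ_nn
  have ha1 : 0 ≤ a1 := (abs_nonneg _).trans ha
  have hzb : 0 ≤ zb := (abs_nonneg _).trans hz
  have hU1 : 0 ≤ U1 := (Finset.sum_nonneg fun _ _ => abs_nonneg _).trans hU
  have hφ : 0 ≤ φG := (abs_nonneg _).trans hG
  have z1 : 0 ≤ a1 * c.σ ^ 2 * U1 := by positivity
  have z2 : 0 ≤ zb * U1 := by positivity
  have z3 : 0 ≤ c.Θr * c.a * c.σ * c.nu * c.ss := by positivity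
  have z4 : 0 ≤ c.Θr * c.v * c.nu * c.ss := by positivity
  have z5 : 0 ≤ c.Θ * c.nu * c.t := by positivity
  have z6 : 0 ≤ c.a ^ 2 * c.σ ^ 2 * c.ξ ^ 2 := by positivity
  have z7 : 0 ≤ c.v ^ 2 * c.ξ ^ 2 := by positivity
  have z8 : 0 ≤ c.t ^ 2 := by positivity
  have z9 : 0 ≤ c.Θr * c.ss * c.ξ := by positivity
  have z10 : 0 ≤ c.Θr * c.ss * c.σ := by positivity
  have z11 : 0 ≤ c.σ * c.v * c.t := by positivity
  have z12 : 0 ≤ c.Θ * c.t := by positivity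
  have z13 : 0 ≤ c.v ^ 2 * c.y ^ 2 := by positivity
  have z14 : 0 ≤ c.σ ^ 2 * c.v ^ 2 := by positivity
  have z15 : 0 ≤ c.Θt ^ 2 := by positivity
  have z16 : 0 ≤ c.y ^ 2 := by positivity
  unfold Num.errT
  rw [abs_le]
  constructor <;> linarith [l1.1, l1.2, l2.1, l2.2, l3.1, l3.2, l4.1, l4.2, l5.1, l5.2]

end Vale.Agent.P049
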