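import Vale.Agent.P049.StepV
import Vale.Agent.P049.StepT
import Vale.Agent.P049.FullA

/-!
The full step: update followed by the shift of the boundary parameter.
-/

namespace Vale.Agent.P049

open Matrix Finset

variable {H : Type} [Fintype H] [DecidableEq H] {c : Ctx H} {p : Par} {O : Matrix H H ℝ}

omit [DecidableEq H] in
/-- If `W = X + ζ X W` and `|ζ| fro X ≤ 1 / 2` then `fro W ≤ 2 fro X`. -/
lemma fro_le_of_fix {X W : Matrix H H ℝ} {ζ : ℝ} (h : W = X + ζ • (X * W))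
    (hz : |ζ| * fro X ≤ 1 / 2) : fro W ≤ 2 * fro X := by
  exact full_fix h hz

/-- Passing from the resolvent identity to the centered shift. -/
lemma shift_of_res {U : Finset H} {X N' : Matrix H H ℝ} {m m' dg u : ℝ} (hX : Cent U X)
    (hN : Cent U N') (h : N' = (X + m • proj U) + dg • ((X + m • proj U) * N'))
    (hu : u * (1 - dg * m) = 1) (hm : m' = m * u) : Shift u (dg * u) X (N' - m' • proj U) := by
  have e1 : (X + m • proj U) * N' = X * N' + m • N' := by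
    rw [Matrix.add_mul, Matrix.smul_mul, hN.proj_mul]
  rw [e1] at h
  have e2 : N' = u • X + (m * u) • proj U + (dg * u) • (X * N') := by
    calc N' = (u * (1 - dg * m)) • N' := by rw [hu, one_smul]
      _ = u • (N' - dg • m • N') := by module
      _ = u • ((X + m • proj U + dg • (X * N' + m • N')) - dg • m • N') := by rw [← h]
      _ = _ := by module
  have e3 : u = u ^ 2 - dg * u * (m * u) := by linear_combination (-u) * hu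
  rw [Shift, Matrix.mul_sub, Matrix.mul_smul, hX.mul_proj, hm, sub_eq_iff_eq_add]
  refine e2.trans ?_
  rw [smul_sub, smul_smul]
  nth_rewrite 1 [e3]
  module

/-- Second moment of the new trace. Put `W = O' / u ^ 2 = X + ζ X ^ 2 + ζ ^ 2 X ^ 2 W`, so
`Zf W = Zf X + ζ Yf X + ζ ^ 2 Zf (X ^ 2 W)` with `|Zf (X ^ 2 W)| ≤ 2 fro X ^ 3`; expand
`(Z + δ) ^ 2` and use `stepZ`, `qvZ`, `avg_pert`, `avg_pert_sq`, `N_sub`. -/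
theorem Ctx.Pt.fullZ (hc : c.Ok) (hp : c.Pt p O) {O' : H → H → Matrix H H ℝ} {u ζ z zb Γ : ℝ}
    (hu : u ≠ 0) (hs : ∀ pr ∈ c.Pr, Shift u ζ (sharp p c.U O pr.1 pr.2) (O' pr.1 pr.2))
    (hζ : |ζ| ≤ z) (hz : z * c.nsh ≤ 1 / 2) (hZ : |Zf O| ≤ zb)
    (hΓ : |ζ * c.σ ^ 4 * Yf O - 2 * p.A1 * c.σ ^ 2 * Yf O + 2 * p.A0 * ip c.F (O * O)| ≤ Γ) :
    (c.avg fun h h' => Zf (O' h h') ^ 2) ≤
      u ^ 4 * (c.N * Zf O ^ 2 - 4 * Zf O ^ 2 * (c.σ ^ 2 + p.vp * Yf O)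
        + 1000 * zb * c.E1 z Γ + 10000 * c.E2 z) := by
  choose! W e1 e2 using fun pr (hpr : pr ∈ c.Pr) => full_shift hu (hs pr hpr)
  have hn := hc.num
  have z0 : 0 ≤ z := (abs_nonneg _).trans hζ
  have n0 := hn.full_nsh
  have y0 := hn.y_nn
  have X0 := hn.X_nn
  have σ0 : 0 ≤ c.σ := le_trans (by norm_num) hn.σ_ge
  have Θ0 : 0 ≤ c.Θr := zero_le_one.trans hn.Θr_ge
  have pt := fun pr (hpr : pr ∈ c.Pr) => full_ptZ (hp.cent.sharp p pr.1 pr.2) (e2 pr hpr) hζ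
    (hp.sharp_le hc hpr) hz
  have hY : |Yf O| ≤ c.y ^ 2 := by
    rw [abs_of_nonneg (show 0 ≤ Yf O from ip_self_nonneg O)]
    exact hp.Y_le
  have a0 : (c.avg fun h h' => Zf (O' h h') ^ 2) = u ^ 4 * (c.N * (Zf O ^ 2 + 2 * Zf O * ζ * Yf O)
      + 2 * Zf O * (c.avg fun h h' => Zf (sharp p c.U O h h') - Zf O)
      + 2 * Zf O * (c.avg fun h h' => Zf (W (h, h')) - Zf (sharp p c.U O h h') - ζ * Yf O)
      + c.avg fun h h' => (Zf (W (h, h')) - Zf O) ^ 2) := by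
    rw [← Ctx.avg_const, ← Ctx.avg_mul, ← Ctx.avg_mul, ← Ctx.avg_add, ← Ctx.avg_add,
      ← Ctx.avg_add, ← Ctx.avg_mul]
    refine Ctx.avg_congr fun pr hpr => ?_
    rw [e1 pr hpr, full_Zf_smul]
    ring
  have a1 := hp.full_avg_abs hc
    (f := fun h h' => Zf (W (h, h')) - Zf (sharp p c.U O h h') - ζ * Yf O)
    (a := 2 * (z ^ 2 * c.nsh ^ 3)) (b := z * (2 * c.y)) (d := z) (by positivity) (by positivity) z0
    fun pr hpr => by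
      have h1 := abs_le.1 (pt pr hpr)
      have h2 := abs_le.1 (full_abs_mul hζ (full_Yf_sub (X := sharp p c.U O pr.1 pr.2)
        (hp.full_fro hc)))
      rw [abs_le]
      constructor
      · linarith [h1.1, h2.1]
      · linarith [h1.2, h2.2]
  have a2 : (c.avg fun h h' => (Zf (W (h, h')) - Zf O) ^ 2) ≤
      3 * (1000 * c.qvZ) + c.N * (6 * (z ^ 2 * c.nsh ^ 4)) := by
    refine le_trans ?_ (add_le_add (mul_le_mul_of_nonneg_left (hp.qvZ hc) (by norm_num)) le_rfl)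
    rw [← Ctx.avg_const, ← Ctx.avg_mul, ← Ctx.avg_add]
    refine hc.avg_mono fun pr hpr => ?_
    have h1 := pt pr hpr
    have h2 : |Yf (sharp p c.U O pr.1 pr.2)| ≤ c.nsh * c.nsh :=
      full_ip_le (hp.sharp_le hc hpr) (hp.sharp_le hc hpr)
    have h3 := sq_le_sq' (abs_le.1 (full_abs_mul hζ h2)).1 (abs_le.1 (full_abs_mul hζ h2)).2
    have h4 : 2 * (z ^ 2 * c.nsh ^ 3) ≤ z * (c.nsh * c.nsh) := by
      have := mul_le_mul_of_nonneg_left hz (show 0 ≤ z * c.nsh ^ 2 by positivity)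
      linarith
    have h5 := sq_le_sq' (abs_le.1 (h1.trans h4)).1 (abs_le.1 (h1.trans h4)).2
    generalize Zf (W (pr.1, pr.2)) = w, Zf (W pr) = w at *
    generalize Zf (sharp p c.U O pr.1 pr.2) = x, ζ * Yf (sharp p c.U O pr.1 pr.2) = q at *
    nlinarith [sq_nonneg (x - Zf O - q), sq_nonneg (x - Zf O - (w - (x + q))),
      sq_nonneg (q - (w - (x + q)))]
  have a3 := abs_le.1 (hp.stepZ hc)
  have a4 := abs_le.1 (full_abs_mul (full_abs_mul hζ hY) hc.N_sub)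
  have a5 := abs_le.1 hΓ
  have a6 := abs_le.1 a1
  have Γ0 : 0 ≤ Γ := (abs_nonneg _).trans hΓ
  have q1 := hn.full_errZ
  have q2 : 0 ≤ z * c.y ^ 2 * c.Θr * c.σ ^ 3 := by positivity
  have q3 : 0 ≤ z * c.y * c.σ ^ 2 * c.X := by positivity
  have q4 : 0 ≤ z * c.X ^ 2 := by positivity
  have q5 : 0 ≤ z ^ 2 * c.nsh ^ 3 * c.σ ^ 4 := by positivity
  have a7 : |c.N * ζ * Yf O + (c.avg fun h h' => Zf (sharp p c.U O h h') - Zf O)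
      + (c.avg fun h h' => Zf (W (h, h')) - Zf (sharp p c.U O h h') - ζ * Yf O)
      + 2 * Zf O * (c.σ ^ 2 + p.vp * Yf O)| ≤ 100 * c.E1 z Γ := by
    rw [abs_le, Num.E1]
    constructor
    · linarith [a3.1, a4.1, a5.1, a6.1]
    · linarith [a3.2, a4.2, a5.2, a6.2]
  have a8 := (le_abs_self _).trans (full_abs_mul hZ a7)
  have a9 := mul_le_mul_of_nonneg_right hc.N_le (show 0 ≤ z ^ 2 * c.nsh ^ 4 by positivity)
  have q6 : 0 ≤ zb * c.E1 z Γ :=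
    mul_nonneg ((abs_nonneg _).trans hZ) (by linarith [(abs_nonneg _).trans a7])
  have q7 : 0 ≤ c.qvZ := Num.Ok.full_qvZ
  have q8 : 0 ≤ z ^ 2 * c.nsh ^ 4 * c.σ ^ 4 := by positivity
  rw [a0, Num.E2]
  refine mul_le_mul_of_nonneg_left ?_ (by positivity)
  linarith

/-- The new squared diagonal. With `X = sharp`, `W = O' / u ^ 2`, the diagonal of `W` is
`D♯ + ζ s♯ + ζ ^ 2 ρ`, `‖ρ‖ ≤ 2 fro X ^ 3`, `‖D♯ - D‖ ≤ x`, `‖s♯ - s‖ ≤ 2 y x + x ^ 2` for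
`x = fro (X - O) ≤ xb`; the term `2 ζ N ∑ D s` cancels `- 4 A1 S ∑ D s` of `stepV`. -/
theorem Ctx.Pt.fullV (hc : c.Ok) (hp : c.Pt p O) {O' : H → H → Matrix H H ℝ}
    {u ζ z χ m zb Q : ℝ} (hu : u ≠ 0)
    (hs : ∀ pr ∈ c.Pr, Shift u ζ (sharp p c.U O pr.1 pr.2) (O' pr.1 pr.2))
    (hζ : |ζ| ≤ z) (hz : z * c.nsh ≤ 1 / 2) (hχ : |ζ * c.σ ^ 2 - 2 * p.A1| ≤ χ)
    (hm0 : 0 ≤ m) (hm : m ≤ 2) (he : Ent c.dd m O) (hZ : |Zf O| ≤ zb) (hQ : Q4 O ≤ Q) :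
    (c.avg fun h h' => Vf (O' h h')) ≤
      u ^ 4 * (c.N * Vf O - 2 * c.σ ^ 2 * Vf O + 3 * p.vp ^ 2 * Q * Vf O
        + 20000 * c.EV zb Q z χ) := by
  choose! W e1 e2 using fun pr (hpr : pr ∈ c.Pr) => full_shift hu (hs pr hpr)
  have hn := hc.num
  have z0 : 0 ≤ z := (abs_nonneg _).trans hζ
  have n0 := hn.full_nsh
  have y0 := hn.y_nn
  have X0 := hn.X_nn
  have v0 := hn.v_nn
  have ξ0 := hn.ξ_nn
  have b0 := hn.full_xb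
  have σ0 : 0 ≤ c.σ := le_trans (by norm_num) hn.σ_ge
  have Θ0 : 0 ≤ c.Θr := zero_le_one.trans hn.Θr_ge
  have χ0 : 0 ≤ χ := (abs_nonneg _).trans hχ
  have hv : fro (dgm O) ≤ c.v := fro_le v0 (by rw [ip_dgm_self]; exact hp.Vf_le hc)
  have hξ : fro (dgm (O * O)) ≤ c.ξ := fro_le ξ0 (by
    rw [ip_dgm_self, Vf]
    simp only [hp.cent.mul_self_apply]
    exact hp.Xi_le)
  have eD : ip (dgm O) (dgm (O * O)) = ∑ k, O k k * sc O k := by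
    simp only [ip_dgm, hp.cent.mul_self_apply]
  have hD := full_ip_le hv hξ
  have a0 : (c.avg fun h h' => Vf (O' h h')) =
      u ^ 4 * (c.N * (Vf O + 2 * ζ * ip (dgm O) (dgm (O * O)))
      + (c.avg fun h h' => Vf (sharp p c.U O h h') - Vf O)
      + c.avg fun h h' => Vf (W (h, h')) - Vf (sharp p c.U O h h')
          - 2 * ζ * ip (dgm O) (dgm (O * O))) := by
    rw [← Ctx.avg_const, ← Ctx.avg_add, ← Ctx.avg_add, ← Ctx.avg_mul]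
    refine Ctx.avg_congr fun pr hpr => ?_
    rw [e1 pr hpr, full_Vf_smul]
    ring
  have a1 := hp.full_avg hc (f := fun h h' => Vf (W (h, h')) - Vf (sharp p c.U O h h')
    - 2 * ζ * ip (dgm O) (dgm (O * O))) (by positivity) (by positivity) (by positivity)
    fun pr hpr => full_ptV (e2 pr hpr) hζ (hp.sharp_le hc hpr) hz (hp.full_fro hc) hv hξ
      (hp.pert_le hc hpr) hn.nsh_ge
  have a2 := hp.stepV hc hm0 hm he hZ hQ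
  have a3 := (le_abs_self _).trans (full_abs_mul (full_abs_mul hζ hD) hc.N_sub)
  have a4 := (le_abs_self _).trans (full_abs_mul (full_abs_mul hχ hD)
    (abs_of_nonneg (sq_nonneg c.σ)).le)
  have Q0 : 0 ≤ Q := le_trans (sum_nonneg fun h _ => sum_nonneg fun k _ => by
    split_ifs <;> positivity) hQ
  have q0 := hn.full_errV ((abs_nonneg _).trans hZ) Q0
  have q1 : 0 ≤ χ * c.σ ^ 2 * c.v * c.ξ := by positivity
  have q2 : 0 ≤ z * c.Θr * c.σ ^ 3 * c.v * c.ξ := by positivity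
  have q3 : 0 ≤ z * c.σ ^ 2 * c.X * c.ξ := by positivity
  have q4 : 0 ≤ z * c.y * c.X ^ 2 := by positivity
  have q5 : 0 ≤ z * c.xb * c.X ^ 2 := by positivity
  have q6 : 0 ≤ z * c.v * c.y * c.σ ^ 2 * c.X := by positivity
  have q7 : 0 ≤ z * c.v * c.X ^ 2 := by positivity
  have q8 : 0 ≤ z ^ 2 * c.v * c.σ ^ 4 * c.nsh ^ 3 := by positivity
  have q9 : 0 ≤ z ^ 2 * c.σ ^ 2 * c.X * c.nsh ^ 3 := by positivity
  have q10 : 0 ≤ z ^ 2 * c.σ ^ 4 * c.ξ ^ 2 := by positivity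
  have q11 : 0 ≤ z ^ 2 * c.nsh ^ 2 * c.X ^ 2 := by positivity
  have q12 : 0 ≤ z ^ 4 * c.nsh ^ 6 * c.σ ^ 4 := by positivity
  rw [← eD] at a2
  rw [a0, Num.EV]
  refine mul_le_mul_of_nonneg_left ?_ (by positivity)
  linarith

/-- The squared Frobenius norm without shift. -/
theorem Ctx.Pt.fullY (hc : c.Ok) (hp : c.Pt p O) {a1 zb U1 φG : ℝ} (ha : |p.A1| ≤ a1)
    (hZ : |Zf O| ≤ zb) (hU : ∑ h, |(O * O * O) h h| ≤ U1) (hG : |ip c.F (O * O * O)| ≤ φG) :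
    (c.avg fun h h' => Yf (sharp p c.U O h h')) ≤
      c.N * Yf O - 4 * c.σ ^ 2 * Yf O + 8 * c.y ^ 4 + 10000 * c.errT a1 zb U1 φG := by
  have a1 := (abs_le.1 (hp.stepT hc hp ha ha hZ hZ hU hU hG hG)).2
  rw [Ctx.avg_sub, Ctx.avg_const] at a1
  have hY : |ip O O| ≤ c.y ^ 2 := by
    rw [abs_of_nonneg (ip_self_nonneg O)]
    exact hp.Y_le
  have a2 := (le_abs_self _).trans (full_abs_mul (full_abs_mul hp.A0_le hp.A0_le)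
    (full_abs_mul hY hY))
  simp only [Yf]
  linarith

/-- The resolvent identity after the update. -/
def ResStep (c : Ctx H) (p : Par) (O : Matrix H H ℝ) (m dg : ℝ) (N' : H → H → Matrix H H ℝ) :
    Prop :=
  ∀ pr ∈ c.Pr, N' pr.1 pr.2 = (sharp p c.U O pr.1 pr.2 + m • proj (rem c.U pr.1 pr.2))
    + dg • ((sharp p c.U O pr.1 pr.2 + m • proj (rem c.U pr.1 pr.2)) * N' pr.1 pr.2)

/-- The shift changes the inner product of two resolvents by little. With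
`N♯ = sharp + m Q`, `fro N♯ ≤ nn`, `fro N ≤ nn`, `fro (N♯ - N) ≤ x + 4`: expand
`N' = N♯ + dg N♯ N♯ + dg ^ 2 N♯ N♯ N'`; the first-order terms `ip (N₁♯ N₁♯) N₂♯` differ from
`ip (N₁ N₁) N₂` by at most `3 nn ^ 2` times the perturbation sizes. -/
theorem Ctx.Pt.shiftT (hc : c.Ok) {p₁ p₂ : Par} {O₁ O₂ : Matrix H H ℝ} (h₁ : c.Pt p₁ O₁)
    (h₂ : c.Pt p₂ O₂) {N₁' N₂' : H → H → Matrix H H ℝ} {m₁ m₂ d₁ d₂ z nn U1 : ℝ}
    (hm₁ : |m₁| ≤ 2) (hm₂ : |m₂| ≤ 2) (r₁ : ResStep c p₁ O₁ m₁ d₁ N₁')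
    (r₂ : ResStep c p₂ O₂ m₂ d₂ N₂') (hd₁ : |d₁| ≤ z) (hd₂ : |d₂| ≤ z)
    (hn : c.nsh + 2 * c.σ ≤ nn) (hz : z * nn ≤ 1 / 2)
    (hU₁ : |ip ((O₁ + m₁ • proj c.U) * (O₁ + m₁ • proj c.U)) (O₂ + m₂ • proj c.U)| ≤ U1)
    (hU₂ : |ip (O₁ + m₁ • proj c.U) ((O₂ + m₂ • proj c.U) * (O₂ + m₂ • proj c.U))| ≤ U1) :
    (c.avg fun h h' => |ip (N₁' h h') (N₂' h h')
      - ip (sharp p₁ c.U O₁ h h' + m₁ • proj (rem c.U h h'))
          (sharp p₂ c.U O₂ h h' + m₂ • proj (rem c.U h h'))|) ≤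
      100 * (z * c.σ ^ 4 * U1 + z * c.σ ^ 2 * c.X * nn ^ 2 + z * c.σ ^ 4 * nn ^ 2
        + z ^ 2 * nn ^ 4 * c.σ ^ 4) := by
  have hn' := hc.num
  have z0 : 0 ≤ z := (abs_nonneg _).trans hd₁
  have σ0 : 0 ≤ c.σ := le_trans (by norm_num) hn'.σ_ge
  have n0 : 0 ≤ nn := by linarith [hn'.full_nsh]
  have X0 := hn'.X_nn
  have U0 : 0 ≤ U1 := (abs_nonneg _).trans hU₁
  have fP : fro (proj c.U) ≤ c.σ := fro_le σ0 (by rw [full_ip_proj hc.full_U, hc.card]; linarith)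
  have fQ : ∀ pr ∈ c.Pr, fro (proj (rem c.U pr.1 pr.2)) ≤ c.σ := fun pr hpr =>
    fro_le σ0 (by rw [full_ip_proj (hc.full_rem hpr).1, (hc.full_rem hpr).2]; linarith)
  have b1 : ∀ {p : Par} {O : Matrix H H ℝ} {m : ℝ}, c.Pt p O → |m| ≤ 2 →
      fro (O + m • proj c.U) ≤ nn := fun hp hm =>
    (fro_add_le _ _).trans ((add_le_add (hp.full_fro hc) (full_smul_le hm fP)).trans
      (by linarith [hn'.nsh_ge, hn'.full_xb]))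
  have b2 : ∀ {p : Par} {O : Matrix H H ℝ} {m : ℝ}, c.Pt p O → |m| ≤ 2 → ∀ pr ∈ c.Pr,
      fro (sharp p c.U O pr.1 pr.2 + m • proj (rem c.U pr.1 pr.2)) ≤ nn := fun hp hm pr hpr =>
    (fro_add_le _ _).trans ((add_le_add (hp.sharp_le hc hpr) (full_smul_le hm (fQ pr hpr))).trans hn)
  have b3 : ∀ {p : Par} {O : Matrix H H ℝ} {m : ℝ}, |m| ≤ 2 → ∀ pr ∈ c.Pr,
      fro (sharp p c.U O pr.1 pr.2 + m • proj (rem c.U pr.1 pr.2) - (O + m • proj c.U)) ≤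
        fro (sharp p c.U O pr.1 pr.2 - O) + 2 * 2 := fun hm pr hpr => by
    obtain ⟨h1, h2, h3⟩ := hc.Pr_sub pr hpr
    rw [add_sub_add_comm, ← smul_sub]
    exact (fro_add_le _ _).trans (add_le_add le_rfl (full_smul_le hm
      (fro_proj_sub_rem h1 h2 h3 (le_trans (by norm_num) hc.card_ge))))
  refine (hc.avg_mono (g := fun h h' => (2 * z * U1 + 24 * z * nn ^ 2 + 8 * z ^ 2 * nn ^ 4)
    + 3 * z * nn ^ 2 * fro (sharp p₁ c.U O₁ h h' - O₁)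
    + 3 * z * nn ^ 2 * fro (sharp p₂ c.U O₂ h h' - O₂)) fun pr hpr =>
      (full_ptT (r₁ pr hpr) (r₂ pr hpr) hd₁ hd₂ (b2 h₁ hm₁ pr hpr) (b2 h₂ hm₂ pr hpr) (b1 h₁ hm₁)
        (b1 h₂ hm₂) hz (b3 hm₁ pr hpr) (b3 hm₂ pr hpr) hU₁ hU₂).trans_eq (by ring)).trans ?_
  rw [Ctx.avg_add, Ctx.avg_add, Ctx.avg_const, Ctx.avg_mul, Ctx.avg_mul]
  have a1 := mul_le_mul_of_nonneg_right hc.N_le
    (show 0 ≤ 2 * z * U1 + 24 * z * nn ^ 2 + 8 * z ^ 2 * nn ^ 4 by positivity)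
  have a2 := mul_le_mul_of_nonneg_left (h₁.avg_pert hc) (show 0 ≤ 3 * z * nn ^ 2 by positivity)
  have a3 := mul_le_mul_of_nonneg_left (h₂.avg_pert hc) (show 0 ≤ 3 * z * nn ^ 2 by positivity)
  have q1 : 0 ≤ z * c.σ ^ 4 * U1 := by positivity
  have q2 : 0 ≤ z * c.σ ^ 2 * c.X * nn ^ 2 := by positivity
  have q3 : 0 ≤ z * c.σ ^ 4 * nn ^ 2 := by positivity
  have q4 : 0 ≤ z ^ 2 * nn ^ 4 * c.σ ^ 4 := by positivity
  linarith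

/-- The cross term `Δ = ip N₁ N₂ - ip N₁ N₃`. Expand `ip (O₁ + m₁ P) (O₂ + m₂ P)` with
`Cent.ip_proj`, `Zf_proj`, before and after the update; use `stepT` twice, `stepZ` three times
(only as a crude bound), `shiftT` twice. Main term: with `κ = - A0₁ A0₂ ≥ 0`,
`- 4 S (Y₁₂ - Y₁₃) - 2 κ (Y₁₂ - Y₁₃) (Y₁₂ + Y₁₃) + O(η y ^ 4)`, where `Y₁₂ - Y₁₃ = Δ - e`,
`|e| ≤ 8 zb + 2 η S`, and `- (Y₁₂ + Y₁₃) ≤ m₁ (m₂ + m₃) S + 8 zb`. -/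
theorem Ctx.Pt.fullD (hc : c.Ok) {p₁ p₂ p₃ : Par} {O₁ O₂ O₃ : Matrix H H ℝ} (h₁ : c.Pt p₁ O₁)
    (h₂ : c.Pt p₂ O₂) (h₃ : c.Pt p₃ O₃) {N₁' N₂' N₃' : H → H → Matrix H H ℝ}
    {m₁ m₂ m₃ d₁ d₂ d₃ a1 zb U1 φG η δ z nn e : ℝ}
    (hm₁ : 0 ≤ m₁ ∧ m₁ ≤ 2) (hm₂ : 0 ≤ m₂ ∧ m₂ ≤ 2) (hm₃ : 0 ≤ m₃ ∧ m₃ ≤ 2)
    (r₁ : ResStep c p₁ O₁ m₁ d₁ N₁') (r₂ : ResStep c p₂ O₂ m₂ d₂ N₂')
    (r₃ : ResStep c p₃ O₃ m₃ d₃ N₃') (hd₁ : |d₁| ≤ z) (hd₂ : |d₂| ≤ z) (hd₃ : |d₃| ≤ z)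
    (hn : c.nsh + 2 * c.σ ≤ nn) (hz : z * nn ≤ 1 / 2)
    (ha₁ : |p₁.A1| ≤ a1) (ha₂ : |p₂.A1| ≤ a1) (ha₃ : |p₃.A1| ≤ a1)
    (hZ₁ : |Zf O₁| ≤ zb) (hZ₂ : |Zf O₂| ≤ zb) (hZ₃ : |Zf O₃| ≤ zb)
    (u₁ : ∑ h, |(O₁ * O₂ * O₁) h h| ≤ U1) (u₂ : ∑ h, |(O₂ * O₁ * O₂) h h| ≤ U1)
    (u₃ : ∑ h, |(O₁ * O₃ * O₁) h h| ≤ U1) (u₄ : ∑ h, |(O₃ * O₁ * O₃) h h| ≤ U1)
    (g₁ : |ip c.F (O₁ * O₂ * O₁)| ≤ φG) (g₂ : |ip c.F (O₂ * O₁ * O₂)| ≤ φG)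
    (g₃ : |ip c.F (O₁ * O₃ * O₁)| ≤ φG) (g₄ : |ip c.F (O₃ * O₁ * O₃)| ≤ φG)
    (v₁ : |ip ((O₁ + m₁ • proj c.U) * (O₁ + m₁ • proj c.U)) (O₂ + m₂ • proj c.U)| ≤ U1)
    (v₂ : |ip (O₁ + m₁ • proj c.U) ((O₂ + m₂ • proj c.U) * (O₂ + m₂ • proj c.U))| ≤ U1)
    (v₃ : |ip ((O₁ + m₁ • proj c.U) * (O₁ + m₁ • proj c.U)) (O₃ + m₃ • proj c.U)| ≤ U1)
    (v₄ : |ip (O₁ + m₁ • proj c.U) ((O₃ + m₃ • proj c.U) * (O₃ + m₃ • proj c.U))| ≤ U1)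
    (hη : |m₂ - m₃| ≤ η) (hη' : |p₂.A0 - p₃.A0| ≤ η) (hη1 : η ≤ 1)
    (hκ : 0 ≤ -(p₁.A0 * p₂.A0)) (he : 0 ≤ e) (hr : -(p₁.A0 * p₂.A0) * (m₁ * (m₂ + m₃)) ≤ 1 + e)
    (t₂ : 0 ≤ ip (O₁ + m₁ • proj c.U) (O₂ + m₂ • proj c.U))
    (t₃ : 0 ≤ ip (O₁ + m₁ • proj c.U) (O₃ + m₃ • proj c.U))
    {Δ : ℝ} (hΔ : Δ = ip (O₁ + m₁ • proj c.U) (O₂ + m₂ • proj c.U)
      - ip (O₁ + m₁ • proj c.U) (O₃ + m₃ • proj c.U)) (h0 : 0 ≤ Δ) (hδ : Δ ≤ δ) :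
    (c.avg fun h h' => ip (N₁' h h') (N₂' h h') - ip (N₁' h h') (N₃' h h')) ≤
      c.N * Δ - 2 * c.σ ^ 2 * Δ + 2 * e * c.σ ^ 2 * Δ
        + 30000 * c.ED a1 zb U1 φG η δ z nn := by
  have hn' := hc.num
  have k₁ : |m₁| ≤ 2 := by rw [abs_of_nonneg hm₁.1]; exact hm₁.2
  have k₂ : |m₂| ≤ 2 := by rw [abs_of_nonneg hm₂.1]; exact hm₂.2
  have k₃ : |m₃| ≤ 2 := by rw [abs_of_nonneg hm₃.1]; exact hm₃.2
  have s₂ := h₁.shiftT hc h₂ k₁ k₂ r₁ r₂ hd₁ hd₂ hn hz v₁ v₂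
  have s₃ := h₁.shiftT hc h₃ k₁ k₃ r₁ r₃ hd₁ hd₃ hn hz v₃ v₄
  have w₂ := h₁.stepT hc h₂ ha₁ ha₂ hZ₁ hZ₂ u₁ u₂ g₁ g₂
  have w₃ := h₁.stepT hc h₃ ha₁ ha₃ hZ₁ hZ₃ u₃ u₄ g₃ g₄
  have c₁ := h₁.full_crude hc ha₁ hZ₁
  have c₂ := h₂.full_crude hc ha₂ hZ₂
  have c₃ := h₃.full_crude hc ha₃ hZ₃
  rw [full_ip_add hc.full_U h₁.cent h₂.cent, hc.card] at t₂ hΔ
  rw [full_ip_add hc.full_U h₁.cent h₃.cent, hc.card] at t₃ hΔ
  have a0 : (c.avg fun h h' => ip (N₁' h h') (N₂' h h') - ip (N₁' h h') (N₃' h h')) ≤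
      c.N * (Δ - 2 * (m₁ * (m₂ - m₃)))
      + (c.avg fun h h' => ip (sharp p₁ c.U O₁ h h') (sharp p₂ c.U O₂ h h') - ip O₁ O₂)
      - (c.avg fun h h' => ip (sharp p₁ c.U O₁ h h') (sharp p₃ c.U O₃ h h') - ip O₁ O₃)
      + (m₂ - m₃) * (c.avg fun h h' => Zf (sharp p₁ c.U O₁ h h') - Zf O₁)
      + m₁ * (c.avg fun h h' => Zf (sharp p₂ c.U O₂ h h') - Zf O₂)
      - m₁ * (c.avg fun h h' => Zf (sharp p₃ c.U O₃ h h') - Zf O₃)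
      + (c.avg fun h h' => |ip (N₁' h h') (N₂' h h')
        - ip (sharp p₁ c.U O₁ h h' + m₁ • proj (rem c.U h h'))
          (sharp p₂ c.U O₂ h h' + m₂ • proj (rem c.U h h'))|)
      + (c.avg fun h h' => |ip (N₁' h h') (N₃' h h')
        - ip (sharp p₁ c.U O₁ h h' + m₁ • proj (rem c.U h h'))
          (sharp p₃ c.U O₃ h h' + m₃ • proj (rem c.U h h'))|) := by
    rw [← Ctx.avg_const, ← Ctx.avg_mul, ← Ctx.avg_mul, ← Ctx.avg_mul, ← Ctx.avg_add,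
      ← Ctx.avg_sub, ← Ctx.avg_add, ← Ctx.avg_add, ← Ctx.avg_sub, ← Ctx.avg_add, ← Ctx.avg_add]
    refine hc.avg_mono fun pr hpr => ?_
    obtain ⟨hne, hcard⟩ := hc.full_rem hpr
    rw [full_ip_add hne (h₁.cent.sharp _ _ _) (h₂.cent.sharp _ _ _),
      full_ip_add hne (h₁.cent.sharp _ _ _) (h₃.cent.sharp _ _ _), hcard, hΔ]
    have l1 := le_abs_self (ip (N₁' pr.1 pr.2) (N₂' pr.1 pr.2) -
      (ip (sharp p₁ c.U O₁ pr.1 pr.2) (sharp p₂ c.U O₂ pr.1 pr.2) +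
        m₂ * Zf (sharp p₁ c.U O₁ pr.1 pr.2) + m₁ * Zf (sharp p₂ c.U O₂ pr.1 pr.2) +
        m₁ * m₂ * (c.σ ^ 2 - 2 - 1)))
    have l2 := neg_abs_le (ip (N₁' pr.1 pr.2) (N₃' pr.1 pr.2) -
      (ip (sharp p₁ c.U O₁ pr.1 pr.2) (sharp p₃ c.U O₃ pr.1 pr.2) +
        m₃ * Zf (sharp p₁ c.U O₁ pr.1 pr.2) + m₁ * Zf (sharp p₃ c.U O₃ pr.1 pr.2) +
        m₁ * m₃ * (c.σ ^ 2 - 2 - 1)))
    linarith only [l1, l2]
  have hS : 1 ≤ c.σ ^ 2 := one_le_pow₀ (le_trans (by norm_num) hn'.σ_ge)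
  have a1' := full_main (κ := -(p₁.A0 * p₂.A0)) hS hm₁ hm₂ hm₃ hZ₁ hZ₂ hZ₃
    (full_ip_le (h₁.full_fro hc) (h₂.full_fro hc)) (full_ip_le (h₁.full_fro hc) (h₃.full_fro hc))
    hη hη1 hκ ((neg_le_abs _).trans (full_abs_mul h₁.A0_le h₂.A0_le)) he hr t₂ t₃ hΔ h0 hδ
  have hY := full_ip_le (h₁.full_fro hc) (h₃.full_fro hc)
  have a2 := abs_le.1 (full_abs_mul (full_abs_mul h₁.A0_le hη') (full_abs_mul hY hY))
  have a3 := (le_abs_self _).trans (full_abs_mul (hη.trans hη1) c₁)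
  have a4 := (le_abs_self _).trans (full_abs_mul k₁ c₂)
  have a5 := (neg_le_abs _).trans (full_abs_mul k₁ c₃)
  have a6 := (neg_le_abs _).trans (full_abs_mul
    ((abs_of_nonneg hc.N_nonneg).trans_le hc.N_le) (full_abs_mul k₁ hη))
  have z0 : 0 ≤ z := (abs_nonneg _).trans hd₁
  have σ0 : 0 ≤ c.σ := le_trans (by norm_num) hn'.σ_ge
  have X0 := hn'.X_nn
  have φ0 := hn'.φ_nn
  have U0 : 0 ≤ U1 := (abs_nonneg _).trans v₁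
  have a10 : 0 ≤ a1 := (abs_nonneg _).trans ha₁
  have zb0 : 0 ≤ zb := (abs_nonneg _).trans hZ₁
  have η0 : 0 ≤ η := (abs_nonneg _).trans hη
  have δ0 : 0 ≤ δ := h0.trans hδ
  have q0 := hn'.full_errT a10 zb0 U0 ((abs_nonneg _).trans g₁)
  have q1 := hn'.full_errZ
  have q2 : 0 ≤ c.σ ^ 2 * zb := by positivity
  have q3 : 0 ≤ a1 * c.σ ^ 2 * c.y ^ 2 := by positivity
  have q4 : 0 ≤ zb * c.y ^ 2 := by positivity
  have q5 : 0 ≤ c.φ * c.y ^ 2 := by positivity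
  have q6 : 0 ≤ η * c.σ ^ 4 := by positivity
  have q7 : 0 ≤ η * c.y ^ 4 := by positivity
  have q8 : 0 ≤ η * c.σ ^ 2 * c.y ^ 2 := by positivity
  have q9 : 0 ≤ zb * δ := by positivity
  have q10 : 0 ≤ z * c.σ ^ 4 * U1 := by positivity
  have q11 : 0 ≤ z * c.σ ^ 2 * c.X * nn ^ 2 := by positivity
  have q12 : 0 ≤ z * c.σ ^ 4 * nn ^ 2 := by positivity
  have q13 : 0 ≤ z ^ 2 * nn ^ 4 * c.σ ^ 4 := by positivity
  rw [Num.ED]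
  linarith only [(abs_le.1 w₂).2, (abs_le.1 w₃).1, a2.2, a0, a1', a3, a4, a5, a6, s₂, s₃, q0, q1,
    q2, q3, q4, q5, q6, q7, q8, q9, q10, q11, q12, q13]

end Vale.Agent.P049
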