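import Vale.Agent.P049.Basic

/-!
Partial matchings of half-edges and the barrier matrices.
-/

namespace Vale.Agent.P049

open Matrix Finset

variable {V H : Type} [Fintype V] [DecidableEq V] [Fintype H] [DecidableEq H]

/-- The free half-edges of a partial matching (an involution of the half-edges). -/
def free (p : H → H) : Finset H := univ.filter fun h => p h = h

/-- Match two half-edges. -/
def add (p : H → H) (h h' : H) : H → H := fun k => if k = h then h' else if k = h' then h else p k

/-- No loops and no multiple edges. -/
def Simple (vx : H → V) (p : H → H) : Prop :=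
  (∀ h, p h ≠ h → vx (p h) ≠ vx h) ∧
    ∀ h k, p h ≠ h → p k ≠ k → vx h = vx k → vx (p h) = vx (p k) → h = k

/-- The pair may be matched without creating a loop or a multiple edge. -/
def Allowed (vx : H → V) (p : H → H) (h h' : H) : Prop :=
  p h = h ∧ p h' = h' ∧ vx h ≠ vx h' ∧ ∀ k, p k ≠ k → vx k = vx h → vx (p k) ≠ vx h'

/-- Incidence of vertices and half-edges. -/
def iota (vx : H → V) : Matrix V H ℝ := fun u h => if vx h = u then 1 else 0

/-- The matrix of the matched pairs. -/
def mat (p : H → H) : Matrix H H ℝ := fun k l => if p k = l ∧ k ≠ l then 1 else 0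

/-- The averaging operator of the free half-edges. -/
noncomputable def avgU (U : Finset H) : Matrix H H ℝ := fun k l =>
  if k ∈ U ∧ l ∈ U then 1 / (U.card : ℝ) else 0

/-- The all-ones matrix. -/
def ones (V : Type) : Matrix V V ℝ := fun _ _ => 1

/-- The barrier matrix with sign `s`, spectral parameter `E` and boundary parameter `g`. -/
noncomputable def Mm (vx : H → V) (E s g : ℝ) (p : H → H) : Matrix V V ℝ :=
  E • (1 : Matrix V V ℝ)
    - iota vx * (s • (mat p + avgU (free p)) + g • proj (free p)) * (iota vx)ᵀ + ones V

/-- The resolvent on the free half-edges. -/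
noncomputable def Nm (vx : H → V) (E s g : ℝ) (p : H → H) : Matrix H H ℝ :=
  proj (free p) * ((iota vx)ᵀ * (Mm vx E s g p)⁻¹ * iota vx) * proj (free p)

/-- The coefficients of the update for sign `s`, defect `ω`, ratio `ρ` and `S` free half-edges. -/
noncomputable def par (s ω ρ S : ℝ) : Par where
  A1 := ω / ρ + (ω - s) / (ρ * (S - 2))
  A0 := -s / ρ + (ω - s) / (ρ * (S - 2))
  vp := -(S / (S - 2)) * (1 - ω ^ 2) / ρ ^ 2

end Vale.Agent.P049
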