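import Mathlib

/-!
Statement-level definitions: binary codes and Ramanujan graphs.
-/

namespace Vale.Agent.P049

/-- Self-delimiting code of a truth value. -/
def codeBool (b : Bool) : List Bool :=
  bif b then [true, true, false, false, false] else [true, false, true, false, false]

/-- Self-delimiting code of a list. -/
def codeList {α : Type} (f : α → List Bool) (l : List α) : List Bool :=
  l.foldr (fun x r => true :: (f x ++ r)) [false]

/-- The input `n` in unary: the code of a list of `n` truth values, of length `6 n + 1`. -/
def codeUnary (n : ℕ) : List Bool := codeList codeBool (List.replicate n true)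

/-- The adjacency matrix of a graph on `Fin n`, row by row. -/
def adjTable {n : ℕ} (G : SimpleGraph (Fin n)) [DecidableRel G.Adj] : List (List Bool) :=
  List.ofFn fun u => List.ofFn fun v => decide (G.Adj u v)

/-- A simple `d`-regular graph all of whose eigenvalues on the orthogonal complement of the
all-ones vector have absolute value at most `2 √(d - 1)`. -/
def IsRamanujan {n : ℕ} (d : ℕ) (G : SimpleGraph (Fin n)) [DecidableRel G.Adj] : Prop :=
  G.IsRegularOfDegree d ∧ ∀ (μ : ℝ) (x : Fin n → ℝ), x ≠ 0 → ∑ i, x i = 0 →
    (G.adjMatrix ℝ).mulVec x = μ • x → |μ| ≤ 2 * √((d : ℝ) - 1)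

end Vale.Agent.P049
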