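import Vale.Agent.P049.State
import Vale.Agent.P049.Stmt

/-!
The last phase, the start and the end. Below `R = r`, `S = card (free p) = R ^ x`.
-/

namespace Vale.Agent.P049.Prm

open Matrix Finset

variable {P : Prm} {p : P.HE → P.HE}

lemma sC_Yf_nonneg {H : Type} [Fintype H] (O : Matrix H H ℝ) : 0 ≤ Yf O := ip_self_nonneg O

lemma sC_Vf_nonneg {H : Type} [Fintype H] (O : Matrix H H ℝ) : 0 ≤ Vf O :=
  sum_nonneg fun _ _ => sq_nonneg _

lemma sC_terms (P : Prm) (p : P.HE → P.HE) (s : Bool) :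
    0 ≤ P.lZ s p ∧ 0 ≤ P.lV s p ∧ 0 ≤ P.lY s p := by
  have h1 := sC_Yf_nonneg (P.Op s 3 p)
  have h2 := sC_Vf_nonneg (P.Op s 3 p)
  unfold lZ lV lY
  refine ⟨by positivity, by positivity, by positivity⟩

lemma sC_le_one (h : P.PsiC p ≤ 1) (s : Bool) : P.lZ s p ≤ 1 ∧ P.lV s p ≤ 1 ∧ P.lY s p ≤ 1 := by
  have h1 := sC_terms P p true
  have h2 := sC_terms P p false
  unfold PsiC at h
  rw [Fintype.sum_bool] at h
  cases s <;> refine ⟨by linarith, by linarith, by linarith⟩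

lemma sC_pow (R : ℝ) (n : ℕ) {a : ℝ} (h : (n : ℝ) = a) : R ^ n = Ex R a := by rw [Ex_nat, h]

lemma sC_sg (s : Bool) : sg s = 1 ∨ sg s = -1 := by cases s <;> simp [sg]

lemma sC_act3 (hG : P.Good) {S : ℕ} (h0 : S ≤ P.S0) (h : P.S4 ≤ 2 * S) : P.Act 3 S := by
  have _ := hG
  refine ⟨h0, ?_⟩
  rw [if_neg (by decide), if_pos rfl]
  exact h

/-- The normalized bounds of the last phase. -/
lemma sC_bounds (hG : P.Good) {x : ℝ} (hx : ((free p).card : ℝ) = Ex P.r x) (h : P.PsiC p ≤ 1)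
    (s : Bool) : |Zf (P.Op s 3 p)| ≤ Ex P.r (x - 61660) ∧ Vf (P.Op s 3 p) ≤ Ex P.r (x - 62100) ∧
      Yf (P.Op s 3 p) ≤ Ex P.r (2 * x - 123680) := by
  have hR := hG.one_lt
  obtain ⟨h1, h2, h3⟩ := sC_le_one h s
  unfold lZ at h1
  unfold lV at h2
  unfold lY at h3
  rw [hx, sC_pow (P.r : ℝ) 123320 (a := 123320) (by norm_num), div_le_one (pow_pos (Ex_pos hR _) 2),
    ← le_div_iff₀ (Ex_pos hR _), Ex_pow hR, Ex_div hR] at h1
  rw [hx, sC_pow (P.r : ℝ) 62100 (a := 62100) (by norm_num), div_le_one (Ex_pos hR _),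
    ← le_div_iff₀ (Ex_pos hR _), Ex_div hR] at h2
  rw [hx, sC_pow (P.r : ℝ) 123680 (a := 123680) (by norm_num), div_le_one (pow_pos (Ex_pos hR _) 2),
    ← le_div_iff₀ (Ex_pos hR _), Ex_pow hR, Ex_div hR] at h3
  refine ⟨?_, h2, h3.trans (le_of_eq (by congr 1))⟩
  refine abs_le_of_sq_le_sq ?_ (Ex_pos hR _).le
  refine h1.trans (le_of_eq ?_)
  rw [Ex_pow hR]
  congr 1
  push_cast
  ring

lemma sC_A1 (hG : P.Good) {S : ℕ} (hj : P.Act 3 S) (hS : S ≤ P.S1) {x : ℝ}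
    (hx : (S : ℝ) = Ex P.r x) (s : Bool) : |(P.pr s 3 S).A1| ≤ 3 * Ex P.r (-x) ∧
      |(P.pr s 3 S).A0| ≤ 2 ∧ |(P.pr s 3 S).vp| ≤ 2 := by
  have hR := hG.one_lt
  obtain ⟨h1, h2, h3, -⟩ := hG.pr_le hj s (X := 0) (by rw [hG.x_zero hS, abs_zero])
  refine ⟨h1.trans (le_of_eq ?_), h2, h3⟩
  rw [hx, ← Ex_inv hR]
  ring

/-- The context of the last phase. -/
lemma St.sC_fit (hG : P.Good) (hp : P.St p) (hj : P.Act 3 (free p).card)
    (hS : (free p).card ≤ P.S1) {x : ℝ} (hx : ((free p).card : ℝ) = Ex P.r x) (h1 : 61740 ≤ x)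
    (h2 : x ≤ 123201) (h : P.PsiC p ≤ 1) :
    ∃ c : Ctx P.HE, c.toNum = numC P.r x ∧ c.F = 0 ∧ P.Fit p c ∧
      ∀ s, c.Pt (P.pr s 3 (free p).card) (P.Op s 3 p) := by
  have hR := hG.one_lt
  have hR9 := hG.R_ge
  have hb := sC_bounds hG hx h
  obtain ⟨hm0, hm2, -⟩ := hG.basic hj
  have hy : ∀ s, Yf (P.Op s 3 p) ≤ Ex P.r (x - 61840) ^ 2 := fun s => by
    refine (hb s).2.2.trans (le_of_eq ?_)
    rw [Ex_pow hR]
    congr 1
    push_cast
    ring
  have hsc : ∀ s k, sc (P.Op s 3 p) k ≤ Ex P.r (x - 61738) * (1 + |P.Op s 3 p k k|) := fun s k => by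
    have ht : Top (P.Np s 3 p) (P.m 3 (free p).card + Ex P.r (x - 61840)) :=
      top_of_Yf hm0.le (Ex_pos hR _).le (hy s)
    have h3 := ((hp.cp hG hj s).bounds ht (add_nonneg hm0.le (Ex_pos hR _).le) hm0.le hm2).2 k
    refine h3.trans (mul_le_mul_of_nonneg_right ?_ (by positivity))
    have a1 : Ex P.r (x - 61840) ≤ Ex P.r (x - 61739) := Ex_le hR (by linarith)
    have a2 : (1 : ℝ) ≤ Ex P.r (x - 61739) := one_le_Ex hR (by linarith)
    have a3 : 8 * Ex P.r (x - 61739) ≤ Ex P.r (x - 61738) := mul_Ex_le hR (by linarith) (by linarith)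
    linarith
  obtain ⟨c, e1, e2, e3, e4⟩ := hp.exists_fit hG (univ : Finset Bool) (by simp) (numC P.r x)
    (numC_ok hR9 h1 h2) (by
      simp only [numC]
      rw [hx, Ex_pow hR]
      congr 1
      push_cast
      ring) (numC_ctx hR9 h1 h2) 0 (fun _ _ => rfl) (fun _ _ _ => rfl)
    (fun _ _ => by simp) (fun y => by simp [numC]) (fun _ => by simp)
    (fun s => P.pr s 3 (free p).card) (fun s => P.Op s 3 p) (fun s _ => hp.cent s 3)
    (fun s _ => by
      obtain ⟨a1, a2, a3⟩ := sC_A1 hG hj hS hx s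
      exact ⟨a1.trans (mul_Ex_le hR (by linarith) (by linarith)), a2, a3⟩)
    (by
      rw [Fintype.sum_bool]
      have a1 := (hb true).2.1
      have a2 := (hb false).2.1
      have a3 : 2 * Ex P.r (x - 62100) ≤ Ex P.r (x / 2 - 31049) ^ 2 := by
        rw [Ex_pow hR]
        exact mul_Ex_le hR (by linarith) (by push_cast; linarith)
      simp only [numC]
      linarith)
    (fun s _ => by
      refine ⟨hy s, ?_, ?_, ?_⟩
      · refine (Xif_le (Ex_pos hR _).le (hsc s)).trans ?_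
        have a1 := (hb s).2.1
        have a2 := (hb s).2.2
        have a3 := Ex_pos hR (x - 61738)
        calc _ ≤ 2 * Ex P.r (x - 61738) * Ex P.r (2 * x - 123680)
              + Ex P.r (x - 61738) ^ 2 * Ex P.r (x - 62100) := by gcongr
          _ ≤ _ := by
            simp only [numC, Ex_pow hR, mul_assoc, Ex_mul hR]
            apply Up.fin' hR9
            · repeat' first
                | apply Up.add
                | apply Up.cmul (by norm_num)
                | exact Up.leaf hR (by push_cast; linarith)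
            · norm_num
      · refine (T4_le_Yf_sq _).trans ?_
        exact pow_le_pow_left₀ (sC_Yf_nonneg _) (hb s).2.2 2
      · exact (opB_fro _).mono (fro_nonneg _) (fro_le (Ex_pos hR _).le (hy s)))
    (fun s _ k => hsc s k)
  exact ⟨c, e1, e2, e3, fun s => e4 s (mem_univ s)⟩

section Drift

variable {c : Ctx P.HE} {x : ℝ} {s : Bool}

lemma Fit.sC_card (hc : P.Fit p c) {pr : P.HE × P.HE} (h : pr ∈ c.Pr) :
    ((free (add p pr.1 pr.2)).card : ℝ) = (free p).card - 2 := by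
  obtain ⟨-, h1, h2⟩ := card_add (hc.al pr h)
  rw [h1, Nat.cast_sub h2]
  norm_num

lemma sC_eps (hG : P.Good) : 0 ≤ Ex P.r (-2) ∧ Ex P.r (-2) ≤ 1 / 100 := by
  have hR := hG.one_lt
  have hR9 := hG.R_ge
  exact ⟨(Ex_pos hR _).le, Ex_le_const hR (by linarith) (by norm_num)⟩

lemma sC_drZ (hG : P.Good) (hc : P.Fit p c) (hj : P.Act 3 (free p).card)
    (hS : (free p).card ≤ P.S1) (hx : ((free p).card : ℝ) = Ex P.r x) (h1 : 61740 ≤ x)
    (h2 : x ≤ 123201) (h : P.PsiC p ≤ 1) (e1 : c.toNum = numC P.r x) (e2 : c.F = 0)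
    (hpt : c.Pt (P.pr s 3 (free p).card) (P.Op s 3 p))
    (hs : ∀ pr ∈ c.Pr, Shift 1 0 (sharp (P.pr s 3 (free p).card) c.U (P.Op s 3 p) pr.1 pr.2)
      (P.Op s 3 (add p pr.1 pr.2)))
    (hN : c.N ≤ ((free p).card : ℝ) ^ 2 + Ex P.r (-2) * ((free p).card : ℝ) ^ 2) :
    (c.avg fun h h' => P.lZ s (add p h h')) - c.N * P.lZ s p
      ≤ 20 * Ex P.r (-2) * (free p).card := by
  have hR := hG.one_lt
  have hR9 := hG.R_ge
  obtain ⟨bZ, -, bY⟩ := sC_bounds hG hx h s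
  obtain ⟨bA, -, bv⟩ := sC_A1 hG hj hS hx s
  have hσ : c.σ ^ 2 = (free p).card := by rw [← hc.ok.card, hc.U]
  have hY0 := sC_Yf_nonneg (P.Op s 3 p)
  have hS100 : (100 : ℝ) ≤ (free p).card := by
    have := hc.ok.card_ge
    rw [hc.U] at this
    exact_mod_cast this
  have hW : (P.r : ℝ) ^ 123320 = Ex P.r 123320 := sC_pow _ _ (by norm_num)
  have hf := hpt.fullZ hc.ok (O' := fun h h' => P.Op s 3 (add p h h')) (u := 1) (ζ := 0) (z := 0)
    (Γ := Ex P.r (2 * x - 123678)) one_ne_zero hs (by simp) (by norm_num) bZ (by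
      have : ip (0 : Matrix P.HE P.HE ℝ) (P.Op s 3 p * P.Op s 3 p) = 0 := by simp [ip]
      rw [e2, this, hσ, zero_mul, zero_mul, mul_zero, add_zero, zero_sub, abs_neg, abs_mul, abs_mul,
        abs_mul, abs_two, abs_of_nonneg hY0, Nat.abs_cast, hx]
      have a1 := Ex_pos hR x
      calc _ ≤ 2 * (3 * Ex P.r (-x)) * Ex P.r x * Ex P.r (2 * x - 123680) := by
            have := Ex_pos hR (-x)
            gcongr
        _ = 6 * Ex P.r (-x + x + (2 * x - 123680)) := by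
            rw [← Ex_mul hR, ← Ex_mul hR]
            ring
        _ ≤ _ := mul_Ex_le hR (by linarith) (by linarith))
  have he := numC_Z hR9 h1 h2
  rw [← e1] at he
  have hq := norm_quad (A := c.avg fun h h' => Zf (P.Op s 3 (add p h h')) ^ 2) (N := c.N)
    (S := (free p).card) (ε := Ex P.r (-2)) (Z := Zf (P.Op s 3 p) ^ 2) (W := (P.r : ℝ) ^ 123320)
    (κ := -4 * ((free p).card + (P.pr s 3 (free p).card).vp * Yf (P.Op s 3 p)))
    (e := Ex P.r (2 * (x - 61660) + x - 2)) hS100 (sC_eps hG).1 (sC_eps hG).2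
    (by rw [hW]; exact Ex_pos hR _) (sq_nonneg _) (sC_le_one h s).1 hc.ok.N_nonneg hN
    (by
      have a1 : -((P.pr s 3 (free p).card).vp * Yf (P.Op s 3 p)) ≤ 2 * Ex P.r (2 * x - 123680) := by
        refine (neg_le_abs _).trans ?_
        rw [abs_mul, abs_of_nonneg hY0]
        gcongr
      have a2 : 2 * Ex P.r (2 * x - 123680) ≤ Ex P.r (-2) * (free p).card := by
        rw [hx, Ex_mul hR]
        exact mul_Ex_le hR (by linarith) (by linarith)
      linarith)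
    (by
      rw [hW, hx, Ex_pow hR, Ex_mul hR, Ex_mul hR]
      exact Ex_le hR (by push_cast; linarith))
    (by
      rw [hσ] at hf
      linarith)
  refine le_trans (le_of_eq ?_) hq
  congr 1
  rw [mul_div_assoc, mul_comm (c.avg _), ← c.avg_mul]
  refine c.avg_congr fun pr hpr => ?_
  simp only [lZ]
  rw [hc.sC_card hpr]
  ring

lemma sC_drV (hG : P.Good) (hp : P.St p) (hc : P.Fit p c) (hj : P.Act 3 (free p).card)
    (hS : (free p).card ≤ P.S1) (hx : ((free p).card : ℝ) = Ex P.r x) (h1 : 61740 ≤ x)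
    (h2 : x ≤ 123201) (h : P.PsiC p ≤ 1) (e1 : c.toNum = numC P.r x)
    (hpt : c.Pt (P.pr s 3 (free p).card) (P.Op s 3 p))
    (hs : ∀ pr ∈ c.Pr, Shift 1 0 (sharp (P.pr s 3 (free p).card) c.U (P.Op s 3 p) pr.1 pr.2)
      (P.Op s 3 (add p pr.1 pr.2)))
    (hN : c.N ≤ ((free p).card : ℝ) ^ 2 + Ex P.r (-2) * ((free p).card : ℝ) ^ 2) :
    (c.avg fun h h' => P.lV s (add p h h')) - c.N * P.lV s p
      ≤ 20 * Ex P.r (-2) * (free p).card := by
  have hR := hG.one_lt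
  have hR9 := hG.R_ge
  obtain ⟨bZ, -, -⟩ := sC_bounds hG hx h s
  obtain ⟨bA, -, bv⟩ := sC_A1 hG hj hS hx s
  obtain ⟨hm0, hm2, -⟩ := hG.basic hj
  have hσ : c.σ ^ 2 = (free p).card := by rw [← hc.ok.card, hc.U]
  have hY0 := sC_Yf_nonneg (P.Op s 3 p)
  have hS100 : (100 : ℝ) ≤ (free p).card := by
    have := hc.ok.card_ge
    rw [hc.U] at this
    exact_mod_cast this
  have hS1000 : 1000 ≤ (free p).card := by
    have : (1000 : ℝ) ≤ (free p).card := by
      rw [hx]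
      exact const_le_Ex hR (by linarith) (by linarith)
    exact_mod_cast this
  have hW : (P.r : ℝ) ^ 62100 = Ex P.r 62100 := sC_pow _ _ (by norm_num)
  have hE : Ent c.dd (P.m 3 (free p).card) (P.Op s 3 p) :=
    (hp.cp hG hj s).ent hm0.le hS1000 hpt.diag
  have hτ : 1 / (P.r : ℝ) ≤ 1 := by rw [div_le_one (by linarith)]; linarith
  have hτ0 : 0 < 1 / (P.r : ℝ) := by positivity
  have hQ : Q4 (P.Op s 3 p) ≤ Ex P.r (2 * x - 123679) := by
    refine (hpt.Q4_le hc.ok hm0.le hm2 hE hτ0 hτ).trans ?_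
    have a1 := numC_Q hR9 h1 h2
    rw [← e1] at a1
    refine le_trans ?_ a1
    have a2 := hpt.Y_le
    have a3 : (P.m 3 (free p).card : ℝ) + 1 / P.r ≤ 3 := by linarith
    gcongr
  have hf := hpt.fullV hc.ok (O' := fun h h' => P.Op s 3 (add p h h')) (u := 1) (ζ := 0) (z := 0)
    (χ := Ex P.r (2 - x)) one_ne_zero hs (by simp) (by norm_num) (by
      rw [zero_mul, zero_sub, abs_neg, abs_mul, abs_two]
      have : 6 * Ex P.r (-x) ≤ Ex P.r (2 - x) := mul_Ex_le hR (by linarith) (by linarith)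
      linarith) hm0.le hm2 hE bZ hQ
  have he := numC_V hR9 h1 h2
  rw [← e1] at he
  have hq := norm_lin (A := c.avg fun h h' => Vf (P.Op s 3 (add p h h'))) (N := c.N)
    (S := (free p).card) (ε := Ex P.r (-2)) (Z := Vf (P.Op s 3 p)) (W := (P.r : ℝ) ^ 62100)
    (κ := -2 * (free p).card + 3 * (P.pr s 3 (free p).card).vp ^ 2 * Ex P.r (2 * x - 123679))
    (e := Ex P.r (2 * x - 62100 - 2)) hS100 (sC_eps hG).1 (sC_eps hG).2
    (by rw [hW]; exact Ex_pos hR _) (sC_Vf_nonneg _) (sC_le_one h s).2.1 hN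
    (by
      have a1 : (P.pr s 3 (free p).card).vp ^ 2 ≤ 2 ^ 2 := sq_le_sq' (abs_le.1 bv).1 (abs_le.1 bv).2
      have a0 := Ex_pos hR (2 * x - 123679)
      have a2 : 3 * Ex P.r (2 * x - 123679) ≤ Ex P.r (-2) * (free p).card := by
        rw [hx, Ex_mul hR]
        exact mul_Ex_le hR (by linarith) (by linarith)
      have a3 := mul_le_mul_of_nonneg_right a1 a0.le
      linarith)
    (by
      rw [hW, hx, Ex_pow hR, Ex_mul hR, Ex_mul hR]
      exact Ex_le hR (by push_cast; linarith))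
    (by
      rw [hσ] at hf
      linarith)
  refine le_trans (le_of_eq ?_) hq
  congr 1
  rw [mul_div_assoc, mul_comm (c.avg _), ← c.avg_mul]
  refine c.avg_congr fun pr hpr => ?_
  simp only [lV]
  rw [hc.sC_card hpr]
  ring

lemma sC_drY (hG : P.Good) (hp : P.St p) (hc : P.Fit p c) (hj : P.Act 3 (free p).card)
    (hS : (free p).card ≤ P.S1) (hx : ((free p).card : ℝ) = Ex P.r x) (h1 : 61740 ≤ x)
    (h2 : x ≤ 123201) (h : P.PsiC p ≤ 1) (e1 : c.toNum = numC P.r x) (e2 : c.F = 0)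
    (hpt : c.Pt (P.pr s 3 (free p).card) (P.Op s 3 p))
    (hs : ∀ pr ∈ c.Pr, Shift 1 0 (sharp (P.pr s 3 (free p).card) c.U (P.Op s 3 p) pr.1 pr.2)
      (P.Op s 3 (add p pr.1 pr.2)))
    (hN : c.N ≤ ((free p).card : ℝ) ^ 2 + Ex P.r (-2) * ((free p).card : ℝ) ^ 2) :
    (c.avg fun h h' => P.lY s (add p h h')) - c.N * P.lY s p
      ≤ 20 * Ex P.r (-2) * (free p).card := by
  have hR := hG.one_lt
  have hR9 := hG.R_ge
  obtain ⟨bZ, -, bY⟩ := sC_bounds hG hx h s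
  obtain ⟨bA, -, -⟩ := sC_A1 hG hj hS hx s
  have hσ : c.σ ^ 2 = (free p).card := by rw [← hc.ok.card, hc.U]
  have hS100 : (100 : ℝ) ≤ (free p).card := by
    have := hc.ok.card_ge
    rw [hc.U] at this
    exact_mod_cast this
  have hW : (P.r : ℝ) ^ 123680 = Ex P.r 123680 := sC_pow _ _ (by norm_num)
  have hop : OpB (P.Op s 3 p) (Ex P.r (x - 61840)) := by
    have := hpt.op
    rwa [e1] at this
  have hf := hpt.fullY hc.ok (a1 := Ex P.r (1 - x)) (U1 := Ex P.r (3 * x - 185520)) (φG := 0)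
    (bA.trans (mul_Ex_le hR (by linarith) (by linarith))) bZ
    (by
      refine (hop.cube_diag (hp.cent s 3).transpose (Ex_pos hR _).le).trans ?_
      refine (mul_le_mul_of_nonneg_left bY (Ex_pos hR _).le).trans ?_
      rw [Ex_mul hR]
      exact Ex_le hR (by linarith))
    (by rw [e2]; simp [ip])
  have he := numC_Y hR9 h1 h2
  rw [← e1] at he
  have hq := norm_quad
    (A := c.avg fun h h' => Yf (sharp (P.pr s 3 (free p).card) c.U (P.Op s 3 p) h h')) (N := c.N)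
    (S := (free p).card) (ε := Ex P.r (-2)) (Z := Yf (P.Op s 3 p)) (W := (P.r : ℝ) ^ 123680)
    (κ := -4 * (free p).card)
    (e := Ex P.r (3 * x - 123680 - 2)) hS100 (sC_eps hG).1 (sC_eps hG).2
    (by rw [hW]; exact Ex_pos hR _) (sC_Yf_nonneg _) (sC_le_one h s).2.2 hc.ok.N_nonneg hN
    (by
      have := mul_nonneg (sC_eps hG).1 (Nat.cast_nonneg (α := ℝ) (free p).card)
      linarith)
    (by
      rw [hW, hx, Ex_pow hR, Ex_mul hR, Ex_mul hR]
      exact Ex_le hR (by push_cast; linarith))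
    (by
      rw [hσ] at hf
      linarith)
  refine le_trans (le_of_eq ?_) hq
  congr 1
  rw [mul_div_assoc, mul_comm (c.avg _), ← c.avg_mul]
  refine c.avg_congr fun pr hpr => ?_
  have e := hs pr hpr
  simp only [Shift, one_pow, one_smul, zero_smul, add_zero] at e
  simp only [lY]
  rw [hc.sC_card hpr, e]
  ring

end Drift

/-- Context `numC R x` with `F = 0` for the two points `(s, 3)`. Here `x 3 = 0`, `dg = 0`, `uu = 1`
(`Good.x_zero`, `Good.late_step`), so by `St.move` the new `Op` is `sharp`. Bounds: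
`|Z| ≤ R ^ (x - 61660)`, `V ≤ R ^ (x - 62100)`, `Y ≤ R ^ (2 x - 123680) = y ^ 2`; `top_of_Yf` and
`CP.bounds` for `sc`, `opB_fro`, `T4_le_Yf_sq`, `Xif_le`, `OpB.cube_diag`, `CP.ent`, `Q4_le` with
`τ = 1 / R` and `numC_Q`. Then `fullZ` (`u = 1`, `ζ = z = 0`, `κ = - 4 (S + vp Y)`) and `fullY`
with `norm_quad`, `fullV` (`χ = R ^ (2 - x)`) with `norm_lin`, `ε = R ^ (-2)`; `Fit.pick`. -/
theorem St.stepC (hG : P.Good) (hp : P.St p) (h1 : P.S4 < (free p).card)
    (h2 : (free p).card ≤ P.S2 + 1) (h : P.PsiC p ≤ 1) :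
    ∃ h h', Allowed (vxf P.n P.d) p h h' ∧ P.PD (add p h h') ∧
      P.PsiC (add p h h') ≤ P.PsiC p + 1 / (P.r * (free p).card) := by
  have hR := hG.one_lt
  have hR9 := hG.R_ge
  obtain ⟨z1, z2, z3, z4, -, -⟩ := hG.sizes
  have hS : (free p).card ≤ P.S1 := by omega
  have hj : P.Act 3 (free p).card := sC_act3 hG (card_free_le p) (by omega)
  have hj' : P.Act 3 ((free p).card - 2) := sC_act3 hG (by omega) (by omega)
  obtain ⟨x, hx⟩ := exists_Ex (x := ((free p).card : ℝ)) hR (by exact_mod_cast (by omega))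
  have x1 : 61740 ≤ x := by
    rw [← Ex_le_iff hR, ← hx, ← sC_pow (P.r : ℝ) 61740 (by norm_num)]
    exact_mod_cast h1.le
  have x2 : x ≤ 123201 := by
    rw [← Ex_le_iff hR, ← hx]
    have a1 : ((free p).card : ℝ) ≤ 2 * (P.S2 : ℝ) := by exact_mod_cast (by omega)
    have a2 : (P.S2 : ℝ) = Ex P.r 123200 := by
      rw [← sC_pow (P.r : ℝ) 123200 (by norm_num), S2, Nat.cast_pow]
    rw [a2] at a1
    exact a1.trans (mul_Ex_le hR (by linarith) (by norm_num))
  obtain ⟨c, e1, e2, hc, hpt⟩ := hp.sC_fit hG hj hS hx x1 x2 h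
  obtain ⟨d0, u1⟩ := hG.late_step hS
  have hm := fun s => hp.move hG hc hj hj' (hpt s) (by rw [d0]; simp)
  rw [d0, u1, zero_mul] at hm
  obtain ⟨n1, n2⟩ := hc.N_near hG hx (by rw [e1]; exact numC_N hR9 x1 x2)
  have dZ := fun s => sC_drZ hG hc hj hS hx x1 x2 h e1 e2 (hpt s) (hm s).2.2 n2
  have dV := fun s => sC_drV hG hp hc hj hS hx x1 x2 h e1 (hpt s) (hm s).2.2 n2
  have dY := fun s => sC_drY hG hp hc hj hS hx x1 x2 h e1 e2 (hpt s) (hm s).2.2 n2
  obtain ⟨pr, hpr, hle⟩ := hc.pick hG n1 (f := fun h h' => P.PsiC (add p h h')) (y := P.PsiC p) (by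
    simp only [PsiC, Fintype.sum_bool, Ctx.avg_add]
    have := mul_nonneg (sC_eps hG).1 (Nat.cast_nonneg (α := ℝ) (free p).card)
    linarith [dZ true, dZ false, dV true, dV false, dY true, dY false])
  exact ⟨pr.1, pr.2, hc.al pr hpr, fun s => (hm s).1 pr hpr, hle⟩

lemma sC_free_id (P : Prm) : free (id : P.HE → P.HE) = univ := by
  ext k
  simp [free]

lemma card_free_id (P : Prm) : (free (id : P.HE → P.HE)).card = P.S0 := by
  rw [sC_free_id]
  simp [S0]

lemma Good.sC_init (hG : P.Good) (s : Bool) (j : Fin 4) : (P.Mp s j id).PosDef ∧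
    P.Np s j id = fun k l => (1 / (P.E - P.g j P.S0 * P.d)) *
      ((if vxf P.n P.d k = vxf P.n P.d l then 1 else 0) - 1 / (P.n : ℝ)) := by
  have h := initial (vx := vxf P.n P.d) (E := P.E) (s := sg s) (g := P.g j P.S0)
    (card_fiber P.n P.d) (lt_of_lt_of_le (by norm_num) hG.d_ge)
    (by rw [Fintype.card_fin]; exact hG.sizes.2.2.2.2.1) (sC_sg s) hG.E_pos
    (by linarith [(hG.init j).1])
  rw [Fintype.card_fin] at h
  unfold Mp Np
  rw [card_free_id]
  exact h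

lemma Good.sC_diag (hG : P.Good) (s : Bool) (j : Fin 4) : ∃ Z : ℝ, |Z| ≤ Ex P.r 27000 ∧
    ∀ k, P.Op s j id k k = Z / P.S0 := by
  refine ⟨_, (hG.init j).2, fun k => ?_⟩
  have hd : (0 : ℝ) < P.d := by exact_mod_cast lt_of_lt_of_le (by norm_num) hG.d_ge
  have hn : (0 : ℝ) < P.n := hd.trans_le (by exact_mod_cast hG.sizes.2.2.2.2.1)
  have ha : (0 : ℝ) < P.E - P.g j P.S0 * P.d := by linarith [(hG.init j).1]
  have hS : (P.S0 : ℝ) = P.n * P.d := by simp [S0]
  unfold Op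
  rw [Matrix.sub_apply, (hG.sC_init s j).2, card_free_id, Matrix.smul_apply, proj, card_free_id,
    sC_free_id]
  simp only [if_true, mem_univ, and_self, smul_eq_mul]
  generalize (P.E - P.g j P.S0 * P.d : ℝ) = a at ha ⊢
  generalize (P.m j P.S0 : ℝ) = m
  rw [hS]
  field_simp

lemma Good.sC_tZV (hG : P.Good) (s : Bool) (j : Fin 4) :
    P.tZ s j id ≤ 1 / 100 ∧ P.tV s j id ≤ 1 / 100 := by
  have hR := hG.one_lt
  have hR9 := hG.R_ge
  obtain ⟨Z, hZ, hk⟩ := hG.sC_diag s j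
  have hS0 : Ex P.r 180000 ≤ (P.S0 : ℝ) := hG.S0_ge
  have hS1 : (1 : ℝ) ≤ P.S0 := (one_le_Ex hR (by norm_num)).trans hS0
  have hc : ((P.n * P.d : ℕ) : ℝ) = P.S0 := rfl
  have hZ2 : Z ^ 2 ≤ Ex P.r 54000 := by
    refine (sq_le_sq' (abs_le.1 hZ).1 (abs_le.1 hZ).2).trans (le_of_eq ?_)
    rw [Ex_pow hR]
    congr 1
    norm_num
  have e1 : Zf (P.Op s j id) = Z := by
    simp only [Zf, hk, sum_const, card_univ, Fintype.card_fin, nsmul_eq_mul, hc]
    field_simp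
  have e2 : Vf (P.Op s j id) = Z ^ 2 / P.S0 := by
    simp only [Vf, hk, sum_const, card_univ, Fintype.card_fin, nsmul_eq_mul, hc]
    field_simp
  constructor
  · have hL : Ex P.r 58480 ≤ (P.Lam j : ℝ) := by
      unfold Lam
      split_ifs
      · rw [sC_pow (P.r : ℝ) 67920 (a := 67920) (by norm_num)]
        exact Ex_le hR (by norm_num)
      · rw [sC_pow (P.r : ℝ) 58480 (a := 58480) (by norm_num)]
    have h0 := Ex_pos hR 58480
    have h1 := Ex_pos hR 54000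
    unfold tZ
    rw [e1]
    calc _ ≤ Ex P.r 54000 / Ex P.r 58480 ^ 2 := by gcongr
      _ ≤ _ := by
        rw [Ex_pow hR, Ex_div hR]
        exact Ex_le_const hR (by linarith) (by norm_num)
  · have h0 := Ex_pos hR 26800
    have h1 := Ex_pos hR 54000
    have h2 := Ex_pos hR 180000
    unfold tV
    rw [e2, sC_pow (P.r : ℝ) 26800 (a := 26800) (by norm_num)]
    calc _ ≤ Ex P.r 54000 / Ex P.r 180000 / Ex P.r 26800 := by gcongr
      _ ≤ _ := by
        rw [Ex_div hR, Ex_div hR]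
        exact Ex_le_const hR (by linarith) (by norm_num)

lemma sC_KK (n d : ℕ) (hn : 0 < n) :
    ∑ k : Fin (n * d), ∑ l : Fin (n * d),
      ((if vxf n d k = vxf n d l then 1 else 0) - 1 / (n : ℝ)) ^ 2 ≤ 2 * d * ((n * d : ℕ) : ℝ) := by
  have hn' : (1 : ℝ) ≤ n := by exact_mod_cast hn
  have h1 : 1 / (n : ℝ) ≤ 1 := by rw [div_le_one (by linarith)]; exact hn'
  have h0 : 0 < 1 / (n : ℝ) := by positivity
  have key : ∀ k : Fin (n * d), ∑ l : Fin (n * d),
      ((if vxf n d k = vxf n d l then 1 else 0) - 1 / (n : ℝ)) ^ 2 ≤ (2 * d : ℝ) := fun k => by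
    calc _ ≤ ∑ l : Fin (n * d), ((if vxf n d l = vxf n d k then 1 else 0) + 1 / (n : ℝ)) := by
          refine sum_le_sum fun l _ => ?_
          by_cases h : vxf n d k = vxf n d l
          · rw [if_pos h, if_pos h.symm]
            nlinarith
          · rw [if_neg h, if_neg (Ne.symm h)]
            nlinarith
      _ = _ := by
          rw [sum_add_distrib, sum_boole, card_fiber]
          simp only [sum_const, card_univ, Fintype.card_fin, nsmul_eq_mul]
          push_cast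
          field_simp
          ring
  calc _ ≤ ∑ _k : Fin (n * d), (2 * d : ℝ) := sum_le_sum fun k _ => key k
    _ = _ := by
      simp only [sum_const, card_univ, Fintype.card_fin, nsmul_eq_mul]
      ring

lemma Good.sC_tD (hG : P.Good) (s : Bool) : P.tD s id ≤ 1 / 100 := by
  have hR := hG.one_lt
  have hR9 := hG.R_ge
  obtain ⟨z1, z2, z3, z4, z5, z6⟩ := hG.sizes
  have hd := hG.d_ge
  have a2 : P.Act 2 P.S0 := ⟨le_rfl, by rw [if_neg (by decide), if_neg (by decide)]; omega⟩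
  have a3 : P.Act 3 P.S0 := sC_act3 hG le_rfl (by omega)
  obtain ⟨g0, g1, -⟩ := hG.gap_near a2 a3 (by decide) (by decide)
  have g2 : 0 ≤ P.gap 2 3 P.S0 := (Ex_pos hR _).le.trans g0
  have hK := sC_KK P.n P.d (by omega)
  have hc : ((P.n * P.d : ℕ) : ℝ) = P.S0 := rfl
  have hS0 : (0 : ℝ) < P.S0 := (Ex_pos hR _).trans_le hG.S0_ge
  have hd2 : (P.d : ℝ) ^ 2 ≤ P.r := by exact_mod_cast (by omega : P.d ^ 2 ≤ P.r)
  rw [hc] at hK
  have b2 := (hG.init 2).1
  have b3 := (hG.init 3).1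
  have hD : P.Dl s id = 1 / (P.E - P.g 3 P.S0 * P.d) * (1 / (P.E - P.g 3 P.S0 * P.d)) *
      (1 / (P.E - P.g 2 P.S0 * P.d)) * (P.d * P.gap 2 3 P.S0) * ∑ k : P.HE, ∑ l : P.HE,
      ((if vxf P.n P.d k = vxf P.n P.d l then 1 else 0) - 1 / (P.n : ℝ)) ^ 2 := by
    unfold Dl ip
    rw [(hG.sC_init (!s) 3).2, (hG.sC_init s 3).2, (hG.sC_init s 2).2, ← sum_sub_distrib, mul_sum]
    refine sum_congr rfl fun k _ => ?_
    rw [← sum_sub_distrib, mul_sum]
    refine sum_congr rfl fun l _ => ?_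
    have e : P.d * P.gap 2 3 P.S0 = (P.E - P.g 2 P.S0 * P.d) - (P.E - P.g 3 P.S0 * P.d) := by
      unfold gap
      ring
    rw [e]
    generalize (P.E - P.g 2 P.S0 * P.d : ℝ) = u at b2 ⊢
    generalize (P.E - P.g 3 P.S0 * P.d : ℝ) = v at b3 ⊢
    have hu : u ≠ 0 := by linarith
    have hv : v ≠ 0 := by linarith
    field_simp
  have c2 : 1 / (P.E - P.g 2 P.S0 * P.d : ℝ) ≤ 5 / 2 := by
    rw [div_le_iff₀ (by linarith)]; linarith
  have c3 : 1 / (P.E - P.g 3 P.S0 * P.d : ℝ) ≤ 5 / 2 := by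
    rw [div_le_iff₀ (by linarith)]; linarith
  have c2' : 0 ≤ 1 / (P.E - P.g 2 P.S0 * P.d : ℝ) := one_div_nonneg.2 (by linarith)
  have c3' : 0 ≤ 1 / (P.E - P.g 3 P.S0 * P.d : ℝ) := one_div_nonneg.2 (by linarith)
  have h0 := Ex_pos hR (-60114)
  have hD' : P.Dl s id ≤ 5 / 2 * (5 / 2) * (5 / 2) * (P.d * Ex P.r (-60114)) * (2 * P.d * P.S0) := by
    rw [hD]
    gcongr
  unfold tD
  rw [card_free_id, sC_pow (P.r : ℝ) 9720 (a := 9720) (by norm_num), div_le_iff₀ hS0]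
  have h1 := Ex_pos hR 9720
  have h2 : 32 * P.r * (Ex P.r (-60114) * Ex P.r 9720) ≤ 1 / 100 := by
    rw [Ex_mul hR]
    nth_rewrite 1 [← Ex_one (P.r : ℝ)]
    rw [mul_assoc, Ex_mul hR]
    exact (mul_Ex_le (b := -1) hR (by linarith) (by norm_num)).trans
      (Ex_le_const hR (by linarith) le_rfl)
  calc _ ≤ 5 / 2 * (5 / 2) * (5 / 2) * (P.d * Ex P.r (-60114)) * (2 * P.d * P.S0) * Ex P.r 9720 := by
        gcongr
    _ = 125 / 4 * P.d ^ 2 * (Ex P.r (-60114) * Ex P.r 9720) * P.S0 := by ring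
    _ ≤ 32 * P.r * (Ex P.r (-60114) * Ex P.r 9720) * P.S0 := by gcongr; norm_num
    _ ≤ _ := by gcongr

/-- By `initial`, `Np s j id = a j • K` with `a j = 1 / (E - g j d) ≤ 5 / 2` (`Good.init`) and
`K k l = [vx k = vx l] - 1 / n`. The diagonal of `Op` is constant, so `V = Z ^ 2 / S0` with
`|Z| ≤ R ^ 27000`; `Dl = a 3 (a 3 - a 2) ip K K` with `ip K K ≤ d S0` and
`a 3 - a 2 = a 3 a 2 d gap ≤ 25 d R ^ (-60720)`. -/
theorem Good.start (hG : P.Good) : P.St id ∧ P.PsiA id ≤ 1 / 2 := by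
  refine ⟨⟨fun _ => rfl, ⟨fun _ hh => absurd rfl hh, fun _ _ hh => absurd rfl hh⟩,
    fun s => (hG.sC_init s 3).1⟩, ?_⟩
  have h1 : P.PsiB id ≤ ∑ _s : Bool, ∑ _j ∈ ({1, 2, 3} : Finset (Fin 4)), (2 / 100 : ℝ) :=
    sum_le_sum fun s _ => sum_le_sum fun j _ => by linarith [hG.sC_tZV s j]
  have h2 : ∑ s, (P.tZ s 0 id + P.tV s 0 id + P.tD s id) ≤ ∑ _s : Bool, (3 / 100 : ℝ) :=
    sum_le_sum fun s _ => by linarith [hG.sC_tZV s 0, hG.sC_tD s]
  have h3 : ({1, 2, 3} : Finset (Fin 4)).card = 3 := by decide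
  simp only [sum_const, h3, card_univ, Fintype.card_bool, nsmul_eq_mul] at h1 h2
  unfold PsiA
  push_cast at h1 h2
  linarith

/-- `Y ≤ R ^ (-200)`, so `Top N (m + 1 / 10)` (`top_of_Yf`); `posDef_shift` to `g = 1`
(`Good.late`), `endgame` for both signs, `Good.E_le`, `graphOf_adjMatrix`, `graphOf_regular`. -/
theorem St.finish (hG : P.Good) (hp : P.St p) (h1 : (free p).card ≤ P.S4)
    (h2 : P.S4 ≤ 2 * (free p).card) (h : P.PsiC p ≤ 1) {p' : P.HE → P.HE}
    (hi : Function.Involutive p') (hs : Simple (vxf P.n P.d) p') (hf : ∀ k, p' k ≠ k)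
    (he : ∀ k, p k ≠ k → p' k = p k) [DecidableRel (graphOf (vxf P.n P.d) p').Adj] :
    IsRamanujan P.d (graphOf (vxf P.n P.d) p') := by
  have hR := hG.one_lt
  have hR9 := hG.R_ge
  obtain ⟨z1, z2, z3, z4, -, -⟩ := hG.sizes
  have hS : (free p).card ≤ P.S1 := by omega
  have hj : P.Act 3 (free p).card := sC_act3 hG (card_free_le p) h2
  obtain ⟨x, hx⟩ := exists_Ex (x := ((free p).card : ℝ)) hR (by exact_mod_cast (by omega))
  have x1 : x ≤ 61740 := by
    rw [← Ex_le_iff hR, ← hx, ← sC_pow (P.r : ℝ) 61740 (by norm_num)]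
    exact_mod_cast h1
  obtain ⟨hm0, -⟩ := hG.basic hj
  have hM : ∀ s, (Mm (vxf P.n P.d) P.E (sg s) 1 p).PosDef := fun s => by
    have hY : Yf (P.Op s 3 p) ≤ (1 / 10) ^ 2 :=
      (sC_bounds hG hx h s).2.2.trans (Ex_le_const hR (by linarith) (by linarith))
    have hT : Top (P.Np s 3 p) (P.m 3 (free p).card + 1 / 10) := top_of_Yf hm0.le (by norm_num) hY
    exact posDef_shift hp.inv (hp.pd s) (by linarith) hT (hG.late hS h2).2
  refine ⟨graphOf_regular (card_fiber P.n P.d) hi hf hs, fun μ y y0 ys hy => ?_⟩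
  rw [graphOf_adjMatrix hi hf hs] at hy
  have hyy : 0 < y ⬝ᵥ y := lt_of_le_of_ne (fr_dot_self_nn y) fun e =>
    y0 (dotProduct_self_eq_zero.1 e.symm)
  have key : ∀ s, sg s * μ < P.E := fun s => by
    have := endgame hp.inv (sC_sg s) (hM s) hi hf he y y0 ys
    rw [hy, dotProduct_smul, smul_eq_mul, ← mul_assoc] at this
    exact lt_of_mul_lt_mul_right this hyy.le
  have k1 := key true
  have k2 := key false
  simp only [sg, cond_true, cond_false, one_mul, neg_mul] at k1 k2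
  refine le_trans (abs_le.2 ⟨by linarith, by linarith⟩) hG.E_le

end Vale.Agent.P049.Prm
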