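import Vale.Agent.P049.StepA
import Vale.Agent.P049.StepC

/-!
The budget of the potential and the main step.
-/

namespace Vale.Agent.P049.Prm

open Matrix Finset

variable {P : Prm} {p : P.HE → P.HE} {S : ℕ}

/-- The budget of the potential. -/
noncomputable def bud (P : Prm) (S : ℕ) : ℝ := 1 / 2 + Real.log (P.S0 / S) / P.r

lemma Good.bud_le (hG : P.Good) (hS : 1 ≤ S) : P.bud S ≤ 1 := by
  have hR := hG.R_ge
  have h0 := hG.S0_pos
  have hS' : (1 : ℝ) ≤ S := by exact_mod_cast hS
  have h1 : Real.log (P.S0 / S) ≤ Real.log (Ex P.r 180002) :=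
    Real.log_le_log (by positivity) ((div_le_self h0.le hS').trans hG.S0_le)
  rw [Ex, Real.log_rpow (by linarith)] at h1
  have h2 : Real.log P.r = 9 * Real.log 10 + Real.log (P.r / 10 ^ 9) := by
    rw [Real.log_div (by linarith) (by norm_num), Real.log_pow]
    push_cast
    ring
  have h3 := Real.log_le_sub_one_of_pos (show (0 : ℝ) < 10 by norm_num)
  have h4 := Real.log_le_sub_one_of_pos (show (0 : ℝ) < P.r / 10 ^ 9 by positivity)
  have h5 : Real.log (P.S0 / S) / P.r ≤ 1 / 2 := by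
    rw [div_le_iff₀ (by linarith)]
    linarith
  unfold bud
  linarith

lemma Good.bud_ge (hG : P.Good) (h1 : 1 ≤ S) (hS : S ≤ P.S0) : 1 / 2 ≤ P.bud S := by
  have hS' : (0 : ℝ) < S := by exact_mod_cast h1
  have h2 : (1 : ℝ) ≤ P.S0 / S := by
    rw [le_div_iff₀ hS', one_mul]
    exact_mod_cast hS
  exact le_add_of_nonneg_right (div_nonneg (Real.log_nonneg h2) (zero_le_one.trans hG.one_lt.le))

lemma Good.bud_step (hG : P.Good) (hS : 3 ≤ S) : P.bud S + 1 / (P.r * S) ≤ P.bud (S - 2) := by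
  have hS' : (3 : ℝ) ≤ S := by exact_mod_cast hS
  have h0 := hG.S0_pos
  have hR : (0 : ℝ) < P.r := by linarith [hG.one_lt]
  have e : ((S - 2 : ℕ) : ℝ) = S - 2 := by
    rw [Nat.cast_sub (by omega)]
    norm_num
  have h1 := Real.log_le_sub_one_of_pos (show (0 : ℝ) < (S - 2) / S from
    div_pos (by linarith) (by linarith))
  have h2 : ((S : ℝ) - 2) / S - 1 = -2 * (1 / S) := by
    field_simp
    ring
  have h3 : (0 : ℝ) < 1 / S := by positivity
  have h4 : 1 / ((P.r : ℝ) * S) = 1 / S / P.r := by field_simp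
  unfold bud
  rw [e, h4, add_assoc, ← add_div]
  gcongr
  rw [Real.log_div (by linarith) (by linarith)] at h1 ⊢
  rw [Real.log_div (by linarith) (by linarith)]
  linarith

/-- The invariant of the main loop. -/
def Run (P : Prm) (p : P.HE → P.HE) : Prop := P.St p ∧ P.Psi p ≤ P.bud (free p).card

theorem Good.run_id (hG : P.Good) : P.Run id := by
  obtain ⟨h1, h2⟩ := hG.start
  obtain ⟨-, -, -, a, -⟩ := hG.sizes
  refine ⟨h1, ?_⟩
  rw [Psi, card_free_id, if_pos (by omega)]
  exact h2.trans (hG.bud_ge (by omega) le_rfl)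

theorem Run.step (hG : P.Good) (hp : P.Run p) (hS : P.S4 < (free p).card) :
    ∃ h h', Allowed (vxf P.n P.d) p h h' ∧ P.PD (add p h h') ∧
      P.Psi (add p h h') ≤ P.bud ((free p).card - 2) := by
  obtain ⟨a1, a2, a3, a4, -⟩ := hG.sizes
  obtain ⟨hs, hb⟩ := hp
  have b1 := hG.bud_le (S := (free p).card) (by omega)
  have b2 := hG.bud_step (S := (free p).card) (by omega)
  have b3 := hG.bud_ge (S := (free p).card) (by omega) (card_free_le p)
  have b4 := card_free_le p
  have hC : (free p).card ≤ P.S2 + 1 → P.PsiC p ≤ P.bud (free p).card →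
      ∃ h h', Allowed (vxf P.n P.d) p h h' ∧ P.PD (add p h h') ∧
        P.Psi (add p h h') ≤ P.bud ((free p).card - 2) := fun h1 h2 => by
    obtain ⟨h, h', ha, hd, hl⟩ := hs.stepC hG hS h1 (h2.trans b1)
    refine ⟨h, h', ha, hd, ?_⟩
    rw [Psi, (card_add ha).2.1, if_neg (by omega), if_neg (by omega)]
    linarith
  unfold Psi at hb
  split_ifs at hb with h1 h2
  · obtain ⟨h, h', ha, hd, hl⟩ := (hs.first hG h1 (hb.trans b1)).stepA hG
    refine ⟨h, h', ha, hd, ?_⟩
    have e := (card_add ha).2.1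
    rw [Psi, e]
    split_ifs with h3 h4
    · linarith
    · have h5 := (hs.next ha hd).PsiB_le hG (by
        rw [e]
        exact ⟨by omega, (by omega : P.S2 ≤ 2 * ((free p).card - 2))⟩)
      linarith
    · omega
  · have he := hs.early hG h2 (hb.trans b1)
    by_cases h3 : (free p).card ≤ P.S2 + 1
    · exact hC h3 ((he.trans hG h3).trans b3)
    · obtain ⟨h, h', ha, hd, hl⟩ := he.stepB hG (by omega)
      refine ⟨h, h', ha, hd, ?_⟩
      rw [Psi, (card_add ha).2.1, if_neg (by omega), if_pos (by omega)]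
      linarith
  · exact hC (by omega) hb

theorem Run.finish (hG : P.Good) (hp : P.Run p) (h1 : (free p).card ≤ P.S4)
    (h2 : P.S4 ≤ (free p).card + 1) {p' : P.HE → P.HE}
    (hi : Function.Involutive p') (hs : Simple (vxf P.n P.d) p') (hf : ∀ k, p' k ≠ k)
    (he : ∀ k, p k ≠ k → p' k = p k) [DecidableRel (graphOf (vxf P.n P.d) p').Adj] :
    IsRamanujan P.d (graphOf (vxf P.n P.d) p') := by
  obtain ⟨a1, a2, a3, a4, -⟩ := hG.sizes
  obtain ⟨hst, hb⟩ := hp
  rw [Psi, if_neg (by omega), if_neg (by omega)] at hb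
  exact hst.finish hG h1 (by omega) (hb.trans (hG.bud_le (by omega))) hi hs hf he

end Vale.Agent.P049.Prm
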