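import Vale.Agent.P049.Full

/-!
Normalization of the one-step estimates (pure real arithmetic), and monotonicity of the errors.
Throughout, `A` is the average of the new quantity, `N` the total weight, `S` the number of free
half-edges and `ε ≤ 1 / 100` the precision.
-/

namespace Vale.Agent.P049

variable {A N S ε Z L W u e κ : ℝ}

/-- A quantity `0 ≤ Z ≤ L` with a constant plan. -/
lemma norm_const (hS : 100 ≤ S) (hε0 : 0 ≤ ε) (hε : ε ≤ 1 / 100) (hL : 0 < L) (hZ0 : 0 ≤ Z)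
    (hZ : Z ≤ L) (hN0 : 0 ≤ N) (hN : N ≤ 2 * S ^ 2) (hu0 : 0 ≤ u) (hu : u ≤ 1 + ε / S)
    (hκ : κ ≤ 4 * ε * S) (he : e ≤ ε * L * S) (hA : A ≤ u * (N * Z + κ * Z + e)) :
    A / L - N * (Z / L) ≤ 20 * ε * S := by
  have hS0 : 0 < S := by linarith
  have hz : Z / L ≤ 1 := (div_le_one hL).mpr hZ
  have hz0 : 0 ≤ Z / L := by positivity
  have hA' : A / L ≤ u * (N * (Z / L) + κ * (Z / L) + e / L) := by
    refine (div_le_div_of_nonneg_right hA hL.le).trans (le_of_eq ?_)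
    ring
  have he' : e / L ≤ ε * S := by rw [div_le_iff₀ hL]; linarith
  generalize Z / L = z at hz hz0 hA' ⊢
  have hεS : 0 ≤ ε * S := by positivity
  have h1 : κ * z ≤ 4 * ε * S := (mul_le_mul_of_nonneg_right hκ hz0).trans
    (mul_le_of_le_one_right (by positivity) hz)
  have h2 : N * z ≤ 2 * S ^ 2 := (mul_le_of_le_one_right hN0 hz).trans hN
  have h3 : 0 ≤ N * z := by positivity
  have h4 : u * (N * z + κ * z + e / L) ≤ u * (N * z + 5 * (ε * S)) := by gcongr ?_ * ?_; linarith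
  have h5 : u * (N * z + 5 * (ε * S)) ≤ (1 + ε / S) * (N * z + 5 * (ε * S)) := by gcongr
  have h6 : ε / S * (N * z) ≤ 2 * (ε * S) := by
    calc ε / S * (N * z) ≤ ε / S * (2 * S ^ 2) := by gcongr
      _ = _ := by field_simp
  have h7 : ε / S * (ε * S) ≤ ε * S := by
    refine mul_le_of_le_one_left hεS ?_
    rw [div_le_one hS0]; linarith
  nlinarith

/-- A quantity `0 ≤ Z ≤ S / W` with a linear plan. -/
lemma norm_lin (hS : 100 ≤ S) (hε0 : 0 ≤ ε) (hε : ε ≤ 1 / 100) (hW : 0 < W) (hZ0 : 0 ≤ Z)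
    (hZ : Z * W / S ≤ 1) (hN : N ≤ S ^ 2 + ε * S ^ 2) (hκ : κ ≤ -2 * S + 4 * ε * S)
    (he : e * W ≤ ε * S ^ 2) (hA : A ≤ N * Z + κ * Z + e) :
    A * W / (S - 2) - N * (Z * W / S) ≤ 20 * ε * S := by
  have hS0 : 0 < S := by linarith
  have hS2 : 0 < S - 2 := by linarith
  have hz0 : 0 ≤ Z * W / S := by positivity
  have hA' : A * W ≤ (N + κ) * S * (Z * W / S) + e * W := by
    refine (mul_le_mul_of_nonneg_right hA hW.le).trans (le_of_eq ?_)
    field_simp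
  generalize Z * W / S = z at hZ hz0 hA' ⊢
  rw [sub_le_iff_le_add, div_le_iff₀ hS2]
  have h1 : (2 * N + κ * S) * z ≤ 6 * (ε * S ^ 2) := by
    have : 2 * N + κ * S ≤ 6 * (ε * S ^ 2) := by nlinarith [mul_le_mul_of_nonneg_right hκ hS0.le]
    exact (mul_le_mul_of_nonneg_right this hz0).trans (mul_le_of_le_one_right (by positivity) hZ)
  have h2 : 0 ≤ ε * S * (S - 100) := by have : 0 ≤ S - 100 := by linarith
                                        positivity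
  have h3 : 0 ≤ ε * S := by positivity
  have := hε
  nlinarith

/-- A quantity `0 ≤ Z ≤ S ^ 2 / W` with a quadratic plan. -/
lemma norm_quad (hS : 100 ≤ S) (hε0 : 0 ≤ ε) (hε : ε ≤ 1 / 100) (hW : 0 < W) (hZ0 : 0 ≤ Z)
    (hZ : Z * W / S ^ 2 ≤ 1) (hN0 : 0 ≤ N) (hN : N ≤ S ^ 2 + ε * S ^ 2)
    (hκ : κ ≤ -4 * S + 4 * ε * S) (he : e * W ≤ ε * S ^ 3) (hA : A ≤ N * Z + κ * Z + e) :
    A * W / (S - 2) ^ 2 - N * (Z * W / S ^ 2) ≤ 20 * ε * S := by
  have hS0 : 0 < S := by linarith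
  have hS2 : 0 < (S - 2) ^ 2 := pow_pos (by linarith) 2
  have hz0 : 0 ≤ Z * W / S ^ 2 := by positivity
  have hA' : A * W ≤ (N + κ) * S ^ 2 * (Z * W / S ^ 2) + e * W := by
    refine (mul_le_mul_of_nonneg_right hA hW.le).trans (le_of_eq ?_)
    field_simp
  generalize Z * W / S ^ 2 = z at hZ hz0 hA' ⊢
  rw [sub_le_iff_le_add, div_le_iff₀ hS2]
  have h1 : ((4 * S - 4) * N + κ * S ^ 2) * z ≤ 8 * (ε * S ^ 3) := by
    have a1 := mul_le_mul_of_nonneg_right hκ (sq_nonneg S)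
    have a2 := mul_le_mul_of_nonneg_left hN hS0.le
    have : (4 * S - 4) * N + κ * S ^ 2 ≤ 8 * (ε * S ^ 3) := by nlinarith
    exact (mul_le_mul_of_nonneg_right this hz0).trans (mul_le_of_le_one_right (by positivity) hZ)
  have h2 : 0 ≤ ε * S ^ 2 * (S - 100) := by have : 0 ≤ S - 100 := by linarith
                                            positivity
  have h3 : 0 ≤ ε * S := by positivity
  have h4 : 0 ≤ ε * S ^ 2 := by positivity
  have := hε
  nlinarith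

lemma Num.Ok.EV_mono {c : Num} (hc : c.Ok) {zb zb' Q Q' z z' χ : ℝ} (h1 : zb ≤ zb') (h2 : Q ≤ Q')
    (h0 : 0 ≤ z) (h3 : z ≤ z') : c.EV zb Q z χ ≤ c.EV zb' Q' z' χ := by
  have a1 : 0 ≤ c.σ := le_trans (by norm_num) hc.σ_ge
  have a2 : 0 ≤ c.Θr := le_trans (by norm_num) hc.Θr_ge
  have a3 := hc.v_nn
  have a4 := hc.ξ_nn
  have a5 := hc.y_nn
  have a6 := hc.X_nn
  have a7 : 0 ≤ c.n1 := le_trans (by norm_num) hc.n1_ge
  have a8 : 0 ≤ c.xb := le_trans (by positivity) hc.xb_ge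
  have a9 : 0 ≤ c.nsh := le_trans (by positivity) hc.nsh_ge
  unfold Num.EV Num.errV
  gcongr

end Vale.Agent.P049
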