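import Vale.Agent.P049.Trop

/-!
The numerical bounds of the three phases. Every entry is a power of the scale, so after unfolding
and `simp only [Ex_pow hR, Ex_mul hR]` each error is a sum of powers; then use `Up.fin`, `Up.add`,
`Up.leaf`, `Up.cleaf` with `linarith` (after `push_cast`) on the exponents.
-/

namespace Vale.Agent.P049

noncomputable def numA (R s : ℝ) : Num where
  σ := Ex R (s / 2)
  Θ := Ex R (s / 2 + 3)
  Θt := Ex R (s / 2 + 2)
  Θr := Ex R 30003
  v := Ex R 13401
  a := Ex R (77444 - s)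
  y := Ex R (s / 2 + 1)
  ξ := Ex R (s / 2 + 9723)
  t := Ex R 120004
  n1 := Ex R 60003
  nu := Ex R 60003
  φ := Ex R 67785
  ss := Ex R (s + 3)
  as := Ex R (s / 2 + 23125)
  X := Ex R (s + 3)
  xb := Ex R 73405
  nsh := Ex R (s / 2 + 9006)

noncomputable def numB (R s : ℝ) : Num where
  σ := Ex R (s / 2)
  Θ := Ex R (s / 2 + 3)
  Θt := Ex R (s / 2 + 2)
  Θr := Ex R 30003
  v := Ex R 13401
  a := Ex R (63084 - s)
  y := Ex R (s / 2 + 1)
  ξ := Ex R 74122
  t := Ex R 120004
  n1 := Ex R 60003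
  nu := Ex R 60003
  φ := 0
  ss := Ex R (s + 3)
  as := Ex R 87524
  X := Ex R (s + 3)
  xb := Ex R 73405
  nsh := Ex R 73406

noncomputable def numC (R s : ℝ) : Num where
  σ := Ex R (s / 2)
  Θ := Ex R (s / 2 + 1)
  Θt := Ex R (s - 61839)
  Θr := Ex R (s / 2 - 30868)
  v := Ex R (s / 2 - 31049)
  a := Ex R (1 - s)
  y := Ex R (s - 61840)
  ξ := Ex R (3 * s / 2 - 92708)
  t := Ex R (2 * s - 123680)
  n1 := Ex R (s - 61738)
  nu := Ex R (s - 61840)
  φ := 0
  ss := Ex R (2 * s - 123679)
  as := Ex R (2 * s - 123756)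
  X := Ex R (3 * s / 2 - 61839)
  xb := Ex R (3 * s / 2 - 92606)
  nsh := Ex R (3 * s / 2 - 92605)

/-- The conditions of `exists_ctx` for at most eight points. -/
def Num.CtxOk (c : Num) (fr D : ℝ) : Prop :=
  fr + D + 10 ^ 6 * 8 *
      (3 * (c.n1 + 2 * c.a ^ 2 * c.σ ^ 2 + 2 * c.a ^ 2 * c.v ^ 2 + c.v ^ 2)) ≤ c.Θr ^ 2 ∧
    D * c.σ ^ 2 + 10 ^ 6 * 8 * c.Θt ^ 2 ≤ c.Θ ^ 2

lemma Up.cmul {R x j c k : ℝ} (hk : 0 ≤ k) (h : Up R x j c) : Up R (k * x) (k * j) c := by
  unfold Up at *
  rw [mul_assoc]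
  exact mul_le_mul_of_nonneg_left h hk

lemma Up.fin' {R x j b : ℝ} (hR : 10 ^ 9 ≤ R) (h : Up R x j (b - 1)) (hj : j ≤ 10 ^ 9) :
    x ≤ Ex R b :=
  le_trans h (mul_Ex_le (by linarith) (hj.trans hR) (by linarith))

lemma one_div_eq_Ex {R : ℝ} (hR : 1 < R) : 1 / R = Ex R (-1) := by rw [← Ex_inv hR, Ex_one]

lemma one_le_Ex {R a : ℝ} (hR : 1 < R) (h : 0 ≤ a) : 1 ≤ Ex R a := by
  have := Ex_le hR h
  rwa [Ex_zero] at this

lemma Ex_le_one {R a : ℝ} (hR : 1 < R) (h : a ≤ 0) : Ex R a ≤ 1 := by
  have := Ex_le hR h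
  rwa [Ex_zero] at this

variable {R s : ℝ} (hR : 10 ^ 9 ≤ R)
include hR

section A
variable (h1 : 128800 ≤ s) (h2 : s ≤ 180002)
include h1 h2

lemma numA_ok : (numA R s).Ok := by
  have hR' : 1 < R := by linarith
  refine ⟨const_le_Ex hR' (by linarith) (by linarith), one_le_Ex hR' (by linarith),
    (Ex_pos hR' _).le, Ex_le hR' (by linarith), one_le_Ex hR' (by linarith), (Ex_pos hR' _).le,
    Ex_le hR' (by linarith), (Ex_pos hR' _).le, Ex_le_one hR' (by linarith), (Ex_pos hR' _).le,
    (Ex_pos hR' _).le, (Ex_pos hR' _).le, one_le_Ex hR' (by linarith), (Ex_pos hR' _).le,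
    (Ex_pos hR' _).le, (Ex_pos hR' _).le, ?_, ?_, ?_, ?_, ?_, ?_, ?_⟩
  all_goals
    simp only [numA, Ex_pow hR', mul_add, mul_assoc, Ex_mul hR']
    apply Up.fin' hR
    · repeat' first
        | apply Up.add
        | apply Up.cmul (by norm_num)
        | exact Up.leaf hR' (by push_cast; linarith)
    · norm_num

lemma numA_ctx : (numA R s).CtxOk (Ex R 53005) R := by
  have hR' : 1 < R := by linarith
  suffices h : (numA R s).CtxOk (Ex R 53005) (Ex R 1) by rwa [Ex_one] at h
  constructor
  all_goals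
    simp only [numA, Ex_pow hR', mul_add, mul_assoc, Ex_mul hR']
    apply Up.fin' hR
    · repeat' first
        | apply Up.add
        | apply Up.cmul (by norm_num)
        | exact Up.leaf hR' (by push_cast; linarith)
    · norm_num

lemma numA_N : 2 * (numA R s).Θr * (numA R s).σ ^ 3 ≤ Ex R (2 * s - 3) := by
  have hR' : 1 < R := by linarith
  simp only [numA, Ex_pow hR', mul_add, mul_assoc, Ex_mul hR']
  apply Up.fin' hR
  · repeat' first
      | apply Up.add
      | apply Up.cmul (by norm_num)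
      | exact Up.leaf hR' (by push_cast; linarith)
  · norm_num

lemma numA_Z : 1000 * Ex R 58480 * (numA R s).E1 (Ex R (67604 - 2 * s)) (Ex R 187076)
    + 10000 * (numA R s).E2 (Ex R (67604 - 2 * s)) ≤ Ex R (2 * 58480 + s - 2) := by
  have hR' : 1 < R := by linarith
  simp only [numA, Num.E1, Num.E2, Num.errZ, Num.qvZ, Ex_pow hR', mul_add, mul_assoc, Ex_mul hR']
  apply Up.fin' hR
  · repeat' first
      | apply Up.add
      | apply Up.cmul (by norm_num)
      | exact Up.leaf hR' (by push_cast; linarith)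
  · norm_num

lemma numA_Za : 1000 * Ex R 67920 * (numA R s).E1 (Ex R (77444 - 2 * s)) (Ex R (s + 67788))
    + 10000 * (numA R s).E2 (Ex R (77444 - 2 * s)) ≤ Ex R (2 * 67920 + s - 2) := by
  have hR' : 1 < R := by linarith
  simp only [numA, Num.E1, Num.E2, Num.errZ, Num.qvZ, Ex_pow hR', mul_add, mul_assoc, Ex_mul hR']
  apply Up.fin' hR
  · repeat' first
      | apply Up.add
      | apply Up.cmul (by norm_num)
      | exact Up.leaf hR' (by push_cast; linarith)
  · norm_num

lemma numA_V : 20000 * (numA R s).EV (Ex R 67920) (Ex R (s + 2)) (Ex R (77444 - 2 * s))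
    (Ex R (67604 - s)) ≤ Ex R (26800 + s - 2) := by
  have hR' : 1 < R := by linarith
  simp only [numA, Num.EV, Num.errV, Ex_pow hR', mul_add, mul_assoc, Ex_mul hR']
  apply Up.fin' hR
  · repeat' first
      | apply Up.add
      | apply Up.cmul (by norm_num)
      | exact Up.leaf hR' (by push_cast; linarith)
  · norm_num

lemma numA_D : 30000 * (numA R s).ED (Ex R (67604 - s)) (Ex R 58480) (Ex R (s + 51002))
    (Ex R (s + 118787)) (Ex R (-60718)) (Ex R (s - 9720)) (Ex R (67604 - 2 * s))
    (Ex R (s / 2 + 9007)) ≤ Ex R (2 * s - 9720 - 2) := by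
  have hR' : 1 < R := by linarith
  simp only [numA, Num.ED, Num.errT, Num.errZ, Ex_pow hR', mul_add, mul_assoc, Ex_mul hR']
  apply Up.fin' hR
  · repeat' first
      | apply Up.add
      | apply Up.cmul (by norm_num)
      | exact Up.leaf hR' (by push_cast; linarith)
  · norm_num

lemma numA_Q : 40 * (numA R s).n1 * (numA R s).v ^ 2 / (1 / R) ^ 2
    + 83 * (numA R s).v ^ 4 / (1 / R) ^ 4 ≤ Ex R (s - 1) := by
  have hR' : 1 < R := by linarith
  simp only [numA, one_div_eq_Ex hR', mul_div_assoc, Ex_div hR', Ex_pow hR', mul_add, mul_assoc, Ex_mul hR']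
  apply Up.fin' hR
  · repeat' first
      | apply Up.add
      | apply Up.cmul (by norm_num)
      | exact Up.leaf hR' (by push_cast; linarith)
  · norm_num

end A

section B
variable (h1 : 123200 ≤ s) (h2 : s ≤ 128800)
include h1 h2

lemma numB_ok : (numB R s).Ok := by
  have hR' : 1 < R := by linarith
  refine ⟨const_le_Ex hR' (by linarith) (by linarith), one_le_Ex hR' (by linarith),
    (Ex_pos hR' _).le, Ex_le hR' (by linarith), one_le_Ex hR' (by linarith), (Ex_pos hR' _).le,
    Ex_le hR' (by linarith), (Ex_pos hR' _).le, Ex_le_one hR' (by linarith), (Ex_pos hR' _).le,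
    (Ex_pos hR' _).le, (Ex_pos hR' _).le, one_le_Ex hR' (by linarith), (Ex_pos hR' _).le,
    le_rfl, (Ex_pos hR' _).le, ?_, ?_, ?_, ?_, ?_, ?_, ?_⟩
  all_goals
    simp only [numB, Ex_pow hR', mul_add, mul_assoc, Ex_mul hR']
    apply Up.fin' hR
    · repeat' first
        | apply Up.add
        | apply Up.cmul (by norm_num)
        | exact Up.leaf hR' (by push_cast; linarith)
    · norm_num

lemma numB_ctx : (numB R s).CtxOk 0 R := by
  have hR' : 1 < R := by linarith
  suffices h : (numB R s).CtxOk 0 (Ex R 1) by rwa [Ex_one] at h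
  constructor
  all_goals
    simp only [numB, zero_add, Ex_pow hR', mul_add, mul_assoc, Ex_mul hR']
    apply Up.fin' hR
    · repeat' first
        | apply Up.add
        | apply Up.cmul (by norm_num)
        | exact Up.leaf hR' (by push_cast; linarith)
    · norm_num

lemma numB_N : 2 * (numB R s).Θr * (numB R s).σ ^ 3 ≤ Ex R (2 * s - 3) := by
  have hR' : 1 < R := by linarith
  simp only [numB, Ex_pow hR', mul_add, mul_assoc, Ex_mul hR']
  apply Up.fin' hR
  · repeat' first
      | apply Up.add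
      | apply Up.cmul (by norm_num)
      | exact Up.leaf hR' (by push_cast; linarith)
  · norm_num

lemma numB_Z : 1000 * Ex R 58480 * (numB R s).E1 (Ex R (63084 - 2 * s)) (Ex R (s + 5))
    + 10000 * (numB R s).E2 (Ex R (63084 - 2 * s)) ≤ Ex R (2 * 58480 + s - 2) := by
  have hR' : 1 < R := by linarith
  simp only [numB, Num.E1, Num.E2, Num.errZ, Num.qvZ, Ex_pow hR', mul_add, mul_assoc, Ex_mul hR']
  apply Up.fin' hR
  · repeat' first
      | apply Up.add
      | apply Up.cmul (by norm_num)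
      | exact Up.leaf hR' (by push_cast; linarith)
  · norm_num

lemma numB_V : 20000 * (numB R s).EV (Ex R 58480) (Ex R (s + 2)) (Ex R (63084 - 2 * s))
    (Ex R (1 - s)) ≤ Ex R (26800 + s - 2) := by
  have hR' : 1 < R := by linarith
  simp only [numB, Num.EV, Num.errV, zero_mul, add_zero, Ex_pow hR', mul_add, mul_assoc, Ex_mul hR']
  apply Up.fin' hR
  · repeat' first
      | apply Up.add
      | apply Up.cmul (by norm_num)
      | exact Up.leaf hR' (by push_cast; linarith)
  · norm_num

lemma numB_Q : 40 * (numB R s).n1 * (numB R s).v ^ 2 / (1 / R) ^ 2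
    + 83 * (numB R s).v ^ 4 / (1 / R) ^ 4 ≤ Ex R (s - 1) := by
  have hR' : 1 < R := by linarith
  simp only [numB, one_div_eq_Ex hR', mul_div_assoc, Ex_div hR', Ex_pow hR', mul_add, mul_assoc, Ex_mul hR']
  apply Up.fin' hR
  · repeat' first
      | apply Up.add
      | apply Up.cmul (by norm_num)
      | exact Up.leaf hR' (by push_cast; linarith)
  · norm_num

end B

section C
variable (h1 : 61740 ≤ s) (h2 : s ≤ 123201)
include h1 h2

lemma numC_ok : (numC R s).Ok := by
  have hR' : 1 < R := by linarith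
  refine ⟨const_le_Ex hR' (by linarith) (by linarith), one_le_Ex hR' (by linarith),
    (Ex_pos hR' _).le, Ex_le hR' (by linarith), one_le_Ex hR' (by linarith), (Ex_pos hR' _).le,
    Ex_le hR' (by linarith), (Ex_pos hR' _).le, Ex_le_one hR' (by linarith), (Ex_pos hR' _).le,
    (Ex_pos hR' _).le, (Ex_pos hR' _).le, one_le_Ex hR' (by linarith), (Ex_pos hR' _).le,
    le_rfl, (Ex_pos hR' _).le, ?_, ?_, ?_, ?_, ?_, ?_, ?_⟩
  all_goals
    simp only [numC, Ex_pow hR', mul_add, mul_assoc, Ex_mul hR']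
    apply Up.fin' hR
    · repeat' first
        | apply Up.add
        | apply Up.cmul (by norm_num)
        | exact Up.leaf hR' (by push_cast; linarith)
    · norm_num

lemma numC_ctx : (numC R s).CtxOk 0 R := by
  have hR' : 1 < R := by linarith
  suffices h : (numC R s).CtxOk 0 (Ex R 1) by rwa [Ex_one] at h
  constructor
  all_goals
    simp only [numC, zero_add, Ex_pow hR', mul_add, mul_assoc, Ex_mul hR']
    apply Up.fin' hR
    · repeat' first
        | apply Up.add
        | apply Up.cmul (by norm_num)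
        | exact Up.leaf hR' (by push_cast; linarith)
    · norm_num

lemma numC_N : 2 * (numC R s).Θr * (numC R s).σ ^ 3 ≤ Ex R (2 * s - 3) := by
  have hR' : 1 < R := by linarith
  simp only [numC, Ex_pow hR', mul_add, mul_assoc, Ex_mul hR']
  apply Up.fin' hR
  · repeat' first
      | apply Up.add
      | apply Up.cmul (by norm_num)
      | exact Up.leaf hR' (by push_cast; linarith)
  · norm_num

lemma numC_Z : 1000 * Ex R (s - 61660) * (numC R s).E1 0 (Ex R (2 * s - 123678))
    + 10000 * (numC R s).E2 0 ≤ Ex R (2 * (s - 61660) + s - 2) := by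
  have hR' : 1 < R := by linarith
  simp only [numC, Num.E1, Num.E2, Num.errZ, Num.qvZ, zero_mul, mul_zero, add_zero, zero_add, zero_pow two_ne_zero, Ex_pow hR', mul_add, mul_assoc, Ex_mul hR']
  apply Up.fin' hR
  · repeat' first
      | apply Up.add
      | apply Up.cmul (by norm_num)
      | exact Up.leaf hR' (by push_cast; linarith)
  · norm_num

lemma numC_V : 20000 * (numC R s).EV (Ex R (s - 61660)) (Ex R (2 * s - 123679)) 0 (Ex R (2 - s))
    ≤ Ex R (2 * s - 62100 - 2) := by
  have hR' : 1 < R := by linarith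
  simp only [numC, Num.EV, Num.errV, zero_mul, add_zero, zero_pow two_ne_zero, zero_pow four_ne_zero, Ex_pow hR', mul_add, mul_assoc, Ex_mul hR']
  apply Up.fin' hR
  · repeat' first
      | apply Up.add
      | apply Up.cmul (by norm_num)
      | exact Up.leaf hR' (by push_cast; linarith)
  · norm_num

lemma numC_Y : 8 * (numC R s).y ^ 4 + 10000 * (numC R s).errT (Ex R (1 - s)) (Ex R (s - 61660))
    (Ex R (3 * s - 185520)) 0 ≤ Ex R (3 * s - 123680 - 2) := by
  have hR' : 1 < R := by linarith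
  simp only [numC, Num.errT, add_zero, Ex_pow hR', mul_add, mul_assoc, Ex_mul hR']
  apply Up.fin' hR
  · repeat' first
      | apply Up.add
      | apply Up.cmul (by norm_num)
      | exact Up.leaf hR' (by push_cast; linarith)
  · norm_num

lemma numC_Q : 101 / 100 * 3 ^ 2 * (numC R s).y ^ 2
    + 40 * (numC R s).n1 * (numC R s).v ^ 2 / (1 / R) ^ 2
    + 83 * (numC R s).v ^ 4 / (1 / R) ^ 4 ≤ Ex R (2 * s - 123679) := by
  have hR' : 1 < R := by linarith
  simp only [numC, one_div_eq_Ex hR', mul_div_assoc, Ex_div hR', Ex_pow hR', mul_add, mul_assoc, Ex_mul hR']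
  apply Up.fin' hR
  · repeat' first
      | apply Up.add
      | apply Up.cmul (by norm_num)
      | exact Up.leaf hR' (by push_cast; linarith)
  · norm_num

end C

end Vale.Agent.P049
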