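import Vale.Agent.P049.Complete

/-!
The parameters, the schedule of the boundary parameters and the potential.
-/

namespace Vale.Agent.P049

open Matrix Finset

/-- Order, degree and scale. -/
structure Prm where
  n : ℕ
  d : ℕ
  r : ℕ

namespace Prm

variable (P : Prm)

/-- The admissible range of parameters. -/
structure Good : Prop where
  d_ge : 3 ≤ P.d
  r_ge : 10 ^ 9 * P.d ^ 4 ≤ P.r
  n_ge : P.r ^ 180000 ≤ P.n
  n_le : P.n ≤ P.r ^ 180001

def S0 : ℕ := P.n * P.d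
def S1 : ℕ := P.r ^ 128800
def S2 : ℕ := P.r ^ 123200
def S4 : ℕ := P.r ^ 61740

section
variable {K : Type} [Field K]

def C0 : K := (Nat.sqrt ((P.d - 1) * P.n ^ 2) : K) / P.n
def E : K := 2 * P.C0
def D0 : K := ((P.d : K) - 2) * P.C0
/-- Offsets of the four points: `0` is the far point, `1, 2` the near points, `3` the main one. -/
def β (j : Fin 4) : K :=
  1 / (P.r : K) ^ 56200 + ![1 / (P.r : K) ^ 51280, 2 / (P.r : K) ^ 60720, 1 / (P.r : K) ^ 60720, 0] j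
def C (j : Fin 4) : K := P.C0 + P.β j
def G : K := P.S0 * P.β 3 ^ 2 / P.D0
def Γ (S : ℕ) : K := P.G * (min (2 * P.S1 - S) P.S1 : ℕ) / P.S1
def x (j : Fin 4) (S : ℕ) : K := P.Γ S - P.S0 * P.β j ^ 2 / P.D0
def ω (j : Fin 4) (S : ℕ) : K := P.x j S / S
def g (j : Fin 4) (S : ℕ) : K := (P.ω j S * P.C j + 1) / (P.C j + P.ω j S)
def m (j : Fin 4) (S : ℕ) : K := (P.C j + P.ω j S) / (P.C j ^ 2 - 1)
def ρ (j : Fin 4) (S : ℕ) : K := (P.C j + P.ω j S) ^ 2 / (P.C j ^ 2 - 1)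
def Lam (j : Fin 4) : K := if j = 0 then (P.r : K) ^ 67920 else (P.r : K) ^ 58480

end

/-- Half-edges. -/
abbrev HE : Type := Fin (P.n * P.d)

/-- The sign of a side. -/
def sg (s : Bool) : ℝ := bif s then 1 else -1

noncomputable def Mp (s : Bool) (j : Fin 4) (p : P.HE → P.HE) : Matrix (Fin P.n) (Fin P.n) ℝ :=
  Mm (vxf P.n P.d) P.E (sg s) (P.g j (free p).card) p

noncomputable def Np (s : Bool) (j : Fin 4) (p : P.HE → P.HE) : Matrix P.HE P.HE ℝ :=
  Nm (vxf P.n P.d) P.E (sg s) (P.g j (free p).card) p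

noncomputable def Op (s : Bool) (j : Fin 4) (p : P.HE → P.HE) : Matrix P.HE P.HE ℝ :=
  P.Np s j p - (P.m j (free p).card : ℝ) • proj (free p)

noncomputable def Dl (s : Bool) (p : P.HE → P.HE) : ℝ :=
  ip (P.Np (!s) 3 p) (P.Np s 3 p) - ip (P.Np (!s) 3 p) (P.Np s 2 p)

noncomputable def tZ (s : Bool) (j : Fin 4) (p : P.HE → P.HE) : ℝ :=
  Zf (P.Op s j p) ^ 2 / (P.Lam j : ℝ) ^ 2

noncomputable def tV (s : Bool) (j : Fin 4) (p : P.HE → P.HE) : ℝ :=
  Vf (P.Op s j p) / (P.r : ℝ) ^ 26800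

noncomputable def tD (s : Bool) (p : P.HE → P.HE) : ℝ :=
  P.Dl s p * (P.r : ℝ) ^ 9720 / (free p).card

noncomputable def lZ (s : Bool) (p : P.HE → P.HE) : ℝ :=
  Zf (P.Op s 3 p) ^ 2 * (P.r : ℝ) ^ 123320 / ((free p).card : ℝ) ^ 2

noncomputable def lV (s : Bool) (p : P.HE → P.HE) : ℝ :=
  Vf (P.Op s 3 p) * (P.r : ℝ) ^ 62100 / (free p).card

noncomputable def lY (s : Bool) (p : P.HE → P.HE) : ℝ :=
  Yf (P.Op s 3 p) * (P.r : ℝ) ^ 123680 / ((free p).card : ℝ) ^ 2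

noncomputable def PsiB (p : P.HE → P.HE) : ℝ :=
  ∑ s, ∑ j ∈ ({1, 2, 3} : Finset (Fin 4)), (P.tZ s j p + P.tV s j p)

noncomputable def PsiA (p : P.HE → P.HE) : ℝ :=
  P.PsiB p + ∑ s, (P.tZ s 0 p + P.tV s 0 p + P.tD s p)

noncomputable def PsiC (p : P.HE → P.HE) : ℝ := ∑ s, (P.lZ s p + P.lV s p + P.lY s p)

/-- The potential. -/
noncomputable def Psi (p : P.HE → P.HE) : ℝ :=
  if P.S1 < (free p).card then P.PsiA p else if P.S2 ≤ (free p).card then P.PsiB p else P.PsiC p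

/-- The barrier condition. -/
def PD (p : P.HE → P.HE) : Prop := ∀ s, (P.Mp s 3 p).PosDef

/-- The point `j` is in its range at time `S`. -/
def Act (j : Fin 4) (S : ℕ) : Prop :=
  S ≤ P.S0 ∧ if j = 0 then P.S1 ≤ 2 * S else if j = 3 then P.S4 ≤ 2 * S else P.S2 ≤ 2 * S

/-- The coefficients of the update. -/
noncomputable def pr (s : Bool) (j : Fin 4) (S : ℕ) : Par := par (sg s) (P.ω j S) (P.ρ j S) S

noncomputable def dx (S : ℕ) : ℝ := P.Γ (S - 2) - P.Γ S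
noncomputable def dg (j : Fin 4) (S : ℕ) : ℝ := P.g j (S - 2) - P.g j S
noncomputable def uu (j : Fin 4) (S : ℕ) : ℝ := P.m j (S - 2) / P.m j S

/-- The distance of two points (`i` below `j`). -/
noncomputable def gap (i j : Fin 4) (S : ℕ) : ℝ := P.g j S - P.g i S

/-- The planned covariance of two points. -/
noncomputable def yv (i j : Fin 4) (S : ℕ) : ℝ :=
  (P.m j S - P.m i S) / P.gap i j S - P.m j S * P.m i S

/-- The planned first divided difference. -/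
noncomputable def Tb (i j : Fin 4) (S : ℕ) : ℝ := ((S : ℝ) - 1) * (P.m j S - P.m i S) / P.gap i j S

end Prm

/-- Real powers of the scale. -/
noncomputable def Ex (R x : ℝ) : ℝ := R ^ x

end Vale.Agent.P049
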