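import Vale.Agent.P049.Plan

/-!
Bookkeeping with powers of the scale.
-/

namespace Vale.Agent.P049

variable {R a b c x y j k : ℝ}

lemma Ex_pos (hR : 1 < R) (a : ℝ) : 0 < Ex R a := Real.rpow_pos_of_pos (by linarith) _

lemma Ex_mul (hR : 1 < R) (a b : ℝ) : Ex R a * Ex R b = Ex R (a + b) :=
  (Real.rpow_add (by linarith) _ _).symm

lemma Ex_pow (hR : 1 < R) (a : ℝ) (n : ℕ) : Ex R a ^ n = Ex R (n * a) := by
  unfold Ex
  rw [mul_comm, Real.rpow_mul (by linarith), Real.rpow_natCast]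

lemma Ex_div (hR : 1 < R) (a b : ℝ) : Ex R a / Ex R b = Ex R (a - b) :=
  (Real.rpow_sub (by linarith) _ _).symm

lemma Ex_inv (hR : 1 < R) (a : ℝ) : 1 / Ex R a = Ex R (-a) := by
  unfold Ex
  rw [Real.rpow_neg (by linarith), one_div]

lemma Ex_zero (R : ℝ) : Ex R 0 = 1 := Real.rpow_zero R

lemma Ex_one (R : ℝ) : Ex R 1 = R := Real.rpow_one R

lemma Ex_nat (R : ℝ) (n : ℕ) : R ^ n = Ex R n := (Real.rpow_natCast R n).symm

lemma Ex_le (hR : 1 < R) (h : a ≤ b) : Ex R a ≤ Ex R b :=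
  Real.rpow_le_rpow_of_exponent_le hR.le h

lemma Ex_le_iff (hR : 1 < R) : Ex R a ≤ Ex R b ↔ a ≤ b := Real.rpow_le_rpow_left_iff hR

lemma Ex_lt_iff (hR : 1 < R) : Ex R a < Ex R b ↔ a < b := Real.rpow_lt_rpow_left_iff hR

lemma exists_Ex (hR : 1 < R) (hx : 0 < x) : ∃ s, x = Ex R s :=
  ⟨Real.logb R x, (Real.rpow_logb (by linarith) hR.ne' hx).symm⟩

/-- A constant costs one power of the scale. -/
lemma mul_Ex_le (hR : 1 < R) (hk : k ≤ R) (h : a + 1 ≤ b) : k * Ex R a ≤ Ex R b := by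
  refine le_trans ?_ (Ex_le hR h)
  rw [← Ex_mul hR, Ex_one, mul_comm]
  exact mul_le_mul_of_nonneg_left hk (Ex_pos hR a).le

lemma const_le_Ex (hR : 1 < R) (hk : k ≤ R) (h : 1 ≤ b) : k ≤ Ex R b := by
  have := mul_Ex_le (a := 0) hR hk (by linarith : (0 : ℝ) + 1 ≤ b)
  rwa [Ex_zero, mul_one] at this

lemma Ex_le_const (hR : 1 < R) (hk : 1 ≤ k * R) (h : a ≤ -1) : Ex R a ≤ k := by
  have h1 := Ex_le hR h
  have h2 : Ex R (-1) * R = 1 := by
    rw [← Ex_inv hR, Ex_one]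
    field_simp
  have h3 := Ex_pos hR (-1)
  nlinarith

/-- `x` is at most `j` times the power `c`. -/
def Up (R x j c : ℝ) : Prop := x ≤ j * Ex R c

lemma Up.add (h : Up R x j c) (h' : Up R y k c) : Up R (x + y) (j + k) c := by
  unfold Up at *
  linarith

lemma Up.leaf (hR : 1 < R) (h : a ≤ c) : Up R (Ex R a) 1 c := by
  unfold Up
  rw [one_mul]
  exact Ex_le hR h

lemma Up.cleaf (hR : 1 < R) (hk : 0 ≤ k) (h : a ≤ c) : Up R (k * Ex R a) k c :=
  mul_le_mul_of_nonneg_left (Ex_le hR h) hk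

lemma Up.zero (R c : ℝ) : Up R 0 0 c := by
  unfold Up
  simp

/-- Final step: the constants are absorbed in one power. -/
lemma Up.fin (hR : 1 < R) {C : ℝ} (hC : 0 ≤ C) (h : Up R x j (b - 1)) (hj : C * j ≤ R) :
    C * x ≤ Ex R b := by
  have h1 := mul_le_mul_of_nonneg_left h hC
  have h2 := mul_Ex_le (a := b - 1) (b := b) hR hj (by linarith)
  linarith

end Vale.Agent.P049
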