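import Vale.Agent.P049.Plan
import Vale.Agent.P049.Trop

/-!
Basic sizes of the schedule.
-/

namespace Vale.Agent.P049.Prm

variable {P : Prm} (hG : P.Good) {i j k : Fin 4} {S : ℕ}

lemma S1_eq (P : Prm) : (P.S1 : ℝ) = Ex P.r 128800 := by
  rw [S1, Nat.cast_pow, Ex_nat, Nat.cast_ofNat]

lemma S2_eq (P : Prm) : (P.S2 : ℝ) = Ex P.r 123200 := by
  rw [S2, Nat.cast_pow, Ex_nat, Nat.cast_ofNat]

lemma S4_eq (P : Prm) : (P.S4 : ℝ) = Ex P.r 61740 := by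
  rw [S4, Nat.cast_pow, Ex_nat, Nat.cast_ofNat]

include hG

lemma Good.d3 : (3 : ℝ) ≤ P.d := by exact_mod_cast hG.d_ge

lemma Good.d4 : 10 ^ 9 * (P.d : ℝ) ^ 4 ≤ P.r := by exact_mod_cast hG.r_ge

lemma Good.d_pow : (P.d : ℝ) ≤ (P.d : ℝ) ^ 2 ∧ (P.d : ℝ) ^ 2 ≤ (P.d : ℝ) ^ 3 ∧
    (P.d : ℝ) ^ 3 ≤ (P.d : ℝ) ^ 4 := by
  have h : (1 : ℝ) ≤ P.d := by linarith [hG.d3]
  exact ⟨le_self_pow₀ h (by norm_num), pow_le_pow_right₀ h (by norm_num),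
    pow_le_pow_right₀ h (by norm_num)⟩

lemma Good.R_ge_A : (10 : ℝ) ^ 9 ≤ P.r := by
  have := hG.d_pow
  have := hG.d3
  have := hG.d4
  linarith

lemma Good.one_lt_A : (1 : ℝ) < P.r := by linarith [hG.R_ge_A]

lemma Good.n_ge' : Ex P.r 180000 ≤ (P.n : ℝ) := by
  have : ((P.r ^ 180000 : ℕ) : ℝ) ≤ P.n := Nat.cast_le.mpr hG.n_ge
  rwa [Nat.cast_pow, Ex_nat, Nat.cast_ofNat] at this

lemma Good.n_le' : (P.n : ℝ) ≤ Ex P.r 180001 := by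
  have : (P.n : ℝ) ≤ ((P.r ^ 180001 : ℕ) : ℝ) := Nat.cast_le.mpr hG.n_le
  rwa [Nat.cast_pow, Ex_nat, Nat.cast_ofNat] at this

lemma Good.n_pos : (0 : ℝ) < P.n := (Ex_pos hG.one_lt_A _).trans_le hG.n_ge'

lemma Good.d_le_R : 1000 * (P.d : ℝ) ≤ P.r := by
  have := hG.d_pow
  have := hG.d3
  have := hG.d4
  linarith

lemma Good.S0_le_A : (P.S0 : ℝ) ≤ Ex P.r 180002 := by
  rw [S0, Nat.cast_mul, mul_comm]
  have := hG.d3
  refine le_trans (mul_le_mul_of_nonneg_left hG.n_le' (by linarith)) ?_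
  exact mul_Ex_le hG.one_lt_A (by linarith [hG.d_le_R]) (by norm_num)

lemma Good.S0_ge_d : P.d * Ex P.r 180000 ≤ (P.S0 : ℝ) := by
  rw [S0, Nat.cast_mul, mul_comm]
  exact mul_le_mul_of_nonneg_right hG.n_ge' (Nat.cast_nonneg _)

lemma Good.S0_ge_A : Ex P.r 180000 ≤ (P.S0 : ℝ) := by
  have := hG.S0_ge_d
  have := hG.d3
  have := Ex_pos hG.one_lt_A 180000
  nlinarith

lemma Good.two_add {a b : ℝ} (ha : 0 ≤ a) (h : a + 1 ≤ b) : 2 * Ex P.r a + 4 ≤ Ex P.r b := by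
  have h1 := Ex_le hG.one_lt_A ha
  rw [Ex_zero] at h1
  have := mul_Ex_le (k := 6) hG.one_lt_A (by linarith [hG.R_ge_A]) h
  linarith

lemma Good.sizes_A : 10 * P.d ^ 2 + 1000 ≤ P.S4 ∧ 2 * P.S4 + 4 ≤ P.S2 ∧ 2 * P.S2 + 4 ≤ P.S1 ∧
    2 * P.S1 + 2 ≤ P.S0 ∧ P.d ≤ P.n ∧ P.d ^ 2 + P.d ≤ P.r := by
  have h1 := hG.d_pow
  have h2 := hG.d3
  have h3 := hG.d4
  have h4 := hG.one_lt_A
  refine ⟨?_, ?_, ?_, ?_, ?_, ?_⟩ <;> rw [← Nat.cast_le (α := ℝ)] <;> push_cast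
  · rw [S4_eq]; exact const_le_Ex h4 (by linarith) (by norm_num)
  · rw [S4_eq, S2_eq]; exact hG.two_add (by norm_num) (by norm_num)
  · rw [S2_eq, S1_eq]; exact hG.two_add (by norm_num) (by norm_num)
  · rw [S1_eq]
    have := hG.two_add (a := 128800) (b := 180000) (by norm_num) (by norm_num)
    linarith [hG.S0_ge_A]
  · exact (const_le_Ex h4 (by linarith) (by norm_num)).trans hG.n_ge'
  · linarith

/-- A negative power is tiny compared with all powers of the degree. -/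
lemma Good.tiny {a : ℝ} (h : a ≤ -1) : Ex P.r a * (P.d : ℝ) ^ 4 ≤ 1 / 10 ^ 9 := by
  have h1 := Ex_le hG.one_lt_A h
  have h2 : Ex P.r (-1) * P.r = 1 := by
    rw [← Ex_inv hG.one_lt_A, Ex_one]
    have := hG.one_lt_A
    field_simp
  have h3 := Ex_pos hG.one_lt_A (-1)
  have h4 := mul_le_mul_of_nonneg_left hG.d4 h3.le
  have h5 := mul_le_mul_of_nonneg_right h1 (show 0 ≤ (P.d : ℝ) ^ 4 by positivity)
  linarith

lemma Good.tiny' {a : ℝ} (h : a ≤ -1) : Ex P.r a ≤ 1 / 10 ^ 9 :=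
  Ex_le_const hG.one_lt_A (by linarith [hG.R_ge_A]) h

lemma Good.C0_sq : (0 : ℝ) ≤ P.C0 ∧ (P.C0 : ℝ) ^ 2 ≤ P.d - 1 ∧
    (P.d : ℝ) - 1 < (P.C0 + 1 / P.n) ^ 2 := by
  have hn := hG.n_pos
  have hd : (((P.d - 1) * P.n ^ 2 : ℕ) : ℝ) = (P.d - 1) * (P.n : ℝ) ^ 2 := by
    rw [Nat.cast_mul, Nat.cast_sub (by linarith [hG.d_ge])]; simp
  have h1 : ((Nat.sqrt ((P.d - 1) * P.n ^ 2) : ℕ) : ℝ) ^ 2 ≤ (P.d - 1) * (P.n : ℝ) ^ 2 := by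
    rw [← hd]; exact_mod_cast Nat.sqrt_le' _
  have h2 : (P.d - 1) * (P.n : ℝ) ^ 2 < (((Nat.sqrt ((P.d - 1) * P.n ^ 2) : ℕ) : ℝ) + 1) ^ 2 := by
    rw [← hd]; exact_mod_cast Nat.lt_succ_sqrt' _
  unfold C0
  refine ⟨by positivity, ?_, ?_⟩
  · rw [div_pow, div_le_iff₀ (by positivity)]; exact h1
  · rw [← add_div, div_pow, lt_div_iff₀ (by positivity)]; exact h2

lemma Good.inv_n : 1 / (P.n : ℝ) ≤ Ex P.r (-180000) := by
  rw [← Ex_inv hG.one_lt_A]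
  exact one_div_le_one_div_of_le (Ex_pos hG.one_lt_A _) hG.n_ge'

lemma Good.C0_bd : (14142 / 10000 : ℝ) ≤ P.C0 ∧ (P.C0 : ℝ) ≤ P.d - 1 := by
  obtain ⟨h0, h1, h2⟩ := hG.C0_sq
  have h3 := hG.d3
  have h4 := hG.inv_n.trans (hG.tiny' (by norm_num))
  have h5 : 0 < 1 / (P.n : ℝ) := by have := hG.n_pos; positivity
  constructor
  · by_contra hc
    push Not at hc
    nlinarith
  · by_contra hc
    push Not at hc
    nlinarith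

lemma Good.D0_bd : (1 : ℝ) ≤ P.D0 ∧ (P.D0 : ℝ) ≤ (P.d : ℝ) ^ 2 := by
  obtain ⟨h1, h2⟩ := hG.C0_bd
  have h3 := hG.d3
  unfold D0
  constructor <;> nlinarith

lemma Good.E_pos_A : (0 : ℝ) < P.E := by
  unfold E; linarith [hG.C0_bd.1]

lemma Good.E_le_A : (P.E : ℝ) ≤ 2 * √((P.d : ℝ) - 1) := by
  unfold E
  linarith [Real.le_sqrt_of_sq_le hG.C0_sq.2.1]

lemma Good.β_eq : (P.β 0 : ℝ) = Ex P.r (-56200) + Ex P.r (-51280) ∧
    (P.β 1 : ℝ) = Ex P.r (-56200) + 2 * Ex P.r (-60720) ∧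
    (P.β 2 : ℝ) = Ex P.r (-56200) + Ex P.r (-60720) ∧ (P.β 3 : ℝ) = Ex P.r (-56200) := by
  have h := hG.one_lt_A
  have e1 : 1 / (P.r : ℝ) ^ 56200 = Ex P.r (-56200) := by rw [Ex_nat, Ex_inv h, Nat.cast_ofNat]
  have e2 : 1 / (P.r : ℝ) ^ 51280 = Ex P.r (-51280) := by rw [Ex_nat, Ex_inv h, Nat.cast_ofNat]
  have e3 : 1 / (P.r : ℝ) ^ 60720 = Ex P.r (-60720) := by rw [Ex_nat, Ex_inv h, Nat.cast_ofNat]
  have e4 : 2 / (P.r : ℝ) ^ 60720 = 2 * Ex P.r (-60720) := by rw [← e3, mul_one_div]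
  unfold β
  rw [e1, e2, e3, e4]
  exact ⟨rfl, rfl, rfl, add_zero _⟩

lemma Good.scales : 0 < Ex P.r (-60720) ∧ 1000 * Ex P.r (-60720) ≤ Ex P.r (-56200) ∧
    1000 * Ex P.r (-56200) ≤ Ex P.r (-51280) ∧ 1000 * Ex P.r (-51280) ≤ Ex P.r (-50000) ∧
    Ex P.r (-50000) ≤ 1 / 10 ^ 9 :=
  have h := hG.one_lt_A
  have h' : (1000 : ℝ) ≤ P.r := by linarith [hG.R_ge_A]
  ⟨Ex_pos h _, mul_Ex_le h h' (by norm_num), mul_Ex_le h h' (by norm_num),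
    mul_Ex_le h h' (by norm_num), hG.tiny' (by norm_num)⟩

lemma Good.β_near (hj : j ≠ 0) : Ex P.r (-56200) ≤ (P.β j : ℝ) ∧
    (P.β j : ℝ) ≤ Ex P.r (-56200) + 2 * Ex P.r (-60720) := by
  obtain ⟨-, b1, b2, b3⟩ := hG.β_eq
  obtain ⟨s1, -⟩ := hG.scales
  fin_cases j
  · exact absurd rfl hj
  · exact ⟨le_trans (by linarith) b1.ge, b1.le⟩
  · exact ⟨le_trans (by linarith) b2.ge, b2.le.trans (by linarith)⟩
  · exact ⟨b3.ge, b3.le.trans (by linarith)⟩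

lemma Good.β_bd (j : Fin 4) : Ex P.r (-56200) ≤ (P.β j : ℝ) ∧ (P.β j : ℝ) ≤ 2 * Ex P.r (-51280) := by
  obtain ⟨s1, s2, s3, -⟩ := hG.scales
  rcases eq_or_ne j 0 with rfl | hj
  · rw [hG.β_eq.1]; constructor <;> linarith
  · exact ⟨(hG.β_near hj).1, by linarith [(hG.β_near hj).2]⟩

lemma Good.β_sub (h0 : i ≠ 0) (hij : i < j) : Ex P.r (-60720) ≤ (P.β i : ℝ) - P.β j ∧
    (P.β i : ℝ) - P.β j ≤ 2 * Ex P.r (-60720) := by
  obtain ⟨-, b1, b2, b3⟩ := hG.β_eq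
  obtain ⟨s1, -⟩ := hG.scales
  have : (i = 1 ∧ j = 2) ∨ (i = 1 ∧ j = 3) ∨ (i = 2 ∧ j = 3) := by
    revert h0 hij; revert i j; decide
  rcases this with ⟨rfl, rfl⟩ | ⟨rfl, rfl⟩ | ⟨rfl, rfl⟩ <;> constructor <;> linarith

lemma Good.β_far (hj : j ≠ 0) : Ex P.r (-51280) / 2 ≤ (P.β 0 : ℝ) - P.β j ∧
    (P.β 0 : ℝ) - P.β j ≤ Ex P.r (-51280) := by
  obtain ⟨s1, s2, s3, -⟩ := hG.scales
  obtain ⟨a1, a2⟩ := hG.β_near hj
  rw [hG.β_eq.1]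
  constructor <;> linarith

lemma Good.β_lt (hij : i < j) : (0 : ℝ) < P.β i - P.β j := by
  obtain ⟨s1, s2, s3, -⟩ := hG.scales
  rcases eq_or_ne i 0 with rfl | h0
  · linarith [(hG.β_far hij.ne').1]
  · linarith [(hG.β_sub h0 hij).1]

lemma Good.C_bd (j : Fin 4) : (14142 / 10000 : ℝ) ≤ P.C j ∧ (P.C j : ℝ) ≤ P.d := by
  obtain ⟨s1, s2, s3, s4, s5⟩ := hG.scales
  obtain ⟨a1, a2⟩ := hG.β_bd j
  obtain ⟨c1, c2⟩ := hG.C0_bd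
  unfold C
  constructor <;> linarith

lemma Good.S1_pos : (0 : ℝ) < P.S1 := by rw [S1_eq]; exact Ex_pos hG.one_lt_A _

lemma Good.S0_pos : (0 : ℝ) < P.S0 := (Ex_pos hG.one_lt_A _).trans_le hG.S0_ge_A

lemma Good.G_nonneg : (0 : ℝ) ≤ P.G := by
  have := hG.D0_bd.1
  unfold G; positivity

lemma Good.Γ_bd (S : ℕ) : (0 : ℝ) ≤ P.Γ S ∧ (P.Γ S : ℝ) ≤ P.G := by
  have h1 := hG.G_nonneg
  have h2 := hG.S1_pos
  unfold Γ
  refine ⟨by positivity, ?_⟩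
  rw [div_le_iff₀ h2]
  exact mul_le_mul_of_nonneg_left (Nat.cast_le.mpr (min_le_right _ _)) h1

lemma Good.Γ_late (hS : S ≤ P.S1) : (P.Γ S : ℝ) = P.G := by
  have h2 := hG.S1_pos
  unfold Γ
  rw [min_eq_right (by omega), mul_div_assoc, div_self h2.ne', mul_one]

lemma Good.sq_le {b c : ℝ} (h0 : 0 ≤ b) (hb : b ≤ 10 * Ex P.r c) :
    P.S0 * b / P.D0 ≤ Ex P.r (180003 + c) := by
  have h1 := hG.D0_bd.1
  have h2 := hG.S0_pos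
  have h3 := Ex_pos hG.one_lt_A c
  calc P.S0 * b / P.D0 ≤ P.S0 * b := div_le_self (by positivity) h1
    _ ≤ Ex P.r 180002 * (10 * Ex P.r c) := by
        gcongr
        · exact (Ex_pos hG.one_lt_A _).le
        · exact hG.S0_le_A
    _ = 10 * Ex P.r (180002 + c) := by rw [← Ex_mul hG.one_lt_A]; ring
    _ ≤ _ := mul_Ex_le hG.one_lt_A (by linarith [hG.R_ge_A]) (by linarith)

lemma Good.x_bd (j : Fin 4) (S : ℕ) : (P.x j S : ℝ) ≤ 0 ∧ -(P.S0 * P.β j ^ 2 / P.D0) ≤ (P.x j S : ℝ) := by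
  obtain ⟨g1, g2⟩ := hG.Γ_bd S
  have h1 := hG.D0_bd.1
  have h2 := hG.S0_pos
  have h3 : (P.G : ℝ) ≤ P.S0 * P.β j ^ 2 / P.D0 := by
    unfold G
    have := Ex_pos hG.one_lt_A (-56200)
    rw [hG.β_eq.2.2.2]
    gcongr
    exact (hG.β_bd j).1
  unfold x
  constructor <;> linarith

lemma Good.Ex_sq (a : ℝ) : Ex P.r a ^ 2 = Ex P.r (2 * a) := by
  rw [Ex_pow hG.one_lt_A, Nat.cast_ofNat]

lemma Good.x_le_A (hj : j ≠ 0) (S : ℕ) : |(P.x j S : ℝ)| ≤ Ex P.r 67603 := by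
  obtain ⟨a1, a2⟩ := hG.x_bd j S
  obtain ⟨b1, b2⟩ := hG.β_near hj
  obtain ⟨s1, s2, -⟩ := hG.scales
  have h1 : (P.β j : ℝ) ^ 2 ≤ (2 * Ex P.r (-56200)) ^ 2 := by
    gcongr <;> linarith
  rw [mul_pow, hG.Ex_sq] at h1
  have h2 := hG.sq_le (c := 2 * -56200) (sq_nonneg (P.β j : ℝ))
    (by linarith [Ex_pos hG.one_lt_A (2 * -56200)])
  rw [abs_of_nonpos a1]
  exact le_trans (by linarith) (h2.trans (Ex_le hG.one_lt_A (by norm_num)))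

lemma Good.x_far_A (S : ℕ) : |(P.x 0 S : ℝ)| ≤ Ex P.r 77443 := by
  obtain ⟨a1, a2⟩ := hG.x_bd 0 S
  obtain ⟨b1, b2⟩ := hG.β_bd 0
  obtain ⟨s1, s2, -⟩ := hG.scales
  have h1 : (P.β 0 : ℝ) ^ 2 ≤ (2 * Ex P.r (-51280)) ^ 2 := by
    gcongr; linarith
  rw [mul_pow, hG.Ex_sq] at h1
  have h2 := hG.sq_le (c := 2 * -51280) (sq_nonneg (P.β 0 : ℝ))
    (by linarith [Ex_pos hG.one_lt_A (2 * -51280)])
  rw [abs_of_nonpos a1]
  exact le_trans (by linarith) (h2.trans (Ex_le hG.one_lt_A (by norm_num)))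

lemma Good.x_late_A (hj : j ≠ 0) (hS : S ≤ P.S1) : |(P.x j S : ℝ)| ≤ Ex P.r 63083 := by
  obtain ⟨b1, b2⟩ := hG.β_near hj
  obtain ⟨s1, s2, -⟩ := hG.scales
  have e : (P.x j S : ℝ) = -(P.S0 * ((P.β j - Ex P.r (-56200)) * (P.β j + Ex P.r (-56200))) /
      P.D0) := by
    rw [x, hG.Γ_late hS, G, hG.β_eq.2.2.2]; ring
  have h1 : ((P.β j : ℝ) - Ex P.r (-56200)) * (P.β j + Ex P.r (-56200)) ≤
      (2 * Ex P.r (-60720)) * (3 * Ex P.r (-56200)) := by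
    gcongr <;> linarith
  have h0 : 0 ≤ ((P.β j : ℝ) - Ex P.r (-56200)) * (P.β j + Ex P.r (-56200)) :=
    mul_nonneg (by linarith) (by linarith)
  have h2 := hG.sq_le (c := -60720 + -56200) h0 (by
    rw [← Ex_mul hG.one_lt_A]
    nlinarith [mul_pos s1 (Ex_pos hG.one_lt_A (-56200))])
  rw [abs_of_nonpos (hG.x_bd j S).1, e, neg_neg]
  exact h2.trans (Ex_le hG.one_lt_A (by norm_num))

lemma Good.x_zero_A (hS : S ≤ P.S1) : (P.x 3 S : ℝ) = 0 := by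
  rw [x, hG.Γ_late hS, G, sub_self]

lemma Good.dx_eq (S : ℕ) : P.dx S = P.G *
    ((min (2 * P.S1 - (S - 2)) P.S1 - min (2 * P.S1 - S) P.S1 : ℕ) : ℝ) / P.S1 := by
  have := hG.d3
  rw [dx, Γ, Γ, Nat.cast_sub (by omega)]; ring

lemma Good.dx_nonneg_A (S : ℕ) : 0 ≤ P.dx S := by
  have := hG.G_nonneg
  rw [hG.dx_eq]; positivity

lemma Good.dx_zero_A (hS : S ≤ P.S1 ∨ 2 * P.S1 + 2 ≤ S) : P.dx S = 0 := by
  rw [hG.dx_eq, show min (2 * P.S1 - (S - 2)) P.S1 - min (2 * P.S1 - S) P.S1 = 0 by omega]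
  simp

lemma Good.dx_le_A (S : ℕ) : P.dx S * S ≤ Ex P.r 67603 := by
  rcases le_or_gt (2 * P.S1 + 2) S with h | h
  · rw [hG.dx_zero_A (Or.inr h), zero_mul]; exact (Ex_pos hG.one_lt_A _).le
  have h1 := hG.G_nonneg
  have h2 := hG.S1_pos
  have h3 : ((min (2 * P.S1 - (S - 2)) P.S1 - min (2 * P.S1 - S) P.S1 : ℕ) : ℝ) ≤ 2 := by
    exact_mod_cast (by omega : min (2 * P.S1 - (S - 2)) P.S1 - min (2 * P.S1 - S) P.S1 ≤ 2)
  have h4 : (S : ℝ) ≤ 3 * P.S1 := by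
    have : 0 < P.S1 := by exact_mod_cast h2
    exact_mod_cast (by omega : S ≤ 3 * P.S1)
  have h5 := hG.sq_le (b := 6 * P.β 3 ^ 2) (c := 2 * -56200) (by positivity) (by
    rw [hG.β_eq.2.2.2, hG.Ex_sq]; linarith [Ex_pos hG.one_lt_A (2 * -56200)])
  calc P.dx S * S ≤ P.G * 2 / P.S1 * (3 * P.S1) := by rw [hG.dx_eq]; gcongr
    _ = P.S0 * (6 * P.β 3 ^ 2) / P.D0 := by rw [G]; field_simp; ring
    _ ≤ _ := h5.trans (Ex_le hG.one_lt_A (by norm_num))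

lemma Good.act_S (h : P.Act j S) : P.S4 ≤ 2 * S := by
  obtain ⟨-, a, b, -⟩ := hG.sizes_A
  have := h.2
  split_ifs at this <;> omega

lemma Good.act_S' (h : P.Act j S) : Ex P.r 61740 ≤ 2 * (S : ℝ) := by
  rw [← S4_eq]; exact_mod_cast hG.act_S h

lemma Good.S_big (h : P.Act j S) : (10 : ℝ) ^ 8 ≤ S := by
  have := const_le_Ex hG.one_lt_A hG.R_ge_A (show (1 : ℝ) ≤ 61740 by norm_num)
  linarith [hG.act_S' h]

lemma Good.act_three (h : P.Act j S) : P.Act 3 S := ⟨h.1, by simpa using hG.act_S h⟩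

lemma Good.act_of_S1 (h : P.Act j S) (hS : P.S1 ≤ 2 * S) (k : Fin 4) : P.Act k S := by
  obtain ⟨-, a, b, -⟩ := hG.sizes_A
  refine ⟨h.1, ?_⟩
  split_ifs <;> omega

lemma Good.act_S0 (k : Fin 4) : P.Act k P.S0 := by
  obtain ⟨-, a, b, c, -⟩ := hG.sizes_A
  refine ⟨le_rfl, ?_⟩
  split_ifs <;> omega

lemma Good.div_S {X a b : ℝ} (hX : X ≤ Ex P.r a) (hS : Ex P.r b ≤ 2 * (S : ℝ)) :
    X / S ≤ 2 * Ex P.r (a - b) := by
  have h1 := Ex_pos hG.one_lt_A b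
  have h2 := Ex_pos hG.one_lt_A a
  rw [← Ex_div hG.one_lt_A]
  calc X / S ≤ Ex P.r a / (Ex P.r b / 2) := by
        refine div_le_div₀ h2.le hX (by positivity) (by linarith)
    _ = _ := by field_simp

lemma Good.ω_nonpos (j : Fin 4) (S : ℕ) : (P.ω j S : ℝ) ≤ 0 :=
  div_nonpos_of_nonpos_of_nonneg (hG.x_bd j S).1 (Nat.cast_nonneg _)

lemma Good.ω_early (hj : j ≠ 0) (hS : P.S1 ≤ 2 * S) : |(P.ω j S : ℝ)| ≤ 2 * Ex P.r (-61197) := by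
  rw [ω, abs_div, Nat.abs_cast]
  refine (hG.div_S (b := 128800) (hG.x_le_A hj S) ?_).trans (by norm_num)
  rw [← S1_eq]; exact_mod_cast hS

lemma Good.ω_le_A (h : P.Act j S) : |(P.ω j S : ℝ)| ≤ Ex P.r (-50000) := by
  have h2 : (2 : ℝ) ≤ P.r := by linarith [hG.R_ge_A]
  have h1 := h.2
  rcases eq_or_ne j 0 with rfl | hj
  · rw [if_pos rfl] at h1
    rw [ω, abs_div, Nat.abs_cast]
    refine (hG.div_S (b := 128800) (hG.x_far_A S) ?_).trans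
      (mul_Ex_le hG.one_lt_A h2 (by norm_num))
    rw [← S1_eq]; exact_mod_cast h1
  rcases le_total P.S1 (2 * S) with hS | hS
  · exact (hG.ω_early hj hS).trans (mul_Ex_le hG.one_lt_A h2 (by norm_num))
  rw [if_neg hj] at h1
  split_ifs at h1 with h3
  · subst h3
    rw [ω, hG.x_zero_A (by omega), zero_div, abs_zero]
    exact (Ex_pos hG.one_lt_A _).le
  · rw [ω, abs_div, Nat.abs_cast]
    refine (hG.div_S (b := 123200) (hG.x_late_A hj (by omega)) ?_).trans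
      (mul_Ex_le hG.one_lt_A h2 (by norm_num))
    rw [← S2_eq]; exact_mod_cast h1

end Vale.Agent.P049.Prm
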