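import Mathlib

/-!
Real arithmetic of one and two points of the schedule.
-/

namespace Vale.Agent.P049

noncomputable def gf (C ω : ℝ) : ℝ := (ω * C + 1) / (C + ω)
noncomputable def mf (C ω : ℝ) : ℝ := (C + ω) / (C ^ 2 - 1)
noncomputable def rf (C ω : ℝ) : ℝ := (C + ω) ^ 2 / (C ^ 2 - 1)

/-- The range of a point. -/
structure Pnt (d C ω : ℝ) : Prop where
  d3 : 3 ≤ d
  c1 : 14142 / 10000 ≤ C
  c2 : C ≤ d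
  o1 : ω ≤ 0
  o2 : -ω * d ≤ 1 / 10 ^ 9

variable {d C ω C₁ ω₁ C₂ ω₂ b : ℝ}

lemma Pnt.o3 (h : Pnt d C ω) : -ω ≤ 1 / 10 ^ 9 := by
  nlinarith [h.d3, h.o1, h.o2]

lemma Pnt.o4 (h : Pnt d C ω) : -ω * C ≤ 1 / 10 ^ 9 := by
  nlinarith [h.c2, h.o1, h.o2]

lemma Pnt.u1 (h : Pnt d C ω) : 1414 / 1000 ≤ C + ω := by linarith [h.c1, h.o3]

lemma Pnt.u2 (h : Pnt d C ω) : C + ω ≤ d := by linarith [h.c2, h.o1]

lemma Pnt.q1 (h : Pnt d C ω) : 999 / 1000 ≤ C ^ 2 - 1 := by nlinarith [h.c1]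

lemma Pnt.m_pos (h : Pnt d C ω) : 0 < mf C ω := by
  have := h.u1; have := h.q1
  unfold mf; positivity

lemma Pnt.m_le (h : Pnt d C ω) : mf C ω ≤ 2 := by
  have := h.q1
  rw [mf, div_le_iff₀ (by linarith)]
  nlinarith [h.c1, h.o1]

lemma Pnt.r_ge (h : Pnt d C ω) : 1 ≤ rf C ω := by
  have := h.q1
  rw [rf, le_div_iff₀ (by linarith)]
  nlinarith [h.o4, sq_nonneg ω]

lemma Pnt.r_le (h : Pnt d C ω) : rf C ω ≤ 3 := by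
  have := h.q1
  have h1 : (C + ω) ^ 2 ≤ C ^ 2 := by
    have := h.u1
    gcongr
    linarith [h.o1]
  rw [rf, div_le_iff₀ (by linarith)]
  linarith

lemma Pnt.g_pos (h : Pnt d C ω) : 0 < gf C ω :=
  div_pos (by linarith [h.o4]) (by linarith [h.u1])

lemma Pnt.g_lt (h : Pnt d C ω) : gf C ω < 1 := by
  rw [gf, div_lt_one (by linarith [h.u1])]
  nlinarith [h.c1, h.o1]

lemma Pnt.ω_eq (h : Pnt d C ω) : ω = gf C ω - (1 - gf C ω ^ 2) * mf C ω := by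
  have a1 : C + ω ≠ 0 := by linarith [h.u1]
  have a2 : C ^ 2 - 1 ≠ 0 := by linarith [h.q1]
  unfold gf mf; field_simp; ring

lemma Pnt.r_eq (h : Pnt d C ω) : rf C ω = 1 + gf C ω * mf C ω + mf C ω * ω := by
  have a1 : C + ω ≠ 0 := by linarith [h.u1]
  have a2 : C ^ 2 - 1 ≠ 0 := by linarith [h.q1]
  unfold gf mf rf; field_simp; ring

lemma Pnt.m_eq (h : Pnt d C ω) : mf C ω = 1 / (C - gf C ω) := by
  have a1 : C + ω ≠ 0 := by linarith [h.u1]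
  have a2 : C ^ 2 - 1 ≠ 0 := by linarith [h.q1]
  have : C - gf C ω = (C ^ 2 - 1) / (C + ω) := by unfold gf; field_simp; ring
  rw [this, one_div_div, mf]

lemma mf_mul (C ω : ℝ) : mf C ω * (C + ω) = rf C ω := by unfold mf rf; ring

/-- Bounds for the coefficients of the update. -/
lemma Pnt.par_le (h : Pnt d C ω) {s S X : ℝ} (hs : s = 1 ∨ s = -1) (hS : 100 ≤ S)
    (hX : -ω ≤ X / S) :
    |ω / rf C ω + (ω - s) / (rf C ω * (S - 2))| ≤ (X + 3) / S ∧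
      |-s / rf C ω + (ω - s) / (rf C ω * (S - 2))| ≤ 2 ∧
      0 ≤ S / (S - 2) * (1 - ω ^ 2) / rf C ω ^ 2 ∧
      S / (S - 2) * (1 - ω ^ 2) / rf C ω ^ 2 ≤ S / (S - 2) / rf C ω ^ 2 := by
  have r1 := h.r_ge
  have o1 := h.o1
  have o3 := h.o3
  have hS2 : 0 < S - 2 := by linarith
  have a1 : |(ω - s) / (rf C ω * (S - 2))| ≤ 3 / S := by
    rw [abs_div, abs_of_pos (show 0 < rf C ω * (S - 2) by positivity),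
      div_le_div_iff₀ (by positivity) (by linarith)]
    have : |ω - s| ≤ 2 := by rcases hs with rfl | rfl <;> rw [abs_le] <;> constructor <;> linarith
    nlinarith [mul_le_mul_of_nonneg_right this (show 0 ≤ S by linarith),
      mul_le_mul_of_nonneg_right r1 hS2.le]
  have a2 : |ω / rf C ω| ≤ X / S := by
    rw [abs_div, abs_of_nonpos o1, abs_of_pos (by linarith)]
    exact (div_le_self (by linarith) r1).trans hX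
  have a3 : |-s / rf C ω| ≤ 1 := by
    rw [abs_div, abs_of_pos (show 0 < rf C ω by linarith)]
    have : |-s| = 1 := by rcases hs with rfl | rfl <;> simp
    rw [this]; exact div_le_self zero_le_one r1
  have a4 : 3 / S ≤ 1 := by rw [div_le_one (by linarith)]; linarith
  have a5 : 0 ≤ 1 - ω ^ 2 := by nlinarith
  have a6 : 0 < S := by linarith
  refine ⟨(abs_add_le _ _).trans (by rw [add_div]; linarith),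
    (abs_add_le _ _).trans (by linarith), by positivity, ?_⟩
  gcongr
  exact mul_le_of_le_one_right (by positivity) (by nlinarith [sq_nonneg ω])

/-- One step in `ω`. -/
lemma Pnt.step {ω' δ : ℝ} (h : Pnt d C ω) (h' : Pnt d C ω') (hδ : |ω' - ω| ≤ δ) :
    mf C ω' / mf C ω * (1 - (gf C ω' - gf C ω) * mf C ω) = 1 ∧
      mf C ω' = mf C ω * (mf C ω' / mf C ω) ∧ mf C ω' / mf C ω ≠ 0 ∧
      (gf C ω' - gf C ω) * (mf C ω' / mf C ω) = (ω' - ω) / rf C ω ∧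
      |gf C ω' - gf C ω| ≤ δ ∧ (mf C ω' / mf C ω) ^ 4 ≤ 1 + 15 * δ := by
  have a1 : C + ω ≠ 0 := by linarith [h.u1]
  have a1' : C + ω' ≠ 0 := by linarith [h'.u1]
  have a2 : C ^ 2 - 1 ≠ 0 := by linarith [h.q1]
  have m1 := h.m_pos
  have m2 := h'.m_pos
  have u1 := h.u1
  have u2 := h'.u1
  refine ⟨by unfold gf mf; field_simp; ring, by field_simp, by positivity,
    by unfold gf mf rf; field_simp; ring, ?_, ?_⟩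
  · have e : gf C ω' - gf C ω = (ω' - ω) * ((C ^ 2 - 1) / ((C + ω) * (C + ω'))) := by
      unfold gf; field_simp; ring
    have e1 : (C ^ 2 - 1) / ((C + ω) * (C + ω')) ≤ 1 := by
      rw [div_le_one (by positivity)]
      nlinarith [h.o4, h'.o4, mul_nonneg_of_nonpos_of_nonpos h.o1 h'.o1]
    have := h.q1
    rw [e, abs_mul, abs_of_nonneg (show 0 ≤ (C ^ 2 - 1) / ((C + ω) * (C + ω')) by positivity)]
    exact (mul_le_of_le_one_right (abs_nonneg _) e1).trans hδ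
  · have e : mf C ω' / mf C ω = 1 + (ω' - ω) / (C + ω) := by unfold mf; field_simp; ring
    set t := |ω' - ω| with ht
    have t0 : 0 ≤ t := abs_nonneg _
    have t1 : t ≤ 1 := by
      rw [ht, abs_le]; constructor <;> linarith [h.o1, h.o3, h'.o1, h'.o3]
    have e1 : mf C ω' / mf C ω ≤ 1 + t := by
      rw [e]
      have : (ω' - ω) / (C + ω) ≤ t / (C + ω) := by gcongr; exact le_abs_self _
      linarith [div_le_self t0 (show 1 ≤ C + ω by linarith)]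
    calc (mf C ω' / mf C ω) ^ 4 ≤ (1 + t) ^ 4 := by gcongr
      _ = 1 + t * (4 + t * (6 + t * (4 + t))) := by ring
      _ ≤ 1 + t * (4 + 1 * (6 + 1 * (4 + 1))) := by gcongr
      _ ≤ _ := by linarith

/-- The denominator of a pair of points. -/
def Dn (C₁ ω₁ C₂ ω₂ b : ℝ) : ℝ := 1 - ω₁ * ω₂ + b * (C₁ * C₂ - 1)

lemma Dn_ge (h₁ : Pnt d C₁ ω₁) (h₂ : Pnt d C₂ ω₂) (hb : 0 ≤ b) :
    999 / 1000 + 999 / 1000 * b ≤ Dn C₁ ω₁ C₂ ω₂ b ∧ 1 - ω₁ * ω₂ ≤ Dn C₁ ω₁ C₂ ω₂ b := by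
  have a1 : ω₁ * ω₂ ≤ 1 / 1000 := by nlinarith [h₁.o1, h₁.o3, h₂.o1, h₂.o3]
  have a2 : 999 / 1000 ≤ C₁ * C₂ - 1 := by nlinarith [h₁.c1, h₂.c1]
  unfold Dn
  constructor <;> nlinarith

lemma Dn_le (h₁ : Pnt d C₁ ω₁) (h₂ : Pnt d C₂ ω₂) (hb : 0 ≤ b) :
    Dn C₁ ω₁ C₂ ω₂ b ≤ (1 + b) * ((C₁ + ω₁) * (C₂ + ω₂)) ∧ Dn C₁ ω₁ C₂ ω₂ b ≤ 1 + b * d ^ 2 := by
  have a1 := mul_nonneg_of_nonpos_of_nonpos h₁.o1 h₂.o1
  have a2 : 1 ≤ (C₁ + ω₁) * (C₂ + ω₂) := by nlinarith [h₁.u1, h₂.u1]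
  have a3 : -ω₁ * C₂ ≤ 1 / 10 ^ 9 := by nlinarith [h₂.c2, h₁.o1, h₁.o2]
  have a4 : -ω₂ * C₁ ≤ 1 / 10 ^ 9 := by nlinarith [h₁.c2, h₂.o1, h₂.o2]
  have a5 : C₁ * C₂ - 1 ≤ (C₁ + ω₁) * (C₂ + ω₂) := by nlinarith
  have a6 : C₁ * C₂ - 1 ≤ d ^ 2 := by nlinarith [h₁.c1, h₁.c2, h₂.c1, h₂.c2]
  have a7 := mul_le_mul_of_nonneg_left a5 hb
  have a8 := mul_le_mul_of_nonneg_left a6 hb
  unfold Dn
  constructor <;> linarith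

lemma gap_eq (h₁ : Pnt d C₁ ω₁) (h₂ : Pnt d C₂ ω₂) (hω : ω₂ - ω₁ = b * (C₁ - C₂)) :
    gf C₂ ω₂ - gf C₁ ω₁ = (C₁ - C₂) * Dn C₁ ω₁ C₂ ω₂ b / ((C₁ + ω₁) * (C₂ + ω₂)) := by
  have a1 : C₁ + ω₁ ≠ 0 := by linarith [h₁.u1]
  have a2 : C₂ + ω₂ ≠ 0 := by linarith [h₂.u1]
  unfold gf Dn
  field_simp
  linear_combination (C₁ * C₂ - 1) * hω

lemma gap_bd (h₁ : Pnt d C₁ ω₁) (h₂ : Pnt d C₂ ω₂) (hω : ω₂ - ω₁ = b * (C₁ - C₂)) (hb : 0 ≤ b)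
    (hC : 0 < C₁ - C₂) :
    (C₁ - C₂) * (1 + b) ≤ 2 * d ^ 2 * (gf C₂ ω₂ - gf C₁ ω₁) ∧
      gf C₂ ω₂ - gf C₁ ω₁ ≤ (C₁ - C₂) * (1 + b) := by
  have u1 := h₁.u1
  have u2 := h₂.u1
  have a1 := (Dn_ge h₁ h₂ hb).1
  have a2 := (Dn_le h₁ h₂ hb).1
  have a3 : (C₁ + ω₁) * (C₂ + ω₂) ≤ d ^ 2 := by
    rw [sq]; exact mul_le_mul h₁.u2 h₂.u2 (by linarith) (by linarith [h₁.d3])
  rw [gap_eq h₁ h₂ hω, ← mul_div_assoc, le_div_iff₀ (by positivity), div_le_iff₀ (by positivity)]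
  constructor
  · have a4 : 0 < Dn C₁ ω₁ C₂ ω₂ b := by linarith
    calc (C₁ - C₂) * (1 + b) * ((C₁ + ω₁) * (C₂ + ω₂))
        ≤ (C₁ - C₂) * (2 * Dn C₁ ω₁ C₂ ω₂ b) * d ^ 2 := by gcongr; linarith
      _ = _ := by ring
  · rw [mul_assoc]; gcongr

lemma m_sub_eq (h₁ : Pnt d C₁ ω₁) (h₂ : Pnt d C₂ ω₂) :
    mf C₂ ω₂ - mf C₁ ω₁ = mf C₂ ω₂ * mf C₁ ω₁ * ((C₁ - C₂) + (gf C₂ ω₂ - gf C₁ ω₁)) := by
  have a1 : C₁ + ω₁ ≠ 0 := by linarith [h₁.u1]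
  have a2 : C₂ + ω₂ ≠ 0 := by linarith [h₂.u1]
  have a3 : C₁ ^ 2 - 1 ≠ 0 := by linarith [h₁.q1]
  have a4 : C₂ ^ 2 - 1 ≠ 0 := by linarith [h₂.q1]
  unfold gf mf
  field_simp
  ring

lemma yv_eq (h₁ : Pnt d C₁ ω₁) (h₂ : Pnt d C₂ ω₂) (hω : ω₂ - ω₁ = b * (C₁ - C₂)) (hb : 0 ≤ b)
    (hC : 0 < C₁ - C₂) :
    (mf C₂ ω₂ - mf C₁ ω₁) / (gf C₂ ω₂ - gf C₁ ω₁) - mf C₂ ω₂ * mf C₁ ω₁ =
      rf C₁ ω₁ * rf C₂ ω₂ / Dn C₁ ω₁ C₂ ω₂ b := by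
  have a1 : C₁ + ω₁ ≠ 0 := by linarith [h₁.u1]
  have a2 : C₂ + ω₂ ≠ 0 := by linarith [h₂.u1]
  have a5 : Dn C₁ ω₁ C₂ ω₂ b ≠ 0 := by linarith [(Dn_ge h₁ h₂ hb).1]
  have a6 := hC.ne'
  rw [m_sub_eq h₁ h₂, gap_eq h₁ h₂ hω, ← mf_mul, ← mf_mul]
  generalize Dn C₁ ω₁ C₂ ω₂ b = D at a5 ⊢
  generalize C₁ - C₂ = Δ at a6 ⊢
  field_simp
  ring

lemma yv_bd (h₁ : Pnt d C₁ ω₁) (h₂ : Pnt d C₂ ω₂) (hb : 0 ≤ b) :
    0 ≤ rf C₁ ω₁ * rf C₂ ω₂ / Dn C₁ ω₁ C₂ ω₂ b ∧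
      rf C₁ ω₁ * rf C₂ ω₂ / Dn C₁ ω₁ C₂ ω₂ b * (1 + b) ≤ 10 := by
  have a1 := (Dn_ge h₁ h₂ hb).1
  have r1 := h₁.r_ge
  have r2 := h₂.r_ge
  have a2 : 0 < Dn C₁ ω₁ C₂ ω₂ b := by linarith
  have a3 : rf C₁ ω₁ * rf C₂ ω₂ ≤ 3 * 3 := mul_le_mul h₁.r_le h₂.r_le (by linarith) (by norm_num)
  refine ⟨by positivity, ?_⟩
  rw [div_mul_eq_mul_div, div_le_iff₀ a2]
  nlinarith [mul_le_mul_of_nonneg_right a3 (show 0 ≤ 1 + b by linarith)]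

lemma m_sub_bd (h₁ : Pnt d C₁ ω₁) (h₂ : Pnt d C₂ ω₂) (hω : ω₂ - ω₁ = b * (C₁ - C₂)) (hb : 0 ≤ b)
    (hC : 0 < C₁ - C₂) :
    0 ≤ mf C₂ ω₂ - mf C₁ ω₁ ∧ mf C₂ ω₂ - mf C₁ ω₁ ≤ 20 * (gf C₂ ω₂ - gf C₁ ω₁) := by
  have g0 : 0 < gf C₂ ω₂ - gf C₁ ω₁ := by
    have := (gap_bd h₁ h₂ hω hb hC).1
    have h3 : 0 < (C₁ - C₂) * (1 + b) := by positivity
    have h4 : 0 < 2 * d ^ 2 := by have := h₁.d3; positivity
    exact (mul_pos_iff_of_pos_left h4).mp (h3.trans_le this)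
  have e := yv_eq h₁ h₂ hω hb hC
  obtain ⟨y1, y2⟩ := yv_bd h₁ h₂ hb
  rw [sub_eq_iff_eq_add, div_eq_iff g0.ne'] at e
  have m1 := h₁.m_pos
  have m2 := h₂.m_pos
  have a3 : mf C₂ ω₂ * mf C₁ ω₁ ≤ 2 * 2 := mul_le_mul h₂.m_le h₁.m_le m1.le (by norm_num)
  rw [e]
  refine ⟨by positivity, ?_⟩
  gcongr
  nlinarith

/-- All ratios `ρ` are close to each other. -/
lemma r_close {C₀ β τ : ℝ} (h₁ : Pnt d C₁ ω₁) (h₂ : Pnt d C₂ ω₂) (c0 : 14142 / 10000 ≤ C₀)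
    (c1 : C₀ ≤ C₁) (c2 : C₂ = C₀ + β) (hβ : 0 ≤ β) (h3 : β * d ≤ τ) (h4 : -ω₂ * d ≤ τ) :
    rf C₁ ω₁ ≤ rf C₂ ω₂ * (1 + 5 * τ) := by
  have q0 : 999 / 1000 ≤ C₀ ^ 2 - 1 := by nlinarith
  have q1 := h₁.q1
  have q2 := h₂.q1
  have hτ : 0 ≤ τ := le_trans (by have := h₁.d3; positivity) h3
  have a1 : rf C₁ ω₁ ≤ 1 + 1 / (C₀ ^ 2 - 1) := by
    have b1 : (C₁ + ω₁) ^ 2 ≤ C₁ ^ 2 := by
      have := h₁.u1
      gcongr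
      linarith [h₁.o1]
    have b2 : rf C₁ ω₁ ≤ C₁ ^ 2 / (C₁ ^ 2 - 1) := by unfold rf; gcongr
    have b3 : C₁ ^ 2 / (C₁ ^ 2 - 1) = 1 + 1 / (C₁ ^ 2 - 1) := by field_simp; ring
    have b4 : 1 / (C₁ ^ 2 - 1) ≤ 1 / (C₀ ^ 2 - 1) := by gcongr
    linarith
  have a2 : 1 + 1 / (C₂ ^ 2 - 1) - 5 / 2 * τ ≤ rf C₂ ω₂ := by
    have b1 : rf C₂ ω₂ = 1 + 1 / (C₂ ^ 2 - 1) + (2 * C₂ * ω₂ + ω₂ ^ 2) / (C₂ ^ 2 - 1) := by
      unfold rf; field_simp; ring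
    have b2 : -(5 / 2 * τ) ≤ (2 * C₂ * ω₂ + ω₂ ^ 2) / (C₂ ^ 2 - 1) := by
      rw [le_div_iff₀ (by linarith)]
      nlinarith [h₂.c2, h₂.o1, sq_nonneg ω₂, mul_le_mul_of_nonneg_left q2 hτ]
    linarith
  have a3 : 1 / (C₀ ^ 2 - 1) - 1 / (C₂ ^ 2 - 1) ≤ 5 / 2 * τ := by
    rw [div_sub_div _ _ (by linarith) (by linarith), div_le_iff₀ (by positivity)]
    have b1 : 99 / 100 ≤ (C₀ ^ 2 - 1) * (C₂ ^ 2 - 1) := by nlinarith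
    have b2 : β * (C₀ + C₂) ≤ 2 * τ := by nlinarith [h₂.c2]
    have b3 : 1 * (C₂ ^ 2 - 1) - (C₀ ^ 2 - 1) * 1 = β * (C₀ + C₂) := by rw [c2]; ring
    rw [b3]
    nlinarith [mul_le_mul_of_nonneg_left b1 hτ]
  nlinarith [mul_le_mul_of_nonneg_right h₂.r_ge hτ]

lemma inv_r_sub {e : ℝ} (h₁ : Pnt d C₁ ω₁) (h₂ : Pnt d C₂ ω₂) (hC : |C₁ - C₂| ≤ 2 * e)
    (hω : |ω₁ - ω₂| ≤ e) : |1 / rf C₁ ω₁ - 1 / rf C₂ ω₂| ≤ 10 * d * e := by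
  have u1 := h₁.u1
  have u2 := h₂.u1
  have q1 := h₁.q1
  have q2 := h₂.q1
  have r1 := h₁.r_ge
  have he : 0 ≤ e := (abs_nonneg _).trans hω
  have hd := h₁.d3
  have e1 : 1 / rf C₁ ω₁ - 1 / rf C₂ ω₂ =
      (1 / rf C₁ ω₁ * (((C₂ - C₁) + (ω₂ - ω₁)) * ((C₂ + ω₂) + (C₁ + ω₁))) +
        (C₁ - C₂) * (C₁ + C₂)) / (C₂ + ω₂) ^ 2 := by
    unfold rf; field_simp; ring
  have e2 : |1 / rf C₁ ω₁ * (((C₂ - C₁) + (ω₂ - ω₁)) * ((C₂ + ω₂) + (C₁ + ω₁)))| ≤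
      1 * ((2 * e + e) * (d + d)) := by
    rw [abs_mul, abs_mul, abs_of_pos (show 0 < 1 / rf C₁ ω₁ by positivity),
      abs_of_pos (show 0 < (C₂ + ω₂) + (C₁ + ω₁) by positivity)]
    gcongr
    · exact div_le_self zero_le_one r1
    · exact (abs_add_le _ _).trans (add_le_add (by rwa [abs_sub_comm]) (by rwa [abs_sub_comm]))
    · exact h₂.u2
    · exact h₁.u2
  have e3 : |(C₁ - C₂) * (C₁ + C₂)| ≤ 2 * e * (d + d) := by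
    rw [abs_mul, abs_of_pos (show 0 < C₁ + C₂ by linarith [h₁.c1, h₂.c1])]
    gcongr
    · linarith [h₁.c1, h₂.c1]
    · exact h₁.c2
    · exact h₂.c2
  rw [e1, abs_div, abs_of_pos (show 0 < (C₂ + ω₂) ^ 2 by positivity)]
  refine (div_le_self (abs_nonneg _) (by nlinarith)).trans ((abs_add_le _ _).trans ?_)
  linarith

lemma A0_sub {e s S : ℝ} (h₁ : Pnt d C₁ ω₁) (h₂ : Pnt d C₂ ω₂) (hC : |C₁ - C₂| ≤ 2 * e)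
    (hω : |ω₁ - ω₂| ≤ e) (hs : s = 1 ∨ s = -1) (hS : 100 ≤ S) :
    |(-s / rf C₁ ω₁ + (ω₁ - s) / (rf C₁ ω₁ * (S - 2))) -
      (-s / rf C₂ ω₂ + (ω₂ - s) / (rf C₂ ω₂ * (S - 2)))| ≤ 31 * d * e := by
  have a1 := inv_r_sub h₁ h₂ hC hω
  have r1 := h₁.r_ge
  have r2 := h₂.r_ge
  have he : 0 ≤ e := (abs_nonneg _).trans hω
  have hd := h₁.d3
  have hS2 : 0 < S - 2 := by linarith
  have e1 : (-s / rf C₁ ω₁ + (ω₁ - s) / (rf C₁ ω₁ * (S - 2))) -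
      (-s / rf C₂ ω₂ + (ω₂ - s) / (rf C₂ ω₂ * (S - 2))) =
      (-s + (ω₂ - s) / (S - 2)) * (1 / rf C₁ ω₁ - 1 / rf C₂ ω₂) +
        (ω₁ - ω₂) / (rf C₁ ω₁ * (S - 2)) := by
    field_simp; ring
  have e2 : |-s + (ω₂ - s) / (S - 2)| ≤ 3 := by
    have b1 : |ω₂ - s| ≤ 2 := by
      rcases hs with rfl | rfl <;> rw [abs_le] <;> constructor <;> linarith [h₂.o1, h₂.o3]
    have b2 : |-s| = 1 := by rcases hs with rfl | rfl <;> simp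
    have b3 : |(ω₂ - s) / (S - 2)| ≤ 2 := by
      rw [abs_div, abs_of_pos hS2]
      exact (div_le_self (abs_nonneg _) (by linarith)).trans b1
    linarith [abs_add_le (-s) ((ω₂ - s) / (S - 2))]
  have e3 : |(ω₁ - ω₂) / (rf C₁ ω₁ * (S - 2))| ≤ e := by
    rw [abs_div, abs_of_pos (show 0 < rf C₁ ω₁ * (S - 2) by positivity)]
    exact (div_le_self (abs_nonneg _) (by nlinarith)).trans hω
  rw [e1]
  refine (abs_add_le _ _).trans ?_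
  rw [abs_mul]
  have e4 := mul_le_mul e2 a1 (abs_nonneg _) (by norm_num)
  nlinarith

section Second

variable {C₃ ω₃ b12 b23 b13 q : ℝ} (h₁ : Pnt d C₁ ω₁) (h₂ : Pnt d C₂ ω₂) (h₃ : Pnt d C₃ ω₃)
  (p12 : 0 ≤ b12) (p23 : 0 ≤ b23) (p13 : 0 ≤ b13) (hq : 0 ≤ q) (hΔ : 0 < C₁ - C₃)
  (e13 : ω₃ - ω₁ = b13 * (C₁ - C₃)) (eq : b12 - b23 = q * (C₁ - C₃))
include h₁ h₂ h₃ p12 p23 p13 hq hΔ e13 eq

lemma second_up : mf C₂ ω₂ * (mf C₃ ω₃ - mf C₁ ω₁) + rf C₂ ω₂ *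
    (rf C₃ ω₃ / Dn C₂ ω₂ C₃ ω₃ b23 - rf C₁ ω₁ / Dn C₁ ω₁ C₂ ω₂ b12) ≤
      (220 + 36 * q) * d ^ 4 * (gf C₃ ω₃ - gf C₁ ω₁) := by
  obtain ⟨g1, -⟩ := gap_bd h₁ h₃ e13 p13 hΔ
  obtain ⟨m1, m2⟩ := m_sub_bd h₁ h₃ e13 p13 hΔ
  have D1 := (Dn_ge h₁ h₂ p12).1
  have D2 := (Dn_ge h₂ h₃ p23).1
  have hd := h₁.d3
  have eD : Dn C₁ ω₁ C₂ ω₂ b12 - Dn C₂ ω₂ C₃ ω₃ b23 = ω₂ * (b13 * (C₁ - C₃)) +
      q * (C₁ - C₃) * (C₁ * C₂ - 1) + b23 * C₂ * (C₁ - C₃) := by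
    rw [← e13, ← eq]; unfold Dn; ring
  have er : rf C₃ ω₃ - rf C₁ ω₁ = (mf C₃ ω₃ - mf C₁ ω₁) * (C₃ + ω₃) +
      mf C₁ ω₁ * (b13 * (C₁ - C₃) - (C₁ - C₃)) := by
    rw [← e13, ← mf_mul, ← mf_mul]; ring
  have cc : C₁ * C₂ - 1 ≤ d ^ 2 := by nlinarith [h₁.c1, h₁.c2, h₂.c1, h₂.c2]
  generalize gf C₃ ω₃ - gf C₁ ω₁ = G at g1 m2 ⊢
  generalize C₁ - C₃ = Δ at hΔ g1 eD er
  generalize Dn C₁ ω₁ C₂ ω₂ b12 = D12 at D1 eD ⊢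
  generalize Dn C₂ ω₂ C₃ ω₃ b23 = D23 at D2 eD ⊢
  have G0 : 0 ≤ G := by linarith
  have pD1 : 0 < D12 := by linarith
  have pD2 : 0 < D23 := by linarith
  have a0 : 0 ≤ b13 * Δ := by positivity
  have a1 : Δ ≤ 2 * d ^ 2 * G := by linarith
  have a2 : rf C₃ ω₃ - rf C₁ ω₁ ≤ (20 * d + 4 * d ^ 2) * G := by
    have b1 : (mf C₃ ω₃ - mf C₁ ω₁) * (C₃ + ω₃) ≤ 20 * G * d :=
      mul_le_mul m2 h₃.u2 (by linarith [h₃.u1]) (by positivity)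
    have b2 : mf C₁ ω₁ * (b13 * Δ - Δ) ≤ mf C₁ ω₁ * (2 * d ^ 2 * G) :=
      mul_le_mul_of_nonneg_left (by linarith) h₁.m_pos.le
    have b3 : mf C₁ ω₁ * (2 * d ^ 2 * G) ≤ 2 * (2 * d ^ 2 * G) :=
      mul_le_mul_of_nonneg_right h₁.m_le (by positivity)
    linarith
  have a3 : (rf C₃ ω₃ - rf C₁ ω₁) / D23 ≤ 2 * ((20 * d + 4 * d ^ 2) * G) := by
    rw [div_le_iff₀ pD2]
    have : 0 ≤ (20 * d + 4 * d ^ 2) * G := by positivity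
    nlinarith
  have a4 : (D12 - D23) / (D12 * D23) ≤ (4 * q * d ^ 4 + 4 * d ^ 3) * G := by
    have b1 : 99 / 100 * (1 + b23) ≤ D12 * D23 := by nlinarith
    have b2 : ω₂ * (b13 * Δ) ≤ 0 := mul_nonpos_of_nonpos_of_nonneg h₂.o1 a0
    have b3 : q * Δ * (C₁ * C₂ - 1) ≤ q * Δ * d ^ 2 := by gcongr
    have b4 : b23 * C₂ * Δ ≤ b23 * d * Δ := by gcongr; exact h₂.c2
    have b5 : q * Δ * d ^ 2 ≤ q * Δ * d ^ 2 * (2 * (D12 * D23)) :=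
      le_mul_of_one_le_right (by positivity) (by linarith)
    have b6 : b23 * (d * Δ) ≤ 2 * (D12 * D23) * (d * Δ) := by gcongr; linarith
    have b7 : (2 * q * d ^ 2 + 2 * d) * Δ ≤ (2 * q * d ^ 2 + 2 * d) * (2 * d ^ 2 * G) := by gcongr
    rw [div_le_iff₀ (by positivity)]
    calc D12 - D23 ≤ (2 * q * d ^ 2 + 2 * d) * Δ * (D12 * D23) := by linarith
      _ ≤ (2 * q * d ^ 2 + 2 * d) * (2 * d ^ 2 * G) * (D12 * D23) := by gcongr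
      _ = _ := by ring
  have a5 : rf C₃ ω₃ / D23 - rf C₁ ω₁ / D12 =
      (rf C₃ ω₃ - rf C₁ ω₁) / D23 + rf C₁ ω₁ * ((D12 - D23) / (D12 * D23)) := by
    field_simp; ring
  have a6 : rf C₁ ω₁ * ((D12 - D23) / (D12 * D23)) ≤ 3 * ((4 * q * d ^ 4 + 4 * d ^ 3) * G) :=
    (mul_le_mul_of_nonneg_left a4 (by linarith [h₁.r_ge])).trans
      (mul_le_mul_of_nonneg_right h₁.r_le (by positivity))
  have a7 : rf C₂ ω₂ * (rf C₃ ω₃ / D23 - rf C₁ ω₁ / D12) ≤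
      3 * (2 * ((20 * d + 4 * d ^ 2) * G) + 3 * ((4 * q * d ^ 4 + 4 * d ^ 3) * G)) :=
    (mul_le_mul_of_nonneg_left (by rw [a5]; linarith) (by linarith [h₂.r_ge])).trans
      (mul_le_mul_of_nonneg_right h₂.r_le (by positivity))
  have a8 : mf C₂ ω₂ * (mf C₃ ω₃ - mf C₁ ω₁) ≤ 2 * (20 * G) :=
    mul_le_mul h₂.m_le m2 m1 (by norm_num)
  have d1 : (1 : ℝ) ≤ d := by linarith
  have c0 : 1 * G ≤ d ^ 4 * G := by gcongr; exact one_le_pow₀ d1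
  have c1 : d * G ≤ d ^ 4 * G := by gcongr; exact le_self_pow₀ d1 (by norm_num)
  have c2 : d ^ 2 * G ≤ d ^ 4 * G := by gcongr; norm_num
  have c3 : d ^ 3 * G ≤ d ^ 4 * G := by gcongr; norm_num
  linarith

omit hq in
lemma second_down (k12 : b12 * d ^ 2 ≤ 1) (k23 : b23 * d ^ 2 ≤ 1) (k13 : b13 ≤ q) (q30 : 30 ≤ q) :
    q * (C₁ - C₃) / 10 ≤ mf C₂ ω₂ * (mf C₃ ω₃ - mf C₁ ω₁) + rf C₂ ω₂ *
      (rf C₃ ω₃ / Dn C₂ ω₂ C₃ ω₃ b23 - rf C₁ ω₁ / Dn C₁ ω₁ C₂ ω₂ b12) := by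
  obtain ⟨m1, -⟩ := m_sub_bd h₁ h₃ e13 p13 hΔ
  have D1 := (Dn_ge h₁ h₂ p12).1
  have D2 := (Dn_ge h₂ h₃ p23).1
  have D3 := (Dn_le h₁ h₂ p12).2
  have D4 := (Dn_le h₂ h₃ p23).2
  have eD : Dn C₁ ω₁ C₂ ω₂ b12 - Dn C₂ ω₂ C₃ ω₃ b23 = ω₂ * (b13 * (C₁ - C₃)) +
      q * (C₁ - C₃) * (C₁ * C₂ - 1) + b23 * C₂ * (C₁ - C₃) := by
    rw [← e13, ← eq]; unfold Dn; ring
  have er : rf C₃ ω₃ - rf C₁ ω₁ = (mf C₃ ω₃ - mf C₁ ω₁) * (C₃ + ω₃) +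
      mf C₁ ω₁ * (b13 * (C₁ - C₃) - (C₁ - C₃)) := by
    rw [← e13, ← mf_mul, ← mf_mul]; ring
  have cc : 999 / 1000 ≤ C₁ * C₂ - 1 := by nlinarith [h₁.c1, h₂.c1]
  generalize C₁ - C₃ = Δ at hΔ eD er ⊢
  generalize Dn C₁ ω₁ C₂ ω₂ b12 = D12 at D1 D3 eD ⊢
  generalize Dn C₂ ω₂ C₃ ω₃ b23 = D23 at D2 D4 eD ⊢
  have pD1 : 0 < D12 := by linarith
  have pD2 : 0 < D23 := by linarith
  have a0 : 0 ≤ b13 * Δ := by positivity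
  have a2 : -(2 * Δ) ≤ rf C₃ ω₃ - rf C₁ ω₁ := by
    have b1 : 0 ≤ (mf C₃ ω₃ - mf C₁ ω₁) * (C₃ + ω₃) := mul_nonneg m1 (by linarith [h₃.u1])
    have b2 := mul_nonneg h₁.m_pos.le a0
    have b3 := mul_le_mul_of_nonneg_right h₁.m_le hΔ.le
    linarith
  have a3 : -(3 * Δ) ≤ (rf C₃ ω₃ - rf C₁ ω₁) / D23 := by
    rw [le_div_iff₀ pD2]
    nlinarith
  have a4 : q * Δ / 5 ≤ (D12 - D23) / (D12 * D23) := by
    have b0 : 0 ≤ q * Δ := by positivity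
    have b1 : D12 * D23 ≤ 2 * 2 := by gcongr <;> linarith
    have b2 : -ω₂ * (b13 * Δ) ≤ 1 / 10 ^ 9 * (q * Δ) := by
      have := h₂.o3
      gcongr
    have b3 : q * Δ * (999 / 1000) ≤ q * Δ * (C₁ * C₂ - 1) := by gcongr
    have b4 : 0 ≤ b23 * C₂ * Δ := by have := h₂.c1; positivity
    rw [le_div_iff₀ (by positivity)]
    calc q * Δ / 5 * (D12 * D23) ≤ q * Δ / 5 * (2 * 2) := by gcongr
      _ ≤ _ := by linarith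
  have a5 : rf C₃ ω₃ / D23 - rf C₁ ω₁ / D12 =
      (rf C₃ ω₃ - rf C₁ ω₁) / D23 + rf C₁ ω₁ * ((D12 - D23) / (D12 * D23)) := by
    field_simp; ring
  have a6 : (D12 - D23) / (D12 * D23) ≤ rf C₁ ω₁ * ((D12 - D23) / (D12 * D23)) :=
    le_mul_of_one_le_left (le_trans (by positivity) a4) h₁.r_ge
  have a7 : 30 * Δ ≤ q * Δ := by gcongr
  have a8 : q * Δ / 10 ≤ rf C₃ ω₃ / D23 - rf C₁ ω₁ / D12 := by rw [a5]; linarith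
  have a9 := le_mul_of_one_le_left (le_trans (by positivity) a8) h₂.r_ge
  linarith [mul_nonneg h₂.m_pos.le m1]

end Second

/-- The initial defect. -/
lemma init_eq {C₀ β D₀ : ℝ} (h : Pnt d (C₀ + β) (-(β ^ 2 / D₀))) (hD : D₀ = (d - 2) * C₀)
    (hD0 : D₀ ≠ 0) : 2 * C₀ - gf (C₀ + β) (-(β ^ 2 / D₀)) * d =
      1 / mf (C₀ + β) (-(β ^ 2 / D₀)) +
        (d * β ^ 3 / D₀ - (d - 1 - C₀ ^ 2)) / (C₀ + β + -(β ^ 2 / D₀)) := by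
  have a1 : C₀ + β + -(β ^ 2 / D₀) ≠ 0 := by linarith [h.u1]
  rw [h.m_eq, one_div_one_div, gf]
  have e : β ^ 2 / D₀ * D₀ = β ^ 2 := by field_simp
  have e' : d * β ^ 3 / D₀ = d * β * (β ^ 2 / D₀) := by ring
  rw [e']
  generalize β ^ 2 / D₀ = w at a1 e ⊢
  subst hD
  field_simp
  linear_combination e

lemma init_bd {m η n d : ℝ} (m0 : 0 < m) (m2 : m ≤ 2) (h1 : 2 / 5 ≤ 1 / m + η) (hn : 1 ≤ n)
    (hd : 1 ≤ d) : |(n - 1) * d / (1 / m + η) - (n * d - 1) * m| ≤ 5 * (n * d * |η|) + 2 * d := by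
  have p : 0 < 1 / m + η := by linarith
  have e : (n - 1) * d / (1 / m + η) - (n * d - 1) * m =
      -((n - 1) * d * (η * m / (1 / m + η))) - (d - 1) * m := by
    have : 1 + m * η ≠ 0 := by
      have := mul_pos m0 p
      rw [mul_add, mul_one_div_cancel m0.ne'] at this
      exact this.ne'
    field_simp; ring
  have a1 : |η * m / (1 / m + η)| ≤ 5 * |η| := by
    rw [abs_div, abs_mul, abs_of_pos m0, abs_of_pos p, div_le_iff₀ p]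
    nlinarith [abs_nonneg η, mul_le_mul_of_nonneg_left m2 (abs_nonneg η),
      mul_le_mul_of_nonneg_left h1 (abs_nonneg η)]
  rw [e]
  refine (abs_sub _ _).trans (add_le_add ?_ ?_)
  · have : 0 ≤ n - 1 := by linarith
    rw [abs_neg, abs_mul, abs_of_nonneg (show 0 ≤ (n - 1) * d by positivity)]
    calc (n - 1) * d * |η * m / (1 / m + η)| ≤ n * d * (5 * |η|) := by gcongr; linarith
      _ = _ := by ring
  · rw [abs_of_nonneg (mul_nonneg (by linarith) m0.le)]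
    nlinarith

end Vale.Agent.P049
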