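import Vale.Agent.P049.PlanA
import Vale.Agent.P049.PlanB

/-!
Properties of the schedule. Useful exact identities, with `C = C j`, `ω = ω j S`:
`g = C - (C ^ 2 - 1) / (C + ω)`, `1 / m = C - g`, `m (C + ω) = ρ`, `m / ρ = 1 / (C + ω)`,
`gap i j = (β i - β j) * Dn / ((C i + ω i) (C j + ω j))` with
`Dn = 1 - ω i ω j + b (C i C j - 1)`, `b = (S0 / S) (β i + β j) / D0`, `ω j - ω i = b (β i - β j)`,
`yv i j = ρ i ρ j / Dn`, and
`Tb j i - Tb k j = (S - 1) (m j (m i - m k) + ρ j (ρ i / Dn j i - ρ k / Dn k j))` for `k < j < i`.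
Also `√(d - 1) - 1 / n < C0 ≤ √(d - 1)`.
-/

namespace Vale.Agent.P049.Prm

lemma g_eq (P : Prm) (j : Fin 4) (S : ℕ) : (P.g j S : ℝ) = gf (P.C j) (P.ω j S) := rfl
lemma m_eq (P : Prm) (j : Fin 4) (S : ℕ) : (P.m j S : ℝ) = mf (P.C j) (P.ω j S) := rfl
lemma ρ_eq (P : Prm) (j : Fin 4) (S : ℕ) : (P.ρ j S : ℝ) = rf (P.C j) (P.ω j S) := rfl

lemma sg_cases (s : Bool) : sg s = 1 ∨ sg s = -1 := by cases s <;> simp [sg]

/-- The common factor of the slopes. -/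
noncomputable def qq (P : Prm) (S : ℕ) : ℝ := P.S0 / S / P.D0

/-- The slope of `ω` between two points. -/
noncomputable def bb (P : Prm) (i j : Fin 4) (S : ℕ) : ℝ := P.qq S * (P.β i + P.β j)

lemma C_sub (P : Prm) (i j : Fin 4) : (P.C i : ℝ) - P.C j = P.β i - P.β j := by
  unfold C; ring

lemma ω_sub (P : Prm) (i j : Fin 4) (S : ℕ) :
    (P.ω j S : ℝ) - P.ω i S = P.bb i j S * (P.C i - P.C j) := by
  rw [C_sub]; unfold ω x bb qq; ring

variable {P : Prm} (hG : P.Good) {i j k : Fin 4} {S : ℕ}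
include hG

lemma Good.small {a : ℝ} (h : a ≤ -1) : Ex P.r a * (P.d : ℝ) ≤ 1 / 10 ^ 9 := by
  obtain ⟨a1, a2, a3⟩ := hG.d_pow
  refine le_trans ?_ (hG.tiny h)
  exact mul_le_mul_of_nonneg_left (by linarith) (Ex_pos hG.one_lt_A _).le

lemma Good.pnt (h : P.Act j S) : Pnt P.d (P.C j) (P.ω j S) := by
  refine ⟨hG.d3, (hG.C_bd j).1, (hG.C_bd j).2, hG.ω_nonpos j S, ?_⟩
  refine le_trans ?_ (hG.small (a := -50000) (by norm_num))
  exact mul_le_mul_of_nonneg_right ((neg_le_abs _).trans (hG.ω_le_A h)) (Nat.cast_nonneg _)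

lemma Good.qq_nonneg (S : ℕ) : 0 ≤ P.qq S := by
  have := hG.D0_bd.1
  unfold qq; positivity

lemma Good.bb_nonneg (i j : Fin 4) (S : ℕ) : 0 ≤ P.bb i j S := by
  have := Ex_pos hG.one_lt_A (-56200)
  exact mul_nonneg (hG.qq_nonneg S) (by linarith [(hG.β_bd i).1, (hG.β_bd j).1])

lemma Good.C_lt (hij : i < j) : (0 : ℝ) < P.C i - P.C j := by rw [C_sub]; exact hG.β_lt hij

lemma Good.bb_le {a c : ℝ} (hS : Ex P.r a ≤ 2 * (S : ℝ)) (hβ : (P.β i : ℝ) + P.β j ≤ 4 * Ex P.r c) :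
    P.bb i j S ≤ Ex P.r (180003 - a + c) := by
  have h1 : P.qq S ≤ 2 * Ex P.r (180002 - a) :=
    (div_le_self (by positivity) hG.D0_bd.1).trans (hG.div_S hG.S0_le_A hS)
  have h2 := Ex_pos hG.one_lt_A (-56200)
  have h3 := Ex_pos hG.one_lt_A (180002 - a)
  calc P.bb i j S ≤ 2 * Ex P.r (180002 - a) * (4 * Ex P.r c) :=
        mul_le_mul h1 hβ (by linarith [(hG.β_bd i).1, (hG.β_bd j).1]) (by linarith)
    _ = 8 * Ex P.r (180002 - a + c) := by rw [← Ex_mul hG.one_lt_A]; ring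
    _ ≤ _ := mul_Ex_le hG.one_lt_A (by linarith [hG.R_ge_A]) (by linarith)

lemma Good.β_near_add (hi : i ≠ 0) (hj : j ≠ 0) :
    (P.β i : ℝ) + P.β j ≤ 4 * Ex P.r (-56200) := by
  obtain ⟨s1, s2, -⟩ := hG.scales
  linarith [(hG.β_near hi).2, (hG.β_near hj).2]

lemma Good.bb_early (hS : P.S1 ≤ 2 * S) (i j : Fin 4) : P.bb i j S ≤ Ex P.r (-77) := by
  refine (hG.bb_le (a := 128800) (c := -51280) ?_ ?_).trans (Ex_le hG.one_lt_A (by norm_num))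
  · rw [← S1_eq]; exact_mod_cast hS
  · linarith [(hG.β_bd i).2, (hG.β_bd j).2]

lemma Good.ratio_le (h : P.Act j S) : (S : ℝ) / (S - 2) ≤ 1 + Ex P.r (-49990) ∧
    ((S : ℝ) - 1) / (S - 2) ≤ 1 + Ex P.r (-49990) := by
  have h1 := hG.S_big h
  have h2 := hG.div_S (a := 0) (X := 1) (Ex_zero _).ge (hG.act_S' h)
  have h3 := mul_Ex_le (k := 8) (a := 0 - 61740) (b := -49990) hG.one_lt_A
    (by linarith [hG.R_ge_A]) (by norm_num)
  have h4 : (S : ℝ) / (S - 2) ≤ 1 + 4 * (1 / S) := by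
    rw [div_le_iff₀ (by linarith)]
    have : (1 + 4 * (1 / (S : ℝ))) * (S - 2) = S + 2 - 8 / S := by field_simp; ring
    have h5 : 8 / (S : ℝ) ≤ 2 := by rw [div_le_iff₀ (by linarith)]; linarith
    linarith
  have h5 : ((S : ℝ) - 1) / (S - 2) ≤ S / (S - 2) :=
    div_le_div_of_nonneg_right (by linarith) (by linarith)
  have h6 : 4 * (1 / (S : ℝ)) ≤ Ex P.r (-49990) :=
    ((mul_le_mul_of_nonneg_left h2 (by norm_num)).trans_eq (by ring)).trans h3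
  have h7 := h4.trans (add_le_add_right h6 1)
  exact ⟨h7, h5.trans h7⟩

lemma Good.pow_le {t : ℝ} (h0 : 0 ≤ t) (h : t ≤ 5 * Ex P.r (-49990)) :
    (1 + t) ^ 4 ≤ 1 + Ex P.r (-1000) := by
  have h1 := hG.tiny' (a := -49990) (by norm_num)
  have h2 := mul_Ex_le (k := 75) (a := -49990) (b := -1000) hG.one_lt_A
    (by linarith [hG.R_ge_A]) (by norm_num)
  have t1 : t ≤ 1 := by linarith
  calc (1 + t) ^ 4 = 1 + t * (4 + t * (6 + t * (4 + t))) := by ring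
    _ ≤ 1 + t * (4 + 1 * (6 + 1 * (4 + 1))) := by gcongr
    _ ≤ _ := by linarith

lemma Good.yv_eq (hi : P.Act i S) (hj : P.Act j S) (hij : i < j) : P.yv i j S =
    P.ρ i S * P.ρ j S / Dn (P.C i) (P.ω i S) (P.C j) (P.ω j S) (P.bb i j S) :=
  P049.yv_eq (hG.pnt hi) (hG.pnt hj) (P.ω_sub i j S) (hG.bb_nonneg i j S) (hG.C_lt hij)

lemma Good.Tb_sub (hi : P.Act i S) (hj : P.Act j S) (hk : P.Act k S) (hij : i < j) (hjk : j < k) :
    P.Tb j k S - P.Tb i j S = ((S : ℝ) - 1) * (P.m j S * (P.m k S - P.m i S) + P.ρ j S *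
      (P.ρ k S / Dn (P.C j) (P.ω j S) (P.C k) (P.ω k S) (P.bb j k S) -
        P.ρ i S / Dn (P.C i) (P.ω i S) (P.C j) (P.ω j S) (P.bb i j S))) := by
  have h1 := hG.yv_eq hi hj hij
  have h2 := hG.yv_eq hj hk hjk
  unfold yv at h1 h2
  unfold Tb
  linear_combination ((S : ℝ) - 1) * (h2 - h1)

lemma Good.gap_bd (hi : P.Act i S) (hj : P.Act j S) (hij : i < j) :
    (P.β i : ℝ) - P.β j ≤ P.r * P.gap i j S ∧
      P.gap i j S ≤ (P.β i - P.β j) * (1 + P.bb i j S) := by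
  obtain ⟨g1, g2⟩ := P049.gap_bd (hG.pnt hi) (hG.pnt hj) (P.ω_sub i j S) (hG.bb_nonneg i j S)
    (hG.C_lt hij)
  rw [C_sub] at g1 g2
  refine ⟨?_, g2⟩
  have a1 := mul_nonneg (hG.β_lt hij).le (hG.bb_nonneg i j S)
  have a2 := hG.β_lt hij
  obtain ⟨d1, d2, d3⟩ := hG.d_pow
  have d4 := hG.d4
  have d5 := hG.d3
  change _ ≤ 2 * (P.d : ℝ) ^ 2 * P.gap i j S at g1
  have a3 : 0 < P.gap i j S :=
    (mul_pos_iff_of_pos_left (by positivity : 0 < 2 * (P.d : ℝ) ^ 2)).mp (by linarith)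
  have a4 : 2 * (P.d : ℝ) ^ 2 * P.gap i j S ≤ P.r * P.gap i j S := by gcongr; linarith
  linarith

lemma Good.le_of_mul {a y : ℝ} (h : Ex P.r a ≤ P.r * y) : Ex P.r (a - 1) ≤ y := by
  rw [← Ex_div hG.one_lt_A, Ex_one, div_le_iff₀ (by linarith [hG.one_lt_A]), mul_comm]
  exact h

lemma Good.R_ge : (10 : ℝ) ^ 9 ≤ P.r := by
  exact hG.R_ge_A

lemma Good.one_lt : (1 : ℝ) < P.r := by
  exact hG.one_lt_A

lemma Good.sizes : 10 * P.d ^ 2 + 1000 ≤ P.S4 ∧ 2 * P.S4 + 4 ≤ P.S2 ∧ 2 * P.S2 + 4 ≤ P.S1 ∧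
    2 * P.S1 + 2 ≤ P.S0 ∧ P.d ≤ P.n ∧ P.d ^ 2 + P.d ≤ P.r := by
  exact hG.sizes_A

lemma Good.S0_le : (P.S0 : ℝ) ≤ Ex P.r 180002 := by
  exact hG.S0_le_A

lemma Good.S0_ge : Ex P.r 180000 ≤ (P.S0 : ℝ) := by
  exact hG.S0_ge_A

lemma Good.E_pos : (0 : ℝ) < P.E := by
  exact hG.E_pos_A

lemma Good.E_le : (P.E : ℝ) ≤ 2 * √((P.d : ℝ) - 1) := by
  exact hG.E_le_A

lemma Good.x_le (hj : j ≠ 0) (S : ℕ) : |(P.x j S : ℝ)| ≤ Ex P.r 67603 := by
  exact hG.x_le_A hj S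

lemma Good.x_far (S : ℕ) : |(P.x 0 S : ℝ)| ≤ Ex P.r 77443 := by
  exact hG.x_far_A S

lemma Good.x_late (hj : j ≠ 0) (hS : S ≤ P.S1) : |(P.x j S : ℝ)| ≤ Ex P.r 63083 := by
  exact hG.x_late_A hj hS

lemma Good.x_zero (hS : S ≤ P.S1) : (P.x 3 S : ℝ) = 0 := by
  exact hG.x_zero_A hS

lemma Good.dx_nonneg (S : ℕ) : 0 ≤ P.dx S := by
  exact hG.dx_nonneg_A S

lemma Good.dx_le (S : ℕ) : P.dx S * S ≤ Ex P.r 67603 := by
  exact hG.dx_le_A S

lemma Good.dx_zero (hS : S ≤ P.S1 ∨ 2 * P.S1 + 2 ≤ S) : P.dx S = 0 := by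
  exact hG.dx_zero_A hS

lemma Good.ω_le (h : P.Act j S) : |(P.ω j S : ℝ)| ≤ Ex P.r (-50000) := by
  exact hG.ω_le_A h

lemma Good.basic (h : P.Act j S) : (0 : ℝ) < P.m j S ∧ (P.m j S : ℝ) ≤ 2 ∧ (1 : ℝ) ≤ P.ρ j S ∧
    (P.ρ j S : ℝ) ≤ 3 ∧ (0 : ℝ) < P.g j S ∧ (P.g j S : ℝ) < 1 ∧
    (P.ω j S : ℝ) = P.g j S - (1 - P.g j S ^ 2) * P.m j S ∧
    (P.ρ j S : ℝ) = 1 + P.g j S * P.m j S + P.m j S * P.ω j S := by
  have p := hG.pnt h
  exact ⟨p.m_pos, p.m_le, p.r_ge, p.r_le, p.g_pos, p.g_lt, p.ω_eq, p.r_eq⟩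

lemma Good.pr_le (h : P.Act j S) (s : Bool) {X : ℝ} (hX : |(P.x j S : ℝ)| ≤ X) :
    |(P.pr s j S).A1| ≤ (X + 3) / S ∧ |(P.pr s j S).A0| ≤ 2 ∧ |(P.pr s j S).vp| ≤ 2 ∧
      (P.pr s j S).vp ≤ 0 := by
  have p := hG.pnt h
  have hS := hG.S_big h
  have h1 : -(P.ω j S : ℝ) ≤ X / S := by
    rw [ω, ← neg_div]
    exact div_le_div_of_nonneg_right ((neg_le_abs _).trans hX) (by linarith)
  obtain ⟨a1, a2, a3, a4⟩ := p.par_le (sg_cases s) (S := S) (by linarith) h1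
  have e : (P.pr s j S).vp = -((S : ℝ) / (S - 2) * (1 - P.ω j S ^ 2) /
      rf (P.C j) (P.ω j S) ^ 2) := by
    simp only [pr, par, ρ_eq]; ring
  refine ⟨a1, a2, ?_, by rw [e]; linarith⟩
  rw [e, abs_neg, abs_of_nonneg a3]
  have a5 : (S : ℝ) / (S - 2) ≤ 2 := by rw [div_le_iff₀ (by linarith)]; linarith
  have a6 : 0 ≤ (S : ℝ) / (S - 2) := div_nonneg (by linarith) (by linarith)
  exact a4.trans ((div_le_self a6 (one_le_pow₀ p.r_ge)).trans a5)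

/-- One step of the schedule: `dg * uu = (ω' - ω) / ρ = (2 ω + dx) / (ρ (S - 2))`. -/
lemma Good.step (h : P.Act j S) (h' : P.Act j (S - 2)) {X : ℝ} (hX : |(P.x j S : ℝ)| ≤ X)
    (hX' : P.dx S * S ≤ X) :
    P.uu j S * (1 - P.dg j S * P.m j S) = 1 ∧ (P.m j (S - 2) : ℝ) = P.m j S * P.uu j S ∧
      P.uu j S ≠ 0 ∧ |P.dg j S * P.uu j S| ≤ 5 * X / S ^ 2 ∧ |P.dg j S| ≤ 5 * X / S ^ 2 ∧
      P.uu j S ^ 4 ≤ 1 + 100 * X / S ^ 2 := by
  have p := hG.pnt h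
  have p' := hG.pnt h'
  have hS := hG.S_big h
  have hS2 : 2 ≤ S := by exact_mod_cast (show (2 : ℝ) ≤ S by linarith)
  have hX0 : 0 ≤ X := (abs_nonneg _).trans hX
  have e : (P.ω j (S - 2) : ℝ) - P.ω j S = (2 * P.x j S + P.dx S * S) / (S * (S - 2)) := by
    have : (S : ℝ) - 2 ≠ 0 := by linarith
    have : (S : ℝ) ≠ 0 := by linarith
    unfold ω x dx
    rw [Nat.cast_sub hS2, Nat.cast_ofNat]
    field_simp
    ring
  have hδ : |(P.ω j (S - 2) : ℝ) - P.ω j S| ≤ 5 * X / S ^ 2 := by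
    have a0 : (0 : ℝ) < S * (S - 2) := mul_pos (by linarith) (by linarith)
    have a1 := mul_nonneg (hG.dx_nonneg_A S) (Nat.cast_nonneg (α := ℝ) S)
    have a2 : |2 * P.x j S + P.dx S * S| ≤ 3 * X := by
      rw [abs_le] at hX ⊢; constructor <;> linarith [hX.1, hX.2]
    rw [e, abs_div, abs_of_pos a0, div_le_div_iff₀ a0 (by positivity)]
    calc |2 * P.x j S + P.dx S * S| * (S : ℝ) ^ 2 ≤ 3 * X * S ^ 2 := by gcongr
      _ = X * S * (3 * S) := by ring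
      _ ≤ X * S * (5 * (S - 2)) := mul_le_mul_of_nonneg_left (by linarith) (by positivity)
      _ = _ := by ring
  obtain ⟨a1, a2, a3, a4, a5, a6⟩ := p.step p' hδ
  refine ⟨a1, a2, a3, ?_, a5, a6.trans ?_⟩
  · change |(gf _ _ - gf _ _) * (mf _ _ / mf _ _)| ≤ _
    rw [a4, abs_div, abs_of_pos (show 0 < rf (P.C j) (P.ω j S) by linarith [p.r_ge])]
    exact (div_le_self (abs_nonneg _) p.r_ge).trans hδ
  · have : 0 ≤ X / (S : ℝ) ^ 2 := by positivity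
    rw [mul_div_assoc, mul_div_assoc]; linarith

lemma Good.mismatch (h : P.Act j S) (h' : P.Act j (S - 2)) (s : Bool) :
    (P.dg j S * P.uu j S * S - 2 * (P.pr s j S).A1) * P.ρ j S =
        (P.dx S * S + 2 * P.ω j S + 2 * sg s) / (S - 2) ∧
      (P.pr s j S).A0 * P.ρ j S = -(sg s * (S - 1 - sg s * P.ω j S)) / (S - 2) := by
  have p := hG.pnt h
  have p' := hG.pnt h'
  have hS := hG.S_big h
  have hS2 : 2 ≤ S := by exact_mod_cast (show (2 : ℝ) ≤ S by linarith)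
  have n1 : (S : ℝ) - 2 ≠ 0 := by linarith
  have n2 : (S : ℝ) ≠ 0 := by linarith
  have n3 : rf (P.C j) (P.ω j S) ≠ 0 := by linarith [p.r_ge]
  have e : (P.ω j (S - 2) : ℝ) - P.ω j S = (2 * P.ω j S + P.dx S) / (S - 2) := by
    unfold ω x dx
    rw [Nat.cast_sub hS2, Nat.cast_ofNat]
    field_simp
    ring
  have a4 : P.dg j S * P.uu j S = _ := (p.step p' le_rfl).2.2.2.1
  rw [a4, e]
  simp only [pr, par, ρ_eq]
  constructor
  · field_simp; ring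
  · rcases sg_cases s with e1 | e1 <;> rw [e1] <;> field_simp <;> ring

lemma Good.gap_near (hi : P.Act i S) (hj : P.Act j S) (h0 : i ≠ 0) (hij : i < j) :
    Ex P.r (-60721) ≤ P.gap i j S ∧ P.gap i j S ≤ Ex P.r (-60114) ∧
      (P.S1 ≤ 2 * S → P.gap i j S ≤ 4 * Ex P.r (-60720)) := by
  obtain ⟨g1, g2⟩ := hG.gap_bd hi hj hij
  obtain ⟨b1, b2⟩ := hG.β_sub h0 hij
  have hj0 : j ≠ 0 := (Fin.pos_iff_ne_zero.mp (lt_of_le_of_lt (Fin.zero_le _) hij))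
  have hi3 : i ≠ 3 := fun e => by rw [e] at hij; exact absurd hij (not_lt.mpr (Fin.le_last j))
  have hb := hG.bb_nonneg i j S
  have he := hG.scales.1
  refine ⟨le_trans (Ex_le hG.one_lt_A (by norm_num)) (hG.le_of_mul (b1.trans g1)), ?_,
    fun hS => ?_⟩
  · have h1 := hi.2
    rw [if_neg h0, if_neg hi3] at h1
    have h2 := hG.bb_le (a := 123200) (by rw [← S2_eq]; exact_mod_cast h1) (hG.β_near_add h0 hj0)
    have h3 := Ex_le hG.one_lt_A (show (0 : ℝ) ≤ 180003 - 123200 + -56200 by norm_num)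
    rw [Ex_zero] at h3
    calc P.gap i j S ≤ 2 * Ex P.r (-60720) * (2 * Ex P.r (180003 - 123200 + -56200)) :=
          g2.trans (mul_le_mul b2 (by linarith) (by linarith) (by linarith))
      _ = 4 * Ex P.r (-60720 + (180003 - 123200 + -56200)) := by
          rw [← Ex_mul hG.one_lt_A (-60720)]; ring
      _ ≤ _ := mul_Ex_le hG.one_lt_A (by linarith [hG.R_ge_A]) (by norm_num)
  · have h2 := (hG.bb_early hS i j).trans (hG.tiny' (by norm_num))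
    exact g2.trans ((mul_le_mul b2 (show 1 + P.bb i j S ≤ 2 by linarith) (by linarith)
      (by linarith)).trans (by linarith))

lemma Good.gap_far (hi : P.Act 0 S) (hj : P.Act j S) (h0 : j ≠ 0) :
    Ex P.r (-51282) ≤ P.gap 0 j S ∧ P.gap 0 j S ≤ Ex P.r (-51279) := by
  have hij : (0 : Fin 4) < j := Fin.pos_iff_ne_zero.mpr h0
  obtain ⟨g1, g2⟩ := hG.gap_bd hi hj hij
  obtain ⟨b1, b2⟩ := hG.β_far h0
  have hb := hG.bb_nonneg 0 j S
  have h1 := hi.2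
  rw [if_pos rfl] at h1
  have h2 := (hG.bb_early h1 0 j).trans (hG.tiny' (by norm_num))
  have h3 := mul_Ex_le (k := 2) (a := -51281) (b := -51280) hG.one_lt_A (by linarith [hG.R_ge_A])
    (by norm_num)
  have h4 := mul_Ex_le (k := 2) (a := -51280) (b := -51279) hG.one_lt_A (by linarith [hG.R_ge_A])
    (by norm_num)
  have h5 := Ex_pos hG.one_lt_A (-51280)
  refine ⟨le_trans (Ex_le hG.one_lt_A (by norm_num))
    (hG.le_of_mul (a := -51281) (by linarith)), ?_⟩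
  exact g2.trans ((mul_le_mul b2 (show 1 + P.bb 0 j S ≤ 2 by linarith) (by linarith)
    (by linarith)).trans (by linarith))

lemma Good.yv_le (hi : P.Act i S) (hj : P.Act j S) (hij : i < j) :
    0 ≤ P.yv i j S ∧ P.yv i j S ≤ 10 := by
  obtain ⟨y1, y2⟩ := yv_bd (hG.pnt hi) (hG.pnt hj) (hG.bb_nonneg i j S)
  rw [hG.yv_eq hi hj hij]
  refine ⟨y1, le_trans ?_ y2⟩
  exact le_mul_of_one_le_right y1 (by linarith [hG.bb_nonneg i j S])

lemma Good.yv_vp (hi : P.Act i S) (hj : P.Act j S) (hij : i < j) (hk : P.Act k S) (s : Bool) :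
    |(P.pr s k S).vp| * P.yv i j S ≤ 1 + Ex P.r (-1000) := by
  have pi := hG.pnt hi
  have pj := hG.pnt hj
  have pk := hG.pnt hk
  have hS := hG.S_big hk
  set τ := Ex P.r (-49990) with hτ
  have τ0 : 0 < τ := Ex_pos hG.one_lt_A _
  have τ1 : τ ≤ 1 / 10 ^ 9 := hG.tiny' (by norm_num)
  obtain ⟨s1, s2, s3, s4, s5⟩ := hG.scales
  have hd : P.d * Ex P.r (-50000) ≤ τ :=
    mul_Ex_le hG.one_lt_A (by linarith [hG.d_le_R, hG.d3]) (by norm_num)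
  have hd0 : (0 : ℝ) ≤ P.d := Nat.cast_nonneg _
  have hc : ∀ l, P.Act l S → rf (P.C l) (P.ω l S) ≤ rf (P.C k) (P.ω k S) * (1 + 5 * τ) := by
    intro l hl
    refine r_close (C₀ := P.C0) (β := P.β k) (hG.pnt hl) pk hG.C0_bd.1 ?_ rfl
      (by linarith [(hG.β_bd k).1]) ?_ ?_
    · unfold C; linarith [(hG.β_bd l).1]
    · exact (mul_le_mul_of_nonneg_right (by linarith [(hG.β_bd k).2]) hd0).trans
        ((mul_comm _ _).le.trans hd)
    · exact (mul_le_mul_of_nonneg_right ((neg_le_abs _).trans (hG.ω_le_A hk)) hd0).trans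
        ((mul_comm _ _).le.trans hd)
  obtain ⟨-, -, a3, a4⟩ := pk.par_le (sg_cases s) (S := S) (X := -P.ω k S * S) (by linarith)
    (by rw [mul_div_assoc, div_self (by linarith), mul_one])
  have e : (P.pr s k S).vp = -((S : ℝ) / (S - 2) * (1 - P.ω k S ^ 2) /
      rf (P.C k) (P.ω k S) ^ 2) := by
    simp only [pr, par, ρ_eq]; ring
  have hD : 1 ≤ (1 + 5 * τ) * Dn (P.C i) (P.ω i S) (P.C j) (P.ω j S) (P.bb i j S) := by
    have b1 := (Dn_ge pi pj (hG.bb_nonneg i j S)).2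
    have b2 : -(P.ω i S : ℝ) ≤ τ := by
      have := (neg_le_abs _).trans (hG.ω_le_A hi)
      nlinarith [hG.d3]
    have b3 : (P.ω i S : ℝ) * P.ω j S ≤ τ := by nlinarith [pi.o1, pj.o1, pj.o3]
    nlinarith
  have hD0 : 0 < Dn (P.C i) (P.ω i S) (P.C j) (P.ω j S) (P.bb i j S) := by
    linarith [(Dn_ge pi pj (hG.bb_nonneg i j S)).1, hG.bb_nonneg i j S]
  have r1 := pi.r_ge
  have r2 := pj.r_ge
  have r3 := pk.r_ge
  have c1 := hc i hi
  have c2 := hc j hj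
  have c3 : (S : ℝ) / (S - 2) ≤ 1 + 5 * τ := by linarith [(hG.ratio_le hk).1]
  rw [e, abs_neg, abs_of_nonneg a3, hG.yv_eq hi hj hij, ρ_eq, ρ_eq]
  refine le_trans ?_ (hG.pow_le (t := 5 * τ) (by positivity) le_rfl)
  generalize Dn (P.C i) (P.ω i S) (P.C j) (P.ω j S) (P.bb i j S) = D at hD hD0 ⊢
  generalize rf (P.C i) (P.ω i S) = ri at r1 c1 ⊢
  generalize rf (P.C j) (P.ω j S) = rj at r2 c2 ⊢
  generalize rf (P.C k) (P.ω k S) = rk at r3 c1 c2 a4 ⊢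
  calc (S : ℝ) / (S - 2) * (1 - P.ω k S ^ 2) / rk ^ 2 * (ri * rj / D)
      ≤ (1 + 5 * τ) / rk ^ 2 * (rk * (1 + 5 * τ) * (rk * (1 + 5 * τ)) / D) := by
        refine mul_le_mul (a4.trans (by gcongr)) (by gcongr) (by positivity) (by positivity)
    _ = (1 + 5 * τ) ^ 3 * (1 / D) := by field_simp
    _ ≤ (1 + 5 * τ) ^ 3 * (1 + 5 * τ) := by gcongr; rwa [div_le_iff₀ hD0]
    _ = _ := by ring

lemma Good.yv_late (hi : P.Act 2 S) (hS : S ≤ P.S2 + 1) : P.yv 2 3 S ≤ Ex P.r (-590) := by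
  have h3 := hG.act_three hi
  obtain ⟨y1, y2⟩ := yv_bd (hG.pnt hi) (hG.pnt h3) (hG.bb_nonneg 2 3 S)
  rw [hG.yv_eq hi h3 (by decide)]
  have hS0 := hG.S_big hi
  obtain ⟨d1, d2⟩ := hG.D0_bd
  have d3 := hG.d3
  have hS' : (S : ℝ) ≤ 2 * Ex P.r 123200 := by
    have a1 : (S : ℝ) ≤ P.S2 + 1 := by exact_mod_cast hS
    have a2 := Ex_le hG.one_lt_A (show (0 : ℝ) ≤ 123200 by norm_num)
    rw [S2_eq] at a1
    rw [Ex_zero] at a2
    linarith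
  have e1 := Ex_pos hG.one_lt_A 180000
  have e2 := Ex_pos hG.one_lt_A 123200
  have e3 := Ex_pos hG.one_lt_A (-56200)
  have hb : Ex P.r 599 ≤ P.bb 2 3 S := by
    calc Ex P.r 599 = Ex P.r (180000 - 123200 + -56200 - 1) := by norm_num
      _ = Ex P.r 180000 / Ex P.r 123200 * Ex P.r (-56200) / P.r := by
          rw [Ex_div hG.one_lt_A, Ex_mul hG.one_lt_A, ← Ex_div hG.one_lt_A _ 1, Ex_one]
      _ ≤ Ex P.r 180000 / Ex P.r 123200 * Ex P.r (-56200) / P.d := by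
          exact div_le_div_of_nonneg_left (by positivity) (by linarith) (by linarith [hG.d_le_R])
      _ = P.d * Ex P.r 180000 / (2 * Ex P.r 123200) / (P.d : ℝ) ^ 2 *
          (Ex P.r (-56200) + Ex P.r (-56200)) := by field_simp; ring
      _ ≤ P.bb 2 3 S := by
          unfold bb qq
          gcongr
          · exact hG.S0_ge_d
          · exact (hG.β_bd 2).1
          · exact (hG.β_bd 3).1
  change rf _ _ * rf _ _ / _ ≤ _
  generalize rf (P.C 2) (P.ω 2 S) * rf (P.C 3) (P.ω 3 S) /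
    Dn (P.C 2) (P.ω 2 S) (P.C 3) (P.ω 3 S) (P.bb 2 3 S) = y at y1 y2 ⊢
  have e4 := Ex_pos hG.one_lt_A 599
  have a1 : y * Ex P.r 599 ≤ 10 := le_trans (by gcongr; linarith) y2
  have a2 : (10 : ℝ) ≤ Ex P.r (-590) * Ex P.r 599 := by
    rw [Ex_mul hG.one_lt_A]
    exact const_le_Ex hG.one_lt_A (by linarith [hG.R_ge_A]) (by norm_num)
  exact le_of_mul_le_mul_right (a1.trans a2) e4

lemma Good.m_sub (hi : P.Act i S) (hj : P.Act j S) (hij : i < j) :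
    (0 : ℝ) ≤ P.m j S - P.m i S ∧ (P.m j S : ℝ) - P.m i S ≤ 20 * P.gap i j S := by
  exact m_sub_bd (hG.pnt hi) (hG.pnt hj) (P.ω_sub i j S) (hG.bb_nonneg i j S) (hG.C_lt hij)

/-- `1 / m 3 + gap j 3 = C 3 - g j` and `1 / m j = C j - g j`. -/
lemma Good.m_low (hj : P.Act j S) (h3 : P.Act 3 S) :
    |(P.m 3 S : ℝ) / (1 + P.gap j 3 S * P.m 3 S) - P.m j S| ≤ Ex P.r (-50000) := by
  have p := hG.pnt hj
  have p3 := hG.pnt h3
  obtain ⟨s1, s2, s3, s4, s5⟩ := hG.scales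
  have a1 : 2 / 5 ≤ P.C 3 - gf (P.C j) (P.ω j S) := by linarith [p3.c1, p.g_lt]
  have a2 : 2 / 5 ≤ P.C j - gf (P.C j) (P.ω j S) := by linarith [p.c1, p.g_lt]
  have a3 : 2 / 5 ≤ P.C 3 - gf (P.C 3) (P.ω 3 S) := by linarith [p3.c1, p3.g_lt]
  have a4 : |(P.C j : ℝ) - P.C 3| ≤ 2 * Ex P.r (-51280) := by
    rw [C_sub, abs_le]
    constructor <;> linarith [(hG.β_bd j).1, (hG.β_bd j).2, (hG.β_bd 3).1, (hG.β_bd 3).2]
  have e : (P.m 3 S : ℝ) / (1 + P.gap j 3 S * P.m 3 S) - P.m j S = (P.C j - P.C 3) /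
      ((P.C 3 - gf (P.C j) (P.ω j S)) * (P.C j - gf (P.C j) (P.ω j S))) := by
    rw [gap, m_eq, m_eq, g_eq, g_eq, p.m_eq, p3.m_eq]
    generalize gf (P.C j) (P.ω j S) = gj at a1 a2 ⊢
    generalize gf (P.C 3) (P.ω 3 S) = g3 at a3 ⊢
    have n1 : (P.C 3 : ℝ) - gj ≠ 0 := by linarith
    have n2 : (P.C j : ℝ) - gj ≠ 0 := by linarith
    have n3 : (P.C 3 : ℝ) - g3 ≠ 0 := by linarith
    have : 1 + (g3 - gj) * (1 / (P.C 3 - g3)) = (P.C 3 - gj) / (P.C 3 - g3) := by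
      field_simp; ring
    rw [this]
    field_simp
    ring
  have a5 : 2 / 5 * (2 / 5) ≤ (P.C 3 - gf (P.C j) (P.ω j S)) * (P.C j - gf (P.C j) (P.ω j S)) := by
    gcongr
  rw [e, abs_div, abs_of_pos (show 0 < (P.C 3 - gf (P.C j) (P.ω j S)) *
    (P.C j - gf (P.C j) (P.ω j S)) by linarith), div_le_iff₀ (by linarith)]
  nlinarith [mul_le_mul_of_nonneg_left a5 (show 0 ≤ Ex P.r (-50000) by linarith)]

lemma Good.near_sub (hj : P.Act j S) (h0 : j ≠ 0) (hS : P.S1 ≤ 2 * S) (s : Bool) :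
    |(P.ω 3 S : ℝ) - P.ω j S| ≤ Ex P.r (-60719) ∧
      |(P.pr s 3 S).A0 - (P.pr s j S).A0| ≤ Ex P.r (-60718) := by
  have h3 := hG.act_three hj
  obtain ⟨s1, s2, -⟩ := hG.scales
  have a1 : |(P.C j : ℝ) - P.C 3| ≤ 2 * Ex P.r (-60720) := by
    rw [C_sub, hG.β_eq.2.2.2, abs_le]
    constructor <;> linarith [(hG.β_near h0).1, (hG.β_near h0).2]
  have a2 : |(P.ω 3 S : ℝ) - P.ω j S| ≤ Ex P.r (-60720) := by
    have b1 := (hG.bb_early hS j 3).trans (hG.tiny' (by norm_num))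
    rw [ω_sub, abs_mul, abs_of_nonneg (hG.bb_nonneg j 3 S)]
    exact (mul_le_mul (show P.bb j 3 S ≤ 1 / 2 by linarith) a1 (abs_nonneg _)
      (by norm_num)).trans (by linarith)
  refine ⟨a2.trans (Ex_le hG.one_lt_A (by norm_num)), ?_⟩
  have := A0_sub (hG.pnt h3) (hG.pnt hj) (by rwa [abs_sub_comm]) a2 (sg_cases s) (S := S)
    (by linarith [hG.S_big hj])
  exact this.trans (mul_Ex_le hG.one_lt_A (by linarith [hG.d_le_R, hG.d3]) (by norm_num))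

lemma Good.vp_m (hj : P.Act j S) (s : Bool) :
    |(P.pr s j S).vp| * (P.m j S + 1 / P.r) ^ 2 ≤ 52 / 100 := by
  have p := hG.pnt hj
  have hS := hG.S_big hj
  obtain ⟨-, -, a3, a4⟩ := p.par_le (sg_cases s) (S := S) (X := -P.ω j S * S) (by linarith)
    (by rw [mul_div_assoc, div_self (by linarith), mul_one])
  have e : (P.pr s j S).vp = -((S : ℝ) / (S - 2) * (1 - P.ω j S ^ 2) /
      rf (P.C j) (P.ω j S) ^ 2) := by
    simp only [pr, par, ρ_eq]; ring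
  have c3 : (S : ℝ) / (S - 2) ≤ 101 / 100 := by
    linarith [(hG.ratio_le hj).1, hG.tiny' (a := -49990) (by norm_num)]
  have r1 := p.r_ge
  have u1 := p.u1
  have m0 := p.m_pos
  have hR := hG.R_ge_A
  have b1 : 1 / (P.r : ℝ) ≤ 1 / 10 ^ 9 := by gcongr
  have b2 : mf (P.C j) (P.ω j S) + 1 / P.r ≤ 71 / 100 * rf (P.C j) (P.ω j S) := by
    have := mf_mul (P.C j) (P.ω j S)
    nlinarith [mul_le_mul_of_nonneg_left u1 m0.le]
  rw [e, abs_neg, abs_of_nonneg a3, m_eq]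
  calc (S : ℝ) / (S - 2) * (1 - P.ω j S ^ 2) / rf (P.C j) (P.ω j S) ^ 2 *
        (mf (P.C j) (P.ω j S) + 1 / P.r) ^ 2
      ≤ 101 / 100 / rf (P.C j) (P.ω j S) ^ 2 * (71 / 100 * rf (P.C j) (P.ω j S)) ^ 2 :=
        mul_le_mul (a4.trans (by gcongr)) (by gcongr) (by positivity) (by positivity)
    _ = 101 / 100 * (71 / 100) ^ 2 := by field_simp
    _ ≤ _ := by norm_num

/-- Here `C 3 + ω 3 ≥ √2` because the offset `β 3` dominates `1 / n` and `|ω 3|`. -/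
lemma Good.kappa (h2 : P.Act 2 S) (hS : P.S1 ≤ 2 * S) (s : Bool) :
    0 ≤ -((P.pr (!s) 3 S).A0 * (P.pr s 3 S).A0) ∧
      -((P.pr (!s) 3 S).A0 * (P.pr s 3 S).A0) * (P.m 3 S * (P.m 3 S + P.m 2 S)) ≤
        1 + Ex P.r (-1000) := by
  have h3 := hG.act_three h2
  have p := hG.pnt h3
  have hS0 := hG.S_big h3
  have n1 : (0 : ℝ) < S - 2 := by linarith
  have r1 := p.r_ge
  have u1 := p.u1
  have m0 := p.m_pos
  have e : -((P.pr (!s) 3 S).A0 * (P.pr s 3 S).A0) = (((S : ℝ) - 1) ^ 2 - P.ω 3 S ^ 2) /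
      ((S - 2) ^ 2 * rf (P.C 3) (P.ω 3 S) ^ 2) := by
    simp only [pr, par, ρ_eq]
    cases s <;> simp only [sg, Bool.not_true, Bool.not_false, cond_true, cond_false] <;>
      field_simp <;> ring
  have a1 : 0 ≤ ((S : ℝ) - 1) ^ 2 - P.ω 3 S ^ 2 := by nlinarith [p.o1, p.o3]
  have a2 : 2 ≤ ((P.C 3 : ℝ) + P.ω 3 S) ^ 2 := by
    obtain ⟨c0, -, c2⟩ := hG.C0_sq
    have b1 := (neg_le_abs _).trans (hG.ω_early (j := 3) (by decide) hS)
    have b2 := hG.inv_n.trans (Ex_le hG.one_lt_A (show (-180000 : ℝ) ≤ -61197 by norm_num))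
    have b3 := mul_Ex_le (k := 3) (a := -61197) (b := -56200) hG.one_lt_A
      (by linarith [hG.R_ge_A]) (by norm_num)
    have b4 : P.C0 + 1 / (P.n : ℝ) ≤ P.C 3 + P.ω 3 S := by
      rw [C, hG.β_eq.2.2.2]; linarith
    have b5 : (P.C0 + 1 / (P.n : ℝ)) ^ 2 ≤ (P.C 3 + P.ω 3 S) ^ 2 := by gcongr
    linarith [hG.d3]
  have a3 : (P.m 2 S : ℝ) ≤ P.m 3 S := by linarith [(hG.m_sub h2 h3 (by decide)).1]
  have a4 : (P.m 3 S : ℝ) * (P.m 3 S + P.m 2 S) ≤ rf (P.C 3) (P.ω 3 S) ^ 2 := by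
    rw [← mf_mul, mul_pow]
    rw [m_eq P 3] at a3 ⊢
    nlinarith [mul_le_mul_of_nonneg_left a3 m0.le, mul_le_mul_of_nonneg_left a2 (sq_nonneg
      (mf (P.C 3) (P.ω 3 S)))]
  have τ0 := Ex_pos hG.one_lt_A (-49990)
  rw [e]
  refine ⟨by positivity, le_trans ?_ (hG.pow_le τ0.le (by linarith))⟩
  calc (((S : ℝ) - 1) ^ 2 - P.ω 3 S ^ 2) / ((S - 2) ^ 2 * rf (P.C 3) (P.ω 3 S) ^ 2) *
        (P.m 3 S * (P.m 3 S + P.m 2 S))
      ≤ ((S : ℝ) - 1) ^ 2 / ((S - 2) ^ 2 * rf (P.C 3) (P.ω 3 S) ^ 2) *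
        rf (P.C 3) (P.ω 3 S) ^ 2 := by
        refine le_trans (mul_le_mul_of_nonneg_left a4 (by positivity)) ?_
        gcongr
        linarith [sq_nonneg (P.ω 3 S : ℝ)]
    _ = (((S : ℝ) - 1) / (S - 2)) ^ 2 := by field_simp
    _ ≤ (1 + Ex P.r (-49990)) ^ 2 :=
        pow_le_pow_left₀ (div_nonneg (by linarith) n1.le) (hG.ratio_le h3).2 2
    _ ≤ _ := pow_le_pow_right₀ (by linarith) (by norm_num)

lemma Good.second_le (h1 : P.Act 1 S) : P.Tb 2 3 S - P.Tb 1 2 S ≤ Ex P.r 180003 * P.gap 1 3 S := by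
  have h2 : P.Act 2 S := h1
  have h3 := hG.act_three h1
  have hS := hG.S_big h1
  have key := second_up (hG.pnt h1) (hG.pnt h2) (hG.pnt h3) (hG.bb_nonneg 1 2 S)
    (hG.bb_nonneg 2 3 S) (hG.bb_nonneg 1 3 S) (hG.qq_nonneg S) (hG.C_lt (by decide))
    (P.ω_sub 1 3 S) (by rw [C_sub]; unfold bb; ring)
  have g0 : 0 ≤ P.gap 1 3 S :=
    (Ex_pos hG.one_lt_A _).le.trans (hG.gap_near h1 h3 (by decide) (by decide)).1
  have q0 := hG.qq_nonneg S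
  have a1 : (S : ℝ) ≤ P.S0 := Nat.cast_le.mpr h1.1
  have a2 : S * P.qq S ≤ P.S0 := by
    rw [qq, ← mul_div_assoc, mul_div_cancel₀ _ (by linarith)]
    exact div_le_self (by linarith) hG.D0_bd.1
  have a3 := hG.S0_le_A
  have a4 := mul_Ex_le (k := 256 * (P.d : ℝ) ^ 4) (a := 180002) (b := 180003) hG.one_lt_A
    (by linarith [hG.d4, hG.d_pow.1, hG.d_pow.2.1, hG.d_pow.2.2, hG.d3]) (by norm_num)
  rw [hG.Tb_sub h1 h2 h3 (by decide) (by decide)]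
  refine (mul_le_mul_of_nonneg_left key (by linarith)).trans ?_
  change _ * (_ * P.gap 1 3 S) ≤ _
  rw [← mul_assoc]
  gcongr
  calc ((S : ℝ) - 1) * ((220 + 36 * P.qq S) * (P.d : ℝ) ^ 4)
      ≤ S * ((220 + 36 * P.qq S) * (P.d : ℝ) ^ 4) := by gcongr; linarith
    _ = (220 * S + 36 * (S * P.qq S)) * (P.d : ℝ) ^ 4 := by ring
    _ ≤ (256 * Ex P.r 180002) * (P.d : ℝ) ^ 4 := by gcongr; linarith
    _ ≤ _ := by linarith

lemma Good.second_ge (h0 : P.Act 0 S) (hS : S ≤ 2 * P.S1 + 1) :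
    Ex P.r 179999 * P.gap 0 3 S ≤ P.Tb 2 3 S - P.Tb 0 2 S := by
  have hS1 : P.S1 ≤ 2 * S := h0.2
  have h2 := hG.act_of_S1 h0 hS1 2
  have h3 := hG.act_three h0
  have hS0 := hG.S_big h0
  obtain ⟨d1, d2⟩ := hG.D0_bd
  obtain ⟨p1, p2, p3⟩ := hG.d_pow
  have d3 := hG.d3
  have d4 := hG.d4
  obtain ⟨s1, s2, s3, s4, s5⟩ := hG.scales
  have q0 := hG.qq_nonneg S
  have hb : ∀ i j, P.bb i j S * (P.d : ℝ) ^ 2 ≤ 1 := fun i j =>
    (mul_le_mul (hG.bb_early hS1 i j) (p2.trans p3) (by positivity)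
      (Ex_pos hG.one_lt_A _).le).trans ((hG.tiny (by norm_num)).trans (by norm_num))
  have e1 := Ex_pos hG.one_lt_A 179999
  have a0 : 40 * Ex P.r 179999 ≤ P.S0 / P.D0 := by
    have b1 := mul_Ex_le (k := 40 * (P.d : ℝ)) (a := 179999) (b := 180000) hG.one_lt_A
      (by linarith [hG.d_le_R]) (by norm_num)
    have b2 := mul_le_mul_of_nonneg_left b1 (show (0 : ℝ) ≤ P.d by linarith)
    have b3 := mul_le_mul_of_nonneg_left d2 (show 0 ≤ 40 * Ex P.r 179999 by positivity)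
    rw [le_div_iff₀ (by linarith)]
    linarith [hG.S0_ge_d]
  have a1 : S * P.qq S = P.S0 / P.D0 := by
    rw [qq, ← mul_div_assoc, mul_div_cancel₀ _ (by linarith)]
  have q30 : 30 ≤ P.qq S := by
    have b1 : (S : ℝ) ≤ 2 * P.S1 + 1 := by exact_mod_cast hS
    have b2 := hG.two_add (a := 128800) (b := 179999) (by norm_num) (by norm_num)
    rw [S1_eq] at b1
    refine le_of_mul_le_mul_left ?_ (show (0 : ℝ) < S by linarith)
    rw [a1]; linarith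
  have key := second_down (hG.pnt h0) (hG.pnt h2) (hG.pnt h3) (hG.bb_nonneg 0 2 S)
    (hG.bb_nonneg 2 3 S) (hG.bb_nonneg 0 3 S) (hG.C_lt (by decide))
    (P.ω_sub 0 3 S) (by rw [C_sub]; unfold bb; ring) (hb 0 2) (hb 2 3)
    (mul_le_of_le_one_right q0 (by linarith [(hG.β_bd 0).2, (hG.β_bd 3).2])) q30
  have g2 := (hG.gap_bd h0 h3 (by decide)).2
  have g3 := hG.β_lt (i := 0) (j := 3) (by decide)
  have g4 := (hG.bb_early hS1 0 3).trans (hG.tiny' (by norm_num))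
  rw [C_sub] at key
  rw [hG.Tb_sub h0 h2 h3 (by decide) (by decide)]
  refine le_trans ?_ (mul_le_mul_of_nonneg_left key (by linarith))
  generalize (P.β 0 : ℝ) - P.β 3 = Δ at g2 g3 ⊢
  calc Ex P.r 179999 * P.gap 0 3 S ≤ Ex P.r 179999 * (Δ * 2) := by
        gcongr; exact g2.trans (by gcongr; linarith)
    _ = 40 * Ex P.r 179999 * Δ / 20 := by ring
    _ ≤ S * P.qq S * Δ / 20 := by rw [a1]; gcongr
    _ = S / 2 * (P.qq S * Δ / 10) := by ring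
    _ ≤ _ := by gcongr; linarith

/-- At the start `(E - g d) - (C - g) = (d β ^ 3 / D0 - (d - 1 - C0 ^ 2)) / (C + ω)`. -/
lemma Good.init (j : Fin 4) : (2 : ℝ) / 5 ≤ P.E - P.g j P.S0 * P.d ∧
    |((P.n : ℝ) - 1) * P.d / (P.E - P.g j P.S0 * P.d) - ((P.S0 : ℝ) - 1) * P.m j P.S0|
      ≤ Ex P.r 27000 := by
  have p := hG.pnt (hG.act_S0 j)
  obtain ⟨d1, d2⟩ := hG.D0_bd
  obtain ⟨c0, c1, c2⟩ := hG.C0_sq
  obtain ⟨p1, p2, p3⟩ := hG.d_pow
  have d3 := hG.d3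
  have d4 := hG.d4
  have hn := hG.n_pos
  have hω : (P.ω j P.S0 : ℝ) = -(P.β j ^ 2 / P.D0) := by
    have := hG.S0_pos.ne'
    have h1 := hG.sizes_A.2.2.2.1
    rw [ω, x, Γ, show min (2 * P.S1 - P.S0) P.S1 = 0 by omega]
    field_simp
    simp
  have e := init_eq (C₀ := P.C0) (β := P.β j) (D₀ := P.D0) (d := P.d) (by rw [← hω]; exact p) rfl
    (by linarith)
  rw [← hω] at e
  change (P.E : ℝ) - P.g j P.S0 * P.d = 1 / P.m j P.S0 + _ / (P.C j + _) at e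
  have u1 := p.u1
  have f0 := Ex_pos hG.one_lt_A (-51280)
  have f1 := Ex_pos hG.one_lt_A (-153840)
  have β0 : (0 : ℝ) ≤ P.β j := (Ex_pos hG.one_lt_A _).le.trans (hG.β_bd j).1
  have a1 : P.d * P.β j ^ 3 / P.D0 ≤ 8 * P.d * Ex P.r (-153840) := by
    calc P.d * P.β j ^ 3 / P.D0 ≤ P.d * (P.β j : ℝ) ^ 3 := div_le_self (by positivity) d1
      _ ≤ P.d * (2 * Ex P.r (-51280)) ^ 3 := by gcongr; exact (hG.β_bd j).2
      _ = _ := by rw [mul_pow, Ex_pow hG.one_lt_A]; norm_num; ring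
  have a2 : (P.d : ℝ) - 1 - P.C0 ^ 2 ≤ 2 * P.d * Ex P.r (-153840) := by
    have b1 := hG.inv_n.trans (Ex_le hG.one_lt_A (show (-180000 : ℝ) ≤ -153840 by norm_num))
    have b2 := b1.trans (hG.tiny' (by norm_num))
    have b3 : 0 < 1 / (P.n : ℝ) := by positivity
    have b4 : 1 / (P.n : ℝ) * (2 * P.C0 + 1 / P.n) ≤ Ex P.r (-153840) * (2 * P.d) := by
      gcongr; linarith [hG.C0_bd.2]
    nlinarith
  have a3 : |(P.d * P.β j ^ 3 / P.D0 - (P.d - 1 - P.C0 ^ 2)) / (P.C j + P.ω j P.S0 : ℝ)| ≤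
      Ex P.r (-153839) := by
    have b1 := mul_Ex_le (k := 8 * (P.d : ℝ)) (a := -153840) (b := -153839) hG.one_lt_A
      (by linarith [hG.d_le_R]) (by norm_num)
    have b2 : 0 ≤ P.d * P.β j ^ 3 / (P.D0 : ℝ) := by positivity
    have b3 : 0 ≤ P.d * Ex P.r (-153840) := by positivity
    rw [abs_div, abs_of_pos (show 0 < (P.C j + P.ω j P.S0 : ℝ) by linarith)]
    refine (div_le_self (abs_nonneg _) (by linarith)).trans ?_
    rw [abs_le]; constructor <;> linarith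
  generalize (P.d * P.β j ^ 3 / P.D0 - (P.d - 1 - P.C0 ^ 2)) / (P.C j + P.ω j P.S0 : ℝ) = η
    at e a3
  have a4 : (2 : ℝ) / 5 ≤ 1 / P.m j P.S0 + η := by
    have b1 := a3.trans (hG.tiny' (by norm_num))
    rw [m_eq, p.m_eq, one_div_one_div]
    linarith [p.c1, p.g_lt, (abs_le.mp b1).1]
  rw [e]
  refine ⟨a4, ?_⟩
  have n1 : (1 : ℝ) ≤ P.n := by
    exact_mod_cast (show 1 ≤ P.n by have := hG.sizes_A.2.2.2.2.1; have := hG.d_ge; omega)
  have a5 := init_bd (d := P.d) (n := P.n) p.m_pos p.m_le a4 n1 (by linarith)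
  have a6 : (P.n : ℝ) * P.d * |η| ≤ Ex P.r 26163 := by
    have b1 := hG.S0_le_A
    rw [S0, Nat.cast_mul] at b1
    refine (mul_le_mul b1 a3 (abs_nonneg _) (Ex_pos hG.one_lt_A _).le).trans ?_
    rw [Ex_mul hG.one_lt_A]; norm_num
  have a7 := const_le_Ex (k := 2 * (P.d : ℝ)) (b := 26163) hG.one_lt_A
    (by linarith [hG.d_le_R]) (by norm_num)
  have a8 := mul_Ex_le (k := 6) (a := 26163) (b := 27000) hG.one_lt_A (by linarith [hG.R_ge_A])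
    (by norm_num)
  rw [S0, Nat.cast_mul]
  exact a5.trans (by linarith)

lemma Good.late (hS : S ≤ P.S1) (h : P.S4 ≤ 2 * S) : (P.ω 3 S : ℝ) = 0 ∧
    (1 - (P.g 3 S : ℝ)) * (P.m 3 S + 1 / 10) < 1 := by
  have h0 : (P.ω 3 S : ℝ) = 0 := by rw [ω, hG.x_zero_A hS, zero_div]
  have := h
  refine ⟨h0, ?_⟩
  rw [g_eq, m_eq, h0]
  have c1 := (hG.C_bd 3).1
  generalize (P.C 3 : ℝ) = c at c1 ⊢
  have n1 : c - 1 ≠ 0 := by linarith
  have e : (1 - gf c 0) * (mf c 0 + 1 / 10) = 1 / (c + 1) + 1 / 10 - 1 / (10 * c) := by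
    unfold gf mf
    rw [show c ^ 2 - 1 = (c - 1) * (c + 1) by ring]
    field_simp
    ring
  have a1 : 1 / (c + 1) ≤ 1 / 2 := by gcongr; linarith
  have a2 : 0 < 1 / (10 * c) := by positivity
  rw [e]; linarith

lemma Good.late_step (hS : S ≤ P.S1) : P.dg 3 S = 0 ∧ P.uu 3 S = 1 := by
  have h0 : (P.ω 3 S : ℝ) = 0 := by rw [ω, hG.x_zero_A hS, zero_div]
  have h1 : (P.ω 3 (S - 2) : ℝ) = 0 := by rw [ω, hG.x_zero_A (by omega), zero_div]
  have p : Pnt P.d (P.C 3) 0 := ⟨hG.d3, (hG.C_bd 3).1, (hG.C_bd 3).2, le_rfl, by simp⟩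
  rw [dg, uu, g_eq, g_eq, m_eq, m_eq, h0, h1]
  exact ⟨sub_self _, div_self p.m_pos.ne'⟩

end Vale.Agent.P049.Prm
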