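import Vale.Agent.P049.SpecAux

/-!
Spectral facts about a centered positive semidefinite matrix and its lower resolvents.

Suggested route: diagonalize the symmetric matrix `N - (1 - proj U)` (it is `N ≥ 0` on the range
of `proj U` and `-1` on the kernel), which gives an orthogonal `W` and functions `lam ≥ 0`,
`π ∈ {0, 1}` with `N = spec lam`, `proj U = spec π`, `lam i = lam i * π i`, where
`spec f = W * diagonal f * Wᵀ`. Then `spec f * spec g = spec (f g)`, `Zf (spec f) = ∑ f`,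
`spec f k k = ∑ W k i ^ 2 * f i`, `ip X (spec f) = ∑ f i * (w_i ⬝ X w_i)`, and `Low η N N'` forces
`N' = spec (lam / (1 + η lam))`. Every statement below is then a scalar inequality.
-/

namespace Vale.Agent.P049

open Matrix Finset

variable {H : Type} [Fintype H] [DecidableEq H]

/-- A centered positive semidefinite matrix. -/
structure CP (U : Finset H) (N : Matrix H H ℝ) : Prop where
  cent : Cent U N
  psd : N.PosSemidef

/-- `N'` is the resolvent at distance `η` below `N`. -/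
def Low (η : ℝ) (N N' : Matrix H H ℝ) : Prop := 0 ≤ η ∧ N = N' + η • (N' * N)

variable {U : Finset H} {N N₁ N₂ X F : Matrix H H ℝ} {η η₁ η₂ ν m m₁ T φ : ℝ}

omit [DecidableEq H] in
lemma ip_psd_nonneg (hX : X.PosSemidef) (hN : N.PosSemidef) : 0 ≤ ip X N := by
  classical
  obtain ⟨W, f, -, rfl, hf⟩ := exists_spec_psd hN
  rw [ip_spec]
  exact sum_nonneg fun i _ => mul_nonneg (hf i) (qf_nonneg hX W i)

omit [DecidableEq H] in
lemma QB.ip_psd (hF : QB F φ) (hX : X.PosSemidef) : |ip F X| ≤ φ * Zf X := by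
  classical
  obtain ⟨W, f, hW, rfl, hf⟩ := exists_spec_psd hX
  refine (abs_ip_spec_le hF hW f).trans (le_of_eq ?_)
  rw [Zf_spec hW]
  simp only [abs_of_nonneg (hf _)]

omit [DecidableEq H] in
lemma QB.ip_sq (hF : QB F φ) {O : Matrix H H ℝ} (hO : Oᵀ = O) : |ip F (O * O)| ≤ φ * Yf O := by
  refine (hF.ip_psd (psd_mul_self hO)).trans (le_of_eq ?_)
  rw [← sum_sc, Zf]
  simp only [sc_eq_of_symm hO]

omit [DecidableEq H] in
lemma Low.Zf_sub (h : Low η N N₁) (hN : Nᵀ = N) (h₁ : N₁ᵀ = N₁) : Zf N - Zf N₁ = η * ip N N₁ := by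
  have h1 : Zf N = Zf N₁ + η * Zf (N₁ * N) := by
    conv_lhs => rw [h.2]
    simp [Zf, sum_add_distrib, mul_sum]
  have h2 : ip N N₁ = Zf (N₁ * N) := by
    rw [ip_comm, ip_eq_trace, h₁]; rfl
  have := hN
  rw [h2]; linarith

omit [DecidableEq H] in
lemma Low.ip_sub (h : Low η N N₁) (X : Matrix H H ℝ) : ip X N - ip X N₁ = η * ip X (N₁ * N) := by
  have h1 : ip X N = ip X N₁ + η * ip X (N₁ * N) := by
    conv_lhs => rw [h.2]
    rw [ip_add_right, ip_smul_right]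
  linarith

lemma Low.top (h : Low η N N₁) (hN : CP U N) (h₁ : CP U N₁) (hT : Top N ν) : Top N₁ ν := by
  obtain ⟨W, lam, π, d⟩ := exists_SD hN.cent hN.psd
  have := h₁
  rw [d.low h.1 h.2]
  rw [d.N_eq] at hT
  exact top_spec d.orth fun i => (low_le h.1 (d.nn i)).trans (hT.le_spec d.orth i)

lemma Low.opB (h : Low η N N₁) (hN : CP U N) (h₁ : CP U N₁) (hη : 0 < η) : OpB N₁ (1 / η) := by
  obtain ⟨W, lam, π, d⟩ := exists_SD hN.cent hN.psd
  have := h₁
  rw [d.low h.1 h.2]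
  refine opB_spec d.orth fun i => ?_
  exact pow_le_pow_left₀ (low_nonneg h.1 (d.nn i)) (low_le_inv hη (d.nn i)) 2

lemma Low.ip_le (h : Low η N N₁) (hN : CP U N) (h₁ : CP U N₁) (hX : X.PosSemidef) :
    ip X N₁ ≤ ip X N := by
  obtain ⟨W, lam, π, d⟩ := exists_SD hN.cent hN.psd
  have := h₁
  rw [d.low h.1 h.2, d.N_eq]
  exact ip_spec_mono hX fun i => low_le h.1 (d.nn i)

lemma Low.ip_sq_le (h : Low η N N₁) (hN : CP U N) (h₁ : CP U N₁) (hX : X.PosSemidef) :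
    ip X (N₁ * N₁) ≤ ip X (N * N) := by
  obtain ⟨W, lam, π, d⟩ := exists_SD hN.cent hN.psd
  have := h₁
  rw [d.low h.1 h.2, d.N_eq, spec_mul d.orth, spec_mul d.orth]
  exact ip_spec_mono hX fun i => mul_self_le_mul_self (low_nonneg h.1 (d.nn i))
    (low_le h.1 (d.nn i))

lemma Low.ip_mul_nonneg (h : Low η N N₁) (hN : CP U N) (h₁ : CP U N₁) (hX : X.PosSemidef) :
    0 ≤ ip X (N₁ * N) := by
  obtain ⟨W, lam, π, d⟩ := exists_SD hN.cent hN.psd
  have := h₁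
  rw [d.low h.1 h.2, d.N_eq, spec_mul d.orth, ip_spec]
  exact sum_nonneg fun i _ => mul_nonneg (mul_nonneg (low_nonneg h.1 (d.nn i)) (d.nn i))
    (qf_nonneg hX W i)

lemma Low.ip_sq_le_two (h : Low η N N₁) (hN : CP U N) (h₁ : CP U N₁) (hX : X.PosSemidef)
    (hT : Top N ν) (hν : η * ν ≤ 1) : ip X (N * N) ≤ 2 * ip X (N₁ * N) := by
  obtain ⟨W, lam, π, d⟩ := exists_SD hN.cent hN.psd
  have := h₁
  rw [d.N_eq] at hT
  rw [d.low h.1 h.2, d.N_eq, spec_mul d.orth, spec_mul d.orth, ← ip_smul_right, spec_smul]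
  refine ip_spec_mono hX fun i => ?_
  have h1 := d.nn i
  have h2 : η * lam i ≤ 1 := (mul_le_mul_of_nonneg_left (hT.le_spec d.orth i) h.1).trans hν
  have h3 := mul_nonneg h.1 h1
  rw [div_mul_eq_mul_div, ← mul_div_assoc, le_div_iff₀ (by positivity)]
  nlinarith [mul_nonneg h1 h1]

/-- `N₁ ^ 2 ≤ N / η`. -/
lemma Low.ip_sq_le_inv (h : Low η N N₁) (hN : CP U N) (h₁ : CP U N₁) (hX : X.PosSemidef)
    (hη : 0 < η) : ip X (N₁ * N₁) ≤ 1 / η * ip X N := by
  obtain ⟨W, lam, π, d⟩ := exists_SD hN.cent hN.psd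
  have := h₁
  rw [d.low h.1 h.2, d.N_eq, spec_mul d.orth, ← ip_smul_right, spec_smul]
  exact ip_spec_mono hX fun i => mul_le_mul (low_le_inv hη (d.nn i)) (low_le h.1 (d.nn i))
    (low_nonneg h.1 (d.nn i)) (by positivity)

lemma Low.sc_le (h : Low η N N₁) (hN : CP U N) (h₁ : CP U N₁) (hm0 : 0 ≤ m) (hm : m ≤ 2)
    (k : H) : sc N₁ k ≤ 2 * sc (N - m • proj U) k + 8 := by
  obtain ⟨W, lam, π, d⟩ := exists_SD hN.cent hN.psd
  have := h₁
  rw [d.low h.1 h.2, d.O_eq, sc_spec d.orth, sc_spec d.orth]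
  refine (wsum_le (g := fun i => 2 * (lam i - m * π i) ^ 2 + 8) fun i => ?_).trans (le_of_eq ?_)
  · have h1 := low_nonneg h.1 (d.nn i)
    have h2 := low_le h.1 (d.nn i)
    have h3 : (lam i / (1 + η * lam i)) ^ 2 ≤ lam i ^ 2 := by gcongr
    rcases d.cases i with ⟨h4, h5⟩ | h4
    · rw [h4, h5]; norm_num
    · rw [h4]; nlinarith [sq_nonneg (lam i - 2 * m)]
  · simp only [mul_add, sum_add_distrib, ← sum_mul, row_sq d.orth, mul_sum]
    congr 1
    · exact sum_congr rfl fun i _ => by ring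
    · simp

/-- The second divided difference. -/
lemma Low.second (h₁ : Low η₁ N N₁) (h₂ : Low η₂ N N₂) (hN : CP U N) (c₁ : CP U N₁)
    (c₂ : CP U N₂) : ip N N₂ - ip N₂ N₁ = η₁ * ip (N₁ * N₂) N := by
  obtain ⟨W, lam, π, d⟩ := exists_SD hN.cent hN.psd
  have := c₁
  have := c₂
  rw [d.low h₁.1 h₁.2, d.low h₂.1 h₂.2, d.N_eq, spec_mul d.orth]
  simp only [ip_spec_spec d.orth, mul_sum, ← sum_sub_distrib]
  refine sum_congr rfl fun i _ => ?_
  have := low_sub h₁.1 (d.nn i)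
  linear_combination (lam i / (1 + η₂ * lam i)) * this

/-- The norm bound: an eigenvalue `λ` contributes `λ ^ 3 / ((1 + η₁ λ) (1 + η₂ λ)) ≤ T`; the case
`η₁ λ > 1` is impossible. -/
theorem norm_bound (h₁ : Low η₁ N N₁) (h₂ : Low η₂ N N₂) (hN : CP U N) (c₁ : CP U N₁)
    (c₂ : CP U N₂) (h12 : η₂ ≤ η₁) (hT : ip (N₁ * N₂) N ≤ T) (hs : 4 * η₁ ^ 3 * T ≤ 1)
    (hν : 0 ≤ ν) (hν' : 4 * T ≤ ν ^ 3) : Top N ν ∧ ip (N * N) N ≤ 4 * T := by
  obtain ⟨W, lam, π, d⟩ := exists_SD hN.cent hN.psd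
  have := c₁
  have := c₂
  rw [d.low h₁.1 h₁.2, d.low h₂.1 h₂.2, d.N_eq, spec_mul d.orth, ip_spec_spec d.orth] at hT
  have h1 : ∀ i, lam i / (1 + η₁ * lam i) * (lam i / (1 + η₂ * lam i)) * lam i ≤ T := fun i =>
    (single_le_sum (f := fun i => lam i / (1 + η₁ * lam i) * (lam i / (1 + η₂ * lam i)) * lam i)
      (fun j _ => mul_nonneg (mul_nonneg (low_nonneg h₁.1 (d.nn j)) (low_nonneg h₂.1 (d.nn j)))
        (d.nn j)) (mem_univ i)).trans hT
  have h2 := fun i => norm_scalar h₂.1 h12 (d.nn i) (h1 i) hs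
  rw [d.N_eq, spec_mul d.orth, ip_spec_spec d.orth]
  refine ⟨top_spec d.orth fun i => ?_, ?_⟩
  · refine le_of_pow_le_pow_left₀ three_ne_zero hν ?_
    linarith [h1 i, h2 i]
  · refine le_trans (sum_le_sum fun i _ => ?_) (mul_le_mul_of_nonneg_left hT (by norm_num)
      |>.trans' (mul_sum _ _ _).ge)
    exact le_trans (le_of_eq (by ring)) (h2 i)

/-- Diagonal form of `o ^ 2 ≤ (1 + η ν) (1 + η m) o (f λ - f m)` for `f λ = λ / (1 + η λ)`. -/
theorem Low.sc_two (h : Low η N N₁) (hN : CP U N) (h₁ : CP U N₁) (hη : 0 < η) (hT : Top N ν)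
    (hν : 0 ≤ ν) (hm : 0 ≤ m) (k : H) : sc (N - m • proj U) k ≤ (1 + η * ν) * (1 + η * m) *
      (proj U k k * ((m - m₁) / η - m * m₁)
        + ((N - m • proj U) k k - (N₁ - m₁ • proj U) k k) / η
        - m / (1 + η * m) * (N - m • proj U) k k - m * (N₁ - m₁ • proj U) k k) := by
  obtain ⟨W, lam, π, d⟩ := exists_SD hN.cent hN.psd
  have := h₁
  rw [d.N_eq] at hT
  rw [d.O_eq, d.low h.1 h.2, d.P_eq, spec_sub_smul, sc_spec d.orth]
  simp only [spec_diag]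
  refine (wsum_le (g := fun i => (1 + η * ν) * (1 + η * m) * (π i * ((m - m₁) / η - m * m₁)
      + ((lam i - m * π i) - (lam i / (1 + η * lam i) - m₁ * π i)) / η
      - m / (1 + η * m) * (lam i - m * π i) - m * (lam i / (1 + η * lam i) - m₁ * π i)))
      fun i => ?_).trans (le_of_eq ?_)
  · rcases d.cases i with ⟨h4, h5⟩ | h4
    · rw [h4, h5]; simp
    · rw [h4]
      simpa using two_scalar (m₁ := m₁) hη (d.nn i) (hT.le_spec d.orth i) hm
  · have := hν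
    simp only [mul_sum, sum_mul, sum_div, ← sum_sub_distrib, ← sum_add_distrib]
    exact sum_congr rfl fun i _ => by ring

/-- Lower points are contractions: `|f λ - f m| ≤ |λ - m|`. -/
theorem Low.sc_low (h : Low η N N₁) (hN : CP U N) (h₁ : CP U N₁) (hm : 0 ≤ m) {γ δ : ℝ}
    (hγ : 0 < γ) (hδ : |m / (1 + η * m) - m₁| ≤ δ) (k : H) :
    sc (N₁ - m₁ • proj U) k ≤
      (1 + γ) * sc (N - m • proj U) k + (1 + 1 / γ) * δ ^ 2 * proj U k k := by
  obtain ⟨W, lam, π, d⟩ := exists_SD hN.cent hN.psd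
  have := h₁
  rw [d.O_eq, d.low h.1 h.2, d.P_eq, spec_sub_smul, sc_spec d.orth, sc_spec d.orth, spec_diag]
  refine (wsum_le (g := fun i => (1 + γ) * (lam i - m * π i) ^ 2 + (1 + 1 / γ) * δ ^ 2 * π i)
      fun i => ?_).trans (le_of_eq ?_)
  · rcases d.cases i with ⟨h4, h5⟩ | h4
    · rw [h4, h5]; simp
    · rw [h4]
      simpa using low_scalar h.1 (d.nn i) hm hγ hδ
  · simp only [mul_sum, ← sum_add_distrib]
    exact sum_congr rfl fun i _ => by ring

theorem Low.T4_le (h : Low η N N₁) (hN : CP U N) (h₁ : CP U N₁) (hT : Top N ν) (hν : 0 ≤ ν)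
    (hm0 : 0 ≤ m₁) (hm : m₁ ≤ 2) :
    T4 (N₁ - m₁ • proj U) ≤ 8 * (ν * ip (N * N) N + 16 * U.card) := by
  obtain ⟨W, lam, π, d⟩ := exists_SD hN.cent hN.psd
  have := h₁
  rw [d.N_eq] at hT
  have h0 := d.sum_pi_le
  rw [d.low h.1 h.2, d.P_eq, spec_sub_smul, T4, d.N_eq, spec_mul d.orth, spec_mul d.orth,
    ip_spec_spec d.orth, ip_spec_spec d.orth]
  refine (sum_le_sum (g := fun i => 8 * (ν * (lam i * lam i * lam i) + 16 * π i))
    fun i _ => ?_).trans ?_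
  · rcases d.cases i with ⟨h4, h5⟩ | h4
    · rw [h4, h5]; simp
    · rw [h4]
      have h1 := low_nonneg h.1 (d.nn i)
      have h2 := low_le h.1 (d.nn i)
      have h3 := hT.le_spec d.orth i
      have h5 := d.nn i
      set f := lam i / (1 + η * lam i)
      have h6 : (f - m₁ * 1) ^ 2 ≤ lam i ^ 2 + 4 := by nlinarith [mul_nonneg h1 hm0]
      have h7 : ((f - m₁ * 1) ^ 2) ^ 2 ≤ (lam i ^ 2 + 4) ^ 2 := by gcongr
      have h8 : lam i * (lam i * lam i * lam i) ≤ ν * (lam i * lam i * lam i) := by gcongr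
      have h9 : 0 ≤ ν * (lam i * lam i * lam i) := by positivity
      nlinarith [sq_nonneg (lam i ^ 2 - 4)]
  · rw [← mul_sum, sum_add_distrib, ← mul_sum, ← mul_sum]
    linarith

/-- `∑ |o ^ 2 - o₁ ^ 2| ≤ 6 (η + μ) ∑ (λ ^ 3 + 1)`. -/
theorem Low.gain_diff (h : Low η N N₁) (hN : CP U N) (h₁ : CP U N₁) (hm0 : 0 ≤ m) (hm : m ≤ 2)
    (hm₁0 : 0 ≤ m₁) (hm₁ : m₁ ≤ 2) {μ : ℝ} (hμ : |m - m₁| ≤ μ) (hF : QB F φ) (hφ : 0 ≤ φ) :
    |Yf (N - m • proj U) - Yf (N₁ - m₁ • proj U)| ≤ 6 * (η + μ) * (ip (N * N) N + U.card) ∧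
    |ip F ((N - m • proj U) * (N - m • proj U)) - ip F ((N₁ - m₁ • proj U) * (N₁ - m₁ • proj U))|
      ≤ φ * (6 * (η + μ) * (ip (N * N) N + U.card)) := by
  obtain ⟨W, lam, π, d⟩ := exists_SD hN.cent hN.psd
  have := h₁
  have h0 := d.sum_pi_le
  have hμ0 : 0 ≤ μ := (abs_nonneg _).trans hμ
  have hη := h.1
  have key : ∑ i, |(lam i - m * π i) ^ 2 - (lam i / (1 + η * lam i) - m₁ * π i) ^ 2| ≤
      6 * (η + μ) * (∑ i, lam i * lam i * lam i + U.card) := by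
    refine (sum_le_sum (g := fun i => 6 * (η + μ) * (lam i * lam i * lam i + π i))
      fun i _ => ?_).trans ?_
    · rcases d.cases i with ⟨h4, h5⟩ | h4
      · rw [h4, h5]; simp
      · rw [h4, mul_one, mul_one]
        exact (gain_scalar h.1 (d.nn i) hm0 hm hm₁0 hm₁ hμ).trans (le_of_eq (by ring))
    · rw [← mul_sum, sum_add_distrib]
      gcongr
  rw [d.O_eq, d.low h.1 h.2, d.P_eq, spec_sub_smul, d.N_eq, spec_mul d.orth, spec_mul d.orth,
    spec_mul d.orth, ip_spec_spec d.orth, Yf_spec d.orth, Yf_spec d.orth, ← sum_sub_distrib,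
    ← ip_sub_right]
  refine ⟨(abs_sum_le_sum_abs _ _).trans key, ?_⟩
  rw [← one_smul ℝ (spec W fun i => (lam i / (1 + η * lam i) - m₁ * π i) * _), spec_sub_smul]
  refine (abs_ip_spec_le hF d.orth _).trans (mul_le_mul_of_nonneg_left (le_trans (le_of_eq ?_) key)
    hφ)
  exact sum_congr rfl fun i _ => by congr 1; ring

/-- The payoff of the tilt: `∑ a ^ 2 o ^ 2 ≥ ∑ a ^ 2 λ ^ 2 / 2 - 4 ∑ a ^ 2` and
`(∑ a λ ^ 2) ^ 2 ≤ (∑ a ^ 2 λ ^ 2) (∑ λ ^ 2)`. -/
theorem payoff (h₁ : Low η₁ N N₁) (h₂ : Low η₂ N N₂) (hN : CP U N) (c₁ : CP U N₁)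
    (c₂ : CP U N₂) (hm0 : 0 ≤ m) (hm : m ≤ 2) {L T₂ : ℝ} (hL : 0 ≤ L) (hL' : L ≤ ip (N₁ * N₂) N)
    (hT : ip N N ≤ T₂) (hT0 : 0 < T₂) :
    L ^ 2 / (2 * T₂) - 4 * T₂ ≤ Yf (N₁ * (N - m • proj U)) := by
  obtain ⟨W, lam, π, d⟩ := exists_SD hN.cent hN.psd
  have := c₁
  have := c₂
  rw [d.low h₁.1 h₁.2, d.low h₂.1 h₂.2, d.N_eq, spec_mul d.orth, ip_spec_spec d.orth] at hL'
  rw [d.N_eq, ip_spec_spec d.orth] at hT
  rw [d.O_eq, d.low h₁.1 h₁.2, spec_mul d.orth, Yf_spec d.orth]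
  have a0 := fun i => low_nonneg h₁.1 (d.nn i)
  have a1 := fun i => low_le h₁.1 (d.nn i)
  set a : H → ℝ := fun i => lam i / (1 + η₁ * lam i) with ha
  have e1 : L ≤ ∑ i, (a i * lam i) * lam i := hL'.trans (sum_le_sum fun i _ => by
    have := d.nn i
    have := a0 i
    have := low_le h₂.1 (d.nn i)
    gcongr)
  have e2 : L ^ 2 ≤ (∑ i, (a i * lam i) ^ 2) * T₂ := by
    calc L ^ 2 ≤ (∑ i, (a i * lam i) * lam i) ^ 2 := by gcongr
      _ ≤ (∑ i, (a i * lam i) ^ 2) * ∑ i, lam i ^ 2 := sum_mul_sq_le_sq_mul_sq _ _ _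
      _ ≤ _ := by
        gcongr
        simpa only [sq] using hT
  have e3 : ∑ i, a i ^ 2 ≤ T₂ := le_trans (sum_le_sum fun i _ => by
    rw [sq]; exact mul_self_le_mul_self (a0 i) (a1 i)) hT
  have e4 : ∑ i, ((a i * lam i) ^ 2 / 2 - 4 * a i ^ 2) ≤ ∑ i, (a i * (lam i - m * π i)) ^ 2 := by
    refine sum_le_sum fun i _ => ?_
    have h3 : lam i ^ 2 / 2 - 4 ≤ (lam i - m * π i) ^ 2 := by
      rcases d.cases i with ⟨h4, h5⟩ | h4
      · rw [h4, h5]; norm_num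
      · rw [h4]; nlinarith [sq_nonneg (lam i - 2 * m)]
    calc (a i * lam i) ^ 2 / 2 - 4 * a i ^ 2 = a i ^ 2 * (lam i ^ 2 / 2 - 4) := by ring
      _ ≤ a i ^ 2 * (lam i - m * π i) ^ 2 := by gcongr
      _ = _ := by ring
  rw [sum_sub_distrib, ← sum_div, ← mul_sum] at e4
  have e5 : L ^ 2 / (2 * T₂) ≤ (∑ i, (a i * lam i) ^ 2) / 2 := by
    rw [div_le_div_iff₀ (by positivity) (by norm_num)]; linarith
  exact le_trans (by linarith) e4

/-- Bounds for `O = N - m P` from the top eigenvalue: `(o + m) (ν - o) ≥ 0`. -/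
theorem CP.bounds (hN : CP U N) (hT : Top N ν) (hν : 0 ≤ ν) (hm0 : 0 ≤ m) (hm : m ≤ 2) :
    OpB (N - m • proj U) (ν + 2) ∧
      ∀ k, sc (N - m • proj U) k ≤ (2 * ν + 2) * (1 + |(N - m • proj U) k k|) := by
  obtain ⟨W, lam, π, d⟩ := exists_SD hN.cent hN.psd
  rw [d.N_eq] at hT
  have h3 := hT.le_spec d.orth
  rw [d.O_eq]
  refine ⟨opB_spec d.orth fun i => ?_, fun k => ?_⟩
  · have := h3 i
    have := d.nn i
    rcases d.cases i with ⟨h4, h5⟩ | h4
    · rw [h4, h5]; simpa using sq_nonneg _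
    · rw [h4]; exact sq_le_sq' (by linarith) (by linarith)
  · rw [sc_spec d.orth]
    have h1 : ∑ i, W k i ^ 2 * (lam i - m * π i) ^ 2 ≤
        (ν - m) * spec W (fun i => lam i - m * π i) k k + m * ν := by
      refine (wsum_le (g := fun i => (ν - m) * (lam i - m * π i) + m * ν) fun i => ?_).trans
        (le_of_eq ?_)
      · have := h3 i
        have := d.nn i
        rcases d.cases i with ⟨h4, h5⟩ | h4
        · rw [h4, h5]; simpa using mul_nonneg hm0 hν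
        · rw [h4]; nlinarith [mul_nonneg this (show 0 ≤ ν - lam i + m by linarith)]
      · simp only [spec_diag, mul_add, sum_add_distrib, ← sum_mul, row_sq d.orth, mul_sum]
        congr 1
        · exact sum_congr rfl fun i _ => by ring
        · simp
    refine h1.trans ?_
    set z := spec W (fun i => lam i - m * π i) k k
    have h2 : (ν - m) * z ≤ (2 * ν + 2) * |z| := by
      refine (le_abs_self _).trans ?_
      rw [abs_mul]
      gcongr
      rw [abs_le]; constructor <;> linarith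
    nlinarith

/-- `N k h ^ 2 ≤ N k k * N h h`, `N k k ≤ m + d k` and `m ≤ √((m + d k) (m + d h))`. -/
theorem CP.ent (hN : CP U N) (hm0 : 0 ≤ m) (hU : 1000 ≤ U.card) {dd : H → ℝ}
    (hd : ∀ k, |(N - m • proj U) k k| ≤ dd k) : Ent dd m (N - m • proj U) := by
  intro k h hkh
  have hU' : (1000 : ℝ) ≤ U.card := by exact_mod_cast hU
  have hdd : ∀ k, 0 ≤ dd k := fun k => (abs_nonneg _).trans (hd k)
  have hk0 := hdd k
  have hh0 := hdd h
  have hdiag : ∀ k, N k k ≤ m + dd k := by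
    intro k
    have h1 := (le_abs_self _).trans (hd k)
    have h2 : proj U k k ≤ 1 := by
      unfold proj
      split_ifs <;> simp_all
    simp only [Matrix.sub_apply, Matrix.smul_apply, smul_eq_mul] at h1
    nlinarith
  have h1 : N k h ^ 2 ≤ (m + dd k) * (m + dd h) :=
    (psd_entry_sq hN.psd k h).trans (mul_le_mul (hdiag k) (hdiag h) hN.psd.diag_nonneg
      (by linarith))
  have h2 : m ^ 2 ≤ (m + dd k) * (m + dd h) := by nlinarith
  have h3 : |proj U k h| ≤ 1 / 1000 := by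
    unfold proj
    split_ifs
    · rw [zero_sub, abs_neg, abs_of_nonneg (by positivity)]
      gcongr
    · norm_num
  have h4 : (m * proj U k h) ^ 2 ≤ m ^ 2 * (1 / 1000) ^ 2 := by
    rw [mul_pow, ← sq_abs (proj U k h)]; gcongr
  simp only [Matrix.sub_apply, Matrix.smul_apply, smul_eq_mul]
  nlinarith [sq_nonneg (N k h / 1000 + m * proj U k h)]

lemma top_of_Yf (hm0 : 0 ≤ m) {y : ℝ} (hy : 0 ≤ y) (hY : Yf (N - m • proj U) ≤ y ^ 2) :
    Top N (m + y) := by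
  intro x
  have h1 := ((opB_fro (N - m • proj U)).mono (fro_nonneg _) (fro_le hy hY)).qb hy x
  have h2 := (opB_proj U).qb zero_le_one x
  rw [sub_mulVec, dotProduct_sub, smul_mulVec, dotProduct_smul, smul_eq_mul] at h1
  have h3 := (le_abs_self _).trans h1
  have h4 := mul_le_mul_of_nonneg_left ((le_abs_self _).trans h2) hm0
  linarith

omit [DecidableEq H] in
lemma T4_le_Yf_sq (O : Matrix H H ℝ) : T4 O ≤ Yf O ^ 2 := by
  rw [T4, Yf, ← fro_sq, ← fro_sq, sq (fro O)]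
  have := fro_nonneg (O * O)
  gcongr
  exact fro_mul_le O O

omit [DecidableEq H] in
/-- The crude bound: `Ξ ≤ n1 (Y + √(V Ξ))`. -/
lemma Xif_le {O : Matrix H H ℝ} {n1 : ℝ} (hn : 0 ≤ n1) (hs : ∀ k, sc O k ≤ n1 * (1 + |O k k|)) :
    Xif O ≤ 2 * n1 * Yf O + n1 ^ 2 * Vf O := by
  have h1 : Xif O ≤ ∑ k, (n1 * sc O k + (sc O k ^ 2 / 2 + n1 ^ 2 * O k k ^ 2 / 2)) := by
    refine sum_le_sum fun k _ => ?_
    have h2 := mul_le_mul_of_nonneg_left (hs k) (sc_nonneg O k)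
    rw [← sq_abs (O k k)]
    nlinarith [sq_nonneg (sc O k - n1 * |O k k|)]
  have := hn
  simp only [sum_add_distrib, ← mul_sum, ← sum_div, sum_sc] at h1
  unfold Vf
  unfold Xif at h1 ⊢
  linarith

omit [DecidableEq H] in
lemma OpB.cube_diag {O : Matrix H H ℝ} (hO : Oᵀ = O) (h : OpB O ν) (hν : 0 ≤ ν) :
    ∑ k, |(O * O * O) k k| ≤ ν * Yf O := by
  rw [← sum_sc, mul_sum]
  refine sum_le_sum fun k _ => ?_
  have h1 := h.qb hν fun l => O l k
  have h2 : (O * O * O) k k = qf O O k := by rw [qf_eq, hO]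
  rw [h2]
  simpa [qf, sc, dotProduct, sq] using h1

lemma ip_Osq_le (hN : CP U N) (hm0 : 0 ≤ m) (hm : m ≤ 2) (hX : X.PosSemidef) :
    ip X ((N - m • proj U) * (N - m • proj U)) ≤ 2 * ip X (N * N) + 8 * Zf X := by
  obtain ⟨W, lam, π, d⟩ := exists_SD hN.cent hN.psd
  rw [d.O_eq, d.N_eq, spec_mul d.orth, spec_mul d.orth, ← sum_qf d.orth, ip_spec, ip_spec,
    mul_sum, mul_sum, ← sum_add_distrib]
  refine sum_le_sum fun i _ => ?_
  have h1 : (lam i - m * π i) * (lam i - m * π i) ≤ 2 * (lam i * lam i) + 8 := by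
    rcases d.cases i with ⟨h4, h5⟩ | h4
    · rw [h4, h5]; norm_num
    · rw [h4]; nlinarith [sq_nonneg (lam i + m)]
  exact (mul_le_mul_of_nonneg_right h1 (qf_nonneg hX W i)).trans (le_of_eq (by ring))

/-- Cubic cross terms: `O N₁ O` is positive semidefinite and `O ^ 2 ≤ 2 N ^ 2 + 2 m ^ 2`. -/
theorem cross_bounds (hN : CP U N) (h₁ : CP U N₁) (hm0 : 0 ≤ m) (hm : m ≤ 2) (hm₁0 : 0 ≤ m₁)
    (hm₁ : m₁ ≤ 2) (hF : QB F φ) (hφ : 0 ≤ φ) :
    ∑ k, |((N - m • proj U) * (N₁ - m₁ • proj U) * (N - m • proj U)) k k| ≤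
        2 * ip (N * N) N₁ + 8 * Zf N₁ + 2 * Yf (N - m • proj U) ∧
      |ip F ((N - m • proj U) * (N₁ - m₁ • proj U) * (N - m • proj U))| ≤
        φ * (2 * ip (N * N) N₁ + 8 * Zf N₁ + 2 * Yf (N - m • proj U)) := by
  have hO : Cent U (N - m • proj U) := hN.cent.sub ((cent_proj U).smul m)
  have key := ip_Osq_le hN hm0 hm h₁.psd
  generalize N - m • proj U = O at hO key ⊢
  have hA := psd_conj hO.transpose h₁.psd
  have hB := psd_mul_self hO.transpose
  have e1 : O * (N₁ - m₁ • proj U) * O = O * N₁ * O - m₁ • (O * O) := by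
    rw [Matrix.mul_sub, Matrix.mul_smul, hO.mul_proj, Matrix.sub_mul, Matrix.smul_mul]
  have e2 : Zf (O * N₁ * O) = ip N₁ (O * O) := by
    rw [ip_eq_trace, h₁.cent.transpose, ← Matrix.mul_assoc, trace_mul_cycle]; rfl
  have e3 : Zf (O * O) = Yf O := by
    rw [← sum_sc, Zf]; simp only [sc_eq_of_symm hO.transpose]
  have e4 : 0 ≤ Yf O := ip_self_nonneg O
  have e5 : m₁ * Yf O ≤ 2 * Yf O := by gcongr
  rw [ip_comm N₁ (N * N)] at key
  rw [e1]
  constructor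
  · refine (sum_le_sum (g := fun k => (O * N₁ * O) k k + m₁ * (O * O) k k) fun k _ => ?_).trans ?_
    · rw [Matrix.sub_apply, Matrix.smul_apply, smul_eq_mul]
      refine (abs_sub _ _).trans (le_of_eq ?_)
      rw [abs_of_nonneg hA.diag_nonneg, abs_of_nonneg (mul_nonneg hm₁0 hB.diag_nonneg)]
    · rw [sum_add_distrib, ← mul_sum]
      unfold Zf at e2 e3
      rw [e2, e3]
      linarith
  · rw [ip_sub_right, ip_smul_right]
    refine (abs_sub _ _).trans ?_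
    have f1 := hF.ip_psd hA
    have f2 := hF.ip_psd hB
    rw [e2] at f1
    rw [e3] at f2
    rw [abs_mul, abs_of_nonneg hm₁0]
    calc |ip F (O * N₁ * O)| + m₁ * |ip F (O * O)| ≤ φ * ip N₁ (O * O) + m₁ * (φ * Yf O) := by
          gcongr
      _ = φ * (ip N₁ (O * O) + m₁ * Yf O) := by ring
      _ ≤ _ := by gcongr ?_ * ?_; linarith

/-- The cross loss of the tilt. -/
theorem cross_loss (hN : CP U N) (hX : CP U X) (hm0 : 0 ≤ m) (hm : m ≤ 2) :
    Yf (X * (N - m • proj U)) ≤ 2 * ip (N * N) (X * X) + 8 * Yf X := by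
  have hO : Cent U (N - m • proj U) := hN.cent.sub ((cent_proj U).smul m)
  have key := ip_Osq_le hN hm0 hm (psd_mul_self hX.cent.transpose)
  have e3 : Zf (X * X) = Yf X := by
    rw [← sum_sc, Zf]; simp only [sc_eq_of_symm hX.cent.transpose]
  rw [e3, ip_comm (X * X) (N * N)] at key
  refine le_trans (le_of_eq ?_) key
  rw [Yf, ip_mul_left, hX.cent.transpose, ← Matrix.mul_assoc, ip_comm, ip_mul_right, hO.transpose]

end Vale.Agent.P049
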