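import Vale.Agent.P049.Fro

/-!
Spectral calculus used in `Spec.lean`.
-/

namespace Vale.Agent.P049

open Matrix Finset

variable {H : Type} [Fintype H] [DecidableEq H]

/-- The matrix with eigenvectors the columns of `W` and eigenvalues `f`. -/
def spec (W : Matrix H H ℝ) (f : H → ℝ) : Matrix H H ℝ := W * diagonal f * Wᵀ

/-- The quadratic form of `X` at the column `i` of `W`. -/
def qf (W X : Matrix H H ℝ) (i : H) : ℝ := (fun k => W k i) ⬝ᵥ (X *ᵥ fun k => W k i)

variable {W : Matrix H H ℝ} {f g : H → ℝ}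

lemma spec_apply (W : Matrix H H ℝ) (f : H → ℝ) (k l : H) :
    spec W f k l = ∑ i, W k i * f i * W l i := by
  simp [spec, Matrix.mul_apply, diagonal_apply]

lemma spec_diag (W : Matrix H H ℝ) (f : H → ℝ) (k : H) :
    spec W f k k = ∑ i, W k i ^ 2 * f i := by
  rw [spec_apply]; exact sum_congr rfl fun i _ => by ring

lemma spec_mul (hW : Wᵀ * W = 1) (f g : H → ℝ) :
    spec W f * spec W g = spec W fun i => f i * g i := by
  unfold spec
  calc W * diagonal f * Wᵀ * (W * diagonal g * Wᵀ)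
      = W * (diagonal f * (Wᵀ * W) * diagonal g) * Wᵀ := by simp only [Matrix.mul_assoc]
    _ = _ := by rw [hW, Matrix.mul_one, diagonal_mul_diagonal]

lemma spec_add (W : Matrix H H ℝ) (f g : H → ℝ) :
    spec W f + spec W g = spec W fun i => f i + g i := by
  ext k l; simp only [Matrix.add_apply, spec_apply, ← sum_add_distrib]
  exact sum_congr rfl fun i _ => by ring

lemma spec_sub_smul (W : Matrix H H ℝ) (f g : H → ℝ) (m : ℝ) :
    spec W f - m • spec W g = spec W fun i => f i - m * g i := by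
  ext k l; simp only [Matrix.sub_apply, Matrix.smul_apply, smul_eq_mul, spec_apply, mul_sum,
    ← sum_sub_distrib]
  exact sum_congr rfl fun i _ => by ring

lemma spec_smul (W : Matrix H H ℝ) (f : H → ℝ) (m : ℝ) :
    m • spec W f = spec W fun i => m * f i := by
  ext k l; simp only [Matrix.smul_apply, smul_eq_mul, spec_apply, mul_sum]
  exact sum_congr rfl fun i _ => by ring

lemma spec_one (hW : Wᵀ * W = 1) : spec W (fun _ => 1) = 1 := by
  rw [spec, diagonal_one, Matrix.mul_one, mul_eq_one_comm.mp hW]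

lemma spec_transpose (W : Matrix H H ℝ) (f : H → ℝ) : (spec W f)ᵀ = spec W f := by
  simp [spec, Matrix.transpose_mul, Matrix.mul_assoc]

lemma col_sq (hW : Wᵀ * W = 1) (i : H) : ∑ k, W k i ^ 2 = 1 := by
  have := congrFun (congrFun hW i) i
  simpa [Matrix.mul_apply, sq] using this

lemma row_sq (hW : Wᵀ * W = 1) (k : H) : ∑ i, W k i ^ 2 = 1 := by
  have h : W * Wᵀ = 1 := mul_eq_one_comm.mp hW
  have := congrFun (congrFun h k) k
  simpa [Matrix.mul_apply, sq] using this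

lemma Zf_spec (hW : Wᵀ * W = 1) (f : H → ℝ) : Zf (spec W f) = ∑ i, f i := by
  simp only [Zf, spec_diag]
  rw [sum_comm]
  exact sum_congr rfl fun i _ => by rw [← sum_mul, col_sq hW, one_mul]

lemma ip_spec (W X : Matrix H H ℝ) (f : H → ℝ) : ip X (spec W f) = ∑ i, f i * qf W X i := by
  simp only [ip, spec_apply, qf, dotProduct, mulVec, mul_sum]
  rw [sum_comm]
  conv_rhs => rw [sum_comm]
  rw [sum_comm]
  refine sum_congr rfl fun k _ => ?_
  rw [sum_comm]
  exact sum_congr rfl fun i _ => sum_congr rfl fun l _ => by ring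

lemma col_dot (hW : Wᵀ * W = 1) (i : H) : ((fun k => W k i) ⬝ᵥ fun k => W k i) = 1 := by
  simpa [dotProduct, sq] using col_sq hW i

omit [DecidableEq H] in
lemma qf_nonneg {X : Matrix H H ℝ} (hX : X.PosSemidef) (W : Matrix H H ℝ) (i : H) :
    0 ≤ qf W X i := by
  simpa [qf] using hX.dotProduct_mulVec_nonneg fun k => W k i

lemma qf_abs_le {F : Matrix H H ℝ} {φ : ℝ} (hF : QB F φ) (hW : Wᵀ * W = 1) (i : H) :
    |qf W F i| ≤ φ := by
  simpa [qf, col_dot hW i] using hF fun k => W k i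

omit [DecidableEq H] in
lemma qf_eq (W X : Matrix H H ℝ) (i : H) : qf W X i = (Wᵀ * X * W) i i := by
  simp only [qf, dotProduct, mulVec, Matrix.mul_apply, transpose_apply, mul_sum, sum_mul]
  rw [sum_comm]
  exact sum_congr rfl fun k _ => sum_congr rfl fun l _ => by ring

lemma qf_spec (hW : Wᵀ * W = 1) (f : H → ℝ) (i : H) : qf W (spec W f) i = f i := by
  rw [qf_eq, spec, show Wᵀ * (W * diagonal f * Wᵀ) * W = (Wᵀ * W) * diagonal f * (Wᵀ * W) by
    simp only [Matrix.mul_assoc], hW]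
  simp

lemma sum_qf (hW : Wᵀ * W = 1) (X : Matrix H H ℝ) : ∑ i, qf W X i = Zf X := by
  have := ip_spec W X fun _ => 1
  rw [spec_one hW] at this
  simp only [one_mul] at this
  rw [← this]
  simp [ip, Zf, Matrix.one_apply]

lemma ip_spec_spec (hW : Wᵀ * W = 1) (f g : H → ℝ) :
    ip (spec W f) (spec W g) = ∑ i, f i * g i := by
  rw [ip_spec]; exact sum_congr rfl fun i _ => by rw [qf_spec hW, mul_comm]

lemma Yf_spec (hW : Wᵀ * W = 1) (f : H → ℝ) : Yf (spec W f) = ∑ i, f i ^ 2 := by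
  rw [Yf, ip_spec_spec hW]; exact sum_congr rfl fun i _ => by ring

omit [DecidableEq H] in
lemma sc_eq_of_symm {O : Matrix H H ℝ} (hO : Oᵀ = O) (k : H) : sc O k = (O * O) k k := by
  rw [sc, Matrix.mul_apply]
  refine sum_congr rfl fun l _ => ?_
  have := congrFun (congrFun hO l) k
  rw [transpose_apply] at this
  rw [this, sq]

lemma sc_spec (hW : Wᵀ * W = 1) (f : H → ℝ) (k : H) :
    sc (spec W f) k = ∑ i, W k i ^ 2 * f i ^ 2 := by
  rw [sc_eq_of_symm (spec_transpose W f), spec_mul hW, spec_diag]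
  exact sum_congr rfl fun i _ => by ring

lemma dot_spec (W : Matrix H H ℝ) (f x : H → ℝ) :
    x ⬝ᵥ (spec W f *ᵥ x) = ∑ i, f i * (Wᵀ *ᵥ x) i ^ 2 := by
  rw [spec, ← mulVec_mulVec, ← mulVec_mulVec, dotProduct_mulVec, ← mulVec_transpose]
  simp only [dotProduct, mulVec_diagonal]
  exact sum_congr rfl fun i _ => by ring

lemma dot_self_eq (hW : Wᵀ * W = 1) (x : H → ℝ) : x ⬝ᵥ x = ∑ i, (Wᵀ *ᵥ x) i ^ 2 := by
  have := dot_spec W (fun _ => 1) x
  rw [spec_one hW, one_mulVec] at this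
  simpa using this

lemma top_spec (hW : Wᵀ * W = 1) {ν : ℝ} (h : ∀ i, f i ≤ ν) : Top (spec W f) ν := by
  intro x
  rw [dot_spec, dot_self_eq hW, mul_sum]
  exact sum_le_sum fun i _ => mul_le_mul_of_nonneg_right (h i) (sq_nonneg _)

lemma Top.le_spec (hW : Wᵀ * W = 1) {ν : ℝ} (h : Top (spec W f) ν) (i : H) : f i ≤ ν := by
  have := h fun k => W k i
  rw [col_dot hW, mul_one] at this
  exact (qf_spec hW f i).ge.trans this

lemma opB_spec (hW : Wᵀ * W = 1) {ν : ℝ} (h : ∀ i, f i ^ 2 ≤ ν ^ 2) : OpB (spec W f) ν := by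
  intro x
  rw [dotProduct_mulVec, ← mulVec_transpose, spec_transpose, mulVec_mulVec, spec_mul hW,
    dotProduct_comm]
  exact top_spec hW (fun i => by simpa [sq] using h i) x

lemma exists_spec {A : Matrix H H ℝ} (hA : Aᵀ = A) :
    ∃ (W : Matrix H H ℝ) (f : H → ℝ), Wᵀ * W = 1 ∧ A = spec W f := by
  have h : A.IsHermitian := by
    rw [IsHermitian, conjTranspose_eq_transpose_of_trivial, hA]
  refine ⟨h.eigenvectorUnitary, h.eigenvalues, ?_, ?_⟩
  · have := h.eigenvectorUnitary.2.1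
    rwa [star_eq_conjTranspose, conjTranspose_eq_transpose_of_trivial] at this
  · have := h.spectral_theorem
    rw [Unitary.conjStarAlgAut_apply, star_eq_conjTranspose,
      conjTranspose_eq_transpose_of_trivial] at this
    exact this

omit [Fintype H] [DecidableEq H] in
lemma psd_symm {A : Matrix H H ℝ} (hA : A.PosSemidef) : Aᵀ = A := by
  have := hA.1
  rwa [IsHermitian, conjTranspose_eq_transpose_of_trivial] at this

lemma exists_spec_psd {A : Matrix H H ℝ} (hA : A.PosSemidef) :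
    ∃ (W : Matrix H H ℝ) (f : H → ℝ), Wᵀ * W = 1 ∧ A = spec W f ∧ ∀ i, 0 ≤ f i := by
  obtain ⟨W, f, hW, h⟩ := exists_spec (psd_symm hA)
  refine ⟨W, f, hW, h, fun i => ?_⟩
  have := qf_nonneg hA W i
  rwa [h, qf_spec hW] at this

omit [DecidableEq H] in
lemma psd_mul_self {O : Matrix H H ℝ} (hO : Oᵀ = O) : (O * O).PosSemidef := by
  have := posSemidef_conjTranspose_mul_self O
  rwa [conjTranspose_eq_transpose_of_trivial, hO] at this

omit [DecidableEq H] in
lemma psd_conj {O X : Matrix H H ℝ} (hO : Oᵀ = O) (hX : X.PosSemidef) :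
    (O * X * O).PosSemidef := by
  have := hX.conjTranspose_mul_mul_same O
  rwa [conjTranspose_eq_transpose_of_trivial, hO] at this

lemma psd_proj (U : Finset H) : (proj U).PosSemidef := by
  have := psd_mul_self (cent_proj U).transpose
  rwa [proj_mul_proj] at this

/-- Simultaneous diagonalization of a centered positive semidefinite matrix and the projection. -/
structure SD (U : Finset H) (N W : Matrix H H ℝ) (lam π : H → ℝ) : Prop where
  orth : Wᵀ * W = 1
  N_eq : N = spec W lam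
  P_eq : proj U = spec W π
  nn : ∀ i, 0 ≤ lam i
  cases : ∀ i, (π i = 0 ∧ lam i = 0) ∨ π i = 1

lemma exists_SD {U : Finset H} {N : Matrix H H ℝ} (hc : Cent U N) (hp : N.PosSemidef) :
    ∃ W lam π, SD U N W lam π := by
  obtain ⟨W, μ, hW, hA, -⟩ := exists_spec_psd (hp.add (psd_proj U))
  set π : H → ℝ := fun i => if μ i = 0 then 0 else 1 with hπ
  have hAW : (N + proj U) * W = W * diagonal μ := by
    rw [hA, spec, Matrix.mul_assoc, hW, Matrix.mul_one]
  have h1 : proj U * W * diagonal μ = W * diagonal μ := by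
    rw [Matrix.mul_assoc, ← hAW, ← Matrix.mul_assoc, Matrix.mul_add, hc.proj_mul, proj_mul_proj]
  have hPW : proj U * W = W * diagonal π := by
    ext k i
    rw [mul_diagonal]
    by_cases h0 : μ i = 0
    · have h2 : qf W N i + qf W (proj U) i = 0 := by
        rw [← h0, ← qf_spec hW μ i, ← hA]
        simp [qf, add_mulVec]
      have h3 := qf_nonneg hp W i
      have h4 := qf_nonneg (psd_proj U) W i
      have h5 : ∑ l, (proj U * W) l i ^ 2 = 0 := by
        have : qf W (proj U) i = ((proj U * W)ᵀ * (proj U * W)) i i := by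
          rw [qf_eq, Matrix.transpose_mul, (cent_proj U).transpose, Matrix.mul_assoc,
            Matrix.mul_assoc, ← Matrix.mul_assoc (proj U), proj_mul_proj]
        rw [Matrix.mul_apply] at this
        simp only [transpose_apply, ← sq] at this
        linarith
      have h6 := (sum_eq_zero_iff_of_nonneg fun l _ => sq_nonneg _).mp h5 k (mem_univ _)
      simp [hπ, h0, pow_eq_zero_iff (two_ne_zero)] at h6 ⊢
      exact h6
    · have := congrFun (congrFun h1 k) i
      rw [mul_diagonal, mul_diagonal] at this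
      simp [hπ, h0, mul_right_cancel₀ h0 this]
  have hP : proj U = spec W π := by
    rw [spec, ← hPW, Matrix.mul_assoc, mul_eq_one_comm.mp hW, Matrix.mul_one]
  have hN : N = spec W fun i => μ i - 1 * π i := by
    rw [← spec_sub_smul, ← hA, ← hP]; simp
  refine ⟨W, _, π, hW, hN, hP, fun i => ?_, fun i => ?_⟩
  · have := qf_nonneg hp W i
    rwa [hN, qf_spec hW] at this
  · by_cases h0 : μ i = 0 <;> simp [hπ, h0]

lemma SD.low {U : Finset H} {N N₁ : Matrix H H ℝ} {lam π : H → ℝ} {η : ℝ} (h : SD U N W lam π)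
    (hη : 0 ≤ η) (hl : N = N₁ + η • (N₁ * N)) :
    N₁ = spec W fun i => lam i / (1 + η * lam i) := by
  have hpos : ∀ i, 0 < 1 + η * lam i := fun i => by have := h.nn i; positivity
  have h1 : N₁ * spec W (fun i => 1 + η * lam i) = spec W lam := by
    rw [← spec_add, ← spec_smul, spec_one h.orth, ← h.N_eq, Matrix.mul_add, Matrix.mul_one,
      Matrix.mul_smul, ← hl]
  have h2 := congrArg (· * spec W fun i => (1 + η * lam i)⁻¹) h1
  simp only [Matrix.mul_assoc, spec_mul h.orth] at h2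
  rw [show (fun i => (1 + η * lam i) * (1 + η * lam i)⁻¹) = fun _ => (1 : ℝ) from
    funext fun i => mul_inv_cancel₀ (hpos i).ne', spec_one h.orth, Matrix.mul_one] at h2
  exact h2

lemma SD.O_eq {U : Finset H} {N : Matrix H H ℝ} {lam π : H → ℝ} (h : SD U N W lam π) (m : ℝ) :
    N - m • proj U = spec W fun i => lam i - m * π i := by
  rw [← spec_sub_smul, ← h.N_eq, ← h.P_eq]

lemma Zf_proj_le (U : Finset H) : Zf (proj U) ≤ U.card := by
  rcases U.eq_empty_or_nonempty with rfl | hU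
  · simp [Zf, proj]
  · rw [Zf_proj hU]; linarith

lemma SD.sum_pi_le {U : Finset H} {N : Matrix H H ℝ} {lam π : H → ℝ} (h : SD U N W lam π) :
    ∑ i, π i ≤ U.card := by
  rw [← Zf_spec h.orth, ← h.P_eq]; exact Zf_proj_le U

lemma ip_spec_mono {X : Matrix H H ℝ} (hX : X.PosSemidef) (h : ∀ i, f i ≤ g i) :
    ip X (spec W f) ≤ ip X (spec W g) := by
  rw [ip_spec, ip_spec]
  exact sum_le_sum fun i _ => mul_le_mul_of_nonneg_right (h i) (qf_nonneg hX W i)

lemma abs_ip_spec_le {F : Matrix H H ℝ} {φ : ℝ} (hF : QB F φ) (hW : Wᵀ * W = 1) (f : H → ℝ) :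
    |ip F (spec W f)| ≤ φ * ∑ i, |f i| := by
  rw [ip_spec, mul_sum]
  refine (abs_sum_le_sum_abs _ _).trans (sum_le_sum fun i _ => ?_)
  rw [abs_mul, mul_comm]
  exact mul_le_mul_of_nonneg_right (qf_abs_le hF hW i) (abs_nonneg _)

omit [DecidableEq H] in
lemma wsum_le {k : H} (h : ∀ i, f i ≤ g i) :
    ∑ i, W k i ^ 2 * f i ≤ ∑ i, W k i ^ 2 * g i :=
  sum_le_sum fun i _ => mul_le_mul_of_nonneg_left (h i) (sq_nonneg _)

lemma psd_entry_sq {N : Matrix H H ℝ} (hN : N.PosSemidef) (k h : H) :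
    N k h ^ 2 ≤ N k k * N h h := by
  obtain ⟨W, f, -, rfl, hf⟩ := exists_spec_psd hN
  rw [spec_apply, spec_diag, spec_diag]
  exact sum_sq_le_sum_mul_sum_of_sq_le_mul _ (fun i _ => mul_nonneg (sq_nonneg _) (hf i))
    (fun i _ => mul_nonneg (sq_nonneg _) (hf i)) fun i _ => le_of_eq (by ring)

/-! Scalar inequalities. -/

lemma low_nonneg {η x : ℝ} (hη : 0 ≤ η) (hx : 0 ≤ x) : 0 ≤ x / (1 + η * x) := by positivity

lemma low_le {η x : ℝ} (hη : 0 ≤ η) (hx : 0 ≤ x) : x / (1 + η * x) ≤ x :=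
  div_le_self hx (by nlinarith [mul_nonneg hη hx])

lemma low_sub {η x : ℝ} (hη : 0 ≤ η) (hx : 0 ≤ x) :
    x - x / (1 + η * x) = η * (x / (1 + η * x) * x) := by
  have : 0 < 1 + η * x := by positivity
  field_simp; ring

lemma low_diff {η x y : ℝ} (hη : 0 ≤ η) (hx : 0 ≤ x) (hy : 0 ≤ y) :
    x / (1 + η * x) - y / (1 + η * y) = (x - y) / ((1 + η * x) * (1 + η * y)) := by
  have : 0 < 1 + η * x := by positivity
  have : 0 < 1 + η * y := by positivity
  field_simp; ring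

lemma low_le_inv {η x : ℝ} (hη : 0 < η) (hx : 0 ≤ x) : x / (1 + η * x) ≤ 1 / η := by
  rw [div_le_div_iff₀ (by positivity) hη]; linarith

lemma norm_scalar {η₁ η₂ x T : ℝ} (h2 : 0 ≤ η₂) (h12 : η₂ ≤ η₁) (hx : 0 ≤ x)
    (hT : x / (1 + η₁ * x) * (x / (1 + η₂ * x)) * x ≤ T) (hs : 4 * η₁ ^ 3 * T ≤ 1) :
    x ^ 3 ≤ 4 * (x / (1 + η₁ * x) * (x / (1 + η₂ * x)) * x) := by
  have h1 : 0 ≤ η₁ := h2.trans h12
  have p1 : 0 < 1 + η₁ * x := by positivity
  have p2 : 0 < 1 + η₂ * x := by positivity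
  have e : x / (1 + η₁ * x) * (x / (1 + η₂ * x)) * x = x ^ 3 / ((1 + η₁ * x) * (1 + η₂ * x)) := by
    field_simp
  rw [e] at hT ⊢
  have h21 : 1 + η₂ * x ≤ 1 + η₁ * x := by nlinarith
  have hT0 : 0 ≤ T := le_trans (by positivity) hT
  have key : η₁ * x ≤ 1 := by
    by_contra hc
    push Not at hc
    rw [div_le_iff₀ (by positivity)] at hT
    have a1 : (1 + η₁ * x) * (1 + η₂ * x) ≤ (2 * (η₁ * x)) * (2 * (η₁ * x)) := by
      gcongr <;> linarith
    have a2 : x ^ 3 ≤ T * ((2 * (η₁ * x)) * (2 * (η₁ * x))) := hT.trans (by gcongr)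
    have a3 : η₁ * x ^ 3 ≤ (4 * η₁ ^ 3 * T) * x ^ 2 := by
      calc η₁ * x ^ 3 ≤ η₁ * (T * ((2 * (η₁ * x)) * (2 * (η₁ * x)))) := by gcongr
        _ = _ := by ring
    have a4 : (4 * η₁ ^ 3 * T) * x ^ 2 ≤ 1 * x ^ 2 := by gcongr
    have hx0 : 0 < x := by
      rcases hx.eq_or_lt with h | h
      · rw [← h] at hc; linarith
      · exact h
    have a5 : 1 * x ^ 2 < (η₁ * x) * x ^ 2 := by gcongr
    nlinarith
  rw [← mul_div_assoc, le_div_iff₀ (by positivity)]
  have a1 : (1 + η₁ * x) * (1 + η₂ * x) ≤ 2 * 2 := by gcongr <;> linarith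
  calc x ^ 3 * ((1 + η₁ * x) * (1 + η₂ * x)) ≤ x ^ 3 * (2 * 2) := by gcongr
    _ = _ := by ring

lemma two_scalar {η ν m m₁ x : ℝ} (hη : 0 < η) (hx : 0 ≤ x) (hν : x ≤ ν) (hm : 0 ≤ m) :
    (x - m) ^ 2 ≤ (1 + η * ν) * (1 + η * m) * (((m - m₁) / η - m * m₁)
      + ((x - m) - (x / (1 + η * x) - m₁)) / η - m / (1 + η * m) * (x - m)
      - m * (x / (1 + η * x) - m₁)) := by
  have p1 : 0 < 1 + η * x := by positivity
  have p2 : 0 < 1 + η * m := by positivity
  have e : (1 + η * ν) * (1 + η * m) * (((m - m₁) / η - m * m₁)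
      + ((x - m) - (x / (1 + η * x) - m₁)) / η - m / (1 + η * m) * (x - m)
      - m * (x / (1 + η * x) - m₁)) = (x - m) ^ 2 * ((1 + η * ν) / (1 + η * x)) := by
    field_simp; ring
  rw [e]
  refine le_mul_of_one_le_right (sq_nonneg _) ?_
  rw [one_le_div p1]; nlinarith

lemma low_scalar {η m m₁ x γ δ : ℝ} (hη : 0 ≤ η) (hx : 0 ≤ x) (hm : 0 ≤ m) (hγ : 0 < γ)
    (hδ : |m / (1 + η * m) - m₁| ≤ δ) :
    (x / (1 + η * x) - m₁) ^ 2 ≤ (1 + γ) * (x - m) ^ 2 + (1 + 1 / γ) * δ ^ 2 := by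
  set a := x / (1 + η * x) - m / (1 + η * m) with ha
  set b := m / (1 + η * m) - m₁ with hb
  have h1 : a ^ 2 ≤ (x - m) ^ 2 := by
    rw [ha, low_diff hη hx hm, div_pow]
    refine div_le_self (sq_nonneg _) (one_le_pow₀ ?_)
    have := mul_nonneg hη hx
    have := mul_nonneg hη hm
    nlinarith
  have h2 : b ^ 2 ≤ δ ^ 2 := by
    rw [← sq_abs]; gcongr
  have h3 : (a + b) ^ 2 ≤ (1 + γ) * a ^ 2 + (1 + 1 / γ) * b ^ 2 := by
    have : (1 + γ) * a ^ 2 + (1 + 1 / γ) * b ^ 2 - (a + b) ^ 2 = (γ * a - b) ^ 2 / γ := by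
      field_simp; ring
    have h4 : 0 ≤ (γ * a - b) ^ 2 / γ := by positivity
    linarith
  rw [show x / (1 + η * x) - m₁ = a + b by rw [ha, hb]; ring]
  refine h3.trans ?_
  gcongr

lemma gain_scalar {η m m₁ x μ : ℝ} (hη : 0 ≤ η) (hx : 0 ≤ x) (hm0 : 0 ≤ m) (hm : m ≤ 2)
    (hm₁0 : 0 ≤ m₁) (hm₁ : m₁ ≤ 2) (hμ : |m - m₁| ≤ μ) :
    |(x - m) ^ 2 - (x / (1 + η * x) - m₁) ^ 2| ≤ 6 * (η + μ) * (x ^ 3 + 1) := by
  have f0 := low_nonneg hη hx
  have f1 := low_le hη hx
  have f2 := low_sub hη hx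
  set f := x / (1 + η * x)
  have hμ0 : 0 ≤ μ := (abs_nonneg _).trans hμ
  have h1 : |(x - m) - (f - m₁)| ≤ η * x ^ 2 + μ := by
    rw [show (x - m) - (f - m₁) = (x - f) - (m - m₁) by ring]
    refine (abs_sub _ _).trans (add_le_add ?_ hμ)
    rw [abs_of_nonneg (by linarith), f2, sq]
    gcongr
  have h2 : |(x - m) + (f - m₁)| ≤ 2 * x + 4 := by
    rw [abs_le]; constructor <;> linarith
  rw [sq_sub_sq, abs_mul]
  have h3 : x ^ 2 ≤ x ^ 3 + 1 := by nlinarith [mul_nonneg hx (sq_nonneg (x - 1)), sq_nonneg (x - 1)]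
  have h4 : x ≤ x ^ 3 + 1 := by nlinarith [mul_nonneg hx (sq_nonneg (x - 1)), sq_nonneg (x - 1)]
  have h5 : 0 ≤ x ^ 3 := by positivity
  calc |(x - m) + (f - m₁)| * |(x - m) - (f - m₁)| ≤ (2 * x + 4) * (η * x ^ 2 + μ) := by gcongr
    _ = η * (2 * x ^ 3 + 4 * x ^ 2) + μ * (2 * x + 4) := by ring
    _ ≤ η * (6 * (x ^ 3 + 1)) + μ * (6 * (x ^ 3 + 1)) := by gcongr <;> linarith
    _ = _ := by ring

end Vale.Agent.P049
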