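import Vale.Agent.P049.Spec
import Vale.Agent.P049.Avg

/-!
The tilt and the construction of averaging contexts.
-/

namespace Vale.Agent.P049

open Matrix Finset

variable {H : Type} [Fintype H] [DecidableEq H]

omit [DecidableEq H] in
lemma tilt_Yf_add (A B : Matrix H H ℝ) : Yf (A + B) ≤ 2 * Yf A + 2 * Yf B := by
  simp only [Yf, ip, Matrix.add_apply, mul_sum, ← sum_add_distrib]
  exact sum_le_sum fun k _ => sum_le_sum fun l _ => by nlinarith [sq_nonneg (A k l - B k l)]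

omit [DecidableEq H] in
lemma tilt_Yf_neg (A : Matrix H H ℝ) : Yf (-A) = Yf A := by
  simp [Yf, ip]

omit [DecidableEq H] in
lemma tilt_Yf_mul {A : Matrix H H ℝ} {ν : ℝ} (h : OpB A ν) (hν : 0 ≤ ν) (B : Matrix H H ℝ) :
    Yf (A * B) ≤ ν ^ 2 * Yf B := by
  rw [Yf, Yf, ← fro_sq, ← fro_sq, ← mul_pow]
  exact pow_le_pow_left₀ (fro_nonneg _) (h.fro_mul_le hν B) 2

lemma tilt_Yf_diag {O : Matrix H H ℝ} (hO : Oᵀ = O) (c : H → ℝ) :
    Yf (diagonal c * O) = ∑ h, c h ^ 2 * sc O h := by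
  simp only [Yf, ip, diagonal_mul, sc, mul_sum]
  refine sum_congr rfl fun k _ => sum_congr rfl fun l _ => ?_
  have := congrFun (congrFun hO k) l
  rw [transpose_apply] at this
  rw [this]; ring

lemma tilt_ip {A O : Matrix H H ℝ} (hA : Aᵀ = A) (hO : Oᵀ = O) (c : H → ℝ) :
    ip (diagonal c * (A * A) * diagonal c) (O * O) = Yf (A * (diagonal c * O)) := by
  rw [Yf, ip_eq_trace, ip_eq_trace]
  simp only [Matrix.transpose_mul, hA, hO, diagonal_transpose, Matrix.mul_assoc]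
  rw [trace_mul_comm O]
  simp only [Matrix.mul_assoc]

omit [DecidableEq H] in
lemma tilt_cs {A B : Matrix H H ℝ} {a b : ℝ} (ha : 0 ≤ a) (hb : 0 ≤ b) (h1 : Xif A ≤ a ^ 2)
    (h2 : Xif B ≤ b ^ 2) : ∑ h, sc A h * sc B h ≤ a * b := by
  refine le_trans (le_abs_self _) (abs_le_of_sq_le_sq ?_ (mul_nonneg ha hb))
  refine (sum_mul_sq_le_sq_mul_sq _ _ _).trans ?_
  rw [mul_pow]
  exact mul_le_mul h1 h2 (sum_nonneg fun _ _ => sq_nonneg _) (sq_nonneg _)

lemma tilt_solve {att aff atf aft P tt tf tm : ℝ} (hP : 0 < P) (h1 : 9 * P ≤ att)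
    (h2 : 9 * P ≤ aff) (h3 : 0 ≤ atf) (h4 : atf ≤ 4 * P) (h5 : 0 ≤ aft) (h6 : aft ≤ 4 * P)
    (ht : 0 ≤ tt ∧ tt ≤ tm) (hf : 0 ≤ tf ∧ tf ≤ tm) :
    ∃ l₁ l₂ : ℝ, 0 ≤ l₁ ∧ l₁ ≤ tm / P ∧ 0 ≤ l₂ ∧ l₂ ≤ tm / P ∧ l₁ * att - l₂ * aft = tt ∧
      l₁ * atf - l₂ * aff = -tf := by
  have e1 : aft * atf ≤ 4 * P * (4 * P) := by gcongr
  have e2 : 9 * P * aff ≤ att * aff := by gcongr; linarith
  have e3 : att * (9 * P) ≤ att * aff := by gcongr; linarith
  have e4 : P * aft ≤ P * (4 * P) := by gcongr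
  have e5 : P * atf ≤ P * (4 * P) := by gcongr
  have e6 : P * (9 * P) ≤ P * aff := by gcongr
  have e7 : P * (9 * P) ≤ P * att := by gcongr
  have e8 : 0 < P * P := by positivity
  have hD : 0 < att * aff - aft * atf := by nlinarith
  have htm : 0 ≤ tm := ht.1.trans ht.2
  have hatt : 0 ≤ att := by linarith
  have haff : 0 ≤ aff := by linarith
  have := ht.1
  have := hf.1
  refine ⟨(aff * tt + aft * tf) / (att * aff - aft * atf),
    (atf * tt + att * tf) / (att * aff - aft * atf), by positivity, ?_, by positivity, ?_, ?_, ?_⟩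
  · rw [div_le_div_iff₀ hD hP]
    calc (aff * tt + aft * tf) * P ≤ (aff * tm + aft * tm) * P := by
          gcongr
          · exact ht.2
          · exact hf.2
      _ = tm * (P * aff + P * aft) := by ring
      _ ≤ _ := by gcongr; linarith
  · rw [div_le_div_iff₀ hD hP]
    calc (atf * tt + att * tf) * P ≤ (atf * tm + att * tm) * P := by
          gcongr
          · exact ht.2
          · exact hf.2
      _ = tm * (P * atf + P * att) := by ring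
      _ ≤ _ := by gcongr; linarith
  · rw [div_mul_eq_mul_div, div_mul_eq_mul_div, ← sub_div, div_eq_iff hD.ne']; ring
  · rw [div_mul_eq_mul_div, div_mul_eq_mul_div, ← sub_div, div_eq_iff hD.ne']; ring

/-- The properties of one truncated square. -/
lemma tilt_one {U : Finset H} {A : Matrix H H ℝ} {ν K : ℝ} (hA : Cent U A) (hop : OpB A ν)
    (hK : 0 ≤ K) {c : H → ℝ} (hc : ∀ h, c h = 0 ∨ (c h = 1 ∧ sc A h ≤ K)) :
    (∀ k l, (diagonal c * (A * A) * diagonal c) k l = (diagonal c * (A * A) * diagonal c) l k) ∧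
    (∀ k l, k ∉ U → (diagonal c * (A * A) * diagonal c) k l = 0) ∧
    (∀ k l, |(diagonal c * (A * A) * diagonal c) k l| ≤ K) ∧
    QB (diagonal c * (A * A) * diagonal c) (ν ^ 2) ∧
    ∀ h, ∑ h', (diagonal c * (A * A) * diagonal c) h h' ^ 2 ≤ ν ^ 2 * K := by
  have hs : ∀ k l, (A * A) k l = ∑ j, A j k * A j l := fun k l => by
    rw [Matrix.mul_apply]; exact sum_congr rfl fun j _ => by rw [hA.symm k j]
  have hc1 : ∀ h, c h ^ 2 ≤ 1 := fun h => by
    rcases hc h with h0 | ⟨h0, -⟩ <;> simp [h0]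
  refine ⟨fun k l => ?_, fun k l hk => ?_, fun k l => ?_, fun x => ?_, fun h => ?_⟩
  · simp only [mul_diagonal, diagonal_mul, hs, mul_comm (A _ k)]; ring
  · rw [mul_diagonal, diagonal_mul, Matrix.mul_apply]
    simp [hA.supp k _ hk]
  · rw [mul_diagonal, diagonal_mul]
    rcases hc k with h0 | ⟨h0, h1⟩
    · simpa [h0] using hK
    rcases hc l with h2 | ⟨h2, h3⟩
    · simpa [h2] using hK
    rw [h0, h2, one_mul, mul_one, hs]
    refine (abs_sum_le_sum_abs _ _).trans ((sum_le_sum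
      (g := fun j => A j k ^ 2 / 2 + A j l ^ 2 / 2) fun j _ => ?_).trans ?_)
    · rw [abs_le]
      constructor <;> nlinarith [sq_nonneg (A j k - A j l), sq_nonneg (A j k + A j l)]
    · rw [sum_add_distrib, ← sum_div, ← sum_div]
      unfold sc at h1 h3
      linarith
  · have e1 : x ⬝ᵥ ((diagonal c * (A * A) * diagonal c) *ᵥ x) =
        (A *ᵥ (diagonal c *ᵥ x)) ⬝ᵥ (A *ᵥ (diagonal c *ᵥ x)) := by
      rw [← mulVec_mulVec, ← mulVec_mulVec, ← mulVec_mulVec, dotProduct_mulVec,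
        ← mulVec_transpose, diagonal_transpose, dotProduct_mulVec, ← mulVec_transpose,
        hA.transpose]
    have e2 : (diagonal c *ᵥ x) ⬝ᵥ (diagonal c *ᵥ x) ≤ x ⬝ᵥ x := by
      simp only [dotProduct, mulVec_diagonal]
      exact sum_le_sum fun i _ => by nlinarith [hc1 i, mul_self_nonneg (x i)]
    rw [e1, abs_of_nonneg (sum_nonneg fun _ _ => mul_self_nonneg _)]
    exact (hop _).trans (mul_le_mul_of_nonneg_left e2 (sq_nonneg _))
  · rcases hc h with h0 | ⟨h0, h1⟩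
    · simp only [mul_diagonal, diagonal_mul, h0, zero_mul]
      simp; positivity
    have e1 := hop fun j => A j h
    calc ∑ h', (diagonal c * (A * A) * diagonal c) h h' ^ 2 ≤ ∑ h', (A * A) h h' ^ 2 := by
          refine sum_le_sum fun h' _ => ?_
          rw [mul_diagonal, diagonal_mul, h0, one_mul, mul_pow]
          exact mul_le_of_le_one_right (sq_nonneg _) (hc1 h')
      _ = (A *ᵥ fun j => A j h) ⬝ᵥ (A *ᵥ fun j => A j h) := by
          simp only [dotProduct, mulVec, hs, sq, hA.symm _ h]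
          refine sum_congr rfl fun h' _ => ?_
          simp only [hA.symm h', mul_comm]
      _ ≤ ν ^ 2 * sc A h := by simpa [sc, dotProduct, sq] using e1
      _ ≤ _ := by gcongr

/-- Let `χ` be the diagonal projection on the rows with `sc (Na s) h ≤ K` for both `s`, and
`F s = χ (Na s) (Na s) χ`, so `ip (F s) (O t * O t) = Yf (Na s * χ * O t)`. At most
`2 ξa ^ 2 / K ^ 2` rows are heavy, so `Yf (Na s * (1 - χ) * O t) ≤ νa ^ 2 * 2 ξa ξ / K ≤ Pi`; hence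
the diagonal pairings are at least `9 Pi` and the others at most `4 Pi`. Solve the `2 × 2` system
for `F = l₊ F true - l₋ F false`; the solution has `0 ≤ l ≤ tm / Pi`. -/
theorem tilt {U : Finset H} {Na O : Bool → Matrix H H ℝ} {νa K Pi tm ξa ξ lam : ℝ} {t : Bool → ℝ}
    (hNa : ∀ s, Cent U (Na s)) (hO : ∀ s, Cent U (O s)) (hν : 0 ≤ νa) (hop : ∀ s, OpB (Na s) νa)
    (hK : 0 < K) (hPi : 0 < Pi) (hξa : 0 ≤ ξa) (hξ : 0 ≤ ξ) (h1 : ∀ s, Xif (Na s) ≤ ξa ^ 2)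
    (h2 : ∀ s, Xif (O s) ≤ ξ ^ 2) (hown : ∀ s, 20 * Pi ≤ Yf (Na s * O s))
    (hcr : ∀ s, Yf (Na (!s) * O s) ≤ Pi) (hh : νa ^ 2 * (2 * ξa * ξ / K) ≤ Pi)
    (ht : ∀ s, 0 ≤ t s ∧ t s ≤ tm) (hl : tm / Pi ≤ lam) (hlK : lam * K ≤ 1 / 2000) :
    ∃ F : Matrix H H ℝ, (∀ k l, F k l = F l k) ∧ (∀ k l, k ∉ U → F k l = 0) ∧
      (∀ k l, |F k l| ≤ 1 / 1000) ∧ QB F (2 * lam * νa ^ 2) ∧
      (∀ h, ∑ h', F h h' ^ 2 ≤ 4 * lam ^ 2 * νa ^ 2 * K) ∧
      ip F (O true * O true) = t true ∧ ip F (O false * O false) = -t false := by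
  set c : H → ℝ := fun h => if sc (Na true) h ≤ K ∧ sc (Na false) h ≤ K then 1 else 0 with hc
  have hc' : ∀ s h, c h = 0 ∨ (c h = 1 ∧ sc (Na s) h ≤ K) := by
    intro s h
    by_cases h0 : sc (Na true) h ≤ K ∧ sc (Na false) h ≤ K
    · refine Or.inr ⟨if_pos h0, ?_⟩
      cases s
      · exact h0.2
      · exact h0.1
    · exact Or.inl (if_neg h0)
  have hheavy : ∀ s u, Yf (Na s * (diagonal (fun h => 1 - c h) * O u)) ≤ Pi := by
    intro s u
    refine (tilt_Yf_mul (hop s) hν _).trans (le_trans ?_ hh)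
    gcongr
    rw [tilt_Yf_diag (hO u).transpose, le_div_iff₀ hK, sum_mul]
    have e1 := tilt_cs hξa hξ (h1 true) (h2 u)
    have e2 := tilt_cs hξa hξ (h1 false) (h2 u)
    refine (sum_le_sum (g := fun h => sc (Na true) h * sc (O u) h + sc (Na false) h * sc (O u) h)
      fun h _ => ?_).trans (by rw [sum_add_distrib]; linarith)
    have a1 := sc_nonneg (Na true) h
    have a2 := sc_nonneg (Na false) h
    have a3 := sc_nonneg (O u) h
    by_cases h0 : sc (Na true) h ≤ K ∧ sc (Na false) h ≤ K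
    · simp only [hc, if_pos h0]
      simp; positivity
    · simp only [hc, if_neg h0]
      have a4 : K ≤ sc (Na true) h + sc (Na false) h := by
        rcases not_and_or.mp h0 with h3 | h3 <;> linarith [not_le.mp h3]
      nlinarith [mul_le_mul_of_nonneg_right a4 a3]
  have hsplit : ∀ s u, Na s * O u =
      Na s * (diagonal c * O u) + Na s * (diagonal (fun h => 1 - c h) * O u) := by
    intro s u
    rw [← Matrix.mul_add, ← Matrix.add_mul, diagonal_add]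
    simp
  have hown' : ∀ s, 9 * Pi ≤ Yf (Na s * (diagonal c * O s)) := by
    intro s
    have e1 := hown s
    rw [hsplit] at e1
    linarith [tilt_Yf_add (Na s * (diagonal c * O s)) (Na s * (diagonal (fun h => 1 - c h) * O s)),
      hheavy s s]
  have hcr' : ∀ s, Yf (Na (!s) * (diagonal c * O s)) ≤ 4 * Pi := by
    intro s
    have e1 := tilt_Yf_add (Na (!s) * O s) (-(Na (!s) * (diagonal (fun h => 1 - c h) * O s)))
    rw [tilt_Yf_neg] at e1
    nth_rewrite 1 [hsplit] at e1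
    rw [add_neg_cancel_right] at e1
    linarith [hcr s, hheavy (!s) s]
  obtain ⟨l₁, l₂, a1, a2, a3, a4, a5, a6⟩ := tilt_solve hPi (hown' true) (hown' false)
    (ip_self_nonneg _) (hcr' false) (ip_self_nonneg _) (hcr' true) (ht true) (ht false)
  have b2 := a2.trans hl
  have b4 := a4.trans hl
  obtain ⟨p1, p2, p3, p4, p5⟩ := tilt_one (hNa true) (hop true) hK.le (hc' true)
  obtain ⟨q1, q2, q3, q4, q5⟩ := tilt_one (hNa false) (hop false) hK.le (hc' false)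
  have r1 := fun u => tilt_ip (hNa true).transpose (hO u).transpose c
  have r2 := fun u => tilt_ip (hNa false).transpose (hO u).transpose c
  generalize diagonal c * (Na true * Na true) * diagonal c = Ft at p1 p2 p3 p4 p5 r1
  generalize diagonal c * (Na false * Na false) * diagonal c = Ff at q1 q2 q3 q4 q5 r2
  have hab : ∀ x y z : ℝ, |x| ≤ z → |y| ≤ z → |l₁ * x - l₂ * y| ≤ 2 * lam * z := by
    intro x y z hx hy
    refine (abs_sub _ _).trans ?_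
    rw [abs_mul, abs_mul, abs_of_nonneg a1, abs_of_nonneg a3]
    have : l₁ * |x| ≤ lam * z := mul_le_mul b2 hx (abs_nonneg _) (a1.trans b2)
    have : l₂ * |y| ≤ lam * z := mul_le_mul b4 hy (abs_nonneg _) (a1.trans b2)
    linarith
  refine ⟨l₁ • Ft - l₂ • Ff, fun k l => ?_, fun k l hk => ?_, fun k l => ?_, fun x => ?_,
    fun h => ?_, ?_, ?_⟩
  · simp [p1 k l, q1 k l]
  · simp [p2 k l hk, q2 k l hk]
  · exact (hab _ _ _ (p3 k l) (q3 k l)).trans (by linarith)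
  · rw [sub_mulVec, smul_mulVec, smul_mulVec, dotProduct_sub, dotProduct_smul, dotProduct_smul]
    exact (hab _ _ _ (p4 x) (q4 x)).trans (le_of_eq (by ring))
  · refine (sum_le_sum (g := fun h' => 2 * lam ^ 2 * Ft h h' ^ 2 + 2 * lam ^ 2 * Ff h h' ^ 2)
      fun h' _ => ?_).trans ?_
    · simp only [Matrix.sub_apply, Matrix.smul_apply, smul_eq_mul]
      have e1 : l₁ ^ 2 * Ft h h' ^ 2 ≤ lam ^ 2 * Ft h h' ^ 2 := by gcongr
      have e2 : l₂ ^ 2 * Ff h h' ^ 2 ≤ lam ^ 2 * Ff h h' ^ 2 := by gcongr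
      nlinarith [sq_nonneg (l₁ * Ft h h' + l₂ * Ff h h')]
    · rw [sum_add_distrib, ← mul_sum, ← mul_sum]
      have e1 := mul_le_mul_of_nonneg_left (p5 h) (show 0 ≤ 2 * lam ^ 2 by positivity)
      have e2 := mul_le_mul_of_nonneg_left (q5 h) (show 0 ≤ 2 * lam ^ 2 by positivity)
      linarith
  · rw [ip_sub_left, ip_smul_left, ip_smul_left, r1, r2]; exact a5
  · rw [ip_sub_left, ip_smul_left, ip_smul_left, r1, r2]; exact a6

/-- Construction of a context. Take `dd h = √(∑ i ∈ I, O i h h ^ 2)` and let `Pr` be the allowed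
pairs with `th (O i) ≤ 1 / 1000` for all `i ∈ I`; a pair outside `Pr` is forbidden or has
`10 ^ 6 * ∑ i, th (O i) ^ 2 ≥ 1` (`th_row`, `th_tot`). -/
theorem exists_ctx {ι : Type} (I : Finset ι) (c : Num) (hc : c.Ok) (U : Finset H)
    (hU : (U.card : ℝ) = c.σ ^ 2) (al : H → H → Prop) [DecidableRel al]
    (hal : ∀ h h', al h h' → h ∈ U ∧ h' ∈ U ∧ h ≠ h') (hsymm : ∀ h h', al h h' → al h' h)
    {D : ℝ} (hD : ∀ h ∈ U, ((U.filter fun h' => ¬ al h h').card : ℝ) ≤ D)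
    (F : Matrix H H ℝ) (f1 : ∀ k l, F k l = F l k) (f2 : ∀ k l, k ∉ U → F k l = 0)
    (f3 : ∀ k l, |F k l| ≤ 1 / 1000) (f4 : QB F c.φ) {fr : ℝ} (f5 : ∀ h, ∑ h', F h h' ^ 2 ≤ fr)
    (p : ι → Par) (O : ι → Matrix H H ℝ) (o1 : ∀ i ∈ I, Cent U (O i))
    (o2 : ∀ i ∈ I, |(p i).A1| ≤ c.a ∧ |(p i).A0| ≤ 2 ∧ |(p i).vp| ≤ 2)
    (o3 : ∑ i ∈ I, Vf (O i) ≤ c.v ^ 2)
    (o4 : ∀ i ∈ I, Yf (O i) ≤ c.y ^ 2 ∧ Xif (O i) ≤ c.ξ ^ 2 ∧ T4 (O i) ≤ c.t ^ 2 ∧ OpB (O i) c.nu)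
    (o5 : ∀ i ∈ I, ∀ h, sc (O i) h ≤ c.n1 * (1 + |O i h h|))
    (n1 : fr + D + 10 ^ 6 * I.card *
      (3 * (c.n1 + 2 * c.a ^ 2 * c.σ ^ 2 + 2 * c.a ^ 2 * c.v ^ 2 + c.v ^ 2)) ≤ c.Θr ^ 2)
    (n2 : D * c.σ ^ 2 + 10 ^ 6 * I.card * c.Θt ^ 2 ≤ c.Θ ^ 2) :
    ∃ c' : Ctx H, c'.toNum = c ∧ c'.U = U ∧ c'.F = F ∧ c'.Ok ∧ (∀ i ∈ I, c'.Pt (p i) (O i)) ∧
      ∀ pr ∈ c'.Pr, al pr.1 pr.2 := by
  classical
  set dd : H → ℝ := fun h => √(∑ i ∈ I, O i h h ^ 2) with hdd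
  let c0 : Ctx H := { c with U := U, Pr := ∅, F := F, dd := dd }
  let Pr : Finset (H × H) :=
    univ.filter fun pr => al pr.1 pr.2 ∧ ∀ i ∈ I, c0.th (O i) pr.1 pr.2 ≤ 1 / 1000
  let c' : Ctx H := { c with U := U, Pr := Pr, F := F, dd := dd }
  have hd0 : ∀ h, 0 ≤ dd h := fun h => Real.sqrt_nonneg _
  have hdiag : ∀ i ∈ I, ∀ h, |O i h h| ≤ dd h := fun i hi h =>
    Real.abs_le_sqrt (single_le_sum (f := fun i => O i h h ^ 2) (fun _ _ => sq_nonneg _) hi)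
  have hv : ∑ h ∈ U, dd h ^ 2 ≤ c.v ^ 2 := by
    refine le_trans ?_ o3
    simp only [hdd, Real.sq_sqrt (sum_nonneg fun _ _ => sq_nonneg _)]
    rw [sum_comm]
    exact sum_le_sum fun i hi => ((o1 i hi).Vf_eq).ge
  have hs : ∀ i ∈ I, ∀ h, sc (O i) h ≤ c.n1 * (1 + dd h) := fun i hi h =>
    (o5 i hi h).trans (by have := hdiag i hi h; have := hc.n1_ge; gcongr)
  have hrow := fun i (hi : i ∈ I) => th_row (c := c0) hc hU hd0 hv (o1 i hi) (hs i hi)
  have htot := fun i (hi : i ∈ I) => th_tot (c := c0) hc hU hd0 hv (o1 i hi) (o4 i hi).1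
  have hmem : ∀ h h', (h, h') ∈ Pr ↔ al h h' ∧ ∀ i ∈ I, c0.th (O i) h h' ≤ 1 / 1000 := by
    intro h h'; simp [Pr]
  have hnn : ∀ h h', (0 : ℝ) ≤ (if ¬ al h h' then 1 else 0) +
      10 ^ 6 * ∑ i ∈ I, c0.th (O i) h h' ^ 2 := fun h h' => by positivity
  have hout : ∀ h h', (h, h') ∉ Pr → (1 : ℝ) ≤ (if ¬ al h h' then 1 else 0) +
      10 ^ 6 * ∑ i ∈ I, c0.th (O i) h h' ^ 2 := by
    intro h h' hn
    have e0 : (0 : ℝ) ≤ 10 ^ 6 * ∑ i ∈ I, c0.th (O i) h h' ^ 2 := by positivity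
    by_cases ha : al h h'
    · rw [hmem, not_and] at hn
      have := hn ha
      push Not at this
      obtain ⟨i, hi, h1⟩ := this
      have e1 := single_le_sum (f := fun i => c0.th (O i) h h' ^ 2) (fun _ _ => sq_nonneg _) hi
      have e2 : (1 / 1000 : ℝ) ^ 2 ≤ c0.th (O i) h h' ^ 2 := by gcongr
      rw [if_neg (not_not.mpr ha)]
      linarith
    · rw [if_pos ha]; linarith
  have hsum : ∀ h ∈ U, ∑ h' ∈ U, ((if ¬ al h h' then 1 else 0) +
      10 ^ 6 * ∑ i ∈ I, c0.th (O i) h h' ^ 2) ≤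
        D + 10 ^ 6 * ∑ i ∈ I, ∑ h' ∈ U, c0.th (O i) h h' ^ 2 := by
    intro h hh
    rw [sum_add_distrib, ← mul_sum, sum_comm, sum_boole]
    linarith [hD h hh]
  refine ⟨c', rfl, rfl, rfl, ⟨hc, hU, fun pr hp => hal _ _ ((hmem _ _).mp hp).1,
    fun h h' hp => ?_, f1, f2, f3, f4, hd0, hv, fun h hh => ?_, ?_⟩, fun i hi => ⟨o1 i hi,
      (o2 i hi).1, (o2 i hi).2.1, (o2 i hi).2.2, hdiag i hi, fun pr hp => ((hmem _ _).mp hp).2 i hi,
      (o4 i hi).1, (o4 i hi).2.1, (o4 i hi).2.2.1, hs i hi, (o4 i hi).2.2.2⟩,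
    fun pr hp => ((hmem _ _).mp hp).1⟩
  · obtain ⟨a1, a2⟩ := (hmem _ _).mp hp
    refine (hmem _ _).mpr ⟨hsymm _ _ a1, fun i hi => le_trans (le_of_eq ?_) (a2 i hi)⟩
    simp only [Ctx.th, (o1 i hi).symm h' h]; ring
  · have e1 : ∑ h' ∈ U, c'.beta h h' ^ 2 ≤ ∑ h' ∈ U, (F h h' ^ 2 +
        ((if ¬ al h h' then 1 else 0) + 10 ^ 6 * ∑ i ∈ I, c0.th (O i) h h' ^ 2)) := by
      refine sum_le_sum fun h' _ => ?_
      by_cases hp : (h, h') ∈ Pr
      · have : c'.beta h h' = F h h' := if_pos hp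
        rw [this]; linarith [hnn h h']
      · have : c'.beta h h' = 1 := if_neg hp
        rw [this]; linarith [hout h h' hp, sq_nonneg (F h h')]
    rw [sum_add_distrib] at e1
    have e2 : ∑ h' ∈ U, F h h' ^ 2 ≤ fr :=
      (sum_le_sum_of_subset_of_nonneg (subset_univ _) fun _ _ _ => sq_nonneg _).trans (f5 h)
    have e3 := hsum h hh
    have e4 := (sum_le_card_nsmul I _ _ fun i hi => hrow i hi h)
    rw [nsmul_eq_mul] at e4
    have e5 : 0 ≤ fr + D := add_nonneg ((sum_nonneg fun _ _ => sq_nonneg _).trans e2)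
      ((Nat.cast_nonneg _).trans (hD h hh))
    have e6 : 1 ≤ (1 + dd h) ^ 2 := one_le_pow₀ (by linarith [hd0 h])
    have e7 := mul_le_mul_of_nonneg_right n1 (sq_nonneg (1 + dd h))
    have e8 := mul_le_mul_of_nonneg_left e6 e5
    change ∑ h' ∈ U, c'.beta h h' ^ 2 ≤ c.Θr ^ 2 * (1 + dd h) ^ 2
    change ∑ i ∈ I, ∑ h' ∈ U, c0.th (O i) h h' ^ 2 ≤ I.card *
      (3 * (c.n1 + 2 * c.a ^ 2 * c.σ ^ 2 + 2 * c.a ^ 2 * c.v ^ 2 + c.v ^ 2) * (1 + dd h) ^ 2) at e4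
    linarith
  · have e1 : ∑ h ∈ U, ∑ h' ∈ U, (1 : ℝ) ≤ ∑ h ∈ U, ∑ h' ∈ U, ((if (h, h') ∈ Pr then 1 else 0) +
        ((if ¬ al h h' then 1 else 0) + 10 ^ 6 * ∑ i ∈ I, c0.th (O i) h h' ^ 2)) := by
      refine sum_le_sum fun h _ => sum_le_sum fun h' _ => ?_
      by_cases hp : (h, h') ∈ Pr
      · rw [if_pos hp]; linarith [hnn h h']
      · rw [if_neg hp]; linarith [hout h h' hp]
    have e2 : ∑ h ∈ U, ∑ h' ∈ U, (if (h, h') ∈ Pr then (1 : ℝ) else 0) ≤ Pr.card := by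
      rw [← sum_product', sum_boole]
      exact_mod_cast card_le_card fun pr hp => (mem_filter.mp hp).2
    have e3 := sum_le_sum hsum
    rw [sum_add_distrib (f := fun _ => D), ← mul_sum, sum_comm (t := I), sum_const, nsmul_eq_mul,
      hU] at e3
    have e4 := (sum_le_card_nsmul I _ _ fun i hi => htot i hi)
    rw [nsmul_eq_mul] at e4
    simp only [sum_add_distrib (f := fun h' => if (_, h') ∈ Pr then (1 : ℝ) else 0)] at e1
    rw [sum_add_distrib, sum_const, sum_const, nsmul_eq_mul, nsmul_eq_mul, hU] at e1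
    change c.σ ^ 4 - (Pr.card : ℝ) ≤ c.Θ ^ 2
    change ∑ i ∈ I, ∑ h ∈ U, ∑ h' ∈ U, c0.th (O i) h h' ^ 2 ≤ I.card * c.Θt ^ 2 at e4
    linarith

end Vale.Agent.P049
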