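import Vale.Agent.P049.PlanFacts
import Vale.Agent.P049.Tilt
import Vale.Agent.P049.Full
import Vale.Agent.P049.Norm
import Vale.Agent.P049.Nums

/-!
States of the algorithm and the exact effect of one move.
-/

namespace Vale.Agent.P049.Prm

open Matrix Finset

/-- A state: a simple partial matching inside the barrier. -/
structure St (P : Prm) (p : P.HE → P.HE) : Prop where
  inv : Function.Involutive p
  simple : Simple (vxf P.n P.d) p
  pd : P.PD p

variable {P : Prm} {p : P.HE → P.HE} {i j : Fin 4} {s : Bool} {S : ℕ}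

lemma card_free_le (p : P.HE → P.HE) : (free p).card ≤ P.S0 := by
  exact (card_le_univ _).trans_eq (Fintype.card_fin _)

lemma Np_eq (P : Prm) (s : Bool) (j : Fin 4) (p : P.HE → P.HE) :
    P.Op s j p + (P.m j (free p).card : ℝ) • proj (free p) = P.Np s j p := sub_add_cancel _ _

lemma card_add {h h' : P.HE} (ha : Allowed (vxf P.n P.d) p h h') :
    free (add p h h') = rem (free p) h h' ∧ (free (add p h h')).card = (free p).card - 2 ∧
      2 ≤ (free p).card := by
  have h1 := card_free_add ha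
  exact ⟨free_add ha.1 ha.2.1 fun e => ha.2.2.1 (by rw [e]), by omega, by omega⟩

lemma Act.three (hG : P.Good) (h : P.Act j S) : P.Act 3 S := by
  exact hG.act_three h

lemma Act.two (hG : P.Good) (h : P.Act 0 S) : P.Act j S := by
  have hS1 : P.S1 ≤ 2 * S := h.2
  exact hG.act_of_S1 h hS1 j

lemma Act.big (hG : P.Good) (h : P.Act j S) : Ex P.r 61739 ≤ S := by
  have h1 := hG.act_S' h
  have h2 := mul_Ex_le (k := 2) (a := 61739) (b := 61740) hG.one_lt (by linarith [hG.R_ge])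
    (by norm_num)
  linarith

lemma Good.gap_pos (hG : P.Good) (hi : P.Act i S) (hj : P.Act j S) (hij : i < j) :
    0 < P.gap i j S := by
  have h1 := (hG.gap_bd hi hj hij).1
  have h2 := hG.β_lt hij
  exact (mul_pos_iff_of_pos_left (by linarith [hG.one_lt] : (0 : ℝ) < P.r)).mp (by linarith)

/-- `posDef_lower`. -/
lemma St.pd_j (hG : P.Good) (hp : P.St p) (hj : P.Act j (free p).card) (s : Bool) :
    (P.Mp s j p).PosDef := by
  rcases (Fin.le_last j).lt_or_eq with h | h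
  · have h1 := hG.gap_pos hj (hj.three hG) h
    exact posDef_lower hp.inv (hp.pd s) (by unfold gap at h1; linarith)
  · rw [h]
    exact hp.pd s

lemma St.cp (hG : P.Good) (hp : P.St p) (hj : P.Act j (free p).card) (s : Bool) :
    CP (free p) (P.Np s j p) := by
  exact ⟨cent_Nm hp.inv, psd_Nm (hp.pd_j hG hj s)⟩

lemma St.cent (hp : P.St p) (s : Bool) (j : Fin 4) : Cent (free p) (P.Op s j p) := by
  exact (cent_Nm hp.inv).sub ((cent_proj _).smul _)

/-- `Nm_res`; for `i = j` the gap is zero. -/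
lemma St.low (hG : P.Good) (hp : P.St p) (hi : P.Act i (free p).card) (hj : P.Act j (free p).card)
    (hij : i ≤ j) (s : Bool) : Low (P.gap i j (free p).card) (P.Np s j p) (P.Np s i p) := by
  refine ⟨?_, Nm_res (hp.pd_j hG hi s).det_pos.ne'.isUnit (hp.pd_j hG hj s).det_pos.ne'.isUnit⟩
  rcases hij.lt_or_eq with h | h
  · exact (hG.gap_pos hi hj h).le
  · rw [h]
    exact (sub_self _).ge

lemma St.Zf_Np (hG : P.Good) (hp : P.St p) (hj : P.Act j (free p).card) (s : Bool) :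
    Zf (P.Np s j p) = Zf (P.Op s j p) + P.m j (free p).card * (((free p).card : ℝ) - 1) := by
  have := hp
  have h1 : (free p).Nonempty := by
    have h2 := hG.S_big hj
    rw [← card_pos]
    exact_mod_cast (show (0 : ℝ) < (free p).card by linarith)
  rw [← Np_eq, ← Zf_proj h1]
  simp [Zf, sum_add_distrib, mul_sum]

/-- `Low.Zf_sub`. -/
lemma St.ip_eq (hG : P.Good) (hp : P.St p) (hi : P.Act i (free p).card)
    (hj : P.Act j (free p).card) (hij : i < j) (s : Bool) :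
    ip (P.Np s j p) (P.Np s i p) = P.Tb i j (free p).card
      + (Zf (P.Op s j p) - Zf (P.Op s i p)) / P.gap i j (free p).card := by
  have h1 := (hp.low hG hi hj hij.le s).Zf_sub (hp.cp hG hj s).cent.transpose
    (hp.cp hG hi s).cent.transpose
  have h2 := hG.gap_pos hi hj hij
  rw [hp.Zf_Np hG hj, hp.Zf_Np hG hi] at h1
  rw [Tb, ← add_div, eq_div_iff h2.ne']
  linarith

/-- `Low.ip_le`. -/
lemma St.Dl_nonneg (hG : P.Good) (hp : P.St p) (h2 : P.Act 2 (free p).card) (s : Bool) :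
    0 ≤ P.Dl s p := by
  have h3 := h2.three hG
  exact sub_nonneg.2 ((hp.low hG h2 h3 (by decide) s).ip_le (hp.cp hG h3 s) (hp.cp hG h2 s)
    (hp.cp hG h3 (!s)).psd)

lemma St.PsiB_le (hG : P.Good) (hp : P.St p) (h2 : P.Act 2 (free p).card) :
    P.PsiB p ≤ P.PsiA p := by
  refine le_add_of_nonneg_right (sum_nonneg fun s _ => ?_)
  have h1 := hp.Dl_nonneg hG h2 s
  have h3 : 0 ≤ Vf (P.Op s 0 p) := sum_nonneg fun _ _ => sq_nonneg _
  exact add_nonneg (add_nonneg (div_nonneg (sq_nonneg _) (sq_nonneg _))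
    (div_nonneg h3 (pow_nonneg (Nat.cast_nonneg _) _)))
    (div_nonneg (mul_nonneg h1 (pow_nonneg (Nat.cast_nonneg _) _)) (Nat.cast_nonneg _))

/-- A context whose good pairs are allowed moves. -/
structure Fit (P : Prm) (p : P.HE → P.HE) (c : Ctx P.HE) : Prop where
  ok : c.Ok
  U : c.U = free p
  al : ∀ pr ∈ c.Pr, Allowed (vxf P.n P.d) p pr.1 pr.2

/-- `exists_ctx` with `al = Allowed`, `D = r` (`card_not_allowed`, `Allowed.symm`). -/
theorem St.exists_fit (hG : P.Good) (hp : P.St p) {ι : Type} (I : Finset ι) (hI : I.card ≤ 8)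
    (c : Num) (hc : c.Ok) (hU : ((free p).card : ℝ) = c.σ ^ 2) {fr : ℝ} (hn : c.CtxOk fr P.r)
    (F : Matrix P.HE P.HE ℝ) (f1 : ∀ k l, F k l = F l k) (f2 : ∀ k l, k ∉ free p → F k l = 0)
    (f3 : ∀ k l, |F k l| ≤ 1 / 1000) (f4 : QB F c.φ) (f5 : ∀ h, ∑ h', F h h' ^ 2 ≤ fr)
    (q : ι → Par) (O : ι → Matrix P.HE P.HE ℝ) (o1 : ∀ i ∈ I, Cent (free p) (O i))
    (o2 : ∀ i ∈ I, |(q i).A1| ≤ c.a ∧ |(q i).A0| ≤ 2 ∧ |(q i).vp| ≤ 2)
    (o3 : ∑ i ∈ I, Vf (O i) ≤ c.v ^ 2)
    (o4 : ∀ i ∈ I, Yf (O i) ≤ c.y ^ 2 ∧ Xif (O i) ≤ c.ξ ^ 2 ∧ T4 (O i) ≤ c.t ^ 2 ∧ OpB (O i) c.nu)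
    (o5 : ∀ i ∈ I, ∀ h, sc (O i) h ≤ c.n1 * (1 + |O i h h|)) :
    ∃ c' : Ctx P.HE, c'.toNum = c ∧ c'.F = F ∧ P.Fit p c' ∧ ∀ i ∈ I, c'.Pt (q i) (O i) := by
  classical
  have hI' : (I.card : ℝ) ≤ 8 := by exact_mod_cast hI
  have a1 : 0 ≤ c.n1 := le_trans zero_le_one hc.n1_ge
  obtain ⟨c', e1, e2, e3, e4, e5, e6⟩ := exists_ctx I c hc (free p) hU (Allowed (vxf P.n P.d) p)
    (fun h h' ha => ⟨by simpa [free] using ha.1, by simpa [free] using ha.2.1,
      fun e => ha.2.2.1 (by rw [e])⟩)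
    (fun h h' ha => ha.symm hp.inv) (D := P.r)
    (fun h hh => by
      have h1 := card_not_allowed (card_fiber P.n P.d) (p := p) (h := h) (by simpa [free] using hh)
      exact_mod_cast h1.trans hG.sizes.2.2.2.2.2)
    F f1 f2 f3 f4 f5 q O o1 o2 o3 o4 o5 (le_trans (by gcongr) hn.1) (le_trans (by gcongr) hn.2)
  exact ⟨c', e1, e3, ⟨e4, e2, e6⟩, e5⟩

variable {c : Ctx P.HE}

/-- One move. `update_posDef` and `update` (with `Ctx.Loc.R_pos`) at the old `g`, then
`posDef_shift` with `top_of_Yf` and `sharp_le`, then `Nm_res` and `shift_of_res`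
(`Good.basic`, `Good.step`). -/
theorem St.move (hG : P.Good) (hp : P.St p) (hc : P.Fit p c) (hj : P.Act j (free p).card)
    (hj' : P.Act j ((free p).card - 2)) (hpt : c.Pt (P.pr s j (free p).card) (P.Op s j p))
    (hz : |P.dg j (free p).card| * (c.nsh + 2) < 1) :
    (∀ pr ∈ c.Pr, (P.Mp s j (add p pr.1 pr.2)).PosDef) ∧
      ResStep c (P.pr s j (free p).card) (P.Op s j p) (P.m j (free p).card) (P.dg j (free p).card)
        (fun h h' => P.Np s j (add p h h')) ∧
      ∀ pr ∈ c.Pr, Shift (P.uu j (free p).card) (P.dg j (free p).card * P.uu j (free p).card)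
        (sharp (P.pr s j (free p).card) c.U (P.Op s j p) pr.1 pr.2) (P.Op s j (add p pr.1 pr.2)) := by
  obtain ⟨m0, m2, r1, -, g0, g1, eω, eρ⟩ := hG.basic hj
  obtain ⟨u1, u2, -⟩ := hG.step hj hj' (le_max_left _ (P.dx (free p).card * (free p).card))
    (le_max_right _ _)
  have hS : 3 ≤ (free p).card := by
    have h2 := hG.S_big hj
    exact_mod_cast (show (3 : ℝ) ≤ (free p).card by linarith)
  have hn := hc.ok.num.full_nsh
  have key : ∀ pr ∈ c.Pr, (P.Mp s j (add p pr.1 pr.2)).PosDef ∧ P.Np s j (add p pr.1 pr.2) =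
      (sharp (P.pr s j (free p).card) c.U (P.Op s j p) pr.1 pr.2
        + (P.m j (free p).card : ℝ) • proj (rem c.U pr.1 pr.2)) + P.dg j (free p).card •
      ((sharp (P.pr s j (free p).card) c.U (P.Op s j p) pr.1 pr.2
        + (P.m j (free p).card : ℝ) • proj (rem c.U pr.1 pr.2)) * P.Np s j (add p pr.1 pr.2)) := by
    intro pr hpr
    have ha := hc.al pr hpr
    have hne : pr.1 ≠ pr.2 := fun e => ha.2.2.1 (by rw [e])
    have hR : 0 < Rh (P.pr s j (free p).card) (P.Op s j p) pr.1 pr.2 :=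
      lt_of_lt_of_le (by norm_num) (hpt.loc hc.ok hpr).R_pos
    have hM := hp.pd_j hG hj s
    have h1 := update_posDef hp.inv ha.1 ha.2.1 hne hS (sg_cases s)
      (abs_lt.2 ⟨by linarith, g1⟩) eω eρ (by linarith) hM hR
    have h2 : Nm (vxf P.n P.d) P.E (sg s) (P.g j (free p).card) (add p pr.1 pr.2) =
        sharp (P.pr s j (free p).card) c.U (P.Op s j p) pr.1 pr.2
          + (P.m j (free p).card : ℝ) • proj (rem c.U pr.1 pr.2) := by
      rw [hc.U]
      exact (update hp.inv ha.1 ha.2.1 hne hS (sg_cases s) eω eρ (by linarith)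
        hM.det_pos.ne'.isUnit hR.ne').2
    have h3 : Top (Nm (vxf P.n P.d) P.E (sg s) (P.g j (free p).card) (add p pr.1 pr.2))
        (P.m j (free p).card + c.nsh) := by
      refine top_of_Yf (U := rem c.U pr.1 pr.2) m0.le hn ?_
      rw [h2, add_sub_cancel_right, Yf, ← fro_sq]
      exact pow_le_pow_left₀ (fro_nonneg _) (hpt.sharp_le hc.ok hpr) 2
    have h4 := posDef_shift (g' := P.g j ((free p).card - 2)) (add_invol hp.inv ha.1 ha.2.1) h1
      (by linarith) h3 (by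
        refine lt_of_le_of_lt ?_ hz
        exact mul_le_mul (le_abs_self (P.dg j (free p).card)) (by linarith) (by linarith)
          (abs_nonneg _))
    have h5 := Nm_res h1.det_pos.ne'.isUnit h4.det_pos.ne'.isUnit
    rw [h2] at h5
    unfold Mp Np
    rw [(card_add ha).2.1]
    exact ⟨h4, h5⟩
  refine ⟨fun pr hpr => (key pr hpr).1, fun pr hpr => (key pr hpr).2, fun pr hpr => ?_⟩
  have ha := hc.al pr hpr
  have h1 : Cent (rem c.U pr.1 pr.2) (P.Np s j (add p pr.1 pr.2)) := by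
    rw [hc.U, ← (card_add ha).1]
    exact cent_Nm (add_invol hp.inv ha.1 ha.2.1)
  have h2 := shift_of_res (hpt.cent.sharp _ pr.1 pr.2) h1 (key pr hpr).2 u1 u2
  unfold Op at h2 ⊢
  rw [(card_add ha).2.1, (card_add ha).1, ← hc.U]
  rw [← hc.U] at h2
  exact h2

lemma St.next (hp : P.St p) {h h' : P.HE} (ha : Allowed (vxf P.n P.d) p h h')
    (hd : P.PD (add p h h')) : P.St (add p h h') :=
  ⟨add_invol hp.inv ha.1 ha.2.1, ha.simple hp.inv hp.simple, hd⟩

/-- The total weight is close to `S ^ 2`. -/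
lemma Fit.N_near (hG : P.Good) (hc : P.Fit p c) {x : ℝ} (hx : ((free p).card : ℝ) = Ex P.r x)
    (hN : 2 * c.Θr * c.σ ^ 3 ≤ Ex P.r (2 * x - 3)) :
    ((free p).card : ℝ) ^ 2 / 2 ≤ c.N ∧
      c.N ≤ ((free p).card : ℝ) ^ 2 + Ex P.r (-2) * ((free p).card : ℝ) ^ 2 := by
  have h1 := abs_le.1 (hc.ok.N_sub.trans hN)
  have h2 : c.σ ^ 4 = ((free p).card : ℝ) ^ 2 := by
    rw [← hc.U, hc.ok.card]
    ring
  have h3 : Ex P.r (2 * x - 3) = Ex P.r (-3) * ((free p).card : ℝ) ^ 2 := by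
    rw [hx, hG.Ex_sq, Ex_mul hG.one_lt]
    ring_nf
  have h4 := mul_le_mul_of_nonneg_right (Ex_le (a := -3) (b := -2) hG.one_lt (by norm_num))
    (sq_nonneg ((free p).card : ℝ))
  have h5 := mul_le_mul_of_nonneg_right (hG.tiny' (a := -3) (by norm_num))
    (sq_nonneg ((free p).card : ℝ))
  rw [h2, h3] at h1
  constructor <;> linarith [h1.1, h1.2, sq_nonneg ((free p).card : ℝ)]

/-- From the averaged inequality to a move (`Ctx.Ok.exists_le`). -/
lemma Fit.pick (hG : P.Good) (hc : P.Fit p c) (hN : ((free p).card : ℝ) ^ 2 / 2 ≤ c.N)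
    {f : P.HE → P.HE → ℝ} {y : ℝ}
    (h : c.avg f - c.N * y ≤ 400 * Ex P.r (-2) * (free p).card) :
    ∃ pr ∈ c.Pr, f pr.1 pr.2 ≤ y + 1 / (P.r * (free p).card) := by
  have hS : (100 : ℝ) ≤ (free p).card := by
    rw [← hc.U]
    exact_mod_cast hc.ok.card_ge
  have hR := hG.R_ge
  have h0 : 0 < c.N := lt_of_lt_of_le (by positivity) hN
  refine hc.ok.exists_le h0 ?_
  have e1 : Ex P.r (-2) = 1 / (P.r : ℝ) ^ 2 := by
    rw [Ex_nat, Ex_inv hG.one_lt]
    norm_num
  have h1 : 400 * Ex P.r (-2) * (free p).card ≤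
      ((free p).card : ℝ) ^ 2 / 2 * (1 / (P.r * (free p).card)) := by
    rw [e1]
    generalize ((free p).card : ℝ) = T at hS
    generalize (P.r : ℝ) = R at hR
    have a1 : 0 < R := by linarith
    have a2 : 0 < T := by linarith
    have e2 : 400 * (1 / R ^ 2) * T = T / R * (400 / R) := by field_simp
    have e3 : T ^ 2 / 2 * (1 / (R * T)) = T / R * (1 / 2) := by field_simp
    rw [e2, e3]
    refine mul_le_mul_of_nonneg_left ?_ (by positivity)
    rw [div_le_iff₀ a1]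
    linarith
  have h2 := mul_le_mul_of_nonneg_right hN
    (show (0 : ℝ) ≤ 1 / (P.r * (free p).card) by positivity)
  linarith

/-- The coefficient of `Vf`: take for `Q` the bound of `Q4_le` with `τ = 1 / r`, `CP.ent`,
`Good.vp_m`. -/
lemma St.exists_Q (hG : P.Good) (hp : P.St p) (hc : P.Fit p c) (hj : P.Act j (free p).card)
    (hpt : c.Pt (P.pr s j (free p).card) (P.Op s j p)) {x : ℝ}
    (hx : ((free p).card : ℝ) = Ex P.r x) (hY : Yf (P.Op s j p) ≤ 12 * (free p).card)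
    (hv : |(P.pr s j (free p).card).vp| * Yf (P.Op s j p) ≤ (1 + Ex P.r (-2)) * (free p).card)
    (hQ : 40 * c.n1 * c.v ^ 2 / (1 / P.r) ^ 2 + 83 * c.v ^ 4 / (1 / P.r) ^ 4 ≤ Ex P.r (x - 1)) :
    Ent c.dd (P.m j (free p).card) (P.Op s j p) ∧ ∃ Q, Q4 (P.Op s j p) ≤ Q ∧ Q ≤ Ex P.r (x + 2) ∧
      3 * (P.pr s j (free p).card).vp ^ 2 * Q ≤ 2 * (free p).card := by
  obtain ⟨m0, m2, -⟩ := hG.basic hj
  have hS := hG.S_big hj
  have hR := hG.R_ge
  have he : Ent c.dd (P.m j (free p).card) (P.Op s j p) :=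
    (hp.cp hG hj s).ent m0.le (by exact_mod_cast (show (1000 : ℝ) ≤ (free p).card by linarith))
      hpt.diag
  have t0 : (0 : ℝ) < 1 / P.r := by positivity
  have t1 : (1 : ℝ) / P.r ≤ 1 := by
    rw [div_le_one (by linarith)]
    linarith
  have hq := hpt.Q4_le hc.ok m0.le m2 he t0 t1
  refine ⟨he, _, hq, ?_, ?_⟩
  · have a1 : (P.m j (free p).card + 1 / P.r : ℝ) ^ 2 ≤ 3 ^ 2 :=
      pow_le_pow_left₀ (by linarith) (by linarith) 2
    have a2 := mul_le_mul a1 hY (ip_self_nonneg _) (by norm_num)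
    have a3 := Ex_le (a := x - 1) (b := x) hG.one_lt (by linarith)
    have a4 := mul_Ex_le (k := 200) (a := x) (b := x + 2) hG.one_lt (by linarith) (by linarith)
    rw [← hx] at a3 a4
    linarith
  · have a1 := hG.vp_m hj s
    have a2 := (hG.pr_le hj s le_rfl).2.2.1
    have a3 := hG.tiny' (a := -2) (by norm_num)
    have a4 : Ex P.r (x - 1) ≤ 1 / 10 ^ 9 * (free p).card := by
      rw [hx, show x - 1 = -1 + x by ring, ← Ex_mul hG.one_lt]
      exact mul_le_mul_of_nonneg_right (hG.tiny' le_rfl) (Ex_pos hG.one_lt _).le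
    have a5 : 0 ≤ Yf (P.Op s j p) := ip_self_nonneg _
    have a6 := mul_le_mul a1 hv (by positivity) (by norm_num)
    have a7 := mul_le_mul_of_nonneg_right a3 (Nat.cast_nonneg (α := ℝ) (free p).card)
    have a8 : |(P.pr s j (free p).card).vp| ^ 2 ≤ 2 ^ 2 := pow_le_pow_left₀ (abs_nonneg _) a2 2
    have a9 := mul_le_mul_of_nonneg_left (hQ.trans a4) (sq_nonneg |(P.pr s j (free p).card).vp|)
    have a10 := mul_le_mul_of_nonneg_right a8
      (show (0 : ℝ) ≤ 1 / 10 ^ 9 * (free p).card by positivity)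
    rw [← sq_abs (P.pr s j (free p).card).vp]
    generalize 40 * c.n1 * c.v ^ 2 / (1 / (P.r : ℝ)) ^ 2 = A at *
    generalize 83 * c.v ^ 4 / (1 / (P.r : ℝ)) ^ 4 = B at *
    generalize (P.m j (free p).card + 1 / P.r : ℝ) ^ 2 = M at *
    generalize |(P.pr s j (free p).card).vp| = w at *
    linarith

end Vale.Agent.P049.Prm
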