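import Vale.Agent.P049.StepAAux

/-!
The first phase. Below `R = r`, `S = card (free p) = R ^ x`, `ε = R ^ (-2)`.
-/

namespace Vale.Agent.P049.Prm

open Matrix Finset

variable {P : Prm} {p : P.HE → P.HE} {j : Fin 4} {s : Bool} {c : Ctx P.HE}

/-- The gain of the tilt cancels the motion of the boundary at the near points. By
`Good.mismatch`, `ρ (S - 2)` times the expression is
`S Y j (2 ω j + 2 sg) + dx S ^ 2 (Y j - Y 3) + 2 sg (S - 1 - sg ω j) (f 3 - f j) + 2 (ω j - ω 3) f 3`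
with `f j = ip F (O j * O j)`; `Low.gain_diff` (with `gap ≤ 4 R ^ (-60720)`, `μ = 20 gap`,
`Early.norm`) bounds the differences by `R ^ 119286` and `R ^ 67785 * R ^ 119286`;
`Good.dx_le`, `Good.near_sub`, `QB.ip_sq`. -/
theorem First.gain (hG : P.Good) (hp : P.First p) (hj : j ≠ 0) {F : Matrix P.HE P.HE ℝ}
    (hF : QB F (Ex P.r 67785))
    (ht : 2 * sg s * (((free p).card : ℝ) - 1 - sg s * P.ω 3 (free p).card)
          * ip F (P.Op s 3 p * P.Op s 3 p) =
        P.dx (free p).card * ((free p).card : ℝ) ^ 2 * Yf (P.Op s 3 p)) :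
    |P.dg j (free p).card * P.uu j (free p).card * ((free p).card : ℝ) ^ 2 * Yf (P.Op s j p)
      - 2 * (P.pr s j (free p).card).A1 * (free p).card * Yf (P.Op s j p)
      + 2 * (P.pr s j (free p).card).A0 * ip F (P.Op s j p * P.Op s j p)| ≤ Ex P.r 187076 := by
  have hR := hG.R_ge
  have hR' := hG.one_lt
  have st := hp.toEarly.toSt
  obtain ⟨a, a'⟩ := hp.act hG j
  have a3 := (hp.act hG 3).1
  obtain ⟨S1, S2⟩ := hp.sa_S hG
  have S0 := hp.sa_big hG
  obtain ⟨m0, m2, ρ1, -⟩ := hG.basic a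
  obtain ⟨m0', m2', -⟩ := hG.basic a3
  have e := hp.toEarly.eb hG a s
  have e3 := hp.toEarly.eb hG a3 s
  have hg : P.gap j 3 (free p).card ≤ 4 * Ex P.r (-60720) ∧
      |(P.m 3 (free p).card : ℝ) - P.m j (free p).card| ≤ 20 * P.gap j 3 (free p).card := by
    rcases eq_or_lt_of_le (Fin.le_last j) with h | h
    · have h' : j = 3 := h
      subst h'
      have := Ex_pos hR' (-60720)
      simp only [gap, sub_self, abs_zero, mul_zero, le_refl, and_true]
      positivity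
    · have h1 := hG.m_sub a a3 h
      exact ⟨(hG.gap_near a a3 hj h).2.2 hp.sa_S1, (abs_of_nonneg h1.1).trans_le h1.2⟩
  have c3 := st.cp hG a3 s
  obtain ⟨d1, d2⟩ := (st.low hG a a3 (Fin.le_last j) s).gain_diff c3 (st.cp hG a s) m0'.le m2' m0.le
    m2 hg.2 hF (Ex_pos hR' _).le
  have T0 : 0 ≤ ip (P.Np s 3 p * P.Np s 3 p) (P.Np s 3 p) :=
    ip_psd_nonneg (psd_mul_self c3.cent.transpose) c3.psd
  have D := sa_diff hR hg.1 (add_nonneg T0 (by linarith)) (hp.toEarly.norm hG s).2 S2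
  obtain ⟨k1, k2⟩ := hG.mismatch a a' s
  have B0 := Ex_pos hR' 187071
  refine (sa_gain (B := Ex P.r 187071) (by linarith) ρ1 (sa_sg s) k1 k2 ht
    ((hG.ω_le a).trans (Ex_le_one hR' (by norm_num))) (ip_self_nonneg _) ?_ ?_ ?_ ?_).trans
    (mul_Ex_le hR' (by linarith) (by norm_num))
  · have := Ex_le hR' (show (180002 : ℝ) ≤ 187071 by norm_num)
    exact e.Y.trans (by linarith)
  · refine (av_abs_mul_le ((abs_of_nonneg (mul_nonneg (hG.dx_nonneg _) (by linarith))).trans_le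
      (hG.dx_le _)) ((abs_sub_comm _ _).trans_le (d1.trans D))).trans ?_
    rw [Ex_mul hR']
    exact Ex_le hR' (by norm_num)
  · refine ((abs_sub_comm _ _).trans_le d2).trans
      ((mul_le_mul_of_nonneg_left D (Ex_pos hR' _).le).trans ?_)
    rw [Ex_mul hR']
    exact Ex_le hR' (by norm_num)
  · refine (av_abs_mul_le (hG.near_sub a hj hp.sa_S1 s).1 ((hF.ip_sq (st.cent s 3).transpose).trans
      (mul_le_mul_of_nonneg_left e3.Y (Ex_pos hR' _).le))).trans ?_
    have h1 := mul_Ex_le (k := 12) hR' (by linarith)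
      (show -60719 + 67785 + 1 ≤ (187071 : ℝ) by norm_num)
    rw [← Ex_mul hR'] at h1
    have h2 := mul_le_mul_of_nonneg_left h1 (show (0 : ℝ) ≤ (free p).card by linarith)
    linarith

/-- The crude bound at the far point (`Good.chi_le`, `QB.ip_sq`). -/
theorem First.gain0 (hG : P.Good) (hp : P.First p) {F : Matrix P.HE P.HE ℝ}
    (hF : QB F (Ex P.r 67785)) :
    |P.dg 0 (free p).card * P.uu 0 (free p).card * ((free p).card : ℝ) ^ 2 * Yf (P.Op s 0 p)
      - 2 * (P.pr s 0 (free p).card).A1 * (free p).card * Yf (P.Op s 0 p)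
      + 2 * (P.pr s 0 (free p).card).A0 * ip F (P.Op s 0 p * P.Op s 0 p)|
      ≤ Ex P.r 67788 * (free p).card := by
  have hR := hG.R_ge
  have hR' := hG.one_lt
  have st := hp.toEarly.toSt
  obtain ⟨a, a'⟩ := hp.act hG 0
  have S0 := hp.sa_big hG
  have e := hp.toEarly.eb hG a s
  have Y0 : 0 ≤ Yf (P.Op s 0 p) := ip_self_nonneg _
  have h1 := hG.chi_le a a' s
  rw [le_div_iff₀ (by linarith)] at h1
  have h2 : |(P.dg 0 (free p).card * P.uu 0 (free p).card * (free p).card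
      - 2 * (P.pr s 0 (free p).card).A1) * (free p).card| ≤ 6 * Ex P.r 67785 := by
    rw [abs_mul, abs_of_nonneg (show (0 : ℝ) ≤ (free p).card by linarith)]
    have h3 := (hG.dx_le (free p).card).trans (Ex_le hR' (show (67603 : ℝ) ≤ 67785 by norm_num))
    have h4 := one_le_Ex hR' (show (0 : ℝ) ≤ 67785 by norm_num)
    linarith
  have h5 := abs_le.1 (av_abs_mul_le h2 ((abs_of_nonneg Y0).trans_le e.Y))
  have h6 := abs_le.1 (av_abs_mul_le (hG.pr_le a s (hG.x_far _)).2.1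
    ((hF.ip_sq (st.cent s 0).transpose).trans (mul_le_mul_of_nonneg_left e.Y (Ex_pos hR' _).le)))
  have h7 := mul_le_mul_of_nonneg_right (mul_Ex_le (k := 120) hR' (by linarith)
    (show 67785 + 1 ≤ (67788 : ℝ) by norm_num)) (show (0 : ℝ) ≤ (free p).card by linarith)
  rw [abs_le]
  constructor <;> linarith [h5.1, h5.2, h6.1, h6.2]

lemma First.sa_move (hG : P.Good) (hp : P.First p) (hc : P.Fit p c) {x : ℝ}
    (hx : ((free p).card : ℝ) = Ex P.r x) (hA : c.toNum = numA P.r x) (j : Fin 4) :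
    |P.dg j (free p).card| * (c.nsh + 2) < 1 := by
  have hR := hG.R_ge
  obtain ⟨x1, x2⟩ := hp.sa_x hG hx
  obtain ⟨a, a'⟩ := hp.act hG j
  have h1 := (hG.step a a' (hG.sa_x_le j _) (hG.sa_dx_le _)).2.2.2.2.1
  rw [hx] at h1
  have h2 := h1.trans (sa_z (b := 77444 - 2 * x) hR (by linarith))
  have h3 := sa_n (a := 77444 - 2 * x) (b := x / 2 + 9006) hR (by linarith) (by linarith)
  have h4 : c.nsh = Ex P.r (x / 2 + 9006) := by rw [hA]; rfl
  have h5 := Ex_pos hG.one_lt (x / 2 + 9006)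
  rw [h4]
  exact ((mul_le_mul_of_nonneg_right h2 (by linarith)).trans h3).trans_lt (by norm_num)

lemma First.sa_cross (hG : P.Good) (hp : P.First p) (hc : P.Fit p c) {x : ℝ}
    (hx : ((free p).card : ℝ) = Ex P.r x) (hA : c.toNum = numA P.r x) {s s' : Bool} {i j : Fin 4}
    (hj : j ≠ 0)
    (h : ip (P.Np s i p * P.Np s i p) (P.Np s' j p) ≤ 2 * Ex P.r 51001 * (free p).card) :
    ∑ k, |(P.Op s i p * P.Op s' j p * P.Op s i p) k k| ≤ Ex P.r (x + 51002) ∧
      |ip c.F (P.Op s i p * P.Op s' j p * P.Op s i p)| ≤ Ex P.r (x + 118787) ∧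
      |ip (P.Np s i p * P.Np s i p) (P.Np s' j p)| ≤ Ex P.r (x + 51002) := by
  have hR := hG.R_ge
  have hR' := hG.one_lt
  obtain ⟨x1, x2⟩ := hp.sa_x hG hx
  have st := hp.toEarly.toSt
  have ai := (hp.act hG i).1
  have aj := (hp.act hG j).1
  have ci := st.cp hG ai s
  have cj := st.cp hG aj s'
  obtain ⟨m0, m2, -⟩ := hG.basic ai
  obtain ⟨m0', m2', -⟩ := hG.basic aj
  have hφ : c.φ = Ex P.r 67785 := by rw [hA]; rfl
  obtain ⟨k1, k2⟩ := cross_bounds ci cj m0.le m2 m0'.le m2' (hφ ▸ hc.ok.F_qb) (Ex_pos hR' _).le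
  have S0 := Ex_pos hR' x
  have hZ : Zf (P.Np s' j p) ≤ 3 * Ex P.r x := by
    rw [st.Zf_Np hG aj s', hx]
    have h1 := (abs_le.1 (hp.toEarly.Z s' j hj)).2
    have h2 := Ex_le hR' (show 58480 ≤ x by linarith)
    nlinarith
  have hY := (hp.toEarly.eb hG ai s).Y
  rw [hx] at h hY
  have hU := sa_U1 hR h hZ hY
  refine ⟨k1.trans hU, k2.trans ((mul_le_mul_of_nonneg_left hU (Ex_pos hR' _).le).trans ?_), ?_⟩
  · rw [Ex_mul hR']
    exact Ex_le hR' (by linarith)
  · rw [abs_of_nonneg (ip_psd_nonneg (psd_mul_self ci.cent.transpose) cj.psd)]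
    have := sa_U1 (z := 0) (y := 0) hR h (by positivity) (by positivity)
    have h0 := ip_psd_nonneg (psd_mul_self ci.cent.transpose) cj.psd
    linarith

/-- `fullD` for the points `(!s, 3), (s, 3), (s, 2)` with `a1 = R ^ (67604 - x)`, `zb = R ^ 58480`,
`U1 = R ^ (x + 51002)`, `φG = R ^ (x + 118787)`, `η = R ^ (-60718)`, `δ = R ^ (x - 9720)`,
`z = R ^ (67604 - 2 x)`, `nn = R ^ (x / 2 + 9007)`, `e = R ^ (-1000)`. With `A = Np (!s) 3`,
`B = Np s 3`, `C = Np s 2`, `First.cross` bounds `ip A (B * B)` and `ip B (A * A)`; the terms with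
`C` follow from `Low.ip_sq_le`, `Low.ip_le`; then `cross_bounds`, `ip_psd_nonneg`, `Good.kappa`,
`Good.near_sub`, `Good.m_sub`, `St.move`, `numA_D`, `norm_lin`. -/
theorem First.driftD (hG : P.Good) (hp : P.First p) (hc : P.Fit p c) {x : ℝ}
    (hx : ((free p).card : ℝ) = Ex P.r x) (hA : c.toNum = numA P.r x)
    (hpt : ∀ s j, c.Pt (P.pr s j (free p).card) (P.Op s j p)) (s : Bool) :
    (c.avg fun h h' => P.tD s (add p h h')) - c.N * P.tD s p
      ≤ 20 * Ex P.r (-2) * (free p).card := by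
  have hR := hG.R_ge
  have hR' := hG.one_lt
  obtain ⟨x1, x2⟩ := hp.sa_x hG hx
  have st := hp.toEarly.toSt
  obtain ⟨a3, a3'⟩ := hp.act hG 3
  obtain ⟨a2, a2'⟩ := hp.act hG 2
  have S0 := hp.sa_big hG
  have cA := st.cp hG a3 (!s)
  have cB := st.cp hG a3 s
  have cC := st.cp hG a2 s
  have low := st.low hG a2 a3 (by decide) s
  have q2 := hp.cross hG s
  have q1 := hp.cross hG (!s)
  rw [Bool.not_not, ip_comm] at q1
  have q4 := (low.ip_sq_le cB cC cA.psd).trans q2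
  have q3 := (low.ip_le cB cC (psd_mul_self cA.cent.transpose)).trans q1
  rw [ip_comm] at q2 q4
  obtain ⟨u1, g1, v1⟩ := hp.sa_cross hG hc hx hA (by decide) q1
  obtain ⟨u2, g2, v2⟩ := hp.sa_cross hG hc hx hA (by decide) q2
  obtain ⟨u3, g3, v3⟩ := hp.sa_cross hG hc hx hA (by decide) q3
  obtain ⟨u4, g4, v4⟩ := hp.sa_cross hG hc hx hA (by decide) q4
  rw [ip_comm] at v2 v4
  have hN : ∀ s j, P.Op s j p + (P.m j (free p).card : ℝ) • proj c.U = P.Np s j p := fun s j => by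
    rw [hc.U, Np_eq]
  have hm : ∀ j, (0 : ℝ) ≤ P.m j (free p).card ∧ (P.m j (free p).card : ℝ) ≤ 2 := fun j =>
    ⟨(hG.basic (hp.act hG j).1).1.le, (hG.basic (hp.act hG j).1).2.1⟩
  have hd : ∀ j, j ≠ 0 → |P.dg j (free p).card| ≤ Ex P.r (67604 - 2 * x) := fun j hj => by
    have h1 := (hG.step (hp.act hG j).1 (hp.act hG j).2 (hG.x_le hj _) (hG.dx_le _)).2.2.2.2.1
    rw [hx] at h1
    exact h1.trans (sa_z hR (by linarith))
  have ha : ∀ s j, j ≠ 0 → |(P.pr s j (free p).card).A1| ≤ Ex P.r (67604 - x) := fun s j hj => by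
    have h1 := (hG.pr_le (hp.act hG j).1 s (hG.x_le hj _)).1
    rw [hx, ← one_mul (Ex P.r 67603)] at h1
    exact h1.trans (sa_a hR (by norm_num) (by norm_num) (by norm_num) (by linarith))
  have hr := fun s j => (st.move hG hc (hp.act hG j).1 (hp.act hG j).2 (hpt s j)
    (hp.sa_move hG hc hx hA j)).2.1
  have hσ : c.σ ^ 2 = (free p).card := by rw [← hc.ok.card, hc.U]
  have D0 := st.Dl_nonneg hG a2 s
  have hD := hp.D s
  have W0 := Ex_pos hR' 9720
  have hms := hG.m_sub a2 a3 (by decide)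
  have H := Ctx.Pt.fullD hc.ok (hpt (!s) 3) (hpt s 3) (hpt s 2) (nn := Ex P.r (x / 2 + 9007))
    (η := Ex P.r (-60718)) (δ := Ex P.r (x - 9720)) (Δ := P.Dl s p) (hm 3) (hm 3) (hm 2)
    (hr (!s) 3) (hr s 3) (hr s 2) (hd 3 (by decide)) (hd 3 (by decide)) (hd 2 (by decide))
    (by
      rw [hA]
      have h1 := Ex_le hR' (show x / 2 ≤ x / 2 + 9006 by linarith)
      have h2 := mul_Ex_le (k := 3) hR' (by linarith)
        (show x / 2 + 9006 + 1 ≤ x / 2 + 9007 by linarith)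
      change Ex P.r (x / 2 + 9006) + 2 * Ex P.r (x / 2) ≤ _
      linarith)
    (by
      rw [Ex_mul hR']
      exact Ex_le_const hR' (by linarith) (by linarith))
    (ha _ 3 (by decide)) (ha _ 3 (by decide)) (ha _ 2 (by decide))
    (hp.toEarly.Z _ 3 (by decide)) (hp.toEarly.Z _ 3 (by decide)) (hp.toEarly.Z _ 2 (by decide))
    u1 u2 u3 u4 g1 g2 g3 g4 (by rw [hN, hN]; exact v1) (by rw [hN, hN]; exact v2)
    (by rw [hN, hN]; exact v3) (by rw [hN, hN]; exact v4)
    (by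
      have h1 := (hG.gap_near a2 a3 (by decide) (by decide)).2.2 hp.sa_S1
      have h2 := mul_Ex_le (k := 80) hR' (by linarith) (show -60720 + 1 ≤ (-60718 : ℝ) by norm_num)
      rw [abs_of_nonneg hms.1]
      linarith [hms.2])
    (hG.near_sub a2 (by decide) hp.sa_S1 s).2 (Ex_le_one hR' (by norm_num))
    (hG.kappa a2 hp.sa_S1 s).1 (Ex_pos hR' _).le (hG.kappa a2 hp.sa_S1 s).2
    (by rw [hN, hN]; exact ip_psd_nonneg cA.psd cB.psd)
    (by rw [hN, hN]; exact ip_psd_nonneg cA.psd cC.psd) (by rw [hN, hN, hN]; rfl) D0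
    (by
      rw [div_le_one (by linarith), hx, ← le_div_iff₀ W0, Ex_div hR'] at hD
      exact hD)
  have hE := numA_D hR x1 x2
  rw [← hA] at hE
  have hNn := (hc.N_near hG hx (hA ▸ numA_N hR x1 x2 :)).2
  have e1 : (c.avg fun h h' => P.tD s (add p h h')) =
      (c.avg fun h h' => P.Dl s (add p h h')) * Ex P.r 9720 / ((free p).card - 2) := by
    rw [mul_div_assoc, mul_comm (c.avg _), ← Ctx.avg_mul]
    refine Ctx.avg_congr fun pr hpr => ?_
    obtain ⟨-, k1, k2⟩ := card_add (hc.al pr hpr)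
    rw [tD, k1, Nat.cast_sub k2, Ex_nat, Nat.cast_ofNat, Nat.cast_ofNat, mul_div_assoc]
    exact mul_comm _ _
  rw [e1, tD, Ex_nat, Nat.cast_ofNat]
  refine norm_lin (κ := -2 * (free p).card + 2 * Ex P.r (-1000) * (free p).card) S0
    (Ex_pos hR' _).le (Ex_le_const hR' (by linarith) (by norm_num)) W0 D0 hD hNn ?_
    ((mul_le_mul_of_nonneg_right hE W0.le).trans ?_) (H.trans (le_of_eq ?_))
  · have h1 := mul_le_mul_of_nonneg_right (Ex_le hR' (show (-1000 : ℝ) ≤ -2 by norm_num))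
      (show (0 : ℝ) ≤ (free p).card by linarith)
    have h2 := mul_nonneg (Ex_pos hR' (-2)).le (show (0 : ℝ) ≤ (free p).card by linarith)
    linarith
  · rw [hx, Ex_pow hR', Ex_mul hR', Ex_mul hR']
    exact Ex_le hR' (by push_cast; linarith)
  · rw [hσ]
    ring

lemma First.sa_fit (hG : P.Good) (hp : P.First p) {x : ℝ} (hx : ((free p).card : ℝ) = Ex P.r x)
    {F : Matrix P.HE P.HE ℝ} (f1 : ∀ k l, F k l = F l k) (f2 : ∀ k l, k ∉ free p → F k l = 0)
    (f3 : ∀ k l, |F k l| ≤ 1 / 1000) (f4 : QB F (Ex P.r 67785))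
    (f5 : ∀ h, ∑ h', F h h' ^ 2 ≤ Ex P.r 53005) :
    ∃ c : Ctx P.HE, c.toNum = numA P.r x ∧ c.F = F ∧ P.Fit p c ∧
      ∀ s j, c.Pt (P.pr s j (free p).card) (P.Op s j p) := by
  have hR := hG.R_ge
  have hR' := hG.one_lt
  obtain ⟨x1, x2⟩ := hp.sa_x hG hx
  have st := hp.toEarly.toSt
  have eb := fun s j => hp.toEarly.eb hG (hp.act hG j).1 s
  obtain ⟨c, h1, h2, h3, h4⟩ := st.exists_fit hG (univ : Finset (Bool × Fin 4)) (by simp)
    (numA P.r x) (numA_ok hR x1 x2)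
    (by
      change _ = Ex P.r (x / 2) ^ 2
      rw [hx, Ex_pow hR']
      congr 1
      push_cast
      ring)
    (numA_ctx hR x1 x2) F f1 f2 f3 f4 f5 (fun i => P.pr i.1 i.2 (free p).card)
    (fun i => P.Op i.1 i.2 p) (fun i _ => st.cent i.1 i.2)
    (fun i _ => by
      obtain ⟨k1, k2, k3, -⟩ := hG.pr_le (hp.act hG i.2).1 i.1 (hG.sa_x_le i.2 _)
      rw [hx, ← one_mul (Ex P.r 77443)] at k1
      exact ⟨k1.trans (sa_a hR (by norm_num) (by norm_num) (by norm_num) (by linarith)), k2, k3⟩)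
    (by
      refine (sum_le_card_nsmul _ _ (Ex P.r 26800) fun i _ => ?_).trans ?_
      · by_cases h : i.2 = 0
        · exact h ▸ hp.V0 i.1
        · exact hp.toEarly.V i.1 i.2 h
      · change _ ≤ Ex P.r 13401 ^ 2
        rw [Ex_pow hR', nsmul_eq_mul]
        have : (((univ : Finset (Bool × Fin 4)).card : ℕ) : ℝ) = 8 := by simp
        exact mul_Ex_le hR' (by linarith) (by norm_num))
    (fun i _ => by
      refine ⟨(eb i.1 i.2).Y.trans ?_, (eb i.1 i.2).Xi.trans ?_, (eb i.1 i.2).T.trans ?_,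
        (eb i.1 i.2).op⟩
      · change _ ≤ Ex P.r (x / 2 + 1) ^ 2
        rw [Ex_pow hR', hx]
        exact mul_Ex_le hR' (by linarith) (by push_cast; linarith)
      · change _ ≤ Ex P.r (x / 2 + 9723) ^ 2
        rw [Ex_pow hR', hx]
        have k1 := mul_Ex_le (a := x) (b := x + 19445) hR' le_rfl (by linarith)
        have k2 := Ex_le hR' (show 148243 ≤ x + 19445 by linarith)
        have k3 := mul_Ex_le (k := 2) (a := x + 19445) (b := (2 : ℕ) * (x / 2 + 9723)) hR'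
          (by linarith) (by push_cast; linarith)
        linarith
      · change _ ≤ Ex P.r 120004 ^ 2
        rw [Ex_pow hR']
        exact Ex_le hR' (by norm_num))
    (fun i _ => (eb i.1 i.2).sc)
  exact ⟨c, h1, h2, h3, fun s j => h4 (s, j) (mem_univ _)⟩

/-- Context `numA R x` with the `F` of `First.tilt` for the eight points `Bool × Fin 4`.
For `St.driftZ`: `X = R ^ 67603`, `z = R ^ (67604 - 2 x)` if `j ≠ 0`, and `X = R ^ 77443`,
`z = R ^ (77444 - 2 x)` if `j = 0`. For `St.driftV`: always the latter, `zb = R ^ 67920`,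
`χ = R ^ (67604 - x)`. Sum the eighteen drifts and use `Fit.pick`. -/
theorem First.stepA (hG : P.Good) (hp : P.First p) :
    ∃ h h', Allowed (vxf P.n P.d) p h h' ∧ P.PD (add p h h') ∧
      P.PsiA (add p h h') ≤ P.PsiA p + 1 / (P.r * (free p).card) := by
  have hR := hG.R_ge
  have hR' := hG.one_lt
  have S0 := hp.sa_big hG
  obtain ⟨x, hx⟩ := exists_Ex hR' (show (0 : ℝ) < (free p).card by linarith)
  obtain ⟨x1, x2⟩ := hp.sa_x hG hx
  have st := hp.toEarly.toSt
  obtain ⟨F, f1, f2, f3, f4, f5, f6⟩ := hp.tilt hG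
  obtain ⟨c, hA, hF, hc, hpt⟩ := hp.sa_fit hG hx f1 f2 f3 f4 f5
  have eb := fun s j => hp.toEarly.eb hG (hp.act hG j).1 s
  obtain ⟨N1, N2⟩ := hc.N_near hG hx (hA ▸ numA_N hR x1 x2 :)
  have hN : c.N ≤ 2 * ((free p).card : ℝ) ^ 2 := by
    have := mul_le_mul_of_nonneg_right (Ex_le_one hR' (show (-2 : ℝ) ≤ 0 by norm_num))
      (sq_nonneg ((free p).card : ℝ))
    linarith
  have hnsh : c.nsh = Ex P.r (x / 2 + 9006) := by rw [hA]; rfl
  have hz : ∀ a b : ℝ, a + 1 - 2 * x ≤ b → 5 * Ex P.r a / ((free p).card : ℝ) ^ 2 ≤ Ex P.r b :=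
    fun a b h => by rw [hx]; exact sa_z hR h
  have hu : ∀ a : ℝ, a ≤ 77443 → 100 * Ex P.r a / ((free p).card : ℝ) ≤ Ex P.r (-2) :=
    fun a h => by rw [hx]; exact sa_u hR (by linarith)
  have hn : ∀ a : ℝ, a ≤ 77444 → Ex P.r (a - 2 * x) * (c.nsh + 2) ≤ 1 / 2 :=
    fun a h => by rw [hnsh]; exact sa_n hR (by linarith) (by linarith)
  have he : ∀ a : ℝ, Ex P.r (2 * a + x - 2) = Ex P.r (-2) * Ex P.r a ^ 2 * (free p).card :=
    fun a => by
      rw [hx, Ex_pow hR', Ex_mul hR', Ex_mul hR']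
      congr 1
      push_cast
      ring
  have hZ : ∀ s j, |Zf (P.Op s j p)| ≤ P.Lam j := fun s j => by
    rw [Good.sa_Lam]
    split_ifs with h
    · exact h ▸ hp.Z0 s
    · exact hp.toEarly.Z s j h
  have dZ : ∀ s j, (c.avg fun h h' => P.tZ s j (add p h h')) - c.N * P.tZ s j p
      ≤ 20 * Ex P.r (-2) * (free p).card := by
    intro s j
    obtain ⟨a, a'⟩ := hp.act hG j
    by_cases h : j = 0
    · subst h
      refine st.driftZ hG hc a a' (hpt s 0) hN (hG.x_far _) (hG.sa_dx_le _)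
        (hz _ (77444 - 2 * x) (by linarith)) (hu _ le_rfl) (hn _ le_rfl) (hZ s 0) (eb s 0).Yvp
        (Γ := Ex P.r (x + 67788)) ?_ ?_
      · rw [hF, add_comm x, ← Ex_mul hR', ← hx]
        exact hp.gain0 hG f4
      · rw [Good.sa_Lam, if_pos rfl, hA, ← he]
        exact numA_Za hR x1 x2
    · refine st.driftZ hG hc a a' (hpt s j) hN (hG.x_le h _) (hG.dx_le _)
        (hz _ (67604 - 2 * x) (by linarith)) (hu _ (by norm_num)) (hn _ (by norm_num)) (hZ s j)
        (eb s j).Yvp (Γ := Ex P.r 187076) ?_ ?_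
      · rw [hF]
        exact hp.gain hG h f4 (f6 s)
      · rw [Good.sa_Lam, if_neg h, hA, ← he]
        exact numA_Z hR x1 x2
  have dV : ∀ s j, (c.avg fun h h' => P.tV s j (add p h h')) - c.N * P.tV s j p
      ≤ 20 * Ex P.r (-2) * (free p).card := by
    intro s j
    obtain ⟨a, a'⟩ := hp.act hG j
    refine st.driftV hG hc a a' (hpt s j) hN hx (hG.sa_x_le j _) (hG.sa_dx_le _)
      (hz _ (77444 - 2 * x) (by linarith)) (hu _ le_rfl) (hn _ le_rfl) (zb := Ex P.r 67920) ?_ ?_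
      (eb s j).Y (eb s j).Yvp (χ := Ex P.r (67604 - x)) ((hG.chi_le a a' s).trans ?_)
      (hA ▸ numA_Q hR x1 x2 :) (hA ▸ numA_V hR x1 x2 :)
    · by_cases h : j = 0
      · exact h ▸ hp.Z0 s
      · exact (hp.toEarly.Z s j h).trans (Ex_le hR' (by norm_num))
    · by_cases h : j = 0
      · exact h ▸ hp.V0 s
      · exact hp.toEarly.V s j h
    · refine le_trans (div_le_div_of_nonneg_right (b := 2 * Ex P.r 67603 + 4)
        (by linarith [hG.dx_le (free p).card]) (by linarith)) ?_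
      rw [hx]
      exact sa_a hR (by norm_num) (by norm_num) (by norm_num) (by linarith)
  have dD := hp.driftD hG hc hx hA hpt
  have e0 := mul_nonneg (Ex_pos hR' (-2)).le (show (0 : ℝ) ≤ (free p).card by linarith)
  obtain ⟨pr, hpr, h⟩ := hc.pick hG N1 (f := fun h h' => P.PsiA (add p h h')) (y := P.PsiA p) (by
    have e : ∀ f : Fin 4 → ℝ, ∑ j ∈ ({1, 2, 3} : Finset (Fin 4)), f j = f 1 + f 2 + f 3 :=
      fun f => by
        rw [sum_insert (by decide), sum_insert (by decide), sum_singleton, add_assoc]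
    simp only [PsiA, PsiB, Fintype.sum_bool, e, Ctx.avg_add]
    linarith [dZ true 0, dZ true 1, dZ true 2, dZ true 3, dZ false 0, dZ false 1, dZ false 2,
      dZ false 3, dV true 0, dV true 1, dV true 2, dV true 3, dV false 0, dV false 1, dV false 2,
      dV false 3, dD true, dD false])
  exact ⟨pr.1, pr.2, hc.al pr hpr, fun s => (st.move hG hc (hp.act hG 3).1 (hp.act hG 3).2
    (hpt s 3) (hp.sa_move hG hc hx hA 3)).1 pr hpr, h⟩

end Vale.Agent.P049.Prm
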