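import Vale.Agent.P049.Drift

/-!
Arithmetic for the first phase.
-/

namespace Vale.Agent.P049

section
variable {R x a b : ℝ}

lemma sa_z (hR : 10 ^ 9 ≤ R) (h : a + 1 - 2 * x ≤ b) : 5 * Ex R a / Ex R x ^ 2 ≤ Ex R b := by
  have hR' : 1 < R := by linarith
  rw [Ex_pow hR', mul_div_assoc, Ex_div hR']
  exact mul_Ex_le hR' (by linarith) (by push_cast; linarith)

lemma sa_u (hR : 10 ^ 9 ≤ R) (h : a + 1 - x ≤ b) : 100 * Ex R a / Ex R x ≤ Ex R b := by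
  have hR' : 1 < R := by linarith
  rw [mul_div_assoc, Ex_div hR']
  exact mul_Ex_le hR' (by linarith) (by linarith)

lemma sa_n (hR : 10 ^ 9 ≤ R) (hb : 0 ≤ b) (h : a + b ≤ -1) : Ex R a * (Ex R b + 2) ≤ 1 / 2 := by
  have hR' : 1 < R := by linarith
  have h1 := one_le_Ex hR' hb
  have h2 := Ex_le_const (k := 1 / 6) hR' (by linarith) h
  rw [← Ex_mul hR'] at h2
  have h3 := mul_le_mul_of_nonneg_left h1 (Ex_pos hR' a).le
  linarith

lemma sa_a (hR : 10 ^ 9 ≤ R) {k l : ℝ} (hk : k + l ≤ 10 ^ 9) (hl : 0 ≤ l) (ha : 0 ≤ a)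
    (h : a + 1 - x ≤ b) : (k * Ex R a + l) / Ex R x ≤ Ex R b := by
  have hR' : 1 < R := by linarith
  have h1 := mul_le_mul_of_nonneg_left (one_le_Ex hR' ha) hl
  have h2 : k * Ex R a + l ≤ (k + l) * Ex R a := by linarith
  refine (div_le_div_of_nonneg_right h2 (Ex_pos hR' x).le).trans ?_
  rw [mul_div_assoc, Ex_div hR']
  exact mul_Ex_le hR' (by linarith) (by linarith)

lemma sa_U1 (hR : 10 ^ 9 ≤ R) {u z y : ℝ} (hu : u ≤ 2 * Ex R 51001 * Ex R x) (hz : z ≤ 3 * Ex R x)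
    (hy : y ≤ 12 * Ex R x) : 2 * u + 8 * z + 2 * y ≤ Ex R (x + 51002) := by
  have hR' : 1 < R := by linarith
  rw [mul_assoc, Ex_mul hR'] at hu
  have h1 := Ex_le hR' (show x ≤ 51001 + x by linarith)
  have h2 := mul_Ex_le (k := 52) hR' (by linarith) (show 51001 + x + 1 ≤ x + 51002 by linarith)
  linarith

lemma sa_diff (hR : 10 ^ 9 ≤ R) {g T S : ℝ} (g1 : g ≤ 4 * Ex R (-60720)) (T0 : 0 ≤ T + S)
    (hT : T ≤ Ex R 180005) (hS : S ≤ Ex R 180002) :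
    6 * (g + 20 * g) * (T + S) ≤ Ex R 119286 := by
  have hR' : 1 < R := by linarith
  have h1 := Ex_le hR' (show (180002 : ℝ) ≤ 180005 by norm_num)
  have h2 := Ex_pos hR' (-60720)
  have h3 : g * (T + S) ≤ 4 * Ex R (-60720) * (2 * Ex R 180005) :=
    mul_le_mul g1 (by linarith) T0 (by positivity)
  have h4 := mul_Ex_le (k := 1008) hR' (by linarith) (show -60720 + 180005 + 1 ≤ (119286 : ℝ) by
    norm_num)
  rw [← Ex_mul hR'] at h4
  linarith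

lemma sa_gain {S ρ ζ A1 A0 dx ω ω3 σ Y Y3 f f3 B : ℝ} (hS : 4 ≤ S) (hρ : 1 ≤ ρ)
    (hσ : σ = 1 ∨ σ = -1) (m1 : (ζ * S - 2 * A1) * ρ = (dx * S + 2 * ω + 2 * σ) / (S - 2))
    (m2 : A0 * ρ = -(σ * (S - 1 - σ * ω)) / (S - 2))
    (ht : 2 * σ * (S - 1 - σ * ω3) * f3 = dx * S ^ 2 * Y3) (hω : |ω| ≤ 1) (Y0 : 0 ≤ Y)
    (hY : Y ≤ 12 * B) (h1 : |dx * S * (Y - Y3)| ≤ B) (h2 : |f - f3| ≤ B)
    (h3 : |(ω3 - ω) * f3| ≤ S * B) : |ζ * S ^ 2 * Y - 2 * A1 * S * Y + 2 * A0 * f| ≤ 106 * B := by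
  have S2 : S - 2 ≠ 0 := by linarith
  rw [eq_div_iff S2] at m1 m2
  have σ1 : |σ| = 1 := by rcases hσ with rfl | rfl <;> simp
  have σ2 : σ * σ = 1 := by rcases hσ with rfl | rfl <;> simp
  have e : (ζ * S ^ 2 * Y - 2 * A1 * S * Y + 2 * A0 * f) * (ρ * (S - 2)) =
      2 * (S * ((ω + σ) * Y)) + S * (dx * S * (Y - Y3)) - 2 * (σ * (S - 1 - σ * ω) * (f - f3))
        - 2 * ((ω3 - ω) * f3) := by
    linear_combination (S * Y) * m1 + (2 * f) * m2 - ht - (2 * (ω3 - ω) * f3) * σ2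
  have S0 : |S| ≤ S := (abs_of_pos (by linarith)).le
  have k1 := abs_le.1 (av_abs_mul_le S0 (av_abs_mul_le (av_abs_add hω σ1.le)
    ((abs_of_nonneg Y0).trans_le hY)))
  have k2 := abs_le.1 (av_abs_mul_le S0 h1)
  have k3 : |S - 1 - σ * ω| ≤ S := by
    have := abs_le.1 (av_abs_mul_le σ1.le hω)
    exact abs_le.2 ⟨by linarith [this.2], by linarith [this.1]⟩
  have k4 := abs_le.1 (av_abs_mul_le (av_abs_mul_le σ1.le k3) h2)
  have k5 := abs_le.1 h3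
  have k6 : |(ζ * S ^ 2 * Y - 2 * A1 * S * Y + 2 * A0 * f) * (ρ * (S - 2))| ≤ 53 * (S * B) := by
    rw [e, abs_le]
    constructor <;> linarith [k1.1, k1.2, k2.1, k2.2, k4.1, k4.2, k5.1, k5.2]
  have k7 : S / 2 ≤ ρ * (S - 2) := by nlinarith
  rw [abs_mul, abs_of_pos (by linarith : 0 < ρ * (S - 2))] at k6
  have k8 := mul_le_mul_of_nonneg_left k7
    (abs_nonneg (ζ * S ^ 2 * Y - 2 * A1 * S * Y + 2 * A0 * f))
  refine le_of_mul_le_mul_right ?_ (show 0 < S / 2 by linarith)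
  linarith

end

namespace Prm

variable {P : Prm} {p : P.HE → P.HE}

lemma sa_sg (s : Bool) : sg s = 1 ∨ sg s = -1 := by cases s <;> simp [sg]

lemma First.sa_S (hG : P.Good) (hp : P.First p) :
    Ex P.r 128800 ≤ (free p).card ∧ ((free p).card : ℝ) ≤ Ex P.r 180002 := by
  refine ⟨?_, le_trans (by exact_mod_cast card_free_le p) hG.S0_le⟩
  have h := (Nat.cast_le (α := ℝ)).2 hp.lo1.le
  rwa [S1, Nat.cast_pow, Ex_nat, Nat.cast_ofNat] at h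

lemma First.sa_x (hG : P.Good) (hp : P.First p) {x : ℝ}
    (hx : ((free p).card : ℝ) = Ex P.r x) : 128800 ≤ x ∧ x ≤ 180002 := by
  have h := hp.sa_S hG
  rwa [hx, Ex_le_iff hG.one_lt, Ex_le_iff hG.one_lt] at h

lemma First.sa_big (hG : P.Good) (hp : P.First p) : (100 : ℝ) ≤ (free p).card :=
  (const_le_Ex hG.one_lt (by linarith [hG.R_ge]) (by norm_num)).trans (hp.sa_S hG).1

lemma First.sa_S1 (hp : P.First p) : P.S1 ≤ 2 * (free p).card := by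
  have := hp.lo1
  omega

lemma Good.sa_x_le (hG : P.Good) (j : Fin 4) (S : ℕ) : |(P.x j S : ℝ)| ≤ Ex P.r 77443 := by
  by_cases hj : j = 0
  · exact hj ▸ hG.x_far S
  · exact (hG.x_le hj S).trans (Ex_le hG.one_lt (by norm_num))

lemma Good.sa_dx_le (hG : P.Good) (S : ℕ) : P.dx S * S ≤ Ex P.r 77443 :=
  (hG.dx_le S).trans (Ex_le hG.one_lt (by norm_num))

lemma Good.sa_Lam (P : Prm) (j : Fin 4) :
    (P.Lam j : ℝ) = if j = 0 then Ex P.r 67920 else Ex P.r 58480 := by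
  rw [Lam, Ex_nat, Ex_nat, Nat.cast_ofNat, Nat.cast_ofNat]

end Prm

end Vale.Agent.P049
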