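import Vale.Agent.P049.StepZ

/-!
Exact formulas and elementary bounds for the drift of the inner product.
-/

namespace Vale.Agent.P049

open Matrix Finset

variable {H : Type} [Fintype H] [DecidableEq H] {c : Ctx H} {p p' : Par} {O O' : Matrix H H ℝ}

omit [DecidableEq H] in
lemma st_ip_rank (u w u' w' : H → ℝ) :
    ip (vecMulVec u w) (vecMulVec u' w') = (u ⬝ᵥ u') * (w ⬝ᵥ w') := by
  unfold ip dotProduct
  rw [Finset.sum_mul_sum]
  refine Finset.sum_congr rfl fun k _ => Finset.sum_congr rfl fun l _ => ?_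
  simp only [vecMulVec_apply]
  ring

omit [DecidableEq H] in
lemma st_ip_rank_right (A : Matrix H H ℝ) (u w : H → ℝ) :
    ip A (vecMulVec u w) = u ⬝ᵥ (A *ᵥ w) := by
  unfold ip dotProduct mulVec dotProduct
  refine Finset.sum_congr rfl fun k _ => ?_
  rw [Finset.mul_sum]
  refine Finset.sum_congr rfl fun l _ => ?_
  simp only [vecMulVec_apply]
  ring

omit [Fintype H] [DecidableEq H] in
lemma st_bm_eq (p : Par) (O : Matrix H H ℝ) (h h' : H) : Bm p O h h' =
    O - y1 p O h h' • vecMulVec (fun k => O k h) (fun k => O k h)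
      - y2 p O h h' • vecMulVec (fun k => O k h') (fun k => O k h')
      - y0 p O h h' • (vecMulVec (fun k => O k h) (fun k => O k h')
        + vecMulVec (fun k => O k h') (fun k => O k h)) := by
  ext k l
  simp only [Bm, Matrix.sub_apply, Matrix.smul_apply, Matrix.add_apply, vecMulVec_apply,
    smul_eq_mul]

omit [DecidableEq H] in
lemma Cent.st_dot {U : Finset H} (hO : Cent U O) (O' : Matrix H H ℝ) (a b : H) :
    (fun k => O k a) ⬝ᵥ (fun k => O' k b) = (O * O') a b := by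
  unfold dotProduct
  rw [Matrix.mul_apply]
  exact Finset.sum_congr rfl fun k _ => by rw [← hO.symm k a]

omit [DecidableEq H] in
lemma Cent.st_quad {U : Finset H} (hO : Cent U O) (O' : Matrix H H ℝ) (a b : H) :
    (fun k => O k a) ⬝ᵥ (O' *ᵥ fun k => O k b) = (O * O' * O) a b := by
  rw [Matrix.mul_assoc, ← hO.st_dot (O' * O) a b]
  rfl

omit [DecidableEq H] in
lemma Cent.st_G_symm {U : Finset H} (hO : Cent U O) (hO' : Cent U O') (a b : H) :
    (O * O' * O) b a = (O * O' * O) a b := by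
  have : (O * O' * O)ᵀ = O * O' * O := by
    rw [Matrix.transpose_mul, Matrix.transpose_mul, hO.transpose, hO'.transpose, Matrix.mul_assoc]
  rw [← Matrix.transpose_apply (O * O' * O) a b, this]

omit [DecidableEq H] in
/-- The inner product of two rank-two updates. -/
lemma Cent.st_ip_bm {U : Finset H} (hO : Cent U O) (hO' : Cent U O') (p p' : Par) (h h' : H) :
    ip (Bm p O h h') (Bm p' O' h h') = ip O O'
      - (y1 p O h h' * (O * O' * O) h h + y2 p O h h' * (O * O' * O) h' h'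
        + 2 * y0 p O h h' * (O * O' * O) h h')
      - (y1 p' O' h h' * (O' * O * O') h h + y2 p' O' h h' * (O' * O * O') h' h'
        + 2 * y0 p' O' h h' * (O' * O * O') h h')
      + (y1 p O h h' * y1 p' O' h h' * (O * O') h h ^ 2
        + y1 p O h h' * y2 p' O' h h' * (O * O') h h' ^ 2
        + 2 * y1 p O h h' * y0 p' O' h h' * ((O * O') h h * (O * O') h h')
        + y2 p O h h' * y1 p' O' h h' * (O * O') h' h ^ 2
        + y2 p O h h' * y2 p' O' h h' * (O * O') h' h' ^ 2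
        + 2 * y2 p O h h' * y0 p' O' h h' * ((O * O') h' h' * (O * O') h' h)
        + 2 * y0 p O h h' * y1 p' O' h h' * ((O * O') h h * (O * O') h' h)
        + 2 * y0 p O h h' * y2 p' O' h h' * ((O * O') h' h' * (O * O') h h')
        + 2 * y0 p O h h' * y0 p' O' h h' * ((O * O') h h' * (O * O') h' h)
        + 2 * y0 p O h h' * y0 p' O' h h' * ((O * O') h h * (O * O') h' h')) := by
  have e1 : ∀ a b : H, ip (vecMulVec (fun k => O k a) (fun k => O k b)) O' = (O * O' * O) a b := by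
    intro a b
    rw [ip_comm, st_ip_rank_right, hO.st_quad]
  have e2 : ∀ a b : H, ip O (vecMulVec (fun k => O' k a) (fun k => O' k b)) = (O' * O * O') a b := by
    intro a b
    rw [st_ip_rank_right, hO'.st_quad]
  rw [st_bm_eq p O, st_bm_eq p' O']
  simp only [ip_sub_left, ip_sub_right, ip_add_left, ip_add_right, ip_smul_left, ip_smul_right,
    e1, e2, st_ip_rank, hO.st_dot]
  rw [hO.st_G_symm hO' h h', hO'.st_G_symm hO h h']
  ring

omit [DecidableEq H] in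
lemma st_col_sum {U : Finset H} (hO : Cent U O) {B B' : Matrix H H ℝ} (hB : Cent U B) {a b : H}
    {α β α' β' : ℝ} (h1 : ∀ k, B k a = α * O k a - β * O k b)
    (h2 : ∀ k, B' k a = α' * O' k a - β' * O' k b) :
    (B * B') a a = α * α' * (O * O') a a - α * β' * (O * O') a b - β * α' * (O * O') b a
      + β * β' * (O * O') b b := by
  simp only [← hO.st_dot O', ← hB.st_dot B', dotProduct, h1, h2, Finset.mul_sum,
    ← Finset.sum_sub_distrib, ← Finset.sum_add_distrib]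
  exact Finset.sum_congr rfl fun k _ => by ring

omit [DecidableEq H] in
lemma Cent.st_W_le {U : Finset H} (hO : Cent U O) (O' : Matrix H H ℝ) (h : H) :
    |(O * O') h h| ≤ (sc O h + sc O' h) / 2 := by
  rw [← hO.st_dot O']
  unfold dotProduct sc
  rw [← Finset.sum_add_distrib, Finset.sum_div]
  refine (Finset.abs_sum_le_sum_abs _ _).trans (Finset.sum_le_sum fun k _ => ?_)
  rw [abs_le]
  constructor <;> nlinarith [sq_nonneg (O k h - O' k h), sq_nonneg (O k h + O' k h)]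

lemma Ctx.Pt.st_W_star (hc : c.Ok) (hp : c.Pt p O) (hp' : c.Pt p' O') :
    ∑ h ∈ c.U, |(O * O') h h| * (1 + c.dd h) ≤ c.ss := by
  have h1 := hp.star_sc hc
  have h2 := hp'.star_sc hc
  have h3 : ∑ h ∈ c.U, |(O * O') h h| * (1 + c.dd h) ≤
      ∑ h ∈ c.U, (1 / 2 * (|sc O h| * (1 + c.dd h)) + 1 / 2 * (|sc O' h| * (1 + c.dd h))) := by
    refine Finset.sum_le_sum fun h _ => ?_
    have := mul_le_mul_of_nonneg_right (hp.cent.st_W_le O' h)
      (by linarith [hc.dd_nn h] : 0 ≤ 1 + c.dd h)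
    rw [abs_of_nonneg (sc_nonneg O h), abs_of_nonneg (sc_nonneg O' h)]
    linarith
  rw [Finset.sum_add_distrib, ← Finset.mul_sum, ← Finset.mul_sum] at h3
  linarith

lemma Ctx.Pt.st_W_sq (hp : c.Pt p O) (hp' : c.Pt p' O') :
    ∑ h ∈ c.U, (O * O') h h ^ 2 ≤ c.ξ ^ 2 := by
  have h1 := hp.sz_sc_sq
  have h2 := hp'.sz_sc_sq
  have h3 : ∑ h ∈ c.U, (O * O') h h ^ 2 ≤
      ∑ h ∈ c.U, (1 / 2 * sc O h ^ 2 + 1 / 2 * sc O' h ^ 2) := by
    refine Finset.sum_le_sum fun h _ => ?_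
    have := sz_sq_of_abs (hp.cent.st_W_le O' h)
    nlinarith [sq_nonneg (sc O h - sc O' h)]
  rw [Finset.sum_add_distrib, ← Finset.mul_sum, ← Finset.mul_sum] at h3
  linarith

lemma Ctx.Pt.st_W_abs (hp : c.Pt p O) (hp' : c.Pt p' O') :
    ∑ h ∈ c.U, |(O * O') h h| ≤ c.y ^ 2 := by
  have h1 := hp.sz_sc_sum
  have h2 := hp'.sz_sc_sum
  have h3 : ∑ h ∈ c.U, |(O * O') h h| ≤ ∑ h ∈ c.U, (1 / 2 * sc O h + 1 / 2 * sc O' h) := by
    refine Finset.sum_le_sum fun h _ => ?_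
    have := hp.cent.st_W_le O' h
    linarith
  rw [Finset.sum_add_distrib, ← Finset.mul_sum, ← Finset.mul_sum] at h3
  linarith

omit [DecidableEq H] in
lemma Cent.st_W_tr {U : Finset H} (hO : Cent U O) (hO' : Cent U O') :
    ∑ h ∈ U, (O * O') h h = ip O O' := by
  unfold ip
  rw [← Finset.sum_subset (Finset.subset_univ U)]
  · refine Finset.sum_congr rfl fun h _ => ?_
    rw [Matrix.mul_apply]
    exact Finset.sum_congr rfl fun k _ => by rw [hO'.symm k h]
  · intro h _ hh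
    exact Finset.sum_eq_zero fun k _ => by rw [hO.supp h k hh, zero_mul]

lemma Ctx.Pt.st_W_ip (hc : c.Ok) (hp : c.Pt p O) (hp' : c.Pt p' O') :
    ip (O * O') (O * O') ≤ c.t ^ 2 := by
  have e : ip (O * O') (O * O') = ip (O * O) (O' * O') := by
    rw [ip_mul_left, hp.cent.transpose, ← Matrix.mul_assoc, ip_comm, ip_mul_right,
      hp'.cent.transpose]
  have h1 : fro (O * O) ≤ c.t := fro_le hc.num.t_nn hp.T_le
  have h2 : fro (O' * O') ≤ c.t := fro_le hc.num.t_nn hp'.T_le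
  rw [e, sq]
  exact (le_abs_self _).trans ((abs_ip_le _ _).trans
    (mul_le_mul h1 h2 (fro_nonneg _) hc.num.t_nn))

lemma Ctx.Pt.st_G_ip (hc : c.Ok) (hp : c.Pt p O) (hp' : c.Pt p' O') :
    ip (O * O' * O) (O * O' * O) ≤ (c.nu * c.t) ^ 2 := by
  have h1 : fro (O' * O) ≤ c.t := fro_le hc.num.t_nn (hp'.st_W_ip hc hp)
  have h2 := hp.op.fro_mul_le hc.num.nu_nn (O' * O)
  rw [← fro_sq, Matrix.mul_assoc]
  exact pow_le_pow_left₀ (fro_nonneg _)
    (h2.trans (mul_le_mul_of_nonneg_left h1 hc.num.nu_nn)) 2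

lemma Ctx.Pt.st_G_star (hc : c.Ok) (hp : c.Pt p O) (hp' : c.Pt p' O') :
    ∑ h ∈ c.U, |(O * O' * O) h h| * (1 + c.dd h) ≤ c.nu * c.ss := by
  refine le_trans ?_ (mul_le_mul_of_nonneg_left (hp.star_sc hc) hc.num.nu_nn)
  rw [Finset.mul_sum]
  refine Finset.sum_le_sum fun h _ => ?_
  have h1 := hp'.op.qb hc.num.nu_nn (fun k => O k h)
  rw [hp.cent.st_quad, hp.cent.st_dot, hp.cent.mul_self_apply] at h1
  rw [abs_of_nonneg (sc_nonneg O h), ← mul_assoc]
  exact mul_le_mul_of_nonneg_right h1 (by linarith [hc.dd_nn h])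

lemma st_abs_mul_le {x y α : ℝ} (hx : x ^ 2 ≤ α) (hy : y ^ 2 ≤ α) : |x * y| ≤ α := by
  rw [abs_le]
  constructor <;> nlinarith [sq_nonneg (x - y), sq_nonneg (x + y)]

lemma st_coef_sq {k α w : ℝ} (h : |k| ≤ α) : |k * w ^ 2| ≤ α * w ^ 2 := by
  rw [abs_mul, abs_of_nonneg (sq_nonneg w)]
  exact mul_le_mul_of_nonneg_right h (sq_nonneg w)

lemma st_cross {x z α u w : ℝ} (hx : x ^ 2 ≤ α) (hz : |z| ≤ 3) :
    |2 * x * z * (u * w)| ≤ 3 * (α * u ^ 2) + 3 * w ^ 2 := by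
  have e : 2 * x * z * (u * w) = z * (2 * (x * u) * w) := by ring
  have h1 : |2 * (x * u) * w| ≤ (x * u) ^ 2 + w ^ 2 := by
    rw [abs_le]
    constructor <;> nlinarith [sq_nonneg (x * u - w), sq_nonneg (x * u + w)]
  have h2 := mul_le_mul_of_nonneg_right hx (sq_nonneg u)
  rw [e, abs_mul]
  have h3 := mul_le_mul hz h1 (abs_nonneg _) (by norm_num)
  rw [mul_pow] at h3
  linarith

lemma st_cross0 {z z' u w : ℝ} (hz : |z| ≤ 3) (hz' : |z'| ≤ 3) :
    |2 * z * z' * (u * w)| ≤ 9 * u ^ 2 + 9 * w ^ 2 := by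
  have e : 2 * z * z' * (u * w) = (z * z') * (2 * u * w) := by ring
  have h1 : |2 * u * w| ≤ u ^ 2 + w ^ 2 := by
    rw [abs_le]
    constructor <;> nlinarith [sq_nonneg (u - w), sq_nonneg (u + w)]
  have h2 : |z * z'| ≤ 3 * 3 := by
    rw [abs_mul]
    exact mul_le_mul hz hz' (abs_nonneg _) (by norm_num)
  rw [e, abs_mul]
  have h3 := mul_le_mul h2 h1 (abs_nonneg _) (by norm_num)
  linarith

lemma st_mixed {x y a d d' : ℝ} (hx : |x| ≤ 1006 / 1000 * (a + 2 * d'))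
    (hy : |y| ≤ 1006 / 1000 * (a + 2 * d)) (ha0 : 0 ≤ a) (ha : a ≤ 1) (h1 : a * d ≤ 1 / 1000)
    (h2 : a * d' ≤ 1 / 1000) (h3 : d * d' ≤ 1 / 1000) : |x * y| ≤ 2 := by
  rw [abs_mul]
  have h4 := mul_le_mul hx hy (abs_nonneg _) ((abs_nonneg _).trans hx)
  nlinarith

lemma st_prod_sub {z z' A A' e e' b b' : ℝ} (h1 : |z - A| ≤ e) (h2 : |z' - A'| ≤ e')
    (h3 : |z'| ≤ b') (h4 : |A| ≤ b) : |z * z' - A * A'| ≤ b' * e + b * e' := by
  have e0 : z * z' - A * A' = z' * (z - A) + A * (z' - A') := by ring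
  rw [e0]
  refine (abs_add_le _ _).trans (add_le_add ?_ ?_)
  · rw [abs_mul]
    exact mul_le_mul h3 h1 (abs_nonneg _) ((abs_nonneg _).trans h3)
  · rw [abs_mul]
    exact mul_le_mul h4 h2 (abs_nonneg _) ((abs_nonneg _).trans h4)

/-- The column terms. -/
lemma st_col_le {J K J' K' t t' d w11 w12 w21 w22 : ℝ} (hJ : |J - 1| ≤ 5 * t)
    (hJ' : |J' - 1| ≤ 5 * t') (hK : |K| ≤ 3 * (d + t)) (hK' : |K'| ≤ 3 * (d + t'))
    (ht0 : 0 ≤ t) (ht : t ≤ 1 / 1000) (ht0' : 0 ≤ t') (ht' : t' ≤ 1 / 1000) :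
    |J * J' * w11 - J * K' * w12 - K * J' * w21 + K * K' * w22 - w11| ≤
      6 * (t * |w11|) + 5 * (t' * |w11|) + 4 * (d * |w12|) + 4 * (t' * |w12|)
        + 4 * (d * |w21|) + 4 * (t * |w21|) + 18 * (d ^ 2 * |w22|) + 9 * (t * |w22|)
        + 9 * (t' * |w22|) := by
  have a1 : |J| ≤ 6 / 5 := by
    have := abs_le.1 hJ
    rw [abs_le]
    constructor <;> linarith [this.1, this.2]
  have a2 : |J'| ≤ 6 / 5 := by
    have := abs_le.1 hJ'
    rw [abs_le]
    constructor <;> linarith [this.1, this.2]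
  have b1 := st_prod_sub hJ hJ' a2 (le_of_eq abs_one)
  have b2 : |J * K'| ≤ 6 / 5 * (3 * (d + t')) := by
    rw [abs_mul]
    exact mul_le_mul a1 hK' (abs_nonneg _) (by norm_num)
  have b3 : |K * J'| ≤ 3 * (d + t) * (6 / 5) := by
    rw [abs_mul]
    exact mul_le_mul hK a2 (abs_nonneg _) ((abs_nonneg _).trans hK)
  have b4 : |K * K'| ≤ 18 * d ^ 2 + 9 * t + 9 * t' := by
    rw [abs_mul]
    have := mul_le_mul hK hK' (abs_nonneg _) ((abs_nonneg _).trans hK)
    nlinarith [sq_nonneg (d - t), sq_nonneg (d - t'), sq_nonneg (t - t')]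
  have c1 := abs_le.1 (sz_abs_mul_le (y := w11) b1)
  have c2 := abs_le.1 (sz_abs_mul_le (y := w12) b2)
  have c3 := abs_le.1 (sz_abs_mul_le (y := w21) b3)
  have c4 := abs_le.1 (sz_abs_mul_le (y := w22) b4)
  have d1 : 0 ≤ (d + t') * |w12| :=
    mul_nonneg (by linarith [(abs_nonneg _).trans hK']) (abs_nonneg _)
  have d2 : 0 ≤ (d + t) * |w21| :=
    mul_nonneg (by linarith [(abs_nonneg _).trans hK]) (abs_nonneg _)
  rw [abs_le]
  constructor <;> linarith [c1.1, c1.2, c2.1, c2.2, c3.1, c3.2, c4.1, c4.2]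

lemma st_block {x x' d t t' : ℝ} (h : |x| ≤ 2 * (d + t)) (h' : |x'| ≤ 2 * (d + t')) :
    |x * x'| ≤ 8 * d ^ 2 + 4 * t ^ 2 + 4 * t' ^ 2 := by
  have h1 := sz_sq_of_abs h
  have h2 := sz_sq_of_abs h'
  rw [abs_le]
  constructor <;> nlinarith [sq_nonneg (x - x'), sq_nonneg (x + x'), sq_nonneg (d - t),
    sq_nonneg (d - t')]

end Vale.Agent.P049
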