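import Vale.Agent.P049.StepTAux

/-!
The averaged pieces of the drift of the inner product.
-/

namespace Vale.Agent.P049

open Matrix Finset

variable {H : Type} [Fintype H] [DecidableEq H] {c : Ctx H} {p p' : Par} {O O' : Matrix H H ℝ}

lemma st_split {r x m e a b k : ℝ} (hr : |r| ≤ a) (hr' : |r| ≤ b) (h : |x - m| ≤ e)
    (hm : |m| ≤ k) : |r * x| ≤ a * e + b * k := by
  have h1 := sz_abs_mul_sub hr h
  have h2 : |r * m| ≤ b * k := by
    rw [abs_mul]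
    exact mul_le_mul hr' hm (abs_nonneg _) ((abs_nonneg _).trans hr')
  have h3 := abs_add_le (r * x - r * m) (r * m)
  rw [sub_add_cancel] at h3
  linarith

/-- The main part of the linear terms. -/
lemma Ctx.Pt.st_lin_main (hc : c.Ok) (hp : c.Pt p O) {u : H → ℝ} {T : Matrix H H ℝ}
    {a1 zb U1 φG us τ : ℝ} (ha : |p.A1| ≤ a1) (hz : |Zf O| ≤ zb) (hU : ∑ h, |u h| ≤ U1)
    (hst : ∑ h ∈ c.U, |u h| * (1 + c.dd h) ≤ us) (hτ : 0 ≤ τ)
    (h0 : ∑ k ∈ c.U, ∑ l ∈ c.U, T k l = 0) (hT : ip T T ≤ τ ^ 2) (hG : |ip c.F T| ≤ φG) :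
    |c.avg fun h h' => p.A1 * u h + p.vp * (u h * O h' h') + p.A1 * u h' + p.vp * (u h' * O h h)
      + 2 * p.A0 * T h h'| ≤
      2 * (c.a * (c.Θr * us * c.σ)) + 2 * (a1 * (U1 * c.σ ^ 2)) + 4 * (c.Θr * us * c.v)
        + 4 * (U1 * zb) + 8 * (c.Θ * τ) + 4 * φG := by
  simp only [Ctx.avg_add, Ctx.avg_mul, Ctx.sz_mul_mat]
  have m1 := hc.sz_avg1_fst hst
  have m2 := hc.avg1 (w := fun h => O h h) hc.num.v_nn hst (hp.sz_diag_sq hc)
  have m3 := hc.sz_avg1_snd hst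
  have m4 := hc.sz_avg1' (w := fun h => O h h) hc.num.v_nn hst (hp.sz_diag_sq hc)
  have m5 := hc.avg3 hτ h0 hT
  rw [← hp.cent.Zf_eq] at m2 m4
  have hu : |∑ h ∈ c.U, u h| ≤ U1 := (Finset.abs_sum_le_sum_abs _ _).trans
    ((Finset.sum_le_sum_of_subset_of_nonneg (Finset.subset_univ _)
      fun _ _ _ => abs_nonneg _).trans hU)
  have k1 : |(∑ h ∈ c.U, u h) * c.σ ^ 2| ≤ U1 * c.σ ^ 2 := by
    rw [abs_mul, abs_of_nonneg (sq_nonneg c.σ)]
    exact mul_le_mul_of_nonneg_right hu (sq_nonneg _)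
  have k2 : |(∑ h ∈ c.U, u h) * Zf O| ≤ U1 * zb := by
    rw [abs_mul]
    exact mul_le_mul hu hz (abs_nonneg _) ((abs_nonneg _).trans hu)
  have n1 := abs_le.1 (st_split hp.A1_le ha m1 k1)
  have n2 := abs_le.1 (st_split hp.vp_le hp.vp_le m2 k2)
  have n3 := abs_le.1 (st_split hp.A1_le ha m3 k1)
  have n4 := abs_le.1 (st_split hp.vp_le hp.vp_le m4 k2)
  rw [← sub_neg_eq_add] at m5
  have n5 := abs_le.1 (st_split hp.A0_le hp.A0_le m5 ((abs_neg _).trans_le hG))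
  rw [abs_le]
  constructor <;> linarith [n1.1, n1.2, n2.1, n2.2, n3.1, n3.2, n4.1, n4.2, n5.1, n5.2]

lemma Ctx.Pt.st_lin_err (hc : c.Ok) (hp : c.Pt p O) (u : H → ℝ) (T : Matrix H H ℝ) {h h' : H}
    (hh : (h, h') ∈ c.Pr) :
    |(y1 p O h h' * u h + y2 p O h h' * u h' + 2 * y0 p O h h' * T h h')
      - (p.A1 * u h + p.vp * (u h * O h' h') + p.A1 * u h' + p.vp * (u h' * O h h)
        + 2 * p.A0 * T h h')| ≤
      6 * c.a * (c.th O h h' * |u h|) + 12 * (c.th O h h' * (|u h| * c.dd h'))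
      + 6 * c.a * (c.th O h h' * |u h'|) + 12 * (c.th O h h' * (|u h'| * c.dd h))
      + 30 * (c.th O h h' * |T h h'|) := by
  have hl := hp.loc hc hh
  have e1 := abs_le.1 (sz_abs_mul_le (y := u h) hl.y1_sub)
  have e2 := abs_le.1 (sz_abs_mul_le (y := u h') hl.y2_sub)
  have e3 := abs_le.1 (sz_abs_mul_le (y := T h h') hl.y0_sub)
  rw [abs_le]
  constructor <;> linarith [e1.1, e1.2, e2.1, e2.2, e3.1, e3.2]

/-- The linear terms. -/
lemma Ctx.Pt.st_lin (hc : c.Ok) (hp : c.Pt p O) (hp' : c.Pt p' O') {a1 zb U1 φG : ℝ}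
    (ha : |p.A1| ≤ a1) (hz : |Zf O| ≤ zb) (hU : ∑ h, |(O * O' * O) h h| ≤ U1)
    (hG : |ip c.F (O * O' * O)| ≤ φG) :
    |c.avg fun h h' => y1 p O h h' * (O * O' * O) h h + y2 p O h h' * (O * O' * O) h' h'
        + 2 * y0 p O h h' * (O * O' * O) h h'| ≤
      2 * (a1 * c.σ ^ 2 * U1) + 4 * (zb * U1) + 26 * (c.Θr * c.a * c.σ * c.nu * c.ss)
        + 52 * (c.Θr * c.v * c.nu * c.ss) + 4 * φG + 68 * (c.Θ * c.nu * c.t) := by
  have hst := hp.st_G_star hc hp'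
  have hτ := mul_nonneg hc.num.nu_nn hc.num.t_nn
  have hT := hp.st_G_ip hc hp'
  have hm := abs_le.1 (hp.st_lin_main hc (u := fun h => (O * O' * O) h h) ha hz hU hst hτ
    (hp.cent.sz_sum_mul (O * O')) hT hG)
  have he := hc.sz_abs (fun h h' hq =>
    hp.st_lin_err hc (fun h => (O * O' * O) h h) (O * O' * O) (h := h) (h' := h') hq)
  rw [Ctx.avg_sub] at he
  have b1 := mul_le_mul_of_nonneg_left (hp.sz_th_fst hc hst) hc.num.a_nn
  have b2 := hp.sz_th_fst_dd hc hst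
  have b3 := mul_le_mul_of_nonneg_left (hp.sz_th_snd hc hst) hc.num.a_nn
  have b4 := hp.sz_th_snd_dd hc hst
  have b5 := hp.avg4 hc hτ hT
  have k2 : c.Θt * (c.nu * c.t) ≤ c.Θ * (c.nu * c.t) := mul_le_mul_of_nonneg_right hc.num.Θt_le hτ
  have he3 : (c.avg fun h h' => 6 * c.a * (c.th O h h' * |(O * O' * O) h h|)
      + 12 * (c.th O h h' * (|(O * O' * O) h h| * c.dd h'))
      + 6 * c.a * (c.th O h h' * |(O * O' * O) h' h'|)
      + 12 * (c.th O h h' * (|(O * O' * O) h' h'| * c.dd h))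
      + 30 * (c.th O h h' * |(O * O' * O) h h'|)) ≤ 24 * (c.Θr * c.a * c.σ * c.nu * c.ss)
        + 48 * (c.Θr * c.v * c.nu * c.ss) + 60 * (c.Θ * c.nu * c.t) := by
    simp only [Ctx.avg_add, Ctx.avg_mul]
    linarith
  have he2 := abs_le.1 (he.trans he3)
  rw [abs_le]
  constructor <;> linarith [he2.1, he2.2, hm.1, hm.2]

lemma Ctx.Pt.st_quad_err (hc : c.Ok) (hp : c.Pt p O) (hp' : c.Pt p' O') (W : Matrix H H ℝ)
    {h h' : H} (hh : (h, h') ∈ c.Pr) :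
    |(y1 p O h h' * y1 p' O' h h' * W h h ^ 2 + y1 p O h h' * y2 p' O' h h' * W h h' ^ 2
        + 2 * y1 p O h h' * y0 p' O' h h' * (W h h * W h h')
        + y2 p O h h' * y1 p' O' h h' * W h' h ^ 2
        + y2 p O h h' * y2 p' O' h h' * W h' h' ^ 2
        + 2 * y2 p O h h' * y0 p' O' h h' * (W h' h' * W h' h)
        + 2 * y0 p O h h' * y1 p' O' h h' * (W h h * W h' h)
        + 2 * y0 p O h h' * y2 p' O' h h' * (W h' h' * W h h')
        + 2 * y0 p O h h' * y0 p' O' h h' * (W h h' * W h' h)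
        + 2 * y0 p O h h' * y0 p' O' h h' * (W h h * W h' h'))
      - 2 * p.A0 * p'.A0 * (W h h * W h' h')| ≤
      21 * c.a ^ 2 * W h h ^ 2 + 63 * (W h h ^ 2 * c.dd h' ^ 2) + 21 * c.a ^ 2 * W h' h' ^ 2
        + 63 * (W h' h' ^ 2 * c.dd h ^ 2) + 17 * W h h' ^ 2 + 17 * W h' h ^ 2
        + 90 * (c.th O h h' * (|W h h| * |W h' h'|))
        + 60 * (c.th O' h h' * (|W h h| * |W h' h'|)) := by
  have hl := hp.loc hc hh
  have hl' := hp'.loc hc hh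
  obtain ⟨-, s1, s2, s3⟩ := hp.sz_small hc hh
  have x1 := sz_y_sq hl.y1_le
  have x2 := sz_y_sq hl.y2_le
  have x1' := sz_y_sq hl'.y1_le
  have x2' := sz_y_sq hl'.y2_le
  have e1 := abs_le.1 (st_coef_sq (w := W h h) (st_abs_mul_le x1 x1'))
  have e2 := abs_le.1 (st_coef_sq (w := W h h')
    (st_mixed hl.y1_le hl'.y2_le hc.num.a_nn hc.num.a_le s1 s2 s3))
  have e3 := abs_le.1 (st_cross (u := W h h) (w := W h h') x1 hl'.y0_le)
  have e4 := abs_le.1 (st_coef_sq (w := W h' h)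
    (st_mixed hl'.y1_le hl.y2_le hc.num.a_nn hc.num.a_le s1 s2 s3))
  have e5 := abs_le.1 (st_coef_sq (w := W h' h') (st_abs_mul_le x2 x2'))
  have e6 := abs_le.1 (st_cross (u := W h' h') (w := W h' h) x2 hl'.y0_le)
  have e7 := abs_le.1 (st_cross (u := W h h) (w := W h' h) x1' hl.y0_le)
  have e8 := abs_le.1 (st_cross (u := W h' h') (w := W h h') x2' hl.y0_le)
  have e9 := abs_le.1 (st_cross0 (u := W h h') (w := W h' h) hl.y0_le hl'.y0_le)
  have e10 := sz_abs_mul_le (y := W h h * W h' h')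
    (st_prod_sub hl.y0_sub hl'.y0_sub hl'.y0_le hp.A0_le)
  rw [abs_mul (W h h)] at e10
  have e11 := abs_le.1 e10
  rw [abs_le]
  constructor <;> linarith [e1.1, e1.2, e2.1, e2.2, e3.1, e3.2, e4.1, e4.2, e5.1, e5.2, e6.1, e6.2,
    e7.1, e7.2, e8.1, e8.2, e9.1, e9.2, e11.1, e11.2]

lemma Ctx.Pt.st_quad_avg (hc : c.Ok) (hp : c.Pt p O) (hp' : c.Pt p' O') :
    (c.avg fun h h' => 21 * c.a ^ 2 * (O * O') h h ^ 2 + 63 * ((O * O') h h ^ 2 * c.dd h' ^ 2)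
        + 21 * c.a ^ 2 * (O * O') h' h' ^ 2
        + 63 * ((O * O') h' h' ^ 2 * c.dd h ^ 2) + 17 * (O * O') h h' ^ 2 + 17 * (O * O') h' h ^ 2
        + 90 * (c.th O h h' * (|(O * O') h h| * |(O * O') h' h'|))
        + 60 * (c.th O' h h' * (|(O * O') h h| * |(O * O') h' h'|))) ≤
      47 * (c.a ^ 2 * c.σ ^ 2 * c.ξ ^ 2) + 139 * (c.v ^ 2 * c.ξ ^ 2) + 38 * c.t ^ 2
        + 300 * (c.Θr * c.ss * c.ξ) := by
  simp only [Ctx.avg_add, Ctx.avg_mul]
  have hsq := hp.st_W_sq hp'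
  have hst := hp.st_W_star hc hp'
  have hW := hp.st_W_ip hc hp'
  have b1 := mul_le_mul_of_nonneg_left (hc.sz_fst (u := fun h => (O * O') h h ^ 2)
    (fun _ => sq_nonneg _) hsq) (sq_nonneg c.a)
  have b2 := hc.sz_prod (u := fun h => (O * O') h h ^ 2) (w := fun h => c.dd h ^ 2)
    (fun _ => sq_nonneg _) (fun _ => sq_nonneg _) hsq hc.dd_sq
  have b3 := mul_le_mul_of_nonneg_left (hc.sz_snd (u := fun h => (O * O') h h ^ 2)
    (fun _ => sq_nonneg _) hsq) (sq_nonneg c.a)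
  have b4 := hc.sz_prod' (u := fun h => (O * O') h h ^ 2) (w := fun h => c.dd h ^ 2)
    (fun _ => sq_nonneg _) (fun _ => sq_nonneg _) hsq hc.dd_sq
  have b5 := hc.sz_mat_sq hW
  have b6 := hc.sz_mat_sq' hW
  have b7 := hp.avg2 hc (w := fun h => (O * O') h h) hc.num.ξ_nn hst hsq
  have b8 := hp'.avg2 hc (w := fun h => (O * O') h h) hc.num.ξ_nn hst hsq
  have z1 : 0 ≤ c.a ^ 2 * c.σ ^ 2 * c.ξ ^ 2 := by positivity
  have z2 : 0 ≤ c.v ^ 2 * c.ξ ^ 2 := by positivity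
  have z3 : 0 ≤ c.t ^ 2 := by positivity
  linarith

/-- The quadratic terms. -/
lemma Ctx.Pt.st_quad (hc : c.Ok) (hp : c.Pt p O) (hp' : c.Pt p' O') :
    |(c.avg fun h h' => y1 p O h h' * y1 p' O' h h' * (O * O') h h ^ 2
        + y1 p O h h' * y2 p' O' h h' * (O * O') h h' ^ 2
        + 2 * y1 p O h h' * y0 p' O' h h' * ((O * O') h h * (O * O') h h')
        + y2 p O h h' * y1 p' O' h h' * (O * O') h' h ^ 2
        + y2 p O h h' * y2 p' O' h h' * (O * O') h' h' ^ 2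
        + 2 * y2 p O h h' * y0 p' O' h h' * ((O * O') h' h' * (O * O') h' h)
        + 2 * y0 p O h h' * y1 p' O' h h' * ((O * O') h h * (O * O') h' h)
        + 2 * y0 p O h h' * y2 p' O' h h' * ((O * O') h' h' * (O * O') h h')
        + 2 * y0 p O h h' * y0 p' O' h h' * ((O * O') h h' * (O * O') h' h)
        + 2 * y0 p O h h' * y0 p' O' h h' * ((O * O') h h * (O * O') h' h'))
      - 2 * p.A0 * p'.A0 * ip O O' ^ 2| ≤
      47 * (c.a ^ 2 * c.σ ^ 2 * c.ξ ^ 2) + 139 * (c.v ^ 2 * c.ξ ^ 2) + 38 * c.t ^ 2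
        + 308 * (c.Θr * c.ss * c.ξ) := by
  have he := (hc.sz_abs (fun h h' hq =>
    hp.st_quad_err hc hp' (O * O') (h := h) (h' := h') hq)).trans (hp.st_quad_avg hc hp')
  rw [Ctx.avg_sub, Ctx.avg_mul] at he
  have m1 := hc.avg1 (u := fun h => (O * O') h h) (w := fun h => (O * O') h h) hc.num.ξ_nn
    (hp.st_W_star hc hp') (hp.st_W_sq hp')
  rw [hp.cent.st_W_tr hp'.cent, ← sq] at m1
  have k : |2 * p.A0 * p'.A0| ≤ 2 * 2 * 2 := by
    rw [abs_mul, abs_mul, abs_two]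
    exact mul_le_mul (mul_le_mul_of_nonneg_left hp.A0_le (by norm_num)) hp'.A0_le (abs_nonneg _)
      (by norm_num)
  have n1 := abs_le.1 (sz_abs_mul_sub k m1)
  have he2 := abs_le.1 he
  rw [abs_le]
  constructor <;> linarith [he2.1, he2.2, n1.1, n1.2]

end Vale.Agent.P049
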