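import Vale.Agent.P049.StepVAux

/-!
Drift of the squared diagonal under `sharp`.
-/

namespace Vale.Agent.P049

open Matrix Finset

variable {H : Type} [Fintype H] [DecidableEq H] {c : Ctx H} {p : Par} {O : Matrix H H ℝ}

namespace SV

lemma aa_pt {m D dk dh o : ℝ} (hm0 : 0 ≤ m) (hm : m ≤ 2) (h1 : 0 ≤ dk) (h2 : 0 ≤ dh) (ho : 0 ≤ o)
    (hD : |D| ≤ dk) (he : o ≤ 101 / 100 * (m + dk) * (m + dh)) :
    |D| * o * (1 + dh) ≤ 2 * (dk * o) + (if 1 < dh then dh else 0) * o + 17 * (dh ^ 2 * dk ^ 2) := by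
  have a1 : |D| * o * (1 + dh) ≤ dk * o * (1 + dh) := by gcongr
  have a2 : 0 ≤ dk * o := by positivity
  have a3 : 0 ≤ dh ^ 2 * dk ^ 2 := by positivity
  split_ifs with h
  · rcases le_total dk 1 with hk | hk
    · nlinarith [mul_le_mul_of_nonneg_right hk (mul_nonneg h2 ho)]
    · have a4 : o ≤ 101 / 100 * (3 * dk) * (3 * dh) := he.trans (by gcongr <;> linarith)
      nlinarith [mul_le_mul_of_nonneg_left a4 (mul_nonneg h1 h2), mul_nonneg h2 ho]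
  · nlinarith [mul_le_mul_of_nonneg_left (not_lt.1 h) a2]

lemma q4_pt {m τ dk dh o : ℝ} (hm0 : 0 ≤ m) (hm : m ≤ 2) (h0 : 0 < τ) (h1 : τ ≤ 1) (hk : 0 ≤ dk)
    (hh : 0 ≤ dh) (ho : 0 ≤ o) (he : o ≤ 101 / 100 * (m + dk) * (m + dh)) :
    o * o ≤ 101 / 100 * (m + τ) ^ 2 * o + (if τ < dh then 909 / 100 * (dh / τ) else 0) * o
      + (if τ < dk then 909 / 100 * (dk / τ) else 0) * o + 83 / τ ^ 4 * (dh ^ 2 * dk ^ 2) := by
  have big : ∀ d, τ < d → m + d ≤ 3 * (d / τ) := fun d hd => by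
    have a1 : 1 ≤ d / τ := (one_le_div h0).2 hd.le
    have a2 : d ≤ d / τ := le_div_self (h0.le.trans hd.le) h0 h1
    linarith
  have a1 : 0 ≤ 101 / 100 * (m + τ) ^ 2 * o := by positivity
  have a2 : 0 ≤ 83 / τ ^ 4 * (dh ^ 2 * dk ^ 2) := by positivity
  have a3 : 0 ≤ dh / τ := by positivity
  have a4 : 0 ≤ dk / τ := by positivity
  split_ifs with b1 b2 b2
  · have b3 : o ≤ 101 / 100 * (3 * (dk / τ)) * (3 * (dh / τ)) :=
      he.trans (by gcongr <;> [exact big _ b2; exact big _ b1])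
    have b4 : 83 / τ ^ 4 * (dh ^ 2 * dk ^ 2) = 83 * (dh / τ * (dk / τ)) ^ 2 := by ring
    nlinarith [mul_le_mul b3 b3 ho (by positivity), mul_nonneg a3 ho, mul_nonneg a4 ho,
      sq_nonneg (dh / τ * (dk / τ))]
  · have b3 : o ≤ 101 / 100 * 3 * (3 * (dh / τ)) :=
      he.trans (by gcongr <;> [linarith; exact big _ b1])
    nlinarith [mul_le_mul_of_nonneg_right b3 ho]
  · have b3 : o ≤ 101 / 100 * (3 * (dk / τ)) * 3 :=
      he.trans (by gcongr <;> [exact big _ b2; linarith])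
    nlinarith [mul_le_mul_of_nonneg_right b3 ho]
  · have b3 : o ≤ 101 / 100 * (m + τ) * (m + τ) := he.trans (by gcongr <;> linarith)
    nlinarith [mul_le_mul_of_nonneg_right b3 ho]

end SV

/-- Split according to `dd h ≤ 1`, `dd k ≤ 1`; use `s_le` when one is large and `Ent`
(with `m + d ≤ 2 (1 + d)`) when both are. -/
theorem Ctx.Pt.star_aa (hc : c.Ok) (hp : c.Pt p O) {m : ℝ} (hm0 : 0 ≤ m) (hm : m ≤ 2)
    (he : Ent c.dd m O) : ∑ h ∈ c.U, |aa O h| * (1 + c.dd h) ≤ c.as := by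
  have hO := hp.cent
  have key : ∀ h ∈ c.U, |aa O h| * (1 + c.dd h) ≤ 2 * ∑ k ∈ c.U, c.dd k * O k h ^ 2
      + 2 * c.n1 * c.dd h ^ 2 + 17 * (c.dd h ^ 2 * c.v ^ 2) := by
    intro h _
    have dh := hc.dd_nn h
    have t : ∀ k ∈ c.U, |if k = h then 0 else O k k * O k h ^ 2| * (1 + c.dd h) ≤
        2 * (c.dd k * O k h ^ 2) + (if 1 < c.dd h then c.dd h else 0) * O k h ^ 2
          + 17 * (c.dd h ^ 2 * c.dd k ^ 2) := by
      intro k _
      have dk := hc.dd_nn k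
      by_cases hk : k = h
      · rw [if_pos hk, abs_zero, zero_mul]
        split_ifs <;> positivity
      · rw [if_neg hk, abs_mul, abs_of_nonneg (sq_nonneg (O k h))]
        exact SV.aa_pt hm0 hm dk dh (sq_nonneg _) (hp.diag k) (he k h hk)
    have t1 : |aa O h| ≤ ∑ k ∈ c.U, |if k = h then 0 else O k k * O k h ^ 2| := by
      rw [aa, SV.sum_U (U := c.U) fun k hk => by rw [hO.supp k k hk]; simp]
      exact abs_sum_le_sum_abs _ _
    have t2 := (mul_le_mul_of_nonneg_right t1 (show 0 ≤ 1 + c.dd h by linarith)).trans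
      ((sum_mul _ _ _).trans_le (sum_le_sum t))
    simp only [sum_add_distrib, ← mul_sum, SV.sc_U' hO] at t2
    have t3 : (if 1 < c.dd h then c.dd h else 0) * sc O h ≤ 2 * c.n1 * c.dd h ^ 2 := by
      have n0 : 0 ≤ c.n1 := by linarith [hc.num.n1_ge]
      split_ifs with h1
      · nlinarith [mul_le_mul_of_nonneg_left (hp.s_le h) dh,
          mul_nonneg (mul_nonneg n0 dh) (sub_nonneg.2 h1.le)]
      · rw [zero_mul]; positivity
    nlinarith [mul_le_mul_of_nonneg_left hc.dd_sq (sq_nonneg (c.dd h))]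
  have k1 := sum_le_sum key
  simp only [sum_add_distrib, ← mul_sum, ← sum_mul] at k1
  rw [sum_comm] at k1
  simp only [← mul_sum, SV.sc_U hO] at k1
  have n0 : 0 ≤ c.n1 := by linarith [hc.num.n1_ge]
  nlinarith [hp.sum_dd_sc hc, hc.num.as_ge, mul_le_mul_of_nonneg_left hc.dd_sq n0,
    mul_le_mul_of_nonneg_right hc.dd_sq (sq_nonneg c.v)]

/-- Split according to `dd ≤ τ`; for `d > τ` use `m + d ≤ 3 d / τ`. -/
theorem Ctx.Pt.Q4_le (hc : c.Ok) (hp : c.Pt p O) {m τ : ℝ} (hm0 : 0 ≤ m) (hm : m ≤ 2)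
    (he : Ent c.dd m O) (h0 : 0 < τ) (h1 : τ ≤ 1) :
    Q4 O ≤ 101 / 100 * (m + τ) ^ 2 * Yf O + 40 * c.n1 * c.v ^ 2 / τ ^ 2 + 83 * c.v ^ 4 / τ ^ 4 := by
  have hO := hp.cent
  obtain ⟨g, hg⟩ : ∃ g : H → ℝ, ∀ k, g k = if τ < c.dd k then 909 / 100 * (c.dd k / τ) else 0 :=
    ⟨_, fun _ => rfl⟩
  have g0 : ∀ k, 0 ≤ g k := fun k => by
    have := hc.dd_nn k
    rw [hg]
    split_ifs <;> positivity
  have t : ∀ h ∈ c.U, ∀ k ∈ c.U, (if k = h then 0 else O k h ^ 4) ≤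
      101 / 100 * (m + τ) ^ 2 * O k h ^ 2 + g h * O k h ^ 2 + g k * O k h ^ 2
        + 83 / τ ^ 4 * (c.dd h ^ 2 * c.dd k ^ 2) := by
    intro h _ k _
    have := g0 h
    have := g0 k
    by_cases hk : k = h
    · rw [if_pos hk]; positivity
    · rw [if_neg hk, hg, hg, show O k h ^ 4 = O k h ^ 2 * O k h ^ 2 by ring]
      exact SV.q4_pt hm0 hm h0 h1 (hc.dd_nn k) (hc.dd_nn h) (sq_nonneg _) (he k h hk)
  have e : Q4 O = ∑ h ∈ c.U, ∑ k ∈ c.U, if k = h then 0 else O k h ^ 4 := by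
    rw [Q4, SV.sum_U (U := c.U) fun h hh => sum_eq_zero fun k _ => by
      rw [hO.symm k h, hO.supp h k hh]; simp]
    exact sum_congr rfl fun h _ => SV.sum_U fun k hk => by rw [hO.supp k h hk]; simp
  have k1 := sum_le_sum fun h hh => sum_le_sum (t h hh)
  simp only [sum_add_distrib] at k1
  rw [sum_comm (f := fun h k => g k * O k h ^ 2)] at k1
  simp only [← mul_sum, ← sum_mul, SV.sc_U hO, SV.sc_U' hO, ← hO.Yf_eq] at k1
  have n0 : 0 ≤ c.n1 := by linarith [hc.num.n1_ge]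
  have k2 : ∑ k ∈ c.U, g k * sc O k ≤ 20 * c.n1 * c.v ^ 2 / τ ^ 2 := by
    have t3 : ∀ k ∈ c.U, g k * sc O k ≤ 20 * c.n1 / τ ^ 2 * c.dd k ^ 2 := fun k _ => by
      rw [hg]
      split_ifs with h2
      · have a1 : 1 ≤ c.dd k / τ := (one_le_div h0).2 h2.le
        have a2 : c.dd k ≤ c.dd k / τ := le_div_self (hc.dd_nn k) h0 h1
        have a3 : sc O k ≤ c.n1 * (2 * (c.dd k / τ)) :=
          (hp.s_le k).trans (mul_le_mul_of_nonneg_left (by linarith) n0)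
        have a4 : 20 * c.n1 / τ ^ 2 * c.dd k ^ 2 = 20 * c.n1 * (c.dd k / τ) ^ 2 := by ring
        rw [a4]
        nlinarith [mul_le_mul_of_nonneg_left a3 (show 0 ≤ c.dd k / τ by linarith),
          mul_nonneg n0 (sq_nonneg (c.dd k / τ))]
      · rw [zero_mul]; positivity
    refine (sum_le_sum t3).trans ?_
    rw [← mul_sum]
    exact (mul_le_mul_of_nonneg_left hc.dd_sq (by positivity)).trans_eq (by ring)
  have k3 : 83 / τ ^ 4 * ((∑ h ∈ c.U, c.dd h ^ 2) * ∑ h ∈ c.U, c.dd h ^ 2) ≤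
      83 * c.v ^ 4 / τ ^ 4 :=
    (mul_le_mul_of_nonneg_left (mul_le_mul hc.dd_sq hc.dd_sq (by positivity) (sq_nonneg _))
      (by positivity)).trans_eq (by ring)
  rw [e]
  linear_combination k1 + 2 * k2 + k3

namespace SV

lemma avg_neg (f : H → H → ℝ) : (c.avg fun h h' => -f h h') = -c.avg f := by
  simpa using Ctx.avg_mul (c := c) (-1) f

lemma one_sq (hc : c.Ok) : ∑ _h ∈ c.U, (1 : ℝ) ^ 2 ≤ c.σ ^ 2 := by simp [hc.card]

lemma diag_sc (hc : c.Ok) (hp : c.Pt p O) : ∑ k, |O k k| * sc O k ≤ c.v * c.ξ := by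
  rw [sum_U (U := c.U) fun k hk => by rw [hp.cent.supp k k hk]; simp]
  exact (sum_le_sum fun k _ => mul_le_mul_of_nonneg_right (hp.diag k) (sc_nonneg _ _)).trans
    (hp.sum_dd_sc hc)

lemma cube_le (hc : c.Ok) (hp : c.Pt p O) : |∑ k ∈ c.U, O k k ^ 3| ≤ c.v ^ 3 := by
  have t : ∀ k ∈ c.U, |O k k ^ 3| ≤ c.v * c.dd k ^ 2 := fun k hk => by
    rw [abs_pow]
    refine (pow_le_pow_left₀ (abs_nonneg _) (hp.diag k) 3).trans ?_
    nlinarith [mul_le_mul_of_nonneg_right (hc.dd_le hk) (sq_nonneg (c.dd k))]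
  refine ((abs_sum_le_sum_abs _ _).trans (sum_le_sum t)).trans ?_
  rw [← mul_sum]
  nlinarith [mul_le_mul_of_nonneg_left hc.dd_sq hc.num.v_nn]

lemma sum_aa (hO : Cent c.U O) :
    ∑ h ∈ c.U, aa O h = ∑ k, O k k * sc O k - ∑ k ∈ c.U, O k k ^ 3 := by
  simp only [aa_eq, sum_sub_distrib]
  rw [sum_comm]
  simp only [← mul_sum, sc_U hO]

lemma ip_GG (hc : c.Ok) (hp : c.Pt p O) {X : Matrix H H ℝ} {φ : ℝ} (hX : QB X φ) (hφ : 0 ≤ φ) :
    |ip X (GG O)| ≤ φ * (c.v * c.ξ) := by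
  have e : ip X (GG O) = ∑ k, O k k * (O k ⬝ᵥ (X *ᵥ O k)) := by
    simp only [ip, GG, of_apply, dotProduct, mulVec, mul_sum]
    rw [sum_congr rfl fun h _ => sum_comm, sum_comm]
    exact sum_congr rfl fun k _ => sum_congr rfl fun h _ => sum_congr rfl fun l _ => by ring
  have t : ∀ k, |O k k * (O k ⬝ᵥ (X *ᵥ O k))| ≤ φ * (|O k k| * sc O k) := fun k => by
    have := hX (O k)
    rw [show O k ⬝ᵥ O k = sc O k by simp only [← sc_row hp.cent, dotProduct, sq]] at this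
    rw [abs_mul, mul_left_comm]
    exact mul_le_mul_of_nonneg_left this (abs_nonneg _)
  rw [e]
  refine ((abs_sum_le_sum_abs _ _).trans (sum_le_sum fun k _ => t k)).trans ?_
  rw [← mul_sum]
  exact mul_le_mul_of_nonneg_left (diag_sc hc hp) hφ

lemma GG_sq (hc : c.Ok) (hp : c.Pt p O) : ip (GG O) (GG O) ≤ (c.v * c.ξ) ^ 2 := by
  have h1 := (le_abs_self _).trans
    (ip_GG hc hp ((opB_fro (GG O)).qb (fro_nonneg _)) (fro_nonneg _))
  rw [← fro_sq] at h1 ⊢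
  nlinarith [sq_nonneg (fro (GG O) - c.v * c.ξ)]

lemma avg_ff (hc : c.Ok) (hp : c.Pt p O) {m zb Q r : ℝ} (hm0 : 0 ≤ m) (hm : m ≤ 2)
    (he : Ent c.dd m O) (hz : |Zf O| ≤ zb) (hQ : Q4 O ≤ Q) (hr0 : 0 ≤ r)
    (hr : r * c.σ ^ 2 ≤ 103 / 100) :
    c.avg (ff c p O r) ≤ -(c.σ ^ 2 * Vf O) - 2 * p.A1 * c.σ ^ 2 * (∑ k, O k k * sc O k)
      + 3 / 2 * p.vp ^ 2 * Q * Vf O + 25 * (c.Θr * c.σ * c.v ^ 2) + 25 * (c.Θr * c.σ * c.v ^ 3)
      + 26 * (c.Θr * c.a * c.σ * c.as) + 52 * (c.Θr * c.v * c.as) + 2 * (c.a * c.σ ^ 2 * c.v ^ 3)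
      + 4 * (zb * c.v ^ 3) + 4 * (zb * c.v * c.ξ) + 4 * (c.v * c.ξ) + 7 * (c.v ^ 2 * c.ξ)
      + 13 * (c.a ^ 2 * c.σ ^ 2 * Q) + 26 * c.v ^ 2 := by
  have hO := hp.cent
  have hσ : 0 ≤ c.σ := by linarith [hc.num.σ_ge]
  have hv := hc.num.v_nn
  have ha := hc.num.a_nn
  have hξ := hc.num.ξ_nn
  have sa := hp.star_aa hc hm0 hm he
  have hV : ∑ h ∈ c.U, O h h ^ 2 ≤ c.v ^ 2 := hO.Vf_eq ▸ hp.Vf_le hc
  have s1 : ∑ _h ∈ c.U, (1 : ℝ) = c.σ ^ 2 := by simp [hc.card]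
  have F1 := (abs_le.1 (hc.avg1 (u := fun h => O h h ^ 2) (w := fun _ => 1) hσ
    ((sum_le_sum fun h _ => mul_le_mul_of_nonneg_right (by
      rw [abs_pow, abs_pow]
      exact pow_le_pow_left₀ (abs_nonneg _) ((hp.diag h).trans (le_abs_self _)) 2)
      (by linarith [hc.dd_nn h])).trans hc.star_dd_sq) (one_sq hc))).1
  have F2 := hc.avg1 (u := aa O) (w := fun _ => 1) hσ sa (one_sq hc)
  have F3 := hc.avg1 (u := aa O) (w := fun h => O h h) hv sa hV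
  have F4 := hp.avg2 hc (u := aa O) (w := fun _ => 1) hσ sa (one_sq hc)
  have F5 := hp.avg2 hc (u := aa O) (w := c.dd) hv sa hc.dd_sq
  have F6 := hp.avg2 hc (u := fun h => c.dd h ^ 2) (w := fun _ => 1) hσ hc.star_dd_sq (one_sq hc)
  have F7 : (c.avg fun h h' => (c.a + 2 * c.dd h') * c.dd h' * O h h' ^ 2) ≤
      1001 / 1000 * ((1 + 2 * c.v) * (c.v * c.ξ)) := by
    refine (hc.avg_le fun k _ l _ => by have := hc.dd_nn l; positivity).trans ?_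
    rw [sum_comm]
    simp only [← mul_sum, sc_U' hO]
    refine mul_le_mul_of_nonneg_left (le_trans (sum_le_sum fun l hl => ?_)
      ((mul_sum _ _ _).symm.trans_le
        (mul_le_mul_of_nonneg_left (hp.sum_dd_sc hc) (by positivity)))) (by norm_num)
    rw [mul_assoc]
    exact mul_le_mul_of_nonneg_right (by linarith [hc.num.a_le, hc.dd_le hl])
      (mul_nonneg (hc.dd_nn l) (sc_nonneg _ _))
  have hq : ∑ h ∈ c.U, qq O h ≤ Q :=
    (sum_le_sum_of_subset_of_nonneg (subset_univ _) fun k _ _ => qq_nonneg O k).trans hQ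
  have V0 : 0 ≤ Vf O := sum_nonneg fun _ _ => sq_nonneg _
  have Q0 : 0 ≤ Q := (sum_nonneg fun k _ => qq_nonneg O k).trans hq
  have F8 : (c.avg fun h h' => qq O h * (11 / 10 * p.vp ^ 2 * O h' h' ^ 2 + 11 * c.a ^ 2)) ≤
      1001 / 1000 * (Q * (11 / 10 * p.vp ^ 2 * Vf O + c.σ ^ 2 * (11 * c.a ^ 2))) := by
    refine (hc.avg_le fun k _ l _ => by have := qq_nonneg O k; positivity).trans ?_
    simp only [← mul_sum, ← sum_mul, sum_add_distrib, sum_const, nsmul_eq_mul, hc.card, ← hO.Vf_eq]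
    exact mul_le_mul_of_nonneg_left (mul_le_mul (by exact hq) (by linarith) (by positivity) Q0)
      (by norm_num)
  have F9 : (c.avg fun h _ => c.dd h ^ 2) ≤ 1001 / 1000 * (c.σ ^ 2 * c.v ^ 2) := by
    refine (hc.avg_le fun k _ l _ => sq_nonneg _).trans ?_
    simp only [← mul_sum, sum_const, nsmul_eq_mul, hc.card]
    exact mul_le_mul_of_nonneg_left (mul_le_mul_of_nonneg_left hc.dd_sq (sq_nonneg _))
      (by norm_num)
  rw [s1, ← hO.Vf_eq] at F1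
  rw [s1, sum_aa hO] at F2
  rw [← hO.Zf_eq] at F3
  have c3 := cube_le hc hp
  have G2 : -(p.A1 * c.avg fun h _ => aa O h * 1) ≤ -(p.A1 * c.σ ^ 2 * ∑ k, O k k * sc O k)
      + c.a * (c.Θr * c.as * c.σ) + c.a * c.v ^ 3 * c.σ ^ 2 := by
    have a1 := (neg_le_abs _).trans ((abs_mul _ _).trans_le
      (mul_le_mul hp.A1_le F2 (abs_nonneg _) ha))
    have a2 := (le_abs_self _).trans ((abs_mul _ _).trans_le
      (mul_le_mul hp.A1_le c3 (abs_nonneg _) ha))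
    linear_combination a1 + c.σ ^ 2 * a2
  have G3 : -(p.vp * c.avg fun h h' => aa O h * O h' h') ≤
      2 * (c.Θr * c.as * c.v) + 2 * ((c.v * c.ξ + c.v ^ 3) * zb) := by
    have a0 : |∑ h ∈ c.U, aa O h| ≤ c.v * c.ξ + c.v ^ 3 := by
      rw [sum_aa hO]
      refine (abs_sub _ _).trans (add_le_add ((abs_sum_le_sum_abs _ _).trans ?_) c3)
      simpa only [abs_mul, abs_of_nonneg (sc_nonneg _ _)] using diag_sc hc hp
    have a1 := (neg_le_abs _).trans ((abs_mul _ _).trans_le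
      (mul_le_mul hp.vp_le F3 (abs_nonneg _) zero_le_two))
    have a2 := (neg_le_abs _).trans ((abs_mul _ _).trans_le
      (mul_le_mul hp.vp_le ((abs_mul _ _).trans_le (mul_le_mul a0 hz (abs_nonneg _)
        (by positivity))) (abs_nonneg _) zero_le_two))
    linear_combination a1 + a2
  have G9 : c.σ ^ 2 * r ^ 2 * (c.avg fun h _ => c.dd h ^ 2) ≤ 107 / 100 * c.v ^ 2 := by
    have a1 : (r * c.σ ^ 2) ^ 2 ≤ (103 / 100) ^ 2 := pow_le_pow_left₀ (by positivity) hr 2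
    nlinarith [mul_le_mul_of_nonneg_left F9 (show 0 ≤ c.σ ^ 2 * r ^ 2 by positivity),
      mul_le_mul_of_nonneg_right a1 (sq_nonneg c.v), sq_nonneg c.v]
  have G4 := mul_le_mul_of_nonneg_left F4 ha
  have n1 : 0 ≤ p.vp ^ 2 * Q * Vf O := by positivity
  have n2 : 0 ≤ c.a ^ 2 * c.σ ^ 2 * Q := by positivity
  have n3 : 0 ≤ c.v * c.ξ := by positivity
  have n4 : 0 ≤ c.v ^ 2 * c.ξ := by positivity
  have n5 : 0 ≤ c.v ^ 2 := by positivity
  unfold ff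
  simp only [Ctx.avg_add, Ctx.avg_sub, Ctx.avg_mul, avg_neg]
  linear_combination F1 + 2 * G2 + 2 * G3 + 12 * G4 + 24 * F5 + 12 * F6 + 3 * F7 + 1115 / 1000 * F8
    + 24 * G9 + 2722735 / 10000000 * n1 + 722735 / 1000000 * n2 + 997 / 1000 * n3
    + 994 / 1000 * n4 + 32 / 100 * n5

lemma avg_gg (hc : c.Ok) (hp : c.Pt p O) {r : ℝ} (hr0 : 0 ≤ r) (hr : r * c.σ ^ 2 ≤ 103 / 100) :
    c.avg (gg c p O r) ≤ 136 * (c.Θ * c.v * c.ξ) + 8 * (c.φ * c.v * c.ξ) + 124 * (c.v * c.σ * c.y)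
      + 5 * c.Θ + 1200 * c.ξ ^ 2 + 300 * c.y ^ 2 + 2 * c.v ^ 2 := by
  have hO := hp.cent
  have hσ := hc.num.σ_ge
  have hσ2 : 100 ≤ c.σ ^ 2 := by nlinarith
  have hv := hc.num.v_nn
  have hy := hc.num.y_nn
  have hξ := hc.num.ξ_nn
  have hΘ := hc.num.Θ_ge
  have n3 : 0 ≤ c.v * c.ξ := by positivity
  have F1 := hc.avg3 (T := GG O) n3 (sum_eq_zero fun k _ => by
    simp only [GG, of_apply]
    rw [sum_comm]
    refine sum_eq_zero fun j _ => ?_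
    rw [← mul_sum, ← mul_sum, ← sum_U (U := c.U) fun l hl => by rw [hO.symm, hO.supp l j hl],
      hO.row, mul_zero, mul_zero]) (GG_sq hc hp)
  have G1 : -(p.A0 * c.avg fun h h' => GG O h h') ≤
      2 * (2 * c.Θ * (c.v * c.ξ)) + 2 * (c.φ * (c.v * c.ξ)) := by
    have a1 := (neg_le_abs _).trans ((abs_mul _ _).trans_le
      (mul_le_mul hp.A0_le F1 (abs_nonneg _) zero_le_two))
    have a2 := (le_abs_self _).trans ((abs_mul _ _).trans_le
      (mul_le_mul hp.A0_le (ip_GG hc hp hc.F_qb hc.num.φ_nn) (abs_nonneg _) zero_le_two))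
    linear_combination a1 + a2
  have F2 := hp.avg4 hc (T := GG O) n3 (GG_sq hc hp)
  have G2 := mul_le_mul_of_nonneg_right hc.num.Θt_le n3
  have F5 := hp.avg_z_sq hc
  have F3 := hc.avg_le_of_sq (f := WW p c.U O) (x := 15 * (c.v * c.σ * c.y)) (by positivity) (by
    refine (hc.avg_mono (g := fun h h' => c.v ^ 2 *
      ∑ k, (Bm p O h h' k h + Bm p O h h' k h') ^ 2) fun pr _ => ?_).trans ?_
    · refine (sum_mul_sq_le_sq_mul_sq _ _ _).trans (mul_le_mul ?_ ?_ (by positivity) (by positivity))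
      · exact (sum_le_sum_of_subset_of_nonneg (subset_univ _) fun k _ _ => sq_nonneg _).trans
          (hp.Vf_le hc)
      · exact sum_le_sum_of_subset_of_nonneg (subset_univ _) fun k _ _ => sq_nonneg _
    · rw [Ctx.avg_mul]
      nlinarith [mul_le_mul_of_nonneg_left F5 (sq_nonneg c.v), sq_nonneg (c.v * c.σ * c.y)])
  have G3 : r * (c.avg fun h h' => |WW p c.U O h h'|) ≤ 31 * (c.v * c.σ * c.y) := by
    have a0 : 0 ≤ c.v * c.σ * c.y := by positivity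
    nlinarith [mul_le_mul_of_nonneg_left F3 hr0, mul_le_mul_of_nonneg_right hr a0]
  have F4 : (c.avg fun h h' => ∑ k, O k h ^ 2 * O k h' ^ 2) ≤ 1001 / 1000 * c.ξ ^ 2 := by
    refine (hc.avg_le fun k _ l _ => by positivity).trans
      (mul_le_mul_of_nonneg_left (le_trans (le_of_eq ?_) hp.Xi_le) (by norm_num))
    rw [sum_congr rfl fun h _ => sum_comm, sum_comm]
    simp only [← mul_sum, ← sum_mul, sc_U hO, Xif, sq (sc O _)]
  have a1 : (r * c.σ ^ 2) ^ 2 ≤ (103 / 100) ^ 2 := pow_le_pow_left₀ (by positivity) hr 2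
  have a2 : r ^ 2 * c.σ ^ 2 ≤ 107 / 10000 := by
    nlinarith [mul_le_mul_of_nonneg_left hσ2 (show 0 ≤ r ^ 2 * c.σ ^ 2 by positivity)]
  have G5 : r ^ 2 * (c.avg fun h h' => ∑ k, (Bm p O h h' k h + Bm p O h h' k h') ^ 2) ≤
      214 / 100 * c.y ^ 2 := by
    nlinarith [mul_le_mul_of_nonneg_left F5 (sq_nonneg r),
      mul_le_mul_of_nonneg_right a2 (sq_nonneg c.y)]
  have F6 : (c.avg fun h h' => c.th O h h') ≤ 2 * c.Θ * c.σ ^ 2 :=
    (hp.avg_th hc).trans (by nlinarith [hc.num.Θt_le])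
  have G6 : c.σ ^ 2 * r ^ 2 * (c.avg fun h h' => c.th O h h') ≤ 5 / 2 * c.Θ := by
    nlinarith [mul_le_mul_of_nonneg_left F6 (show 0 ≤ c.σ ^ 2 * r ^ 2 by positivity),
      mul_le_mul_of_nonneg_right a1 (show 0 ≤ c.Θ by linarith)]
  have G7 : c.N * (c.v ^ 2 * r ^ 2) ≤ 2 * c.v ^ 2 := by
    nlinarith [mul_le_mul_of_nonneg_right hc.N_le (show 0 ≤ c.v ^ 2 * r ^ 2 by positivity),
      mul_le_mul_of_nonneg_right a1 (sq_nonneg c.v), sq_nonneg c.v]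
  have n1 := sq_nonneg c.ξ
  have n2 := sq_nonneg c.y
  unfold gg
  simp only [Ctx.avg_add, Ctx.avg_const, avg_neg]
  simp only [Ctx.avg_mul]
  rw [Ctx.avg_mul (4 * p.A0) fun h h' => GG O h h']
  linear_combination 4 * G1 + 60 * F2 + 120 * G2 + 4 * G3 + 1193 * F4 + 132 * G5 + 2 * G6 + G7
    + 5807 / 1000 * n1 + 1752 / 100 * n2

end SV

/-- Drift of the squared diagonal. For `k ∈ rem U h h'` write `sharp k k = D k + e k` with
`e k = - y1 α ^ 2 - y2 β ^ 2 - 2 y0 α β + 2 z k / (S - 2) + τ / (S - 2) ^ 2`, `α = O k h`,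
`β = O k h'` (`Cent.proj_rem_apply`). Linear terms: `∑ D α ^ 2 = aa O h - D' o ^ 2`,
`∑ D α β = G h h' - o (D ^ 2 + D' ^ 2)` with `G = O * diagonal D * O`, `fro G ≤ ∑ |D| s ≤ v ξ`,
`|ip F G| ≤ φ ∑ |D| s`, `∑ aa = ∑ D s - ∑ D ^ 3`. Quadratic terms:
the square of `x + y` is at most `1.1 x ^ 2 + 11 y ^ 2`, `y1 ^ 2 ≤ 1.013 (1.1 vp ^ 2 D' ^ 2 + 11 a ^ 2)`,
`|y1 y2| ≤ 2` on good pairs. -/
theorem Ctx.Pt.stepV (hc : c.Ok) (hp : c.Pt p O) {m zb Q : ℝ} (hm0 : 0 ≤ m) (hm : m ≤ 2)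
    (he : Ent c.dd m O) (hz : |Zf O| ≤ zb) (hQ : Q4 O ≤ Q) :
    (c.avg fun h h' => Vf (sharp p c.U O h h') - Vf O) ≤
      -2 * c.σ ^ 2 * Vf O + 3 * p.vp ^ 2 * Q * Vf O
        - 4 * p.A1 * c.σ ^ 2 * (∑ k, O k k * sc O k) + 10000 * c.errV zb Q := by
  obtain ⟨b1, b2, b3⟩ := SV.r_bd hc
  have A := hc.avg_mono (f := fun h h' => Vf (sharp p c.U O h h') - Vf O)
    (g := fun h h' => SV.ff c p O _ h h' + SV.ff c p O _ h' h + SV.gg c p O _ h h')
    fun pr hpr => SV.pointwise hc hp hpr rfl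
  rw [Ctx.avg_add, Ctx.avg_add, hc.avg_swap (SV.ff c p O _)] at A
  have B := SV.avg_ff hc hp hm0 hm he hz hQ b2 b3
  have C := SV.avg_gg hc hp b2 b3
  have hσ := hc.num.σ_ge
  have hv := hc.num.v_nn
  have hy := hc.num.y_nn
  have hξ := hc.num.ξ_nn
  have hΘ := hc.num.Θ_ge
  have hΘr := hc.num.Θr_ge
  have ha := hc.num.a_nn
  have hφ := hc.num.φ_nn
  have hn : 0 ≤ c.n1 := by linarith [hc.num.n1_ge]
  have hz0 : 0 ≤ zb := (abs_nonneg _).trans hz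
  have hQ0 : 0 ≤ Q := (sum_nonneg fun k _ => SV.qq_nonneg O k).trans hQ
  have has : 2 * c.v * c.ξ ≤ c.as := le_trans (by
    have : 0 ≤ 2 * c.n1 * c.v ^ 2 + 17 * c.v ^ 4 := by positivity
    linarith) hc.num.as_ge
  have has0 : 0 ≤ c.as := le_trans (by positivity) has
  have d1 : c.v ^ 2 ≤ c.Θr * c.σ * c.v ^ 2 :=
    le_mul_of_one_le_left (sq_nonneg _) (by nlinarith)
  have d2 : c.v * c.ξ ≤ c.Θ * c.v * c.ξ := by
    rw [mul_assoc]; exact le_mul_of_one_le_left (by positivity) hΘ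
  have d3 : 2 * (c.v ^ 2 * c.ξ) ≤ c.Θr * c.v * c.as := by
    nlinarith [mul_le_mul_of_nonneg_left has hv,
      mul_le_mul_of_nonneg_right hΘr (mul_nonneg hv has0)]
  have e1 : 0 ≤ c.Θr * c.σ * c.v ^ 2 := by positivity
  have e2 : 0 ≤ c.Θr * c.σ * c.v ^ 3 := by positivity
  have e3 : 0 ≤ c.Θr * c.a * c.σ * c.as := by positivity
  have e4 : 0 ≤ c.Θr * c.v * c.as := by positivity
  have e5 : 0 ≤ c.a * c.σ ^ 2 * c.v ^ 3 := by positivity
  have e6 : 0 ≤ zb * c.v ^ 3 := by positivity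
  have e7 : 0 ≤ zb * c.v * c.ξ := by positivity
  have e8 : 0 ≤ c.Θ * c.v * c.ξ := by positivity
  have e9 : 0 ≤ c.φ * c.v * c.ξ := by positivity
  have e10 : 0 ≤ c.v * c.σ * c.y := by positivity
  have e11 : 0 ≤ c.Θ := by positivity
  have e12 : 0 ≤ c.a ^ 2 * c.σ ^ 2 * Q := by positivity
  have e13 := sq_nonneg c.ξ
  have e14 := sq_nonneg c.y
  rw [Num.errV]
  linear_combination A + 2 * B + C + 54 * d1 + 8 * d2 + 7 * d3 + 9896 * e1 + 9950 * e2 + 9948 * e3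
    + 9889 * e4 + 9996 * e5 + 9992 * e6 + 9992 * e7 + 9856 * e8 + 9992 * e9 + 9876 * e10
    + 9995 * e11 + 9974 * e12 + 8800 * e13 + 9700 * e14

end Vale.Agent.P049
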