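import Vale.Agent.P049.StepZ

/-!
Pointwise bounds for the drift of the squared diagonal.
-/

namespace Vale.Agent.P049

open Matrix Finset

variable {H : Type} [Fintype H] [DecidableEq H] {c : Ctx H} {p : Par} {O : Matrix H H ℝ}

namespace SV

/-- Column sums of fourth powers. -/
def qq (O : Matrix H H ℝ) (h : H) : ℝ := ∑ k, if k = h then 0 else O k h ^ 4

/-- The matrix `O * diagonal * O`. -/
def GG (O : Matrix H H ℝ) : Matrix H H ℝ := Matrix.of fun h h' => ∑ k, O k k * (O k h * O k h')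

/-- The linear centering term. -/
noncomputable def WW (p : Par) (U : Finset H) (O : Matrix H H ℝ) (h h' : H) : ℝ :=
  ∑ k ∈ rem U h h', O k k * (Bm p O h h' k h + Bm p O h h' k h')

omit [Fintype H] in
lemma sum_rem {U : Finset H} {h h' : H} (hh : h ∈ U) (hh' : h' ∈ U) (hne : h ≠ h') (g : H → ℝ) :
    ∑ k ∈ rem U h h', g k = ∑ k ∈ U, g k - g h - g h' := by
  rw [rem, sum_erase_eq_sub (mem_erase.2 ⟨hne.symm, hh'⟩), sum_erase_eq_sub hh]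

omit [DecidableEq H] in
lemma sum_U {U : Finset H} {g : H → ℝ} (h : ∀ k, k ∉ U → g k = 0) : ∑ k, g k = ∑ k ∈ U, g k :=
  (sum_subset (subset_univ U) fun k _ hk => h k hk).symm

lemma aa_eq (O : Matrix H H ℝ) (h : H) : aa O h = ∑ k, O k k * O k h ^ 2 - O h h ^ 3 := by
  have e : ∀ k, (if k = h then 0 else O k k * O k h ^ 2) =
      O k k * O k h ^ 2 - if k = h then O h h ^ 3 else 0 := fun k => by
    split_ifs with hk
    · subst hk; ring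
    · ring
  simp only [aa, e, sum_sub_distrib, sum_ite_eq', mem_univ, if_true]

omit [DecidableEq H] in
lemma sc_row {U : Finset H} (hO : Cent U O) (k : H) : ∑ h, O k h ^ 2 = sc O k :=
  sum_congr rfl fun h _ => by rw [hO.symm]

omit [DecidableEq H] in
lemma sc_U {U : Finset H} (hO : Cent U O) (k : H) : ∑ h ∈ U, O k h ^ 2 = sc O k := by
  rw [← sc_row hO, sum_U (U := U) fun h hh => by rw [hO.symm, hO.supp h k hh]; ring]

omit [DecidableEq H] in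
lemma sc_U' {U : Finset H} (hO : Cent U O) (k : H) : ∑ h ∈ U, O h k ^ 2 = sc O k := by
  rw [sc, sum_U (U := U) fun h hh => by rw [hO.supp h k hh]; ring]

lemma sq_e {D α β y1 y2 y0 z τ r : ℝ} (h12 : y1 * y2 ≤ 2) (h0 : |y0| ≤ 3) :
    (D - y1 * (α * α) - y2 * (β * β) - y0 * (α * β + β * α) + (z + z) * r + τ * r ^ 2) ^ 2 ≤
      D ^ 2 - 2 * y1 * (D * α ^ 2) - 2 * y2 * (D * β ^ 2) - 4 * y0 * (D * (α * β))
        + 4 * r * (D * z) + 2 * τ * r ^ 2 * D + 11 / 10 * y1 ^ 2 * α ^ 4 + 11 / 10 * y2 ^ 2 * β ^ 4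
        + 1193 * (α ^ 2 * β ^ 2) + 132 * r ^ 2 * z ^ 2 + 33 * τ ^ 2 * r ^ 4 := by
  have h3 : y0 ^ 2 ≤ 9 := by nlinarith [abs_le.1 h0]
  have hab : 0 ≤ α ^ 2 * β ^ 2 := by positivity
  obtain ⟨x, hx⟩ : ∃ x, x = y1 * α ^ 2 + y2 * β ^ 2 := ⟨_, rfl⟩
  obtain ⟨w, hw⟩ : ∃ w, w = -(2 * y0 * (α * β)) + 2 * z * r + τ * r ^ 2 := ⟨_, rfl⟩
  have e1 : D - y1 * (α * α) - y2 * (β * β) - y0 * (α * β + β * α) + (z + z) * r + τ * r ^ 2 =
      D + (w - x) := by rw [hx, hw]; ring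
  have e2 : x ^ 2 ≤ y1 ^ 2 * α ^ 4 + y2 ^ 2 * β ^ 4 + 4 * (α ^ 2 * β ^ 2) := by
    rw [hx]
    nlinarith [mul_le_mul_of_nonneg_right h12 hab]
  have e3 : w ^ 2 ≤ 3 * (36 * (α ^ 2 * β ^ 2) + 4 * r ^ 2 * z ^ 2 + τ ^ 2 * r ^ 4) := by
    rw [hw]
    nlinarith [mul_le_mul_of_nonneg_right h3 hab, sq_nonneg (2 * y0 * (α * β) + 2 * z * r),
      sq_nonneg (2 * y0 * (α * β) + τ * r ^ 2), sq_nonneg (2 * z * r - τ * r ^ 2)]
  have e4 : D * (w - x) = -(y1 * (D * α ^ 2)) - y2 * (D * β ^ 2) - 2 * y0 * (D * (α * β))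
      + 2 * r * (D * z) + τ * r ^ 2 * D := by rw [hx, hw]; ring
  rw [e1]
  nlinarith [sq_nonneg (x + 10 * w)]

lemma rem_le_qq {U : Finset H} (O : Matrix H H ℝ) {h h' l : H} (hl : l = h ∨ l = h') :
    ∑ k ∈ rem U h h', O k l ^ 4 ≤ qq O l := by
  refine le_trans (le_of_eq (sum_congr rfl fun k hk => ?_))
    (sum_le_sum_of_subset_of_nonneg (subset_univ _) fun k _ _ => by split_ifs <;> positivity)
  rw [if_neg]
  rcases hl with rfl | rfl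
  · exact (mem_rem.1 hk).2.1
  · exact (mem_rem.1 hk).2.2

/-- The exact expansion, with the quadratic part estimated. -/
lemma expand {U : Finset H} (hO : Cent U O) {h h' : H} (hh : h ∈ U) (hh' : h' ∈ U) (hne : h ≠ h')
    (hS : 3 ≤ U.card) (h12 : y1 p O h h' * y2 p O h h' ≤ 2) (h0 : |y0 p O h h'| ≤ 3) {r τ : ℝ}
    (hr : r = ((U.card : ℝ) - 2)⁻¹)
    (hτ : τ = Bm p O h h' h h + 2 * Bm p O h h' h h' + Bm p O h h' h' h') :
    Vf (sharp p U O h h') - Vf O ≤ -O h h ^ 2 - O h' h' ^ 2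
      - 2 * y1 p O h h' * (aa O h - O h' h' * O h h' ^ 2)
      - 2 * y2 p O h h' * (aa O h' - O h h * O h h' ^ 2)
      - 4 * y0 p O h h' * (GG O h h' - O h h' * (O h h ^ 2 + O h' h' ^ 2))
      + 4 * r * WW p U O h h' + 2 * τ * r ^ 2 * ∑ k ∈ rem U h h', O k k
      + 11 / 10 * y1 p O h h' ^ 2 * qq O h + 11 / 10 * y2 p O h h' ^ 2 * qq O h'
      + 1193 * ∑ k, O k h ^ 2 * O k h' ^ 2
      + 132 * r ^ 2 * ∑ k, (Bm p O h h' k h + Bm p O h h' k h') ^ 2 + 33 * τ ^ 2 * r ^ 3 := by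
  have hS' : (3 : ℝ) ≤ U.card := by exact_mod_cast hS
  have e0 : ∀ k ∈ rem U h h', sharp p U O h h' k k = O k k - y1 p O h h' * (O k h * O k h)
      - y2 p O h h' * (O k h' * O k h') - y0 p O h h' * (O k h * O k h' + O k h' * O k h)
      + ((Bm p O h h' k h + Bm p O h h' k h') + (Bm p O h h' k h + Bm p O h h' k h')) * r
      + τ * r ^ 2 := fun k hk => by
    rw [sharp, (hO.bm p h h').proj_rem_apply hh hh' hne hS hk hk, hr, hτ, div_eq_mul_inv,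
      div_eq_mul_inv, inv_pow]
    rfl
  have e1 := sum_le_sum fun k (hk : k ∈ rem U h h') =>
    (congrArg (· ^ 2) (e0 k hk)).trans_le (sq_e h12 h0)
  simp only [sum_add_distrib, sum_sub_distrib, ← mul_sum, sum_const, nsmul_eq_mul,
    card_rem hh hh' hne] at e1
  have s1 : ∑ k ∈ rem U h h', O k k * O k h ^ 2 = aa O h - O h' h' * O h h' ^ 2 := by
    rw [sum_rem hh hh' hne, aa_eq, sum_U (U := U) fun k hk => by rw [hO.supp k k hk, zero_mul],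
      hO.symm h' h]
    ring
  have s2 : ∑ k ∈ rem U h h', O k k * O k h' ^ 2 = aa O h' - O h h * O h h' ^ 2 := by
    rw [sum_rem hh hh' hne, aa_eq, sum_U (U := U) fun k hk => by rw [hO.supp k k hk, zero_mul]]
    ring
  have s3 : ∑ k ∈ rem U h h', O k k * (O k h * O k h') =
      GG O h h' - O h h' * (O h h ^ 2 + O h' h' ^ 2) := by
    rw [sum_rem hh hh' hne, GG, of_apply,
      sum_U (U := U) fun k hk => by rw [hO.supp k k hk, zero_mul], hO.symm h' h]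
    ring
  have s4 : ∑ k ∈ rem U h h', O k h ^ 2 * O k h' ^ 2 ≤ ∑ k, O k h ^ 2 * O k h' ^ 2 :=
    sum_le_sum_of_subset_of_nonneg (subset_univ _) fun k _ _ => by positivity
  have s5 : ∑ k ∈ rem U h h', (Bm p O h h' k h + Bm p O h h' k h') ^ 2 ≤
      ∑ k, (Bm p O h h' k h + Bm p O h h' k h') ^ 2 :=
    sum_le_sum_of_subset_of_nonneg (subset_univ _) fun k _ _ => by positivity
  have s6 : 33 * τ ^ 2 * (((U.card : ℝ) - 2) * r ^ 4) = 33 * τ ^ 2 * r ^ 3 := by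
    have : ((U.card : ℝ) - 2) * r = 1 := by rw [hr]; exact mul_inv_cancel₀ (by linarith)
    linear_combination 33 * τ ^ 2 * r ^ 3 * this
  have s7 := mul_le_mul_of_nonneg_left (rem_le_qq (U := U) O (h := h) (h' := h') (Or.inl rfl))
    (show 0 ≤ 11 / 10 * y1 p O h h' ^ 2 by positivity)
  have s8 := mul_le_mul_of_nonneg_left (rem_le_qq (U := U) O (h := h) (h' := h') (Or.inr rfl))
    (show 0 ≤ 11 / 10 * y2 p O h h' ^ 2 by positivity)
  have s9 := mul_le_mul_of_nonneg_left s5 (show 0 ≤ 132 * r ^ 2 by positivity)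
  rw [s1, s2, s3, s6, sum_rem hh hh' hne fun k => O k k ^ 2] at e1
  rw [(hO.sharp p h h').Vf_eq, hO.Vf_eq, WW]
  linarith

/-- The asymmetric half of the pointwise bound. -/
noncomputable def ff (c : Ctx H) (p : Par) (O : Matrix H H ℝ) (r : ℝ) (h h' : H) : ℝ :=
  -(O h h ^ 2 * 1) - 2 * p.A1 * (aa O h * 1) - 2 * p.vp * (aa O h * O h' h')
    + 12 * c.a * (c.th O h h' * (|aa O h| * |(1 : ℝ)|))
    + 24 * (c.th O h h' * (|aa O h| * |c.dd h'|)) + 12 * (c.th O h h' * (|c.dd h ^ 2| * |(1 : ℝ)|))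
    + 3 * ((c.a + 2 * c.dd h') * c.dd h' * O h h' ^ 2)
    + 1115 / 1000 * (qq O h * (11 / 10 * p.vp ^ 2 * O h' h' ^ 2 + 11 * c.a ^ 2))
    + 24 * c.σ ^ 2 * r ^ 2 * c.dd h ^ 2

/-- The symmetric part of the pointwise bound. -/
noncomputable def gg (c : Ctx H) (p : Par) (O : Matrix H H ℝ) (r : ℝ) (h h' : H) : ℝ :=
  -(4 * p.A0 * GG O h h') + 60 * (c.th O h h' * |GG O h h'|) + 4 * r * |WW p c.U O h h'|
    + 1193 * ∑ k, O k h ^ 2 * O k h' ^ 2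
    + 132 * r ^ 2 * ∑ k, (Bm p O h h' k h + Bm p O h h' k h') ^ 2
    + 2 * c.σ ^ 2 * r ^ 2 * c.th O h h' + c.v ^ 2 * r ^ 2

lemma lin1 {y A1 vp a d D t x o : ℝ} (ha : 0 ≤ a) (hD : |D| ≤ d)
    (h1 : |y| ≤ 1006 / 1000 * (a + 2 * d)) (h2 : |y - (A1 + vp * D)| ≤ 6 * t * (a + 2 * d)) :
    -(2 * y * (x - D * o ^ 2)) ≤ -(2 * A1 * (x * 1)) - 2 * vp * (x * D)
      + 12 * a * (t * (|x| * |(1 : ℝ)|)) + 24 * (t * (|x| * |d|)) + 3 * ((a + 2 * d) * d * o ^ 2) := by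
  have hd : 0 ≤ d := (abs_nonneg _).trans hD
  have k1 : -((y - (A1 + vp * D)) * x) ≤ 6 * t * (a + 2 * d) * |x| :=
    (neg_le_abs _).trans ((abs_mul _ _).trans_le (mul_le_mul_of_nonneg_right h2 (abs_nonneg _)))
  have k2 : y * D ≤ 1006 / 1000 * (a + 2 * d) * d :=
    (le_abs_self _).trans ((abs_mul _ _).trans_le (mul_le_mul h1 hD (abs_nonneg _) (by positivity)))
  have k3 : 0 ≤ (a + 2 * d) * d * o ^ 2 := by positivity
  rw [abs_one, abs_of_nonneg hd]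
  nlinarith [mul_le_mul_of_nonneg_right k2 (sq_nonneg o)]

lemma lin0 {y A0 t G o D D' d d' : ℝ} (hD : |D| ≤ d) (hD' : |D'| ≤ d') (ho : |o| ≤ t)
    (h1 : |y| ≤ 3) (h2 : |y - A0| ≤ 15 * t) :
    -(4 * y * (G - o * (D ^ 2 + D' ^ 2))) ≤ -(4 * A0 * G) + 60 * (t * |G|)
      + 12 * (t * (|d ^ 2| * |(1 : ℝ)|)) + 12 * (t * (|d' ^ 2| * |(1 : ℝ)|)) := by
  have k1 : -((y - A0) * G) ≤ 15 * t * |G| :=
    (neg_le_abs _).trans ((abs_mul _ _).trans_le (mul_le_mul_of_nonneg_right h2 (abs_nonneg _)))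
  have k2 : y * o ≤ 3 * t :=
    (le_abs_self _).trans ((abs_mul _ _).trans_le (mul_le_mul h1 ho (abs_nonneg _) (by positivity)))
  have k3 : D ^ 2 ≤ d ^ 2 := sq_le_sq' (abs_le.1 hD).1 (abs_le.1 hD).2
  have k4 : D' ^ 2 ≤ d' ^ 2 := sq_le_sq' (abs_le.1 hD').1 (abs_le.1 hD').2
  have ht : 0 ≤ t := (abs_nonneg _).trans ho
  rw [abs_one, abs_of_nonneg (sq_nonneg d), abs_of_nonneg (sq_nonneg d')]
  nlinarith [mul_le_mul_of_nonneg_right k2 (add_nonneg (sq_nonneg D) (sq_nonneg D')),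
    mul_le_mul_of_nonneg_left (add_le_add k3 k4) ht]

lemma quad1 {A1 vp a D R q : ℝ} (hA : |A1| ≤ a) (hR : 995 / 1000 ≤ R) (hq : 0 ≤ q) :
    11 / 10 * ((A1 + vp * D) / R) ^ 2 * q ≤
      1115 / 1000 * (q * (11 / 10 * vp ^ 2 * D ^ 2 + 11 * a ^ 2)) := by
  have k1 : A1 ^ 2 ≤ a ^ 2 := sq_le_sq' (abs_le.1 hA).1 (abs_le.1 hA).2
  have k2 : (A1 + vp * D) ^ 2 ≤ 11 / 10 * vp ^ 2 * D ^ 2 + 11 * a ^ 2 := by
    nlinarith [sq_nonneg (vp * D - 10 * A1)]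
  have k3 : ((A1 + vp * D) / R) ^ 2 ≤ 1013 / 1000 * (A1 + vp * D) ^ 2 := by
    rw [div_pow, div_le_iff₀ (by positivity)]
    nlinarith [mul_le_mul_of_nonneg_left (show 99 / 100 ≤ R ^ 2 by nlinarith)
      (sq_nonneg (A1 + vp * D)), sq_nonneg (A1 + vp * D)]
  nlinarith [mul_le_mul_of_nonneg_right k3 hq, mul_le_mul_of_nonneg_right k2 hq,
    mul_nonneg (sq_nonneg (A1 + vp * D)) hq]

lemma cent2 {τ r Z s v d d' t : ℝ} (hs : 100 ≤ s) (hr0 : 0 ≤ r) (hr : r * s ≤ 103 / 100)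
    (hZ : Z ^ 2 ≤ s * v ^ 2) (ht0 : 0 ≤ t) (ht : t ≤ 1 / 1000)
    (hτ : |τ| ≤ 2 * d + 2 * d' + 12 * t) :
    2 * τ * r ^ 2 * Z + 33 * τ ^ 2 * r ^ 3 ≤
      24 * s * r ^ 2 * d ^ 2 + 24 * s * r ^ 2 * d' ^ 2 + 2 * s * r ^ 2 * t + v ^ 2 * r ^ 2 := by
  have k1 : τ ^ 2 ≤ (2 * d + 2 * d' + 12 * t) ^ 2 := sq_le_sq' (abs_le.1 hτ).1 (abs_le.1 hτ).2
  have k2 : τ ^ 2 ≤ 12 * d ^ 2 + 12 * d' ^ 2 + t := by
    nlinarith [sq_nonneg (d - d'), sq_nonneg (d - 6 * t), sq_nonneg (d' - 6 * t)]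
  have k3 : 2 * τ * Z ≤ s * τ ^ 2 + v ^ 2 := by
    refine le_of_mul_le_mul_left ?_ (show 0 < s by linarith)
    nlinarith [sq_nonneg (s * τ - Z)]
  have k4 : 33 * r ≤ s := by nlinarith
  have k5 : 2 * τ * Z + 33 * r * τ ^ 2 ≤ 2 * s * (12 * d ^ 2 + 12 * d' ^ 2 + t) + v ^ 2 := by
    nlinarith [mul_le_mul_of_nonneg_right k4 (sq_nonneg τ),
      mul_le_mul_of_nonneg_left k2 (show 0 ≤ s by linarith)]
  nlinarith [mul_le_mul_of_nonneg_left k5 (sq_nonneg r)]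

lemma qq_nonneg (O : Matrix H H ℝ) (h : H) : 0 ≤ qq O h :=
  sum_nonneg fun k _ => by split_ifs <;> positivity

lemma r_bd (hc : c.Ok) : 100 ≤ c.σ ^ 2 ∧ 0 ≤ ((c.U.card : ℝ) - 2)⁻¹ ∧
    ((c.U.card : ℝ) - 2)⁻¹ * c.σ ^ 2 ≤ 103 / 100 := by
  have h1 : 100 ≤ c.σ ^ 2 := by nlinarith [hc.num.σ_ge]
  rw [hc.card]
  refine ⟨h1, inv_nonneg.2 (by linarith), ?_⟩
  rw [inv_mul_le_iff₀ (by linarith)]
  linarith

lemma pointwise (hc : c.Ok) (hp : c.Pt p O) {h h' : H} (hh : (h, h') ∈ c.Pr) {r : ℝ}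
    (hr : r = ((c.U.card : ℝ) - 2)⁻¹) :
    Vf (sharp p c.U O h h') - Vf O ≤ ff c p O r h h' + ff c p O r h' h + gg c p O r h h' := by
  obtain ⟨m1, m2, hne⟩ : h ∈ c.U ∧ h' ∈ c.U ∧ h ≠ h' := hc.Pr_sub _ hh
  have L := hp.loc hc hh
  have hO := hp.cent
  have ha := hc.num.a_nn
  have d1 := hc.dd_nn h
  have d2 := hc.dd_nn h'
  have ht : c.th O h h' ≤ 1 / 1000 := hp.good _ hh
  have ht0 := hc.th_nonneg O h h'
  have ho : |O h h'| ≤ c.th O h h' := by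
    rw [Ctx.th]
    nlinarith [mul_nonneg d1 d2, mul_nonneg ha (add_nonneg d1 d2)]
  have h12 : y1 p O h h' * y2 p O h h' ≤ 2 := by
    have k := (le_abs_self _).trans ((abs_mul _ _).trans_le
      (mul_le_mul L.y1_le L.y2_le (abs_nonneg _) (by positivity)))
    rw [Ctx.th] at ht
    nlinarith [abs_nonneg (O h h'), mul_nonneg d1 d2, mul_nonneg ha (add_nonneg d1 d2), hc.num.a_le]
  obtain ⟨b1, b2, b3⟩ := r_bd hc
  rw [← hr] at b2 b3
  have E := expand (p := p) hO m1 m2 hne (le_trans (by norm_num) hc.card_ge) h12 L.y0_le hr rfl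
  have l1 := lin1 (x := aa O h) (o := O h h') ha (hp.diag h') L.y1_le L.y1_sub
  have l2 := lin1 (x := aa O h') (o := O h h') ha (hp.diag h) L.y2_le L.y2_sub
  have l3 := lin0 (G := GG O h h') (hp.diag h) (hp.diag h') ho L.y0_le L.y0_sub
  have l4 := quad1 (vp := p.vp) (D := O h' h') hp.A1_le L.R_pos (qq_nonneg O h)
  have l5 := quad1 (vp := p.vp) (D := O h h) hp.A1_le L.R_pos (qq_nonneg O h')
  have l6 := mul_le_mul_of_nonneg_left (le_abs_self (WW p c.U O h h')) b2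
  have l7 := cent2 (τ := Bm p O h h' h h + 2 * Bm p O h h' h h' + Bm p O h h' h' h')
    (Z := ∑ k ∈ rem c.U h h', O k k) (v := c.v) (d := c.dd h) (d' := c.dd h') b1 b2 b3 (by
      refine sq_sum_le_card_mul_sum_sq.trans (mul_le_mul ?_ ?_ (by positivity) (by positivity))
      · rw [card_rem m1 m2 hne, hc.card]; linarith
      · exact (sum_le_sum_of_subset_of_nonneg (subset_univ _) fun k _ _ => sq_nonneg _).trans
          (hp.Vf_le hc)) ht0 ht (by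
      have := abs_le.1 L.B11_le
      have := abs_le.1 L.B22_le
      have := abs_le.1 L.B12_le
      rw [abs_le]
      constructor <;> linarith)
  rw [ff, ff, gg, hp.th_symm h h', hO.symm h' h]
  rw [← y1] at l4
  rw [← y2] at l5
  linear_combination E + l1 + l2 + l3 + l4 + l5 + 4 * l6 + l7

end SV

end Vale.Agent.P049
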