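import Vale.Agent.P049.StepZAux

/-!
Drift and quadratic variation of the trace under `sharp`, and the size of the perturbation.
-/

namespace Vale.Agent.P049

open Matrix Finset

variable {H : Type} [Fintype H] [DecidableEq H] {c : Ctx H} {p : Par} {O : Matrix H H ℝ}

lemma Ctx.Pt.sz_incr (hc : c.Ok) (hp : c.Pt p O) {h h' : H} (hh : (h, h') ∈ c.Pr) :
    Zf (sharp p c.U O h h') - Zf O =
      - y1 p O h h' * sc O h - y2 p O h h' * sc O h' - 2 * y0 p O h h' * (O * O) h h'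
        - Bm p O h h' h h - Bm p O h h' h' h'
        - (Bm p O h h' h h + 2 * Bm p O h h' h h' + Bm p O h h' h' h') / (c.σ ^ 2 - 2) := by
  obtain ⟨h1, h2, h3⟩ := hc.Pr_sub _ hh
  unfold sharp
  rw [(hp.cent.bm p h h').Zf_proj_rem h1 h2 h3 hc.sz_three, hp.cent.Zf_bm, hc.card]
  ring

lemma Ctx.Pt.sz_tau (hc : c.Ok) (hp : c.Pt p O) {h h' : H} (hh : (h, h') ∈ c.Pr) :
    |Bm p O h h' h h + 2 * Bm p O h h' h h' + Bm p O h h' h' h'| ≤
      2 * c.dd h + 2 * c.dd h' + 12 * c.th O h h' := by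
  have hl := hp.loc hc hh
  have h1 := abs_le.1 hl.B11_le
  have h2 := abs_le.1 hl.B22_le
  have h3 := abs_le.1 hl.B12_le
  rw [abs_le]
  constructor <;> linarith [h1.1, h1.2, h2.1, h2.2, h3.1, h3.2]

lemma sz_div_le {τ x S : ℝ} (hS : 100 ≤ S) (h : |τ| ≤ x) : |τ / (S - 2)| ≤ 2 / S * x := by
  have hx : 0 ≤ x := (abs_nonneg _).trans h
  rw [abs_div, abs_of_pos (by linarith : (0 : ℝ) < S - 2), div_le_iff₀ (by linarith)]
  have h1 : 1 ≤ 2 / S * (S - 2) := by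
    rw [div_mul_eq_mul_div, le_div_iff₀ (by linarith)]
    linarith
  nlinarith

lemma sz_abs_mul_le {x y a : ℝ} (h : |x| ≤ a) : |x * y| ≤ a * |y| := by
  rw [abs_mul]
  exact mul_le_mul_of_nonneg_right h (abs_nonneg _)

/-- Pointwise error of the main term of the trace increment. -/
lemma Ctx.Pt.sz_err (hc : c.Ok) (hp : c.Pt p O) {h h' : H} (hh : (h, h') ∈ c.Pr) :
    |(Zf (sharp p c.U O h h') - Zf O) - (-p.A1 * sc O h + -p.vp * (sc O h * O h' h')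
      + -p.A1 * sc O h' + -p.vp * (sc O h' * O h h) + -(2 * p.A0) * (O * O) h h'
      + -1 * O h h + -1 * O h' h')| ≤
      6 * c.a * (c.th O h h' * |sc O h|) + 12 * (c.th O h h' * (|sc O h| * c.dd h'))
      + 6 * c.a * (c.th O h h' * |sc O h'|) + 12 * (c.th O h h' * (|sc O h'| * c.dd h))
      + 30 * (c.th O h h' * |(O * O) h h'|) + 6 * (c.th O h h' * c.dd h)
      + 6 * (c.th O h h' * c.dd h') + 4 * c.a * c.th O h h'
      + 4 / c.σ ^ 2 * c.dd h + 4 / c.σ ^ 2 * c.dd h' + 24 / c.σ ^ 2 * c.th O h h' := by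
  have hl := hp.loc hc hh
  rw [hp.sz_incr hc hh]
  have e1 := abs_le.1 (sz_abs_mul_le (y := sc O h) hl.y1_sub)
  have e2 := abs_le.1 (sz_abs_mul_le (y := sc O h') hl.y2_sub)
  have e3 := abs_le.1 (sz_abs_mul_le (y := (O * O) h h') hl.y0_sub)
  have e4 := abs_le.1 hl.B11_sub
  have e5 := abs_le.1 hl.B22_sub
  have e6 := abs_le.1 (sz_div_le hc.sz_S_ge (hp.sz_tau hc hh))
  have e7 : 2 / c.σ ^ 2 * (2 * c.dd h + 2 * c.dd h' + 12 * c.th O h h') =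
      4 / c.σ ^ 2 * c.dd h + 4 / c.σ ^ 2 * c.dd h' + 24 / c.σ ^ 2 * c.th O h h' := by ring
  rw [e7] at e6
  rw [abs_le]
  constructor <;> linarith [e1.1, e1.2, e2.1, e2.2, e3.1, e3.2, e4.1, e4.2, e5.1, e5.2, e6.1, e6.2]

lemma sz_abs_mul_sub {r x m e a : ℝ} (hr : |r| ≤ a) (h : |x - m| ≤ e) : |r * x - r * m| ≤ a * e := by
  rw [← mul_sub, abs_mul]
  exact mul_le_mul hr h (abs_nonneg _) ((abs_nonneg _).trans hr)

/-- The average of the main term of the trace increment. -/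
lemma Ctx.Pt.sz_main (hc : c.Ok) (hp : c.Pt p O) :
    |(c.avg fun h h' => -p.A1 * sc O h + -p.vp * (sc O h * O h' h')
      + -p.A1 * sc O h' + -p.vp * (sc O h' * O h h) + -(2 * p.A0) * (O * O) h h'
      + -1 * O h h + -1 * O h' h') + 2 * c.σ ^ 2 * Zf O
      + 2 * (p.A1 * c.σ ^ 2 + p.vp * Zf O) * Yf O - 2 * p.A0 * ip c.F (O * O)| ≤
      2 * (c.Θr * c.a * c.σ * c.ss) + 4 * (c.Θr * c.v * c.ss) + 8 * (c.Θ * c.t)
        + 4 * (c.Θr * c.σ ^ 2 * c.v) := by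
  simp only [Ctx.avg_add, Ctx.avg_mul, Ctx.sz_mul_mat]
  have hst := hp.star_sc hc
  have m1 := hc.sz_avg1_fst hst
  have m2 := hc.avg1 (w := fun h => O h h) hc.num.v_nn hst (hp.sz_diag_sq hc)
  have m3 := hc.sz_avg1_snd hst
  have m4 := hc.sz_avg1' (w := fun h => O h h) hc.num.v_nn hst (hp.sz_diag_sq hc)
  have m5 := hc.avg3 (T := O * O) hc.num.t_nn (hp.cent.sz_sum_mul O) hp.T_le
  have m6 := hc.sz_avg1_w (w := fun h => O h h) hc.num.v_nn (hp.sz_diag_sq hc)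
  have m7 := hc.sz_avg1_w' (w := fun h => O h h) hc.num.v_nn (hp.sz_diag_sq hc)
  rw [← hp.cent.Yf_eq] at m1 m2 m3 m4
  rw [← hp.cent.Zf_eq] at m2 m4 m6 m7
  have n1 := abs_le.1 (sz_abs_mul_sub hp.A1_le m1)
  have n2 := abs_le.1 (sz_abs_mul_sub hp.vp_le m2)
  have n3 := abs_le.1 (sz_abs_mul_sub hp.A1_le m3)
  have n4 := abs_le.1 (sz_abs_mul_sub hp.vp_le m4)
  rw [← sub_neg_eq_add] at m5
  have n5 := abs_le.1 (sz_abs_mul_sub hp.A0_le m5)
  have n6 := abs_le.1 m6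
  have n7 := abs_le.1 m7
  rw [abs_le]
  constructor <;> linarith [n1.1, n1.2, n2.1, n2.2, n3.1, n3.2, n4.1, n4.2, n5.1, n5.2, n6.1, n6.2,
    n7.1, n7.2]

/-- The average of the pointwise error. -/
lemma Ctx.Pt.sz_err_avg (hc : c.Ok) (hp : c.Pt p O) :
    (c.avg fun h h' =>
      6 * c.a * (c.th O h h' * |sc O h|) + 12 * (c.th O h h' * (|sc O h| * c.dd h'))
      + 6 * c.a * (c.th O h h' * |sc O h'|) + 12 * (c.th O h h' * (|sc O h'| * c.dd h))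
      + 30 * (c.th O h h' * |(O * O) h h'|) + 6 * (c.th O h h' * c.dd h)
      + 6 * (c.th O h h' * c.dd h') + 4 * c.a * c.th O h h'
      + 4 / c.σ ^ 2 * c.dd h + 4 / c.σ ^ 2 * c.dd h' + 24 / c.σ ^ 2 * c.th O h h') ≤
      24 * (c.Θr * c.a * c.σ * c.ss) + 48 * (c.Θr * c.v * c.ss) + 60 * (c.Θt * c.t)
        + 48 * (c.Θr * c.σ ^ 2 * c.v) + 8 * (c.a * (c.Θt * c.σ ^ 2)) + 9 * (c.σ * c.v)
        + 48 * c.Θt := by
  simp only [Ctx.avg_add, Ctx.avg_mul]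
  have hst := hp.star_sc hc
  have b1 := mul_le_mul_of_nonneg_left (hp.sz_th_fst hc hst) hc.num.a_nn
  have b2 := hp.sz_th_fst_dd hc hst
  have b3 := mul_le_mul_of_nonneg_left (hp.sz_th_snd hc hst) hc.num.a_nn
  have b4 := hp.sz_th_snd_dd hc hst
  have b5 := hp.avg4 hc (T := O * O) hc.num.t_nn hp.T_le
  have b6 := hp.sz_th_dd hc
  have b7 := hp.sz_th_dd' hc
  have b8 := mul_le_mul_of_nonneg_left (hp.avg_th hc) hc.num.a_nn
  have hσ := hc.sz_σ_pos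
  have hi : 0 ≤ 1 / c.σ ^ 2 := by positivity
  have b9 := mul_le_mul_of_nonneg_left (hc.sz_fst hc.dd_nn hc.sz_dd_sum) hi
  have b10 := mul_le_mul_of_nonneg_left (hc.sz_snd hc.dd_nn hc.sz_dd_sum) hi
  have b11 := mul_le_mul_of_nonneg_left (hp.avg_th hc) hi
  have r9 : 1 / c.σ ^ 2 * (11 / 10 * (c.σ ^ 2 * (c.σ * c.v))) = 11 / 10 * (c.σ * c.v) := by
    field_simp
  have r11 : 1 / c.σ ^ 2 * (2 * c.Θt * c.σ ^ 2) = 2 * c.Θt := by field_simp
  rw [r9] at b9 b10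
  rw [r11] at b11
  have d4 : 4 / c.σ ^ 2 = 4 * (1 / c.σ ^ 2) := by ring
  have d24 : 24 / c.σ ^ 2 = 24 * (1 / c.σ ^ 2) := by ring
  rw [d4, d24]
  have z0 := mul_nonneg hσ.le hc.num.v_nn
  generalize 1 / c.σ ^ 2 = i at *
  linarith

/-- Drift of the trace. By `Cent.Zf_proj_rem` and `Cent.Zf_bm`, the increment is
`- y1 s - y2 s' - 2 y0 (O*O) h h' - B h h - B h' h' - τ / (S - 2)`; replace `y1, y2, y0, B h h`
by their main terms (`Ctx.Loc`), use `avg1`, `avg3` for the main terms (and `avg_swap`), and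
`avg2`, `avg4`, `avg_th` for the errors. -/
theorem Ctx.Pt.stepZ (hc : c.Ok) (hp : c.Pt p O) :
    |(c.avg fun h h' => Zf (sharp p c.U O h h') - Zf O) + 2 * c.σ ^ 2 * Zf O
      + 2 * (p.A1 * c.σ ^ 2 + p.vp * Zf O) * Yf O - 2 * p.A0 * ip c.F (O * O)|
      ≤ 100 * c.errZ := by
  have hm := abs_le.1 (hp.sz_main hc)
  have he := (hc.sz_abs (fun h h' hq => hp.sz_err hc (h := h) (h' := h') hq)).trans
    (hp.sz_err_avg hc)
  rw [Ctx.avg_sub] at he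
  have he2 := abs_le.1 he
  have hσ := hc.num.σ_ge
  have hv := hc.num.v_nn
  have hΘr := hc.num.Θr_ge
  have hΘ := hc.num.Θ_ge
  have hΘt := hc.num.Θt_le
  have k1 : c.σ * c.v ≤ c.Θr * c.σ ^ 2 * c.v := by
    have : c.σ ≤ c.Θr * c.σ ^ 2 := by nlinarith
    exact mul_le_mul_of_nonneg_right this hv
  have k2 : c.Θt * c.t ≤ c.Θ * c.t := mul_le_mul_of_nonneg_right hΘt hc.num.t_nn
  have k3 : c.a * (c.Θt * c.σ ^ 2) ≤ c.a * (c.Θ * c.σ ^ 2) :=
    mul_le_mul_of_nonneg_left (mul_le_mul_of_nonneg_right hΘt (sq_nonneg _)) hc.num.a_nn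
  have hss := hc.sz_ss_nn
  have ha := hc.num.a_nn
  have ht := hc.num.t_nn
  have z1 : 0 ≤ c.Θr * c.σ ^ 2 * c.v := by positivity
  have z2 : 0 ≤ c.Θr * c.a * c.σ * c.ss := by positivity
  have z3 : 0 ≤ c.Θr * c.v * c.ss := by positivity
  have z4 : 0 ≤ c.Θ * c.t := by positivity
  have z5 : 0 ≤ c.Θ * c.a * c.σ ^ 2 := by positivity
  unfold Num.errZ
  rw [abs_le]
  constructor <;> linarith [he2.1, he2.2, hm.1, hm.2]

lemma sz_sq6 (a b d e f g : ℝ) :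
    (-a - b - d - e - f - g) ^ 2 ≤ 6 * (a ^ 2 + b ^ 2 + d ^ 2 + e ^ 2 + f ^ 2 + g ^ 2) := by
  nlinarith [sq_nonneg (a - b), sq_nonneg (a - d), sq_nonneg (a - e), sq_nonneg (a - f),
    sq_nonneg (a - g), sq_nonneg (b - d), sq_nonneg (b - e), sq_nonneg (b - f), sq_nonneg (b - g),
    sq_nonneg (d - e), sq_nonneg (d - f), sq_nonneg (d - g), sq_nonneg (e - f), sq_nonneg (e - g),
    sq_nonneg (f - g)]

lemma sz_sq_of_abs {x a : ℝ} (h : |x| ≤ a) : x ^ 2 ≤ a ^ 2 :=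
  sq_le_sq' (abs_le.1 h).1 (abs_le.1 h).2

lemma Ctx.Pt.sz_tau_sq (hc : c.Ok) (hp : c.Pt p O) {h h' : H} (hh : (h, h') ∈ c.Pr) :
    ((Bm p O h h' h h + 2 * Bm p O h h' h h' + Bm p O h h' h' h') / (c.σ ^ 2 - 2)) ^ 2 ≤
      c.dd h ^ 2 + c.dd h' ^ 2 + c.th O h h' ^ 2 := by
  have e6 := sz_div_le hc.sz_S_ge (hp.sz_tau hc hh)
  have hS := hc.sz_S_ge
  have h1 : 2 / c.σ ^ 2 ≤ 1 / 50 := by
    rw [div_le_div_iff₀ (by linarith) (by norm_num)]
    linarith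
  have h2 : 0 ≤ 2 * c.dd h + 2 * c.dd h' + 12 * c.th O h h' := by
    have := hc.dd_nn h
    have := hc.dd_nn h'
    have := hc.th_nonneg O h h'
    positivity
  have h3 := sz_sq_of_abs (e6.trans (mul_le_mul_of_nonneg_right h1 h2))
  nlinarith [sq_nonneg (c.dd h - c.dd h'), sq_nonneg (c.dd h - c.th O h h'),
    sq_nonneg (c.dd h' - c.th O h h'), sq_nonneg (c.dd h), sq_nonneg (c.dd h'),
    sq_nonneg (c.th O h h')]

lemma Ctx.Pt.sz_incr_sq (hc : c.Ok) (hp : c.Pt p O) {h h' : H} (hh : (h, h') ∈ c.Pr) :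
    (Zf (sharp p c.U O h h') - Zf O) ^ 2 ≤
      18 * c.a ^ 2 * sc O h ^ 2 + 54 * (sc O h ^ 2 * c.dd h' ^ 2)
      + 18 * c.a ^ 2 * sc O h' ^ 2 + 54 * (sc O h' ^ 2 * c.dd h ^ 2) + 216 * (O * O) h h' ^ 2
      + 54 * c.dd h ^ 2 + 54 * c.dd h' ^ 2 + 102 * c.th O h h' ^ 2 := by
  have hl := hp.loc hc hh
  rw [hp.sz_incr hc hh, neg_mul]
  refine (sz_sq6 _ _ _ _ _ _).trans ?_
  have e1 := mul_le_mul_of_nonneg_right (sz_y_sq hl.y1_le) (sq_nonneg (sc O h))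
  have e2 := mul_le_mul_of_nonneg_right (sz_y_sq hl.y2_le) (sq_nonneg (sc O h'))
  have e3 := mul_le_mul_of_nonneg_right (sz_sq_of_abs hl.y0_le) (sq_nonneg ((O * O) h h'))
  have e4 := sz_sq_of_abs hl.B11_le
  have e5 := sz_sq_of_abs hl.B22_le
  have e6 := hp.sz_tau_sq hc hh
  have e7 := sq_nonneg (c.dd h - c.th O h h')
  have e8 := sq_nonneg (c.dd h' - c.th O h h')
  linarith

/-- Quadratic variation of the trace (`avg_le` termwise). -/
theorem Ctx.Pt.qvZ (hc : c.Ok) (hp : c.Pt p O) :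
    (c.avg fun h h' => (Zf (sharp p c.U O h h') - Zf O) ^ 2) ≤ 1000 * c.qvZ := by
  have he := hc.sz_mono (fun h h' hq => hp.sz_incr_sq hc (h := h) (h' := h') hq)
  refine he.trans ?_
  simp only [Ctx.avg_add, Ctx.avg_mul]
  have b1 := mul_le_mul_of_nonneg_left (hc.sz_fst (u := fun h => sc O h ^ 2)
    (fun _ => sq_nonneg _) hp.sz_sc_sq) (sq_nonneg c.a)
  have b2 := hc.sz_prod (u := fun h => sc O h ^ 2) (w := fun h => c.dd h ^ 2)
    (fun _ => sq_nonneg _) (fun _ => sq_nonneg _) hp.sz_sc_sq hc.dd_sq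
  have b3 := mul_le_mul_of_nonneg_left (hc.sz_snd (u := fun h => sc O h ^ 2)
    (fun _ => sq_nonneg _) hp.sz_sc_sq) (sq_nonneg c.a)
  have b4 := hc.sz_prod' (u := fun h => sc O h ^ 2) (w := fun h => c.dd h ^ 2)
    (fun _ => sq_nonneg _) (fun _ => sq_nonneg _) hp.sz_sc_sq hc.dd_sq
  have b5 := hc.sz_mat_sq (T := O * O) hp.T_le
  have b6 := hc.sz_fst (u := fun h => c.dd h ^ 2) (fun _ => sq_nonneg _) hc.dd_sq
  have b7 := hc.sz_snd (u := fun h => c.dd h ^ 2) (fun _ => sq_nonneg _) hc.dd_sq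
  have b8 := hp.avg_th_sq hc
  have z1 : 0 ≤ c.a ^ 2 * c.σ ^ 2 * c.ξ ^ 2 := by positivity
  have z2 : 0 ≤ c.v ^ 2 * c.ξ ^ 2 := by positivity
  have z3 : 0 ≤ c.t ^ 2 := by positivity
  have z4 : 0 ≤ c.σ ^ 2 * c.v ^ 2 := by positivity
  have z5 : 0 ≤ c.Θt ^ 2 := by positivity
  unfold Num.qvZ
  linarith

omit [DecidableEq H] in
lemma sz_bm_sub (p : Par) (O : Matrix H H ℝ) (h h' : H) :
    ip (Bm p O h h' - O) (Bm p O h h' - O) ≤
      3 * (y1 p O h h' ^ 2 * sc O h ^ 2 + y2 p O h h' ^ 2 * sc O h' ^ 2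
        + 4 * y0 p O h h' ^ 2 * (sc O h * sc O h')) := by
  have key : ∀ k l, (Bm p O h h' - O) k l * (Bm p O h h' - O) k l ≤
      3 * y1 p O h h' ^ 2 * (O k h ^ 2 * O l h ^ 2) + 3 * y2 p O h h' ^ 2 * (O k h' ^ 2 * O l h' ^ 2)
        + 6 * y0 p O h h' ^ 2 * (O k h ^ 2 * O l h' ^ 2)
        + 6 * y0 p O h h' ^ 2 * (O k h' ^ 2 * O l h ^ 2) := by
    intro k l
    simp only [Matrix.sub_apply, Bm]
    set x := y1 p O h h' * (O k h * O l h)
    set y := y2 p O h h' * (O k h' * O l h')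
    set z := y0 p O h h' * (O k h * O l h')
    set w := y0 p O h h' * (O k h' * O l h)
    have e : O k l - x - y - y0 p O h h' * (O k h * O l h' + O k h' * O l h) - O k l =
        -(x + y + (z + w)) := by simp only [z, w]; ring
    rw [e]
    have e2 : 3 * y1 p O h h' ^ 2 * (O k h ^ 2 * O l h ^ 2)
        + 3 * y2 p O h h' ^ 2 * (O k h' ^ 2 * O l h' ^ 2)
        + 6 * y0 p O h h' ^ 2 * (O k h ^ 2 * O l h' ^ 2)
        + 6 * y0 p O h h' ^ 2 * (O k h' ^ 2 * O l h ^ 2) =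
        3 * x ^ 2 + 3 * y ^ 2 + 6 * z ^ 2 + 6 * w ^ 2 := by simp only [x, y, z, w]; ring
    rw [e2]
    nlinarith [sq_nonneg (x - y), sq_nonneg (x - (z + w)), sq_nonneg (y - (z + w)),
      sq_nonneg (z - w)]
  unfold ip
  refine (Finset.sum_le_sum fun k _ => Finset.sum_le_sum fun l _ => key k l).trans (le_of_eq ?_)
  simp only [Finset.sum_add_distrib, ← Finset.mul_sum, ← Finset.sum_mul]
  unfold sc
  ring

lemma Cent.sz_proj_sub {U : Finset H} (hO : Cent U O) {h h' : H} (hh : h ∈ U) (hh' : h' ∈ U)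
    (hne : h ≠ h') (hS : 100 ≤ U.card) :
    ip (proj (rem U h h') * O * proj (rem U h h') - O)
      (proj (rem U h h') * O * proj (rem U h h') - O) ≤ 3 * (sc O h + sc O h') := by
  set Q := proj (rem U h h') with hQ
  have hQt : Qᵀ = Q := (cent_proj _).transpose
  have hQQ : Q * Q = Q := proj_mul_proj _
  have e1 : ip (Q * O * Q) (Q * O * Q) = ip O (Q * O * Q) := by
    rw [ip_mul_right, hQt, Matrix.mul_assoc (Q * O), hQQ, ip_mul_left, hQt, ← Matrix.mul_assoc,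
      ← Matrix.mul_assoc, hQQ]
  have e2 := hO.ip_proj_rem hO hh hh' hne (le_trans (by norm_num) hS)
  rw [← hQ, hO.mul_self_apply, hO.mul_self_apply] at e2
  rw [ip_sub_left, ip_sub_right, ip_sub_right, ip_comm (Q * O * Q) O, ← e1, e2]
  have hS' : (100 : ℝ) ≤ U.card := by exact_mod_cast hS
  have e3 : ∑ k ∈ rem U h h', (O k h + O k h') * (O k h + O k h') ≤ 2 * (sc O h + sc O h') := by
    unfold sc
    rw [← Finset.sum_add_distrib, Finset.mul_sum]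
    refine (Finset.sum_le_sum_of_subset_of_nonneg (Finset.subset_univ _)
      fun k _ _ => mul_self_nonneg _).trans (Finset.sum_le_sum fun k _ => ?_)
    nlinarith [sq_nonneg (O k h - O k h')]
  have hs := add_nonneg (sc_nonneg O h) (sc_nonneg O h')
  have e4 : 2 * (∑ k ∈ rem U h h', (O k h + O k h') * (O k h + O k h')) / ((U.card : ℝ) - 2) ≤
      sc O h + sc O h' := by
    rw [div_le_iff₀ (by linarith)]
    nlinarith
  have e5 : 0 ≤ (O h h + 2 * O h h' + O h' h') * (O h h + 2 * O h h' + O h' h')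
      / ((U.card : ℝ) - 2) ^ 2 := div_nonneg (mul_self_nonneg _) (sq_nonneg _)
  nlinarith [mul_self_nonneg (O h h), mul_self_nonneg (O h h'), mul_self_nonneg (O h' h')]

/-- Pointwise form of the perturbation: `fro (sharp - O) ≤ fro (Bm - O) + fro (Q O Q - O)`, with
`fro (Bm - O) ≤ |y1| s + |y2| s' + 2 |y0| √(s s')` and
`fro (Q O Q - O) ^ 2 = Yf O - Yf (Q O Q) ≤ 3 (s + s')` by `Cent.ip_proj_rem`. -/
theorem Ctx.Pt.pert_sq (hc : c.Ok) (hp : c.Pt p O) {h h' : H} (hh : (h, h') ∈ c.Pr) :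
    fro (sharp p c.U O h h' - O) ^ 2 ≤
      6 * (y1 p O h h' ^ 2 * sc O h ^ 2 + y2 p O h h' ^ 2 * sc O h' ^ 2 + 36 * (sc O h * sc O h'))
        + 6 * (sc O h + sc O h') := by
  obtain ⟨h1, h2, h3⟩ := hc.Pr_sub _ hh
  set Q := proj (rem c.U h h') with hQ
  have e : sharp p c.U O h h' - O = Q * (Bm p O h h' - O) * Q + (Q * O * Q - O) := by
    unfold sharp
    rw [← hQ, Matrix.mul_sub, Matrix.sub_mul]
    abel
  have a1 := fro_add_le (Q * (Bm p O h h' - O) * Q) (Q * O * Q - O)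
  have a2 := fro_proj_mul_le (rem c.U h h') (Bm p O h h' - O)
  rw [← hQ] at a2
  have a3 := sz_bm_sub p O h h'
  have a4 := hp.cent.sz_proj_sub h1 h2 h3 hc.card_ge
  simp only at a4
  rw [← hQ] at a4
  rw [← fro_sq] at a3 a4
  have a5 := mul_le_mul_of_nonneg_right (sz_sq_of_abs (hp.loc hc hh).y0_le)
    (mul_nonneg (sc_nonneg O h) (sc_nonneg O h'))
  rw [e]
  have a6 : fro (Q * (Bm p O h h' - O) * Q + (Q * O * Q - O)) ^ 2 ≤
      (fro (Bm p O h h' - O) + fro (Q * O * Q - O)) ^ 2 :=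
    pow_le_pow_left₀ (fro_nonneg _) (by linarith) 2
  nlinarith [sq_nonneg (fro (Bm p O h h' - O) - fro (Q * O * Q - O))]

lemma sz_ys {y s a d d' n v : ℝ} (hy : |y| ≤ 1006 / 1000 * (a + 2 * d')) (hs0 : 0 ≤ s)
    (hs : s ≤ n * (1 + d)) (ha0 : 0 ≤ a) (ha : a ≤ 1) (had : a * d ≤ 1 / 1000)
    (hdd : d * d' ≤ 1 / 1000) (hd0 : 0 ≤ d') (hd : d' ≤ v) (hn : 1 ≤ n) :
    y ^ 2 * s ^ 2 ≤ 5 * (n + n * v) ^ 2 := by
  have h1 : |y * s| ≤ 1006 / 1000 * (a + 2 * d') * (n * (1 + d)) := by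
    rw [abs_mul, abs_of_nonneg hs0]
    exact mul_le_mul hy hs hs0 (by positivity)
  have h2 : (a + 2 * d') * (1 + d) ≤ 2 * (1 + v) := by nlinarith
  have h3 : 1006 / 1000 * (a + 2 * d') * (n * (1 + d)) ≤ 1006 / 1000 * n * (2 * (1 + v)) := by
    have := mul_le_mul_of_nonneg_left h2 (by positivity : 0 ≤ 1006 / 1000 * n)
    linarith
  have h4 := sz_sq_of_abs (h1.trans h3)
  nlinarith [sq_nonneg (n + n * v)]

theorem Ctx.Pt.pert_le (hc : c.Ok) (hp : c.Pt p O) {h h' : H} (hh : (h, h') ∈ c.Pr) :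
    fro (sharp p c.U O h h' - O) ≤ c.xb := by
  obtain ⟨h1, h2, h3⟩ := hc.Pr_sub _ hh
  obtain ⟨-, s1, s2, s3⟩ := hp.sz_small hc hh
  have hl := hp.loc hc hh
  have hn := hc.num.n1_ge
  have hv := hc.num.v_nn
  have a1 := sz_ys hl.y1_le (sc_nonneg O h) (hp.s_le h) hc.num.a_nn hc.num.a_le s1 s3
    (hc.dd_nn h') (hc.dd_le h2) hn
  have a2 := sz_ys hl.y2_le (sc_nonneg O h') (hp.s_le h') hc.num.a_nn hc.num.a_le s2
    (by rw [mul_comm]; exact s3) (hc.dd_nn h) (hc.dd_le h1) hn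
  have b1 : sc O h ≤ c.n1 + c.n1 * c.v := (hp.s_le h).trans (by
    have := mul_le_mul_of_nonneg_left (hc.dd_le h1) (by linarith : 0 ≤ c.n1)
    simp only at this
    linarith)
  have b2 : sc O h' ≤ c.n1 + c.n1 * c.v := (hp.s_le h').trans (by
    have := mul_le_mul_of_nonneg_left (hc.dd_le h2) (by linarith : 0 ≤ c.n1)
    simp only at this
    linarith)
  have b0 : 1 ≤ c.n1 + c.n1 * c.v := by nlinarith
  set m := c.n1 + c.n1 * c.v with hm
  have b3 : sc O h * sc O h' ≤ m ^ 2 := by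
    rw [sq]
    exact mul_le_mul b1 b2 (sc_nonneg O h') (by linarith)
  have b4 : m ≤ m ^ 2 := by nlinarith
  have b5 := hp.pert_sq hc hh
  have b6 : fro (sharp p c.U O h h' - O) ^ 2 ≤ (20 * m) ^ 2 := by nlinarith
  exact (abs_le_of_sq_le_sq' b6 (by linarith)).2.trans hc.num.xb_ge

theorem Ctx.Pt.sharp_le (hc : c.Ok) (hp : c.Pt p O) {h h' : H} (hh : (h, h') ∈ c.Pr) :
    fro (sharp p c.U O h h') ≤ c.nsh := by
  have a1 := fro_add_le O (sharp p c.U O h h' - O)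
  rw [add_sub_cancel] at a1
  have a2 : fro O ≤ c.y := fro_le hc.num.y_nn hp.Y_le
  have a3 := hp.pert_le hc hh
  have a4 := hc.num.nsh_ge
  linarith

theorem Ctx.Pt.avg_pert_sq (hc : c.Ok) (hp : c.Pt p O) :
    (c.avg fun h h' => fro (sharp p c.U O h h' - O) ^ 2) ≤ c.X ^ 2 := by
  have he := hc.avg_mono (f := fun h h' => fro (sharp p c.U O h h' - O) ^ 2)
    (g := fun h h' => 18 * c.a ^ 2 * sc O h ^ 2 + 54 * (sc O h ^ 2 * c.dd h' ^ 2)
      + 18 * c.a ^ 2 * sc O h' ^ 2 + 54 * (sc O h' ^ 2 * c.dd h ^ 2) + 216 * (sc O h * sc O h')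
      + 6 * sc O h + 6 * sc O h') (fun q hq => by
    have hl := hp.loc hc (h := q.1) (h' := q.2) hq
    have e0 := hp.pert_sq hc (h := q.1) (h' := q.2) hq
    have e1 := mul_le_mul_of_nonneg_right (sz_y_sq hl.y1_le) (sq_nonneg (sc O q.1))
    have e2 := mul_le_mul_of_nonneg_right (sz_y_sq hl.y2_le) (sq_nonneg (sc O q.2))
    linarith)
  refine he.trans (le_trans ?_ hc.num.X_ge)
  simp only [Ctx.avg_add, Ctx.avg_mul]
  have b1 := mul_le_mul_of_nonneg_left (hc.sz_fst (u := fun h => sc O h ^ 2)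
    (fun _ => sq_nonneg _) hp.sz_sc_sq) (sq_nonneg c.a)
  have b2 := hc.sz_prod (u := fun h => sc O h ^ 2) (w := fun h => c.dd h ^ 2)
    (fun _ => sq_nonneg _) (fun _ => sq_nonneg _) hp.sz_sc_sq hc.dd_sq
  have b3 := mul_le_mul_of_nonneg_left (hc.sz_snd (u := fun h => sc O h ^ 2)
    (fun _ => sq_nonneg _) hp.sz_sc_sq) (sq_nonneg c.a)
  have b4 := hc.sz_prod' (u := fun h => sc O h ^ 2) (w := fun h => c.dd h ^ 2)
    (fun _ => sq_nonneg _) (fun _ => sq_nonneg _) hp.sz_sc_sq hc.dd_sq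
  have b5 := hc.sz_prod (sc_nonneg O) (sc_nonneg O) hp.sz_sc_sum hp.sz_sc_sum
  have b6 := hc.sz_fst (sc_nonneg O) hp.sz_sc_sum
  have b7 := hc.sz_snd (sc_nonneg O) hp.sz_sc_sum
  have z1 : 0 ≤ c.a ^ 2 * c.σ ^ 2 * c.ξ ^ 2 := by positivity
  have z2 : 0 ≤ c.v ^ 2 * c.ξ ^ 2 := by positivity
  have z3 : 0 ≤ c.y ^ 4 := by positivity
  have z4 : 0 ≤ c.σ ^ 2 * c.y ^ 2 := by positivity
  linarith

theorem Ctx.Pt.avg_pert (hc : c.Ok) (hp : c.Pt p O) :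
    (c.avg fun h h' => fro (sharp p c.U O h h' - O)) ≤ 2 * c.σ ^ 2 * c.X := by
  have := hc.avg_le_of_sq hc.num.X_nn (hp.avg_pert_sq hc)
  simpa only [abs_of_nonneg (fro_nonneg _)] using this

lemma sz_J_sq {J K t d : ℝ} (h1 : |J - 1| ≤ 5 * t) (h2 : |K| ≤ 3 * (d + t)) (ht : t ≤ 1 / 1000) :
    (J - K) ^ 2 ≤ 3 + 18 * d ^ 2 := by
  have e1 := abs_le.1 h1
  have e2 := abs_le.1 h2
  have e3 : |J - K| ≤ 101 / 100 + 3 * d := by
    rw [abs_le]
    constructor <;> linarith [e1.1, e1.2, e2.1, e2.2]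
  have e4 := sz_sq_of_abs e3
  nlinarith [sq_nonneg (101 / 100 - 3 * d)]

lemma Ctx.Pt.sz_z_sq (hc : c.Ok) (hp : c.Pt p O) {h h' : H} (hh : (h, h') ∈ c.Pr) :
    ∑ k, (Bm p O h h' k h + Bm p O h h' k h') ^ 2 ≤
      6 * sc O h + 36 * (sc O h * c.dd h' ^ 2) + 6 * sc O h' + 36 * (sc O h' * c.dd h ^ 2) := by
  have hl := hp.loc hc hh
  have hR : Rh p O h h' ≠ 0 := by
    have := hl.R_pos
    linarith
  have ht := (hp.sz_small hc hh).1
  have e1 := sz_J_sq hl.J11 hl.J12 ht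
  have e2 := sz_J_sq hl.J22 hl.J21 ht
  set α := (1 + p.A1 * O h' h' + p.A0 * O h h') / Rh p O h h'
    - (p.A0 * O h' h' + p.A1 * O h h') / Rh p O h h' with hα
  set β := (1 + p.A1 * O h h + p.A0 * O h h') / Rh p O h h'
    - (p.A0 * O h h + p.A1 * O h h') / Rh p O h h' with hβ
  have key : ∀ k, (Bm p O h h' k h + Bm p O h h' k h') ^ 2 ≤
      2 * α ^ 2 * O k h ^ 2 + 2 * β ^ 2 * O k h' ^ 2 := by
    intro k
    have : Bm p O h h' k h + Bm p O h h' k h' = α * O k h + β * O k h' := by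
      rw [hp.cent.bm_col p hR, hp.cent.bm_col' p hR, hα, hβ]
      ring
    rw [this]
    nlinarith [sq_nonneg (α * O k h - β * O k h')]
  refine (Finset.sum_le_sum fun k _ => key k).trans ?_
  rw [Finset.sum_add_distrib, ← Finset.mul_sum, ← Finset.mul_sum]
  have f1 := mul_le_mul_of_nonneg_right e1 (sc_nonneg O h)
  have f2 := mul_le_mul_of_nonneg_right e2 (sc_nonneg O h')
  unfold sc at *
  linarith

/-- The vector `z = B e_h + B e_h'` of the centering corrections is small on average: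
each column of `Bm` has squared norm at most `4 s + 4 s' + 36 d ^ 2 s'` (or primed). -/
theorem Ctx.Pt.avg_z_sq (hc : c.Ok) (hp : c.Pt p O) :
    (c.avg fun h h' => ∑ k, (Bm p O h h' k h + Bm p O h h' k h') ^ 2)
      ≤ 200 * c.σ ^ 2 * c.y ^ 2 := by
  have he := hc.sz_mono (fun h h' hq => hp.sz_z_sq hc (h := h) (h' := h') hq)
  refine he.trans ?_
  simp only [Ctx.avg_add, Ctx.avg_mul]
  have b1 := hc.sz_fst (sc_nonneg O) hp.sz_sc_sum
  have b2 := hc.sz_prod (w := fun h => c.dd h ^ 2) (sc_nonneg O) (fun _ => sq_nonneg _)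
    hp.sz_sc_sum hc.dd_sq
  have b3 := hc.sz_snd (sc_nonneg O) hp.sz_sc_sum
  have b4 := hc.sz_prod' (w := fun h => c.dd h ^ 2) (sc_nonneg O) (fun _ => sq_nonneg _)
    hp.sz_sc_sum hc.dd_sq
  have z1 : c.y ^ 2 * c.v ^ 2 ≤ c.y ^ 2 * c.σ ^ 2 :=
    mul_le_mul_of_nonneg_left (pow_le_pow_left₀ hc.num.v_nn hc.num.v_le 2) (sq_nonneg _)
  have z2 : 0 ≤ c.y ^ 2 * c.σ ^ 2 := by positivity
  linarith

end Vale.Agent.P049
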