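import Vale.Agent.P049.Avg

/-!
Wrappers around the averaging lemmas.
-/

namespace Vale.Agent.P049

open Matrix Finset

variable {H : Type} [Fintype H] [DecidableEq H] {c : Ctx H} {p : Par} {O : Matrix H H ℝ}

lemma Ctx.sz_mul_mat (r : ℝ) (T : Matrix H H ℝ) :
    (c.avg fun h h' => r * T h h') = r * c.avg fun h h' => T h h' :=
  Ctx.avg_mul r fun h h' => T h h'

lemma Ctx.Ok.sz_mono (hc : c.Ok) {f g : H → H → ℝ}
    (h : ∀ h h', (h, h') ∈ c.Pr → f h h' ≤ g h h') : c.avg f ≤ c.avg g :=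
  hc.avg_mono fun q hq => h q.1 q.2 hq

lemma Ctx.Ok.sz_abs (hc : c.Ok) {f g : H → H → ℝ}
    (h : ∀ h h', (h, h') ∈ c.Pr → |f h h'| ≤ g h h') : |c.avg f| ≤ c.avg g :=
  hc.abs_avg_le fun q hq => h q.1 q.2 hq

lemma Ctx.Ok.sz_prod (hc : c.Ok) {u w : H → ℝ} {α β : ℝ} (hu : ∀ k, 0 ≤ u k) (hw : ∀ k, 0 ≤ w k)
    (h1 : ∑ k ∈ c.U, u k ≤ α) (h2 : ∑ k ∈ c.U, w k ≤ β) :
    (c.avg fun h h' => u h * w h') ≤ 11 / 10 * (α * β) := by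
  have h0 := hc.avg_le (f := fun h h' => u h * w h') (fun k _ l _ => mul_nonneg (hu k) (hw l))
  rw [← Finset.sum_mul_sum] at h0
  have ha : 0 ≤ ∑ k ∈ c.U, u k := Finset.sum_nonneg fun k _ => hu k
  have hb : 0 ≤ ∑ k ∈ c.U, w k := Finset.sum_nonneg fun k _ => hw k
  have h3 : (∑ k ∈ c.U, u k) * ∑ k ∈ c.U, w k ≤ α * β := mul_le_mul h1 h2 hb (ha.trans h1)
  have h4 : 0 ≤ α * β := le_trans (mul_nonneg ha hb) h3
  linarith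

lemma Ctx.Ok.sz_prod' (hc : c.Ok) {u w : H → ℝ} {α β : ℝ} (hu : ∀ k, 0 ≤ u k) (hw : ∀ k, 0 ≤ w k)
    (h1 : ∑ k ∈ c.U, u k ≤ α) (h2 : ∑ k ∈ c.U, w k ≤ β) :
    (c.avg fun h h' => u h' * w h) ≤ 11 / 10 * (α * β) := by
  have := hc.avg_swap (fun h h' => u h * w h')
  rw [this]
  exact hc.sz_prod hu hw h1 h2

lemma Ctx.Ok.sz_sum_one (hc : c.Ok) : ∑ _k ∈ c.U, (1 : ℝ) = c.σ ^ 2 := by
  simp [hc.card]

lemma Ctx.Ok.sz_fst (hc : c.Ok) {u : H → ℝ} {α : ℝ} (hu : ∀ k, 0 ≤ u k)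
    (h1 : ∑ k ∈ c.U, u k ≤ α) : (c.avg fun h _ => u h) ≤ 11 / 10 * (c.σ ^ 2 * α) := by
  have := hc.sz_prod (w := fun _ => 1) hu (fun _ => zero_le_one) h1 hc.sz_sum_one.le
  simp only [mul_one] at this
  linarith

lemma Ctx.Ok.sz_snd (hc : c.Ok) {u : H → ℝ} {α : ℝ} (hu : ∀ k, 0 ≤ u k)
    (h1 : ∑ k ∈ c.U, u k ≤ α) : (c.avg fun _ h' => u h') ≤ 11 / 10 * (c.σ ^ 2 * α) := by
  have := hc.avg_swap (fun h _ => u h)
  rw [this]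
  exact hc.sz_fst hu h1

omit [DecidableEq H] in
lemma sz_sum_sq_le_ip (U : Finset H) (T : Matrix H H ℝ) :
    ∑ k ∈ U, ∑ l ∈ U, T k l ^ 2 ≤ ip T T := by
  unfold ip
  calc ∑ k ∈ U, ∑ l ∈ U, T k l ^ 2 ≤ ∑ k ∈ U, ∑ l, T k l * T k l := by
        refine Finset.sum_le_sum fun k _ => ?_
        simp only [sq]
        exact Finset.sum_le_sum_of_subset_of_nonneg (Finset.subset_univ _)
          fun l _ _ => mul_self_nonneg _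
    _ ≤ _ := Finset.sum_le_sum_of_subset_of_nonneg (Finset.subset_univ _)
          fun k _ _ => Finset.sum_nonneg fun l _ => mul_self_nonneg _

lemma Ctx.Ok.sz_mat_sq (hc : c.Ok) {T : Matrix H H ℝ} {τ : ℝ} (h2 : ip T T ≤ τ) :
    (c.avg fun h h' => T h h' ^ 2) ≤ 11 / 10 * τ := by
  have h0 := hc.avg_le (f := fun h h' => T h h' ^ 2) (fun k _ l _ => sq_nonneg _)
  have h1 := sz_sum_sq_le_ip c.U T
  have h3 := ip_self_nonneg T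
  linarith

lemma Ctx.Ok.sz_mat_sq' (hc : c.Ok) {T : Matrix H H ℝ} {τ : ℝ} (h2 : ip T T ≤ τ) :
    (c.avg fun h h' => T h' h ^ 2) ≤ 11 / 10 * τ := by
  have := hc.avg_swap (fun h h' => T h h' ^ 2)
  rw [this]
  exact hc.sz_mat_sq h2

lemma Ctx.Ok.sz_σ_pos (hc : c.Ok) : 0 < c.σ := by
  have := hc.num.σ_ge
  linarith

lemma Ctx.Ok.sz_ss_nn (hc : c.Ok) : 0 ≤ c.ss := by
  have h1 := hc.num.ss_ge
  have h2 := mul_nonneg hc.num.v_nn hc.num.ξ_nn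
  have h3 := sq_nonneg c.y
  linarith

/-- The weighted sum of the entries of a matrix. -/
lemma Ctx.Ok.sz_dd_mat (hc : c.Ok) {T : Matrix H H ℝ} {τ : ℝ} (hτ : 0 ≤ τ)
    (h2 : ip T T ≤ τ ^ 2) :
    (c.avg fun h h' => c.dd h * |T h h'|) ≤ 11 / 10 * (c.σ * c.v * τ) := by
  have h0 := hc.avg_le (f := fun h h' => c.dd h * |T h h'|)
    (fun k _ l _ => mul_nonneg (hc.dd_nn k) (abs_nonneg _))
  have hcs := Finset.sum_mul_sq_le_sq_mul_sq (c.U ×ˢ c.U) (fun q => c.dd q.1)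
    (fun q => |T q.1 q.2|)
  rw [Finset.sum_product, Finset.sum_product, Finset.sum_product] at hcs
  simp only [sq_abs] at hcs
  have h3 : ∑ k ∈ c.U, ∑ _l ∈ c.U, c.dd k ^ 2 ≤ c.σ ^ 2 * c.v ^ 2 := by
    simp only [Finset.sum_const, nsmul_eq_mul, hc.card]
    rw [← Finset.mul_sum]
    exact mul_le_mul_of_nonneg_left hc.dd_sq (sq_nonneg _)
  have h4 := (sz_sum_sq_le_ip c.U T).trans h2
  have h5 : (∑ k ∈ c.U, ∑ l ∈ c.U, c.dd k * |T k l|) ^ 2 ≤ (c.σ * c.v * τ) ^ 2 := by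
    refine hcs.trans ?_
    calc _ ≤ (c.σ ^ 2 * c.v ^ 2) * τ ^ 2 := mul_le_mul h3 h4
          (Finset.sum_nonneg fun k _ => Finset.sum_nonneg fun l _ => sq_nonneg _) (by positivity)
      _ = _ := by ring
  have h6 : 0 ≤ c.σ * c.v * τ := mul_nonneg (mul_nonneg hc.sz_σ_pos.le hc.num.v_nn) hτ
  have h7 := (abs_le_of_sq_le_sq' h5 h6).2
  linarith

omit [DecidableEq H] in
lemma sz_ip_transpose (T : Matrix H H ℝ) : ip Tᵀ Tᵀ = ip T T := by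
  unfold ip
  rw [Finset.sum_comm]
  rfl

lemma Ctx.Ok.sz_dd_mat12 (hc : c.Ok) {T : Matrix H H ℝ} {τ : ℝ} (hτ : 0 ≤ τ)
    (h2 : ip T T ≤ τ ^ 2) :
    (c.avg fun h h' => c.dd h * |T h' h|) ≤ 11 / 10 * (c.σ * c.v * τ) :=
  hc.sz_dd_mat (T := Tᵀ) hτ (by rw [sz_ip_transpose]; exact h2)

lemma Ctx.Ok.sz_dd_mat21 (hc : c.Ok) {T : Matrix H H ℝ} {τ : ℝ} (hτ : 0 ≤ τ)
    (h2 : ip T T ≤ τ ^ 2) :
    (c.avg fun h h' => c.dd h' * |T h h'|) ≤ 11 / 10 * (c.σ * c.v * τ) := by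
  have := hc.avg_swap (fun h h' => c.dd h * |T h' h|)
  rw [this]
  exact hc.sz_dd_mat12 hτ h2

lemma Ctx.Ok.sz_dd_mat22 (hc : c.Ok) {T : Matrix H H ℝ} {τ : ℝ} (hτ : 0 ≤ τ)
    (h2 : ip T T ≤ τ ^ 2) :
    (c.avg fun h h' => c.dd h' * |T h' h|) ≤ 11 / 10 * (c.σ * c.v * τ) := by
  have := hc.avg_swap (fun h h' => c.dd h * |T h h'|)
  rw [this]
  exact hc.sz_dd_mat hτ h2

lemma Ctx.Ok.sz_one_sq (hc : c.Ok) : ∑ _h ∈ c.U, (1 : ℝ) ^ 2 ≤ c.σ ^ 2 := by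
  simp [hc.card]

lemma Ctx.Ok.sz_dd_sum (hc : c.Ok) : ∑ h ∈ c.U, c.dd h ≤ c.σ * c.v := by
  have hcs := Finset.sum_mul_sq_le_sq_mul_sq c.U (fun _ => (1 : ℝ)) c.dd
  simp only [one_mul] at hcs
  have h5 : (∑ k ∈ c.U, c.dd k) ^ 2 ≤ (c.σ * c.v) ^ 2 := by
    refine hcs.trans ?_
    calc _ ≤ c.σ ^ 2 * c.v ^ 2 := mul_le_mul hc.sz_one_sq hc.dd_sq
          (Finset.sum_nonneg fun k _ => sq_nonneg _) (by positivity)
      _ = _ := by ring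
  exact (abs_le_of_sq_le_sq' h5 (mul_nonneg hc.sz_σ_pos.le hc.num.v_nn)).2

/-- Swapping an average that contains the smallness function. -/
lemma Ctx.Pt.sz_swap (hc : c.Ok) (hp : c.Pt p O) (f : H → H → ℝ) :
    (c.avg fun h h' => c.th O h h' * f h' h) = c.avg fun h h' => c.th O h h' * f h h' := by
  rw [← hc.avg_swap (fun h h' => c.th O h h' * f h h')]
  refine Ctx.avg_congr fun q _ => ?_
  rw [hp.th_symm]

lemma Ctx.Pt.sz_th_fst (hc : c.Ok) (hp : c.Pt p O) {u : H → ℝ} {us : ℝ}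
    (h1 : ∑ h ∈ c.U, |u h| * (1 + c.dd h) ≤ us) :
    (c.avg fun h h' => c.th O h h' * |u h|) ≤ 2 * (c.Θr * us * c.σ) := by
  have := hp.avg2 hc (w := fun _ => 1) hc.sz_σ_pos.le h1 hc.sz_one_sq
  simp only [abs_one, mul_one] at this
  linarith

lemma Ctx.Pt.sz_th_snd (hc : c.Ok) (hp : c.Pt p O) {u : H → ℝ} {us : ℝ}
    (h1 : ∑ h ∈ c.U, |u h| * (1 + c.dd h) ≤ us) :
    (c.avg fun h h' => c.th O h h' * |u h'|) ≤ 2 * (c.Θr * us * c.σ) := by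
  rw [hp.sz_swap hc (fun h _ => |u h|)]
  exact hp.sz_th_fst hc h1

lemma Ctx.Pt.sz_th_fst_dd (hc : c.Ok) (hp : c.Pt p O) {u : H → ℝ} {us : ℝ}
    (h1 : ∑ h ∈ c.U, |u h| * (1 + c.dd h) ≤ us) :
    (c.avg fun h h' => c.th O h h' * (|u h| * c.dd h')) ≤ 2 * (c.Θr * us * c.v) := by
  have := hp.avg2 hc (w := c.dd) hc.num.v_nn h1 hc.dd_sq
  simp only [abs_of_nonneg (hc.dd_nn _)] at this
  linarith

lemma Ctx.Pt.sz_th_snd_dd (hc : c.Ok) (hp : c.Pt p O) {u : H → ℝ} {us : ℝ}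
    (h1 : ∑ h ∈ c.U, |u h| * (1 + c.dd h) ≤ us) :
    (c.avg fun h h' => c.th O h h' * (|u h'| * c.dd h)) ≤ 2 * (c.Θr * us * c.v) := by
  rw [hp.sz_swap hc (fun h h' => |u h| * c.dd h')]
  exact hp.sz_th_fst_dd hc h1

lemma Ctx.Pt.sz_th_dd' (hc : c.Ok) (hp : c.Pt p O) :
    (c.avg fun h h' => c.th O h h' * c.dd h') ≤ 4 * (c.Θr * c.σ ^ 2 * c.v) := by
  have := hp.sz_th_fst_dd hc (u := fun _ => 1) hc.star_one
  simp only [abs_one, one_mul] at this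
  linarith

lemma Ctx.Pt.sz_th_dd (hc : c.Ok) (hp : c.Pt p O) :
    (c.avg fun h h' => c.th O h h' * c.dd h) ≤ 4 * (c.Θr * c.σ ^ 2 * c.v) := by
  rw [hp.sz_swap hc (fun _ h' => c.dd h')]
  exact hp.sz_th_dd' hc

lemma Ctx.Pt.sz_th_mat' (hc : c.Ok) (hp : c.Pt p O) {T : Matrix H H ℝ} {τ : ℝ} (hτ : 0 ≤ τ)
    (h2 : ip T T ≤ τ ^ 2) : (c.avg fun h h' => c.th O h h' * |T h' h|) ≤ 2 * c.Θt * τ :=
  hp.avg4 hc (T := Tᵀ) hτ (by rw [sz_ip_transpose]; exact h2)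

/-- Product test functions with swapped arguments. -/
lemma Ctx.Ok.sz_avg1' (hc : c.Ok) {u w : H → ℝ} {us w2 : ℝ} (hw : 0 ≤ w2)
    (h1 : ∑ h ∈ c.U, |u h| * (1 + c.dd h) ≤ us) (h2 : ∑ h ∈ c.U, w h ^ 2 ≤ w2 ^ 2) :
    |(c.avg fun h h' => u h' * w h) - (∑ h ∈ c.U, u h) * ∑ h ∈ c.U, w h| ≤ c.Θr * us * w2 := by
  have := hc.avg_swap (fun h h' => u h * w h')
  rw [this]
  exact hc.avg1 hw h1 h2

lemma Ctx.Ok.sz_avg1_fst (hc : c.Ok) {u : H → ℝ} {us : ℝ}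
    (h1 : ∑ h ∈ c.U, |u h| * (1 + c.dd h) ≤ us) :
    |(c.avg fun h _ => u h) - (∑ h ∈ c.U, u h) * c.σ ^ 2| ≤ c.Θr * us * c.σ := by
  have := hc.avg1 (w := fun _ => 1) hc.sz_σ_pos.le h1 hc.sz_one_sq
  simp only [mul_one, hc.sz_sum_one] at this
  exact this

lemma Ctx.Ok.sz_avg1_snd (hc : c.Ok) {u : H → ℝ} {us : ℝ}
    (h1 : ∑ h ∈ c.U, |u h| * (1 + c.dd h) ≤ us) :
    |(c.avg fun _ h' => u h') - (∑ h ∈ c.U, u h) * c.σ ^ 2| ≤ c.Θr * us * c.σ := by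
  have := hc.avg_swap (fun h _ => u h)
  rw [this]
  exact hc.sz_avg1_fst h1

lemma Ctx.Ok.sz_avg1_w' (hc : c.Ok) {w : H → ℝ} {w2 : ℝ} (hw : 0 ≤ w2)
    (h2 : ∑ h ∈ c.U, w h ^ 2 ≤ w2 ^ 2) :
    |(c.avg fun _ h' => w h') - c.σ ^ 2 * ∑ h ∈ c.U, w h| ≤ c.Θr * (2 * c.σ ^ 2) * w2 := by
  have := hc.avg1 (u := fun _ => 1) hw hc.star_one h2
  simp only [one_mul, hc.sz_sum_one] at this
  exact this

lemma Ctx.Ok.sz_avg1_w (hc : c.Ok) {w : H → ℝ} {w2 : ℝ} (hw : 0 ≤ w2)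
    (h2 : ∑ h ∈ c.U, w h ^ 2 ≤ w2 ^ 2) :
    |(c.avg fun h _ => w h) - c.σ ^ 2 * ∑ h ∈ c.U, w h| ≤ c.Θr * (2 * c.σ ^ 2) * w2 := by
  have := hc.avg_swap (fun _ h' => w h')
  rw [this]
  exact hc.sz_avg1_w' hw h2

omit [DecidableEq H] in
/-- A product ending with a centered matrix has total sum zero. -/
lemma Cent.sz_sum_mul {U : Finset H} (hO : Cent U O) (A : Matrix H H ℝ) :
    ∑ k ∈ U, ∑ l ∈ U, (A * O) k l = 0 := by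
  refine Finset.sum_eq_zero fun k _ => ?_
  simp only [Matrix.mul_apply]
  rw [Finset.sum_comm]
  refine Finset.sum_eq_zero fun m _ => ?_
  rw [← Finset.mul_sum]
  have : ∑ l ∈ U, O m l = ∑ l, O m l := by
    refine Finset.sum_subset (Finset.subset_univ _) fun l _ hl => ?_
    rw [hO.symm, hO.supp l m hl]
  rw [this, hO.row, mul_zero]

lemma Ctx.Pt.sz_diag_sq (hc : c.Ok) (hp : c.Pt p O) : ∑ h ∈ c.U, O h h ^ 2 ≤ c.v ^ 2 := by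
  rw [← hp.cent.Vf_eq]
  exact hp.Vf_le hc

lemma Ctx.Pt.sz_sc_sum (hp : c.Pt p O) : ∑ h ∈ c.U, sc O h ≤ c.y ^ 2 := by
  rw [← hp.cent.Yf_eq]
  exact hp.Y_le

lemma Ctx.Pt.sz_sc_sq (hp : c.Pt p O) : ∑ h ∈ c.U, sc O h ^ 2 ≤ c.ξ ^ 2 :=
  (Finset.sum_le_sum_of_subset_of_nonneg (Finset.subset_univ _)
    fun _ _ _ => sq_nonneg _).trans hp.Xi_le

lemma Ctx.Ok.sz_S_ge (hc : c.Ok) : 100 ≤ c.σ ^ 2 := by
  have := hc.num.σ_ge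
  nlinarith

lemma Ctx.Ok.sz_three (hc : c.Ok) : 3 ≤ c.U.card := le_trans (by norm_num) hc.card_ge

/-- Elementary consequences of the smallness of a good pair. -/
lemma Ctx.Pt.sz_small (hc : c.Ok) (hp : c.Pt p O) {h h' : H} (hh : (h, h') ∈ c.Pr) :
    c.th O h h' ≤ 1 / 1000 ∧ c.a * c.dd h ≤ 1 / 1000 ∧ c.a * c.dd h' ≤ 1 / 1000 ∧
      c.dd h * c.dd h' ≤ 1 / 1000 := by
  have h0 := hp.good _ hh
  have h1 := mul_nonneg hc.num.a_nn (hc.dd_nn h)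
  have h2 := mul_nonneg hc.num.a_nn (hc.dd_nn h')
  have h3 := mul_nonneg (hc.dd_nn h) (hc.dd_nn h')
  have h4 := abs_nonneg (O h h')
  have h5 : c.th O h h' = |O h h'| + c.a * c.dd h + c.a * c.dd h' + c.dd h * c.dd h' := by
    unfold Ctx.th; ring
  simp only at h0
  refine ⟨h0, ?_, ?_, ?_⟩ <;> linarith

lemma sz_y_sq {y a d : ℝ} (h : |y| ≤ 1006 / 1000 * (a + 2 * d)) : y ^ 2 ≤ 3 * a ^ 2 + 9 * d ^ 2 := by
  have h1 : y ^ 2 ≤ (1006 / 1000 * (a + 2 * d)) ^ 2 := sq_le_sq' (abs_le.1 h).1 (abs_le.1 h).2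
  nlinarith [sq_nonneg (a - 2 * d), sq_nonneg a, sq_nonneg d]

end Vale.Agent.P049
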