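import Vale.Agent.P049.UpdateAux

/-!
The exact update of the barrier matrices.
-/

namespace Vale.Agent.P049

open Matrix Finset

variable {V H : Type} [Fintype V] [DecidableEq V] [Fintype H] [DecidableEq H]
  {vx : H → V} {E s g g' m ω ρ : ℝ} {p : H → H} {h h' : H}

omit [Fintype V] [DecidableEq V] [Fintype H] in
lemma add_invol (hp : Function.Involutive p) (hh : p h = h) (hh' : p h' = h') :
    Function.Involutive (add p h h') := by
  intro k
  unfold add
  by_cases e : k = h
  · subst e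
    by_cases e' : h' = k <;> simp [e']
  by_cases e' : k = h'
  · subst e'; simp [e]
  have a1 : p k ≠ h := fun a => e (by rw [← hp k, a, hh])
  have a2 : p k ≠ h' := fun a => e' (by rw [← hp k, a, hh'])
  simp [e, e', a1, a2, hp k]

lemma free_add (hh : p h = h) (hh' : p h' = h') (hne : h ≠ h') :
    free (add p h h') = rem (free p) h h' := by
  have := hh
  have := hh'
  exact free_add' hne

omit [Fintype V] [DecidableEq V] [Fintype H] in
lemma Allowed.symm (hp : Function.Involutive p) (ha : Allowed vx p h h') : Allowed vx p h' h := by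
  obtain ⟨a1, a2, a3, a4⟩ := ha
  refine ⟨a2, a1, a3.symm, fun k hk e e' => ?_⟩
  exact a4 (p k) (by rw [hp k]; exact hk.symm) e' (by rw [hp k]; exact e)

omit [Fintype V] [DecidableEq V] [Fintype H] in
lemma Allowed.simple (hp : Function.Involutive p) (hs : Simple vx p) (ha : Allowed vx p h h') :
    Simple vx (add p h h') := by
  obtain ⟨-, -, -, b4⟩ := ha.symm hp
  obtain ⟨a1, a2, a3, a4⟩ := ha
  have hne : h' ≠ h := fun e => a3 (by rw [e])
  have v1 : add p h h' h = h' := by simp [add]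
  have v2 : add p h h' h' = h := by simp [add, hne]
  have v3 : ∀ k, k ≠ h → k ≠ h' → add p h h' k = p k := fun k a b => by simp [add, a, b]
  refine ⟨fun k hk => ?_, fun k l hk hl e e' => ?_⟩
  · by_cases c : k = h
    · subst c; rw [v1]; exact a3.symm
    by_cases c' : k = h'
    · subst c'; rw [v2]; exact a3
    rw [v3 k c c'] at hk ⊢
    exact hs.1 k hk
  · by_cases c : k = h
    · subst c
      rw [v1] at e'
      by_cases d : l = k
      · exact d.symm
      by_cases d' : l = h'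
      · subst d'; exact absurd e a3
      rw [v3 l d d'] at hl e'
      exact absurd e'.symm (a4 l hl e.symm)
    by_cases c' : k = h'
    · subst c'
      rw [v2] at e'
      by_cases d : l = h
      · subst d; exact absurd e.symm a3
      by_cases d' : l = k
      · exact d'.symm
      rw [v3 l d d'] at hl e'
      exact absurd e'.symm (b4 l hl e.symm)
    rw [v3 k c c'] at hk e'
    by_cases d : l = h
    · subst d; rw [v1] at e'; exact absurd e' (a4 k hk e)
    by_cases d' : l = h'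
    · subst d'; rw [v2] at e'; exact absurd e' (b4 k hk e)
    rw [v3 l d d'] at hl e'
    exact hs.2 k l hk hl e e'

open Classical in
/-- A free half-edge has at most `d ^ 2 + d` forbidden free partners. -/
lemma card_not_allowed {d : ℕ} (hd : ∀ u, (univ.filter fun k => vx k = u).card = d)
    (hh : p h = h) : ((free p).filter fun h' => ¬ Allowed vx p h h').card ≤ d ^ 2 + d := by
  have hsub : ((free p).filter fun h' => ¬ Allowed vx p h h') ⊆
      ((univ.filter fun k => vx k = vx h).biUnion fun k => univ.filter fun l => vx l = vx (p k)) ∪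
        univ.filter fun k => vx k = vx h := by
    intro h' hm
    obtain ⟨a1, a2⟩ := mem_filter.mp hm
    have a3 : p h' = h' := (mem_filter.mp a1).2
    by_contra hc
    simp only [mem_union, mem_biUnion, mem_filter, mem_univ, true_and, not_or, not_exists,
      not_and] at hc
    exact a2 ⟨hh, a3, fun e => hc.2 e.symm, fun k _ e e' => hc.1 k e e'.symm⟩
  refine (card_le_card hsub).trans ((card_union_le _ _).trans (add_le_add ?_ (hd _).le))
  refine (card_biUnion_le_card_mul _ _ d fun k _ => (hd _).le).trans ?_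
  rw [hd, sq]

lemma Mm_symm (hp : Function.Involutive p) : (Mm vx E s g p)ᵀ = Mm vx E s g p := by
  have h1 : (mat p)ᵀ = mat p := by
    ext k l
    simp only [transpose_apply, mat]
    refine if_congr ⟨fun a => ⟨by rw [← a.1, hp l], a.2.symm⟩,
      fun a => ⟨by rw [← a.1, hp k], a.2.symm⟩⟩ rfl rfl
  have h2 : (avgU (free p))ᵀ = avgU (free p) := by
    ext k l; simp only [transpose_apply, avgU, and_comm]
  have h3 : (ones V)ᵀ = ones V := rfl
  simp only [Mm, transpose_add, transpose_sub, transpose_smul, transpose_one, transpose_mul,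
    transpose_transpose, h1, h2, h3, (cent_proj (free p)).transpose, Matrix.mul_assoc]

lemma cent_Nm (hp : Function.Involutive p) : Cent (free p) (Nm vx E s g p) := by
  refine cent_proj_mul _ ?_
  simp only [transpose_mul, transpose_transpose, transpose_nonsing_inv, Mm_symm hp,
    Matrix.mul_assoc]

lemma psd_Nm (hM : (Mm vx E s g p).PosDef) : (Nm vx E s g p).PosSemidef := by
  have := (hM.inv.posSemidef.conjTranspose_mul_mul_same (iota vx)).conjTranspose_mul_mul_same
    (proj (free p))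
  rwa [conjTranspose_eq_transpose_of_trivial, conjTranspose_eq_transpose_of_trivial,
    (cent_proj (free p)).transpose] at this

omit [Fintype V] in
lemma Mm_shift (vx : H → V) (E s g g' : ℝ) (p : H → H) : Mm vx E s g p =
    Mm vx E s g' p + (g' - g) • (iota vx * proj (free p) * (iota vx)ᵀ) := by
  simp only [Mm, Matrix.mul_add, Matrix.add_mul, Matrix.mul_smul, Matrix.smul_mul, sub_smul]
  abel

lemma Mm_shift_dot (vx : H → V) (E s g g' : ℝ) (p : H → H) (x : V → ℝ) :
    x ⬝ᵥ (Mm vx E s g p *ᵥ x) = x ⬝ᵥ (Mm vx E s g' p *ᵥ x) + (g' - g) *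
      ((proj (free p) *ᵥ ((iota vx)ᵀ *ᵥ x)) ⬝ᵥ (proj (free p) *ᵥ ((iota vx)ᵀ *ᵥ x))) := by
  rw [Mm_shift vx E s g g' p, add_mulVec, dotProduct_add, smul_mulVec, dotProduct_smul, dot_conj,
    dotProduct_mulVec (proj (free p) *ᵥ _), ← mulVec_transpose, (cent_proj (free p)).transpose,
    mulVec_mulVec _ (proj _) (proj _), proj_mul_proj, dotProduct_comm (proj _ *ᵥ _), smul_eq_mul]

lemma block_eq (vx : H → V) (E s g m : ℝ) (hp : Function.Involutive p) (hh : p h = h)
    (hh' : p h' = h') (hne : h ≠ h') :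
    (iota vx * (proj (free p) * E2 h h'))ᵀ * (Mm vx E s g p)⁻¹ *
        (iota vx * (proj (free p) * E2 h h')) =
      !![(Nm vx E s g p - m • proj (free p)) h h + m * (1 - 1 / ((free p).card : ℝ)),
        (Nm vx E s g p - m • proj (free p)) h h' - m / ((free p).card : ℝ);
        (Nm vx E s g p - m • proj (free p)) h h' - m / ((free p).card : ℝ),
        (Nm vx E s g p - m • proj (free p)) h' h' + m * (1 - 1 / ((free p).card : ℝ))] := by
  have a1 : h ∈ free p := by simp [free, hh]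
  have a2 : h' ∈ free p := by simp [free, hh']
  have e : (iota vx * (proj (free p) * E2 h h'))ᵀ * (Mm vx E s g p)⁻¹ *
      (iota vx * (proj (free p) * E2 h h')) = (E2 h h')ᵀ * Nm vx E s g p * E2 h h' := by
    simp only [Nm, transpose_mul, (cent_proj (free p)).transpose, Matrix.mul_assoc]
  have hc := (cent_Nm (vx := vx) (E := E) (s := s) (g := g) hp).symm h' h
  rw [e]
  ext i j
  rw [mul_E2, E2_mul]
  fin_cases i <;> fin_cases j <;> simp [proj, a1, a2, hne, hc] <;> ring

/-- The resolvent identity in `g`. -/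
lemma Nm_res (hM : IsUnit (Mm vx E s g p).det) (hM' : IsUnit (Mm vx E s g' p).det) :
    Nm vx E s g' p = Nm vx E s g p + (g' - g) • (Nm vx E s g p * Nm vx E s g' p) := by
  have h1 : (Mm vx E s g' p)⁻¹ = (Mm vx E s g p)⁻¹ + (g' - g) • ((Mm vx E s g p)⁻¹ *
      (iota vx * proj (free p) * (iota vx)ᵀ) * (Mm vx E s g' p)⁻¹) := by
    have h2 : (Mm vx E s g p)⁻¹ * Mm vx E s g p * (Mm vx E s g' p)⁻¹ = (Mm vx E s g' p)⁻¹ := by
      rw [nonsing_inv_mul _ hM, Matrix.one_mul]
    rw [← h2]
    nth_rewrite 2 [Mm_shift vx E s g g' p]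
    rw [Matrix.mul_add, Matrix.add_mul, Matrix.mul_assoc, mul_nonsing_inv _ hM', Matrix.mul_one,
      Matrix.mul_smul, Matrix.smul_mul, h2]
  unfold Nm
  nth_rewrite 1 [h1]
  simp only [Matrix.mul_add, Matrix.add_mul, Matrix.mul_smul, Matrix.smul_mul, Matrix.mul_assoc]
  rw [← Matrix.mul_assoc (proj (free p)) (proj (free p)), proj_mul_proj]

/-- Moving `g`: with `y = P ιᵀ x` one has `‖y‖ ^ 4 ≤ (x ⬝ M x) (y ⬝ N y)`. -/
lemma posDef_shift (hp : Function.Involutive p) (hM : (Mm vx E s g p).PosDef) {ν : ℝ}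
    (hν : 0 ≤ ν) (hT : Top (Nm vx E s g p) ν) (hg : (g' - g) * ν < 1) :
    (Mm vx E s g' p).PosDef := by
  refine PosDef.of_dotProduct_mulVec_pos (herm_of_symm (Mm_symm hp)) fun x hx => ?_
  have h1 := hM.dotProduct_mulVec_pos hx
  have h2 := Mm_shift_dot vx E s g g' p x
  rw [star_trivial] at h1 ⊢
  set y := proj (free p) *ᵥ ((iota vx)ᵀ *ᵥ x) with hy
  have hy0 : 0 ≤ y ⬝ᵥ y := sum_nonneg fun _ _ => mul_self_nonneg _
  rcases le_total (g' - g) 0 with h0 | h0
  · nlinarith
  have hPy : proj (free p) *ᵥ y = y := by rw [hy, mulVec_mulVec, proj_mul_proj]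
  have h3 := dual_le hM (Mm_symm hp) x ((g' - g) • (iota vx *ᵥ y))
  have h4 : (iota vx *ᵥ y) ⬝ᵥ x = y ⬝ᵥ y := by
    rw [dotProduct_comm, dotProduct_mulVec, ← mulVec_transpose, ← hPy, dotProduct_mulVec,
      ← mulVec_transpose, (cent_proj (free p)).transpose, ← hy, hPy]
  have h5 : (iota vx *ᵥ y) ⬝ᵥ ((Mm vx E s g p)⁻¹ *ᵥ (iota vx *ᵥ y)) =
      y ⬝ᵥ (Nm vx E s g p *ᵥ y) := by
    have e := dot_conj (proj (free p)) ((iota vx)ᵀ * (Mm vx E s g p)⁻¹ * iota vx) y
    have e' := dot_conj (iota vx)ᵀ (Mm vx E s g p)⁻¹ y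
    rw [(cent_proj (free p)).transpose, hPy] at e
    rw [transpose_transpose] at e'
    rw [Nm, e, e']
  rw [mulVec_smul, smul_dotProduct, smul_dotProduct, dotProduct_smul, h4, h5] at h3
  simp only [smul_eq_mul] at h3
  have h6 := hT y
  have h7 : (g' - g) * (y ⬝ᵥ y) * (2 - (g' - g) * ν) ≤ x ⬝ᵥ (Mm vx E s g p *ᵥ x) := by
    have := hν
    nlinarith [mul_le_mul_of_nonneg_left h6 (mul_nonneg h0 h0)]
  linarith [gap_pos h1 hg h7]

lemma posDef_lower (hp : Function.Involutive p) (hM : (Mm vx E s g p).PosDef) (hg : g' ≤ g) :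
    (Mm vx E s g' p).PosDef := by
  refine PosDef.of_dotProduct_mulVec_pos (herm_of_symm (Mm_symm hp)) fun x hx => ?_
  have h1 := hM.dotProduct_mulVec_pos hx
  have h2 := Mm_shift_dot vx E s g g' p x
  rw [star_trivial] at h1 ⊢
  have hy0 : 0 ≤ (proj (free p) *ᵥ ((iota vx)ᵀ *ᵥ x)) ⬝ᵥ (proj (free p) *ᵥ ((iota vx)ᵀ *ᵥ x)) :=
    sum_nonneg fun _ _ => mul_self_nonneg _
  nlinarith

/-- Woodbury. With `a = P e_h`, `b = P e_h'`, `S = card (free p)`:
`Mm (add p h h') = Mm p + ι (W₁ (a aᵀ + b bᵀ) + W₀ (a bᵀ + b aᵀ)) ιᵀ` for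
`W₁ = g + (g - s) / (S - 2)`, `W₀ = (g - s) / (S - 2) - s`; the inverse is
`G - G ι (y1 a aᵀ + y2 b bᵀ + y0 (a bᵀ + b aᵀ)) ιᵀ G` because the `2 × 2` matrices satisfy
`W - Y - W K Y = 0` for the block `K` of `N = O + m P`; finally `Q a = Q b = 0`. -/
theorem update (hp : Function.Involutive p) (hh : p h = h) (hh' : p h' = h') (hne : h ≠ h')
    (hS : 3 ≤ (free p).card) (hs : s = 1 ∨ s = -1) (hω : ω = g - (1 - g ^ 2) * m)
    (hρ : ρ = 1 + g * m + m * ω) (hρ0 : ρ ≠ 0) (hM : IsUnit (Mm vx E s g p).det)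
    (hR : Rh (par s ω ρ (free p).card) (Nm vx E s g p - m • proj (free p)) h h' ≠ 0) :
    IsUnit (Mm vx E s g (add p h h')).det ∧ Nm vx E s g (add p h h') =
      sharp (par s ω ρ (free p).card) (free p) (Nm vx E s g p - m • proj (free p)) h h'
        + m • proj (rem (free p) h h') := by
  have a1 : h ∈ free p := by simp [free, hh]
  have a2 : h' ∈ free p := by simp [free, hh']
  have hS' : (3 : ℝ) ≤ (free p).card := by exact_mod_cast hS
  have hO : Cent (free p) (Nm vx E s g p - m • proj (free p)) :=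
    (cent_Nm hp).sub ((cent_proj _).smul m)
  have hK := block_eq vx E s g m hp hh hh' hne
  have hN : Nm vx E s g p = (Nm vx E s g p - m • proj (free p)) + m • proj (free p) := by simp
  generalize Nm vx E s g p - m • proj (free p) = O at hR hO hK hN ⊢
  set pr := par s ω ρ (free p).card with hpr
  set Y : Matrix (Fin 2) (Fin 2) ℝ :=
    !![y1 pr O h h', y0 pr O h h'; y0 pr O h h', y2 pr O h h'] with hY
  have hw := wood_scalar (a := O h h) (b := O h h') (c := O h' h') (S := (free p).card)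
    (R := Rh pr O h h') (A1 := pr.A1) (A0 := pr.A0) (vp := pr.vp) hs hω hρ hρ0 (by linarith)
    (by linarith) rfl rfl rfl rfl
  have hY' : !![pr.A1 + pr.vp * O h' h', pr.A0 - pr.vp * O h h'; pr.A0 - pr.vp * O h h',
      pr.A1 + pr.vp * O h h] = Rh pr O h h' • Y := by
    ext i j
    fin_cases i <;> fin_cases j <;> simp [hY, y0, y1, y2] <;> field_simp
  rw [hY', ← hK, Matrix.mul_smul, ← smul_sub, ← smul_sub] at hw
  have hwood := woodbury hM _ ((smul_eq_zero.mp hw).resolve_left hR)
  rw [← Mm_add vx E s g hh hh' hne hS] at hwood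
  refine ⟨isUnit_det_of_right_inverse hwood, ?_⟩
  have hQ : Cent (free p) (proj (rem (free p) h h')) :=
    (cent_proj _).mono fun k hk => (mem_rem.mp hk).1
  have hQE : proj (rem (free p) h h') * E2 h h' = 0 := by
    ext k i
    rw [mul_E2, (cent_proj _).symm]
    refine (cent_proj _).supp _ _ ?_
    fin_cases i <;> simp [mem_rem]
  have hEQ : (E2 h h')ᵀ * proj (rem (free p) h h') = 0 := by
    have := congrArg transpose hQE
    rwa [transpose_mul, (cent_proj _).transpose, transpose_zero] at this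
  have hB : Bm pr O h h' = O - O * E2 h h' * Y * ((E2 h h')ᵀ * O) := by
    ext k l
    rw [Matrix.sub_apply, Matrix.mul_apply, Fin.sum_univ_two, Matrix.mul_apply (M := O * E2 h h'),
      Matrix.mul_apply (M := O * E2 h h'), Fin.sum_univ_two, Fin.sum_univ_two]
    simp only [mul_E2, E2_mul, hY, of_apply, cons_val', cons_val_zero, cons_val_one,
      cons_val_fin_one, Bm, hO.symm h l, hO.symm h' l]
    ring
  rw [Nm, inv_eq_right_inv hwood, free_add' hne, sharp, hB]
  have hQQ := proj_mul_proj (rem (free p) h h')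
  have hQP := hQ.mul_proj
  have hPQ := hQ.proj_mul
  rw [transpose_mul, transpose_mul, (cent_proj (free p)).transpose]
  rw [Nm] at hN
  generalize proj (rem (free p) h h') = Q at hQE hEQ hQQ hQP hPQ ⊢
  generalize proj (free p) = P at hN hQP hPQ ⊢
  generalize (Mm vx E s g p)⁻¹ = G at hN ⊢
  have e0 : Q * ((iota vx)ᵀ * (G - G * (iota vx * (P * E2 h h')) * Y *
      ((E2 h h')ᵀ * P * (iota vx)ᵀ) * G) * iota vx) * Q =
      Q * (P * ((iota vx)ᵀ * G * iota vx) * P) * Q -
        Q * (P * ((iota vx)ᵀ * G * iota vx) * P) * E2 h h' * Y *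
          ((E2 h h')ᵀ * (P * ((iota vx)ᵀ * G * iota vx) * P) * Q) := by
    simp only [Matrix.mul_sub, Matrix.sub_mul, Matrix.mul_assoc, hPQ]
    simp only [← Matrix.mul_assoc Q P, hQP]
  have e1 : Q * (O + m • P) * Q = Q * O * Q + m • Q := by
    rw [Matrix.mul_add, Matrix.add_mul, Matrix.mul_smul, Matrix.smul_mul, hQP, hQQ]
  have e2 : Q * (O + m • P) * E2 h h' = Q * O * E2 h h' := by
    rw [Matrix.mul_add, Matrix.add_mul, Matrix.mul_smul, Matrix.smul_mul, hQP, hQE, smul_zero,
      add_zero]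
  have e3 : (E2 h h')ᵀ * (O + m • P) * Q = (E2 h h')ᵀ * O * Q := by
    rw [Matrix.mul_add, Matrix.add_mul, Matrix.mul_smul, Matrix.smul_mul, Matrix.mul_assoc _ P,
      hPQ, hEQ, smul_zero, add_zero]
  rw [e0, hN, e1, e2, e3]
  simp only [Matrix.mul_sub, Matrix.sub_mul, Matrix.mul_assoc]
  abel

/-- The update has one negative direction, so positivity of the determinant ratio
`det (1 + W K) = ρ * Rh` keeps positive definiteness. In the basis `a + b`, `a - b` the matrix `W`
is diagonal with entries of opposite signs; use `x ⬝ M x ≥ 2 c ⬝ y - c ⬝ K c` for `y = Zᵀ x`. -/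
theorem update_posDef (hp : Function.Involutive p) (hh : p h = h) (hh' : p h' = h')
    (hne : h ≠ h') (hS : 3 ≤ (free p).card) (hs : s = 1 ∨ s = -1) (hg : |g| < 1)
    (hω : ω = g - (1 - g ^ 2) * m) (hρ : ρ = 1 + g * m + m * ω) (hρ0 : 0 < ρ)
    (hM : (Mm vx E s g p).PosDef)
    (hR : 0 < Rh (par s ω ρ (free p).card) (Nm vx E s g p - m • proj (free p)) h h') :
    (Mm vx E s g (add p h h')).PosDef := by
  have a1 : h ∈ free p := by simp [free, hh]
  have a2 : h' ∈ free p := by simp [free, hh']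
  have hS' : (3 : ℝ) ≤ (free p).card := by exact_mod_cast hS
  have hM' := Mm_symm (vx := vx) (E := E) (s := s) (g := g) (add_invol hp hh hh')
  refine PosDef.of_dotProduct_mulVec_pos (herm_of_symm hM') fun x hx => ?_
  have h1 := hM.dotProduct_mulVec_pos hx
  rw [star_trivial] at h1 ⊢
  have hK := block_eq vx E s g m hp hh hh' hne
  generalize Nm vx E s g p - m • proj (free p) = O at hR hK
  have hdet := det_scalar (a := O h h) (b := O h h') (c := O h' h') (S := (free p).card)
    hs hω hρ hρ0.ne' (by linarith) (by linarith) rfl rfl rfl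
  have hpos := mul_pos hρ0 hR
  unfold Rh par at hpos
  rw [← hdet] at hpos
  rw [Mm_add vx E s g hh hh' hne hS, add_mulVec, dotProduct_add, dot_conj]
  generalize iota vx * (proj (free p) * E2 h h') = Z at hK ⊢
  have hdual : ∀ c : Fin 2 → ℝ, 2 * (c ⬝ᵥ (Zᵀ *ᵥ x)) - c ⬝ᵥ ((Zᵀ * (Mm vx E s g p)⁻¹ * Z) *ᵥ c) ≤
      x ⬝ᵥ (Mm vx E s g p *ᵥ x) := by
    intro c
    have e := dual_le hM (Mm_symm hp) x (Z *ᵥ c)
    have e' := dot_conj Zᵀ (Mm vx E s g p)⁻¹ c
    rw [transpose_transpose] at e'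
    rw [e', dotProduct_mulVec c, vecMul_transpose]
    exact e
  have hpsd : ∀ c : Fin 2 → ℝ, 0 ≤ c ⬝ᵥ ((Zᵀ * (Mm vx E s g p)⁻¹ * Z) *ᵥ c) := by
    intro c
    have := (hM.inv.posSemidef.conjTranspose_mul_mul_same Z).dotProduct_mulVec_nonneg c
    rwa [conjTranspose_eq_transpose_of_trivial, star_trivial] at this
  rw [hK] at hdual hpsd
  generalize Zᵀ *ᵥ x = y at hdual ⊢
  generalize x ⬝ᵥ (Mm vx E s g p *ᵥ x) = q at h1 hdual ⊢
  generalize O h h + m * (1 - 1 / ((free p).card : ℝ)) = K₁ at hpos hdual hpsd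
  generalize O h' h' + m * (1 - 1 / ((free p).card : ℝ)) = K₂ at hpos hdual hpsd
  generalize O h h' - m / ((free p).card : ℝ) = K₀ at hpos hdual hpsd
  generalize ((free p).card : ℝ) = S at hS' hpos ⊢
  have hS2 : 0 < S - 2 := by linarith
  have e0 : y ⬝ᵥ (W2 s g S *ᵥ y) = (g - s) * S / (S - 2) / 2 * (y 0 + y 1) ^ 2 +
      (g + s) / 2 * (y 0 - y 1) ^ 2 := by
    simp [W2, dotProduct, mulVec, Fin.sum_univ_two]
    field_simp
    ring
  have e1 : ∀ c₁ c₂ : ℝ, 2 * (c₁ * (y 0 + y 1) + c₂ * (y 0 - y 1)) -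
      ((K₁ + 2 * K₀ + K₂) * c₁ ^ 2 + 2 * (K₁ - K₂) * c₁ * c₂ + (K₁ - 2 * K₀ + K₂) * c₂ ^ 2) ≤ q := by
    intro c₁ c₂
    refine le_trans (le_of_eq ?_) (hdual ![c₁ + c₂, c₁ - c₂])
    simp [dotProduct, mulVec, Fin.sum_univ_two]
    ring
  have e2 : 0 ≤ K₁ + 2 * K₀ + K₂ := by
    refine le_trans (hpsd ![1, 1]) (le_of_eq ?_)
    simp [dotProduct, mulVec, Fin.sum_univ_two]
    ring
  have e3 : 0 ≤ K₁ - 2 * K₀ + K₂ := by
    refine le_trans (hpsd ![1, -1]) (le_of_eq ?_)
    simp [dotProduct, mulVec, Fin.sum_univ_two]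
    ring
  rw [e0]
  obtain ⟨g1, g2⟩ := abs_lt.mp hg
  rcases hs with rfl | rfl
  · have := rank2_pos (y₁ := y 0 - y 1) (y₂ := y 0 + y 1) (K₀ := K₁ - K₂)
      (K₂ := K₁ + 2 * K₀ + K₂) (α := (g + 1) / 2) (β := (g - 1) * S / (S - 2) / 2) h1 e3
      (by linarith) (fun c₁ c₂ => by linarith [e1 c₂ c₁]) (by linarith)
    linarith
  · have hα : 0 < (g - -1) * S / (S - 2) / 2 := by
      have : 0 < g - -1 := by linarith
      have : 0 < S := by linarith
      positivity
    have := rank2_pos h1 e2 hα e1 hpos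
    linarith

omit [DecidableEq V] in
lemma ones_dot (x : V → ℝ) : x ⬝ᵥ (ones V *ᵥ x) = (∑ i, x i) ^ 2 := by
  simp [dotProduct, mulVec, ones, ← sum_mul, sq]

/-- The initial state. Here `ι P ιᵀ = d (1 - J / n)`, so `Mm = (E - g d) 1 + c J`. -/
theorem initial {d : ℕ} (hd : ∀ u, (univ.filter fun k => vx k = u).card = d) (hd0 : 0 < d)
    (hV : d ≤ Fintype.card V) (hs : s = 1 ∨ s = -1) (hE : 0 < E) (hg : g * d < E) :
    (Mm vx E s g id).PosDef ∧ Nm vx E s g id =
      fun k l => (1 / (E - g * d)) * ((if vx k = vx l then 1 else 0) - 1 / (Fintype.card V : ℝ)) := by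
  set n : ℝ := (Fintype.card V : ℝ) with hn
  have hd' : (0 : ℝ) < d := by exact_mod_cast hd0
  have hV' : (d : ℝ) ≤ n := by rw [hn]; exact_mod_cast hV
  have hn0 : 0 < n := by linarith
  have hfree : free (id : H → H) = univ := by simp [free]
  have hcard : ((univ : Finset H).card : ℝ) = n * d := by
    rw [card_eq_sum_card_fiberwise (f := vx) (t := univ) fun _ _ => mem_univ _]
    simp [hd, hn]
  have hrow : ∀ u, ∑ k, iota vx u k = d := fun u => by simp [iota, hd]
  have hii : iota vx * (iota vx)ᵀ = (d : ℝ) • (1 : Matrix V V ℝ) := by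
    ext u w
    rw [Matrix.mul_apply, Matrix.smul_apply, Matrix.one_apply]
    split_ifs with e
    · subst e
      rw [smul_eq_mul, mul_one, ← hrow u]
      exact sum_congr rfl fun k _ => by simp [iota]
    · rw [smul_zero]
      refine sum_eq_zero fun k _ => ?_
      simp only [iota, transpose_apply]
      split_ifs with a b
      · exact absurd (a.symm.trans b) e
      all_goals simp
  have hJ : iota vx * ones H * (iota vx)ᵀ = ((d : ℝ) ^ 2) • ones V := by
    ext u w
    simp [Matrix.mul_apply, ones, hrow, ← mul_sum, sq]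
  have havg : avgU (univ : Finset H) = (1 / (n * d)) • ones H := by
    ext k l; simp [avgU, ones, ← hcard]
  have hproj : proj (univ : Finset H) = 1 - (1 / (n * d)) • ones H := by
    ext k l; simp [proj, ones, ← hcard, Matrix.one_apply]
  have hmat : mat (id : H → H) = 0 := by ext k l; simp [mat]
  have hM : Mm vx E s g id = (E - g * d) • (1 : Matrix V V ℝ) + (1 + (g - s) * d / n) • ones V := by
    rw [Mm, hfree, hmat, havg, hproj]
    simp only [zero_add, Matrix.mul_add, Matrix.add_mul, Matrix.mul_smul, Matrix.smul_mul,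
      Matrix.mul_sub, Matrix.sub_mul, Matrix.mul_one, hii, hJ]
    ext u w
    simp only [Matrix.add_apply, Matrix.sub_apply, Matrix.smul_apply, smul_eq_mul, ones]
    field_simp
    ring
  have hPD : (Mm vx E s g id).PosDef := by
    refine PosDef.of_dotProduct_mulVec_pos (herm_of_symm (Mm_symm fun _ => rfl)) fun x hx => ?_
    rw [star_trivial, hM, add_mulVec, smul_mulVec, smul_mulVec, one_mulVec, dotProduct_add,
      dotProduct_smul, dotProduct_smul, ones_dot, smul_eq_mul, smul_eq_mul]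
    have h1 : 0 < x ⬝ᵥ x := by simpa using (PosDef.one (n := V) (R := ℝ)).dotProduct_mulVec_pos hx
    have h2 : (∑ i, x i) ^ 2 ≤ n * (x ⬝ᵥ x) := by
      simpa [dotProduct, sq, hn] using sq_sum_le_card_mul_sum_sq (s := univ) (f := x)
    rcases le_total 0 (1 + (g - s) * d / n) with h3 | h3
    · have := mul_pos (sub_pos.mpr hg) h1
      positivity
    · have h4 := mul_le_mul_of_nonpos_left h2 h3
      have h5 : (1 + (g - s) * d / n) * (n * (x ⬝ᵥ x)) = (n + (g - s) * d) * (x ⬝ᵥ x) := by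
        field_simp
      have h6 : 0 < (E + n - s * d) * (x ⬝ᵥ x) := by
        refine mul_pos ?_ h1
        rcases hs with rfl | rfl <;> linarith
      nlinarith
  refine ⟨hPD, ?_⟩
  have hu : IsUnit (Mm vx E s g id).det := (isUnit_iff_isUnit_det _).mp hPD.isUnit
  have hP := cent_proj (univ : Finset H)
  have hcol : ∀ l, ∑ k, proj (univ : Finset H) k l = 0 := fun l => by
    simp only [hP.symm _ l, hP.row]
  have hJP : ones V * (iota vx * proj (univ : Finset H)) = 0 := by
    ext u l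
    rw [← Matrix.mul_assoc, Matrix.mul_apply]
    simp [Matrix.mul_apply, ones, iota, hcol]
  have hne : E - g * d ≠ 0 := (sub_pos.mpr hg).ne'
  have hG : (Mm vx E s g id)⁻¹ * (iota vx * proj (univ : Finset H)) =
      (1 / (E - g * d)) • (iota vx * proj (univ : Finset H)) := by
    have : iota vx * proj (univ : Finset H) =
        Mm vx E s g id * ((1 / (E - g * d)) • (iota vx * proj (univ : Finset H))) := by
      rw [hM, Matrix.mul_smul, Matrix.add_mul, Matrix.smul_mul, Matrix.smul_mul, hJP,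
        Matrix.one_mul, smul_zero, add_zero, smul_smul, one_div_mul_cancel hne, one_smul]
    conv_lhs => rw [this, ← Matrix.mul_assoc, nonsing_inv_mul _ hu, Matrix.one_mul]
  obtain ⟨C, hC⟩ : ∃ C : Matrix H H ℝ, ∀ k l, C k l = (if vx k = vx l then 1 else 0) - 1 / n :=
    ⟨fun k l => (if vx k = vx l then 1 else 0) - 1 / n, fun _ _ => rfl⟩
  have hCc : Cent univ C := by
    refine ⟨fun k l => by simp only [hC, eq_comm], fun k l hk => absurd (mem_univ k) hk,
      fun k => ?_⟩
    simp only [hC, sum_sub_distrib, sum_boole, eq_comm (a := vx k), hd, sum_const, nsmul_eq_mul,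
      hcard]
    field_simp
    ring
  have hT : (iota vx)ᵀ * iota vx = C + (1 / n) • ones H := by
    ext k l
    simp [Matrix.mul_apply, iota, hC, ones, eq_comm]
  have hJP' : ones H * proj (univ : Finset H) = 0 := by
    ext u l
    simp [Matrix.mul_apply, ones, hcol]
  rw [Nm, hfree, Matrix.mul_assoc, Matrix.mul_assoc, Matrix.mul_assoc, hG, Matrix.mul_smul,
    Matrix.mul_smul, ← Matrix.mul_assoc _ (iota vx), hT, Matrix.add_mul, Matrix.smul_mul, hJP',
    smul_zero, add_zero, hCc.mul_proj, hCc.proj_mul]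
  ext k l
  rw [Matrix.smul_apply, hC, smul_eq_mul]

/-- The endgame: at `g = 1` every completion satisfies the barrier inequality, because
`E - s ι (mat p') ιᵀ + J = Mm 1 p + ι (P - s P Π P) ιᵀ` for the matching `Π` of the free set. -/
theorem endgame (hp : Function.Involutive p) (hs : s = 1 ∨ s = -1)
    (hM : (Mm vx E s 1 p).PosDef) {p' : H → H} (hp' : Function.Involutive p')
    (hf : ∀ k, p' k ≠ k) (he : ∀ k, p k ≠ k → p' k = p k) (x : V → ℝ) (hx : x ≠ 0)
    (h0 : ∑ i, x i = 0) : s * (x ⬝ᵥ ((iota vx * mat p' * (iota vx)ᵀ) *ᵥ x)) < E * (x ⬝ᵥ x) := by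
  set U := free p with hU
  have hmem : ∀ k, k ∈ U ↔ p k = k := fun k => by simp [hU, free]
  have hcl : ∀ k, k ∈ U → p' k ∈ U := by
    intro k hk
    by_contra hc
    have a1 := he (p' k) fun a => hc ((hmem _).mpr a)
    rw [hp' k] at a1
    have a2 := (hmem k).mp hk
    rw [a1, hp (p' k), ← a1] at a2
    exact hf k a2
  obtain ⟨Pm, hPm⟩ : ∃ Pm : Matrix H H ℝ, ∀ k l, Pm k l = if k ∈ U ∧ p' k = l then 1 else 0 :=
    ⟨fun k l => if k ∈ U ∧ p' k = l then 1 else 0, fun _ _ => rfl⟩
  have h1 : mat p' = mat p + Pm := by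
    ext k l
    simp only [mat, Matrix.add_apply, hPm, hmem]
    by_cases a : p k = k
    · by_cases b : p' k = l
      · subst b; simp [a, (hf k).symm]
      · simp [a, b]
    · simp [a, he k a]
  have hC : Cent U (Pm - avgU U) := by
    refine ⟨fun k l => ?_, fun k l hk => by simp [hPm, avgU, hk], fun k => ?_⟩
    · simp only [Matrix.sub_apply, hPm, avgU, and_comm (a := l ∈ U) (b := k ∈ U)]
      congr 1
      refine if_congr ⟨fun a => ?_, fun a => ?_⟩ rfl rfl
      · exact ⟨a.2 ▸ hcl k a.1, by rw [← a.2, hp' k]⟩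
      · exact ⟨a.2 ▸ hcl l a.1, by rw [← a.2, hp' l]⟩
    · by_cases hk : k ∈ U
      · have : (U.card : ℝ) ≠ 0 := by exact_mod_cast (card_pos.mpr ⟨k, hk⟩).ne'
        simp [hPm, avgU, hk, this]
      · simp [hPm, avgU, hk]
  have hPA : proj U * avgU U = 0 := by
    ext k l
    rw [Matrix.mul_apply]
    have := (cent_proj U).row k
    by_cases hl : l ∈ U
    · refine Eq.trans (sum_congr rfl fun j _ => ?_) (by rw [← sum_mul, this, zero_mul] :
        ∑ j, proj U k j * (1 / (U.card : ℝ)) = 0)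
      by_cases hj : j ∈ U
      · simp [avgU, hj, hl]
      · rw [(cent_proj U).symm, (cent_proj U).supp _ _ hj, zero_mul, zero_mul]
    · simp [avgU, hl]
  have h2 : Pm = avgU U + proj U * Pm * (proj U)ᵀ := by
    have := hC.proj_mul
    rw [Matrix.mul_sub, hPA, sub_zero] at this
    rw [this, (cent_proj U).transpose, hC.mul_proj]; abel
  have h3 := hM.dotProduct_mulVec_pos hx
  rw [star_trivial, Mm, ← hU, add_mulVec, sub_mulVec, dotProduct_add, dotProduct_sub, ones_dot, h0,
    dot_conj, smul_mulVec, one_mulVec, dotProduct_smul, add_mulVec, smul_mulVec, smul_mulVec,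
    dotProduct_add, dotProduct_smul, dotProduct_smul, add_mulVec, dotProduct_add] at h3
  rw [dot_conj, h1, h2, add_mulVec, add_mulVec, dotProduct_add, dotProduct_add, dot_conj,
    (cent_proj U).transpose]
  generalize (iota vx)ᵀ *ᵥ x = z at h3 ⊢
  have h4 : z ⬝ᵥ (proj U *ᵥ z) = (proj U *ᵥ z) ⬝ᵥ (proj U *ᵥ z) := by
    rw [dotProduct_mulVec (proj U *ᵥ z), ← mulVec_transpose, (cent_proj U).transpose,
      mulVec_mulVec, proj_mul_proj, dotProduct_comm]
  rw [h4] at h3
  generalize proj U *ᵥ z = y at h3 ⊢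
  have h5 : s * (y ⬝ᵥ (Pm *ᵥ y)) ≤ y ⬝ᵥ y := by
    have e1 : ∑ k, y (p' k) ^ 2 = ∑ k, y k ^ 2 :=
      Equiv.sum_comp (hp'.toPerm p') fun k => y k ^ 2
    calc s * (y ⬝ᵥ (Pm *ᵥ y)) ≤ ∑ k, (y k ^ 2 / 2 + y (p' k) ^ 2 / 2) := by
          rw [dotProduct, mul_sum]
          refine sum_le_sum fun k _ => ?_
          have e2 : (Pm *ᵥ y) k = if k ∈ U then y (p' k) else 0 := by
            by_cases hk : k ∈ U <;> simp [mulVec, dotProduct, hPm, hk]
          rw [e2]
          split_ifs
          · rcases hs with rfl | rfl <;>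
              nlinarith [sq_nonneg (y k - y (p' k)), sq_nonneg (y k + y (p' k))]
          · simp; positivity
      _ = y ⬝ᵥ y := by
          rw [sum_add_distrib, ← sum_div, ← sum_div, e1]
          simp [dotProduct, sq]
  simp only [smul_eq_mul] at h3
  nlinarith

/-- The graph of a perfect matching of the half-edges. -/
def graphOf (vx : H → V) (p : H → H) : SimpleGraph V where
  Adj u w := u ≠ w ∧ ((∃ h, vx h = u ∧ vx (p h) = w) ∨ ∃ h, vx h = w ∧ vx (p h) = u)
  symm := ⟨fun _ _ h => ⟨h.1.symm, h.2.symm⟩⟩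
  loopless := ⟨fun _ h => h.1 rfl⟩

omit [Fintype V] [DecidableEq V] [Fintype H] [DecidableEq H] in
lemma graphOf_adj (hp : Function.Involutive p) (hf : ∀ k, p k ≠ k) (hs : Simple vx p) (u w : V) :
    (graphOf vx p).Adj u w ↔ ∃ h, vx h = u ∧ vx (p h) = w := by
  refine ⟨fun ⟨_, a⟩ => ?_, fun ⟨k, a, b⟩ => ⟨?_, Or.inl ⟨k, a, b⟩⟩⟩
  · rcases a with a | ⟨k, a, b⟩
    · exact a
    · exact ⟨p k, b, by rw [hp k]; exact a⟩
  · rw [← a, ← b]; exact (hs.1 k (hf k)).symm

lemma graphOf_adjMatrix [DecidableRel (graphOf vx p).Adj] (hp : Function.Involutive p)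
    (hf : ∀ k, p k ≠ k) (hs : Simple vx p) :
    (graphOf vx p).adjMatrix ℝ = iota vx * mat p * (iota vx)ᵀ := by
  ext u w
  have h1 : (iota vx * mat p * (iota vx)ᵀ) u w =
      ((univ.filter fun k => vx k = u ∧ vx (p k) = w).card : ℝ) := by
    rw [Matrix.mul_assoc, Matrix.mul_apply, ← sum_boole]
    refine sum_congr rfl fun k _ => ?_
    rw [Matrix.mul_apply, sum_eq_single (p k) (fun l _ hl => by simp [mat, Ne.symm hl]) (by simp)]
    simp only [iota, mat, transpose_apply, true_and, if_pos (hf k).symm]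
    by_cases a : vx k = u <;> by_cases b : vx (p k) = w <;> simp [a, b]
  rw [h1, SimpleGraph.adjMatrix_apply]
  split_ifs with a
  · obtain ⟨k, a, b⟩ := (graphOf_adj hp hf hs u w).mp a
    rw [card_eq_one.mpr ⟨k, ?_⟩, Nat.cast_one]
    ext l
    simp only [mem_filter, mem_univ, true_and, mem_singleton]
    exact ⟨fun c => hs.2 l k (hf l) (hf k) (c.1.trans a.symm) (c.2.trans b.symm),
      fun c => c ▸ ⟨a, b⟩⟩
  · rw [filter_eq_empty_iff.mpr fun k _ c => a ((graphOf_adj hp hf hs u w).mpr ⟨k, c⟩)]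
    simp

lemma graphOf_regular [DecidableRel (graphOf vx p).Adj] {d : ℕ}
    (hd : ∀ u, (univ.filter fun k => vx k = u).card = d) (hp : Function.Involutive p)
    (hf : ∀ k, p k ≠ k) (hs : Simple vx p) : (graphOf vx p).IsRegularOfDegree d := by
  intro u
  rw [← hd u, ← SimpleGraph.card_neighborFinset_eq_degree]
  symm
  refine card_bij (fun k _ => vx (p k)) (fun k hk => ?_) (fun k hk l hl e => ?_) fun w hw => ?_
  · rw [SimpleGraph.mem_neighborFinset, graphOf_adj hp hf hs]
    exact ⟨k, (mem_filter.mp hk).2, rfl⟩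
  · exact hs.2 k l (hf k) (hf l) ((mem_filter.mp hk).2.trans (mem_filter.mp hl).2.symm) e
  · rw [SimpleGraph.mem_neighborFinset, graphOf_adj hp hf hs] at hw
    obtain ⟨k, a, b⟩ := hw
    exact ⟨k, mem_filter.mpr ⟨mem_univ _, a⟩, b⟩

end Vale.Agent.P049
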