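import Vale.Agent.P049.Graph
import Vale.Agent.P049.Fro

/-!
Auxiliary lemmas for the exact update: the rank-two difference, Woodbury, scalar identities.
-/

namespace Vale.Agent.P049

open Matrix Finset

variable {V H : Type} [Fintype V] [DecidableEq V] [Fintype H] [DecidableEq H]

/-- The two coordinate vectors. -/
def E2 (h h' : H) : Matrix H (Fin 2) ℝ := fun k i => if k = ![h, h'] i then 1 else 0

/-- The middle matrix of the rank-two difference. -/
noncomputable def W2 (s g S : ℝ) : Matrix (Fin 2) (Fin 2) ℝ :=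
  !![g + (g - s) / (S - 2), (g - s) / (S - 2) - s; (g - s) / (S - 2) - s, g + (g - s) / (S - 2)]

lemma mul_E2 {W : Type} (A : Matrix W H ℝ) (h h' : H) (k : W) (i : Fin 2) :
    (A * E2 h h') k i = A k (![h, h'] i) := by
  simp [Matrix.mul_apply, E2]

lemma E2_mul {W : Type} (A : Matrix H W ℝ) (h h' : H) (k : W) (i : Fin 2) :
    ((E2 h h')ᵀ * A) i k = A (![h, h'] i) k := by
  simp [Matrix.mul_apply, E2]

omit [Fintype H] in
lemma proj_eq (U : Finset H) (k l : H) : proj U k l = (if k ∈ U ∧ k = l then 1 else 0) -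
    (if k ∈ U then 1 else 0) * (if l ∈ U then 1 else 0) / (U.card : ℝ) := by
  unfold proj
  by_cases hk : k ∈ U <;> by_cases hl : l ∈ U <;> by_cases e : k = l <;> simp_all

omit [Fintype H] in
lemma avgU_eq (U : Finset H) (k l : H) : avgU U k l =
    (if k ∈ U then 1 else 0) * (if l ∈ U then 1 else 0) / (U.card : ℝ) := by
  unfold avgU
  by_cases hk : k ∈ U <;> by_cases hl : l ∈ U <;> simp_all

omit [Fintype H] in
lemma ind_rem {U : Finset H} {h h' : H} (hh : h ∈ U) (hh' : h' ∈ U) (hne : h ≠ h') (k : H) :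
    (if k ∈ rem U h h' then (1 : ℝ) else 0) =
      (if k ∈ U then 1 else 0) - (if k = h then 1 else 0) - (if k = h' then 1 else 0) := by
  simp only [mem_rem]
  by_cases e : k = h
  · subst e; simp [hh, hne]
  by_cases e' : k = h'
  · subst e'; simp [hh', e]
  simp [e, e']

omit [Fintype H] in
lemma diag_rem {U : Finset H} {h h' : H} (hh : h ∈ U) (hh' : h' ∈ U) (hne : h ≠ h') (k l : H) :
    (if k ∈ rem U h h' ∧ k = l then (1 : ℝ) else 0) = (if k ∈ U ∧ k = l then 1 else 0)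
      - (if k = h then 1 else 0) * (if l = h then 1 else 0)
      - (if k = h' then 1 else 0) * (if l = h' then 1 else 0) := by
  by_cases e : k = l
  · subst e
    simp only [and_true, ind_rem hh hh' hne]
    split_ifs <;> simp
  · have h1 : (if k = h then (1 : ℝ) else 0) * (if l = h then 1 else 0) = 0 := by
      split_ifs with a b
      · exact absurd (a.trans b.symm) e
      all_goals simp
    have h2 : (if k = h' then (1 : ℝ) else 0) * (if l = h' then 1 else 0) = 0 := by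
      split_ifs with a b
      · exact absurd (a.trans b.symm) e
      all_goals simp
    rw [h1, h2]; simp [e]

omit [Fintype H] in
lemma mat_add {p : H → H} {h h' : H} (hh : p h = h) (hh' : p h' = h') (hne : h ≠ h') (k l : H) :
    mat (add p h h') k l = mat p k l + (if k = h then 1 else 0) * (if l = h' then 1 else 0)
      + (if k = h' then 1 else 0) * (if l = h then 1 else 0) := by
  unfold mat add
  by_cases e : k = h
  · subst e
    by_cases e' : l = h'
    · subst e'; simp [hh, hne]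
    · simp [hh, hne, e', Ne.symm e']
  by_cases e' : k = h'
  · subst e'
    by_cases e'' : l = h
    · subst e''; simp [hh', e]
    · simp [hh', e, e'', Ne.symm e'']
  simp [e, e']

lemma free_add' {p : H → H} {h h' : H} (hne : h ≠ h') :
    free (add p h h') = rem (free p) h h' := by
  ext k
  rw [mem_rem, free, free, mem_filter, mem_filter]
  simp only [mem_univ, true_and, add]
  split_ifs with e e'
  · subst e; simp [hne.symm]
  · subst e'; simp [hne]
  · simp [e, e']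

lemma inner_diff {p : H → H} {h h' : H} (hh : p h = h) (hh' : p h' = h') (hne : h ≠ h')
    (hS : 3 ≤ (free p).card) (s g : ℝ) :
    s • (mat (add p h h') + avgU (free (add p h h'))) + g • proj (free (add p h h')) =
      s • (mat p + avgU (free p)) + g • proj (free p) -
        proj (free p) * E2 h h' * W2 s g (free p).card * (proj (free p) * E2 h h')ᵀ := by
  have a1 : h ∈ free p := by simp [free, hh]
  have a2 : h' ∈ free p := by simp [free, hh']
  have hS' : (3 : ℝ) ≤ (free p).card := by exact_mod_cast hS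
  have b1 : ((free p).card : ℝ) ≠ 0 := by linarith
  have b2 : ((free p).card : ℝ) - 2 ≠ 0 := by linarith
  have c1 : ∀ k, (if k ∈ free p ∧ k = h then (1 : ℝ) else 0) = if k = h then 1 else 0 := by
    intro k; by_cases e : k = h <;> simp [e, a1]
  have c2 : ∀ k, (if k ∈ free p ∧ k = h' then (1 : ℝ) else 0) = if k = h' then 1 else 0 := by
    intro k; by_cases e : k = h' <;> simp [e, a2]
  ext k l
  rw [free_add' hne]
  simp only [Matrix.add_apply, Matrix.sub_apply, Matrix.smul_apply, smul_eq_mul]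
  rw [Matrix.mul_apply, Fin.sum_univ_two, Matrix.mul_apply, Matrix.mul_apply, Fin.sum_univ_two,
    Fin.sum_univ_two]
  simp only [transpose_apply, mul_E2, W2, of_apply, cons_val', cons_val_zero, cons_val_one,
    cons_val_fin_one, proj_eq, avgU_eq, mat_add hh hh' hne, ind_rem a1 a2 hne,
    diag_rem a1 a2 hne, card_rem a1 a2 hne, c1, c2, if_pos a1, if_pos a2]
  generalize (if k ∈ free p then (1 : ℝ) else 0) = uk
  generalize (if l ∈ free p then (1 : ℝ) else 0) = ul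
  generalize (if k = h then (1 : ℝ) else 0) = ek
  generalize (if l = h then (1 : ℝ) else 0) = el
  generalize (if k = h' then (1 : ℝ) else 0) = fk
  generalize (if l = h' then (1 : ℝ) else 0) = fl
  generalize (if k ∈ free p ∧ k = l then (1 : ℝ) else 0) = D
  field_simp
  ring

omit [Fintype V] in
lemma Mm_add (vx : H → V) (E s g : ℝ) {p : H → H} {h h' : H} (hh : p h = h) (hh' : p h' = h')
    (hne : h ≠ h') (hS : 3 ≤ (free p).card) :
    Mm vx E s g (add p h h') = Mm vx E s g p + iota vx * (proj (free p) * E2 h h') *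
      W2 s g (free p).card * (iota vx * (proj (free p) * E2 h h'))ᵀ := by
  unfold Mm
  rw [inner_diff hh hh' hne hS, Matrix.mul_sub, Matrix.sub_mul,
    Matrix.transpose_mul (iota vx)]
  simp only [Matrix.mul_assoc]
  abel

lemma woodbury {M : Matrix V V ℝ} (hM : IsUnit M.det) (Z : Matrix V (Fin 2) ℝ)
    {W Y : Matrix (Fin 2) (Fin 2) ℝ} (h : W - Y - W * (Zᵀ * M⁻¹ * Z) * Y = 0) :
    (M + Z * W * Zᵀ) * (M⁻¹ - M⁻¹ * Z * Y * Zᵀ * M⁻¹) = 1 := by
  have h1 := mul_nonsing_inv M hM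
  have h2 : Z * (W - Y - W * (Zᵀ * M⁻¹ * Z) * Y) * Zᵀ * M⁻¹ = 0 := by rw [h]; simp
  simp only [Matrix.mul_sub, Matrix.sub_mul, Matrix.add_mul, Matrix.mul_assoc] at h2 ⊢
  rw [← Matrix.mul_assoc M M⁻¹, h1, Matrix.one_mul]
  rw [← sub_eq_zero, ← h2]
  abel

lemma wood_scalar {s g m ω ρ S a b c : ℝ} (hs : s = 1 ∨ s = -1) (hω : ω = g - (1 - g ^ 2) * m)
    (hρ : ρ = 1 + g * m + m * ω) (hρ0 : ρ ≠ 0) (hS : S ≠ 0) (hS2 : S - 2 ≠ 0) {R A1 A0 vp : ℝ}
    (h1 : A1 = ω / ρ + (ω - s) / (ρ * (S - 2))) (h0 : A0 = -s / ρ + (ω - s) / (ρ * (S - 2)))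
    (hv : vp = -(S / (S - 2)) * (1 - ω ^ 2) / ρ ^ 2)
    (hR : R = 1 + A1 * (a + c) + 2 * A0 * b + vp * (a * c - b ^ 2)) :
    R • W2 s g S - !![A1 + vp * c, A0 - vp * b; A0 - vp * b, A1 + vp * a] -
      W2 s g S * !![a + m * (1 - 1 / S), b - m / S; b - m / S, c + m * (1 - 1 / S)] *
        !![A1 + vp * c, A0 - vp * b; A0 - vp * b, A1 + vp * a] = 0 := by
  subst hR h1 h0 hv
  ext i j
  fin_cases i <;> fin_cases j <;>
    simp [W2] <;> field_simp <;> subst hρ hω <;>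
    rcases hs with rfl | rfl <;> ring

lemma det_scalar {s g m ω ρ S a b c : ℝ} (hs : s = 1 ∨ s = -1) (hω : ω = g - (1 - g ^ 2) * m)
    (hρ : ρ = 1 + g * m + m * ω) (hρ0 : ρ ≠ 0) (hS : S ≠ 0) (hS2 : S - 2 ≠ 0) {A1 A0 vp : ℝ}
    (h1 : A1 = ω / ρ + (ω - s) / (ρ * (S - 2))) (h0 : A0 = -s / ρ + (ω - s) / (ρ * (S - 2)))
    (hv : vp = -(S / (S - 2)) * (1 - ω ^ 2) / ρ ^ 2) :
    (1 + (g - s) * S / (S - 2) / 2 * ((a + m * (1 - 1 / S)) + 2 * (b - m / S)
        + (c + m * (1 - 1 / S)))) *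
      (1 + (g + s) / 2 * ((a + m * (1 - 1 / S)) - 2 * (b - m / S) + (c + m * (1 - 1 / S))))
      - (g - s) * S / (S - 2) / 2 * ((g + s) / 2) *
        ((a + m * (1 - 1 / S)) - (c + m * (1 - 1 / S))) ^ 2 =
      ρ * (1 + A1 * (a + c) + 2 * A0 * b + vp * (a * c - b ^ 2)) := by
  subst h1 h0 hv
  field_simp
  subst hρ hω
  rcases hs with rfl | rfl <;> ring

lemma gap_pos {T B r : ℝ} (hT : 0 < T) (hr : r < 1) (h : B * (2 - r) ≤ T) : B < T := by
  by_contra hc
  push Not at hc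
  nlinarith

lemma rank2_pos {q y₁ y₂ K₁ K₀ K₂ α β : ℝ} (hq : 0 < q) (hK : 0 ≤ K₁) (hα : 0 < α)
    (h : ∀ c₁ c₂ : ℝ, 2 * (c₁ * y₁ + c₂ * y₂) - (K₁ * c₁ ^ 2 + 2 * K₀ * c₁ * c₂ + K₂ * c₂ ^ 2) ≤ q)
    (hdet : 0 < (1 + α * K₁) * (1 + β * K₂) - α * β * K₀ ^ 2) :
    0 < q + α * y₁ ^ 2 + β * y₂ ^ 2 := by
  have hp : 0 < 1 + α * K₁ := by positivity
  set κ := K₂ - α * K₀ ^ 2 / (1 + α * K₁) with hκ
  have h1 : κ * (-β) < 1 := by
    have : (1 + α * K₁) * (1 + β * K₂) - α * β * K₀ ^ 2 = (1 + α * K₁) * (1 - κ * (-β)) := by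
      rw [hκ]; field_simp; ring
    rw [this] at hdet
    linarith [(mul_pos_iff_of_pos_left hp).mp hdet]
  set c₂ := -β * y₂ with hc₂
  set c₁ := -(K₀ * c₂ * α) / (1 + α * K₁) with hc₁
  have h2 := h c₁ c₂
  have h3 : 0 ≤ α * (y₁ + c₁ / α) ^ 2 := by positivity
  have h4 : α * (y₁ + c₁ / α) ^ 2 = α * y₁ ^ 2 + 2 * (c₁ * y₁) + c₁ ^ 2 / α := by
    field_simp; ring
  have h5 : K₁ * c₁ ^ 2 + 2 * K₀ * c₁ * c₂ + K₂ * c₂ ^ 2 + c₁ ^ 2 / α = κ * c₂ ^ 2 := by
    rw [hκ, hc₁]; field_simp; ring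
  have h6 : (-β * y₂ ^ 2) * (2 - κ * (-β)) ≤ q + α * y₁ ^ 2 := by
    have : (-β * y₂ ^ 2) * (2 - κ * (-β)) = 2 * (c₂ * y₂) - κ * c₂ ^ 2 := by rw [hc₂]; ring
    linarith
  have := gap_pos (by positivity) h1 h6
  linarith

omit [Fintype V] [DecidableEq V] in
lemma herm_of_symm {M : Matrix V V ℝ} (h : Mᵀ = M) : M.IsHermitian := by
  rw [IsHermitian, conjTranspose_eq_transpose_of_trivial, h]

/-- The variational bound for the inverse. -/
lemma dual_le {M : Matrix V V ℝ} (hM : M.PosDef) (hs : Mᵀ = M) (x w : V → ℝ) :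
    2 * (w ⬝ᵥ x) - w ⬝ᵥ (M⁻¹ *ᵥ w) ≤ x ⬝ᵥ (M *ᵥ x) := by
  have hu : IsUnit M.det := (isUnit_iff_isUnit_det M).mp hM.isUnit
  have h1 := hM.posSemidef.dotProduct_mulVec_nonneg (x - M⁻¹ *ᵥ w)
  have h2 : M *ᵥ (M⁻¹ *ᵥ w) = w := by rw [mulVec_mulVec, mul_nonsing_inv M hu, one_mulVec]
  have h3 : (M⁻¹ *ᵥ w) ⬝ᵥ (M *ᵥ x) = w ⬝ᵥ x := by
    rw [dotProduct_mulVec, ← mulVec_transpose, hs, h2]
  rw [star_trivial, mulVec_sub, sub_dotProduct, dotProduct_sub, dotProduct_sub, h2, h3,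
    dotProduct_comm x w, dotProduct_comm _ w] at h1
  linarith

omit [DecidableEq V] in
lemma dot_conj {W : Type} [Fintype W] (Z : Matrix V W ℝ) (A : Matrix W W ℝ) (x : V → ℝ) :
    x ⬝ᵥ ((Z * A * Zᵀ) *ᵥ x) = (Zᵀ *ᵥ x) ⬝ᵥ (A *ᵥ (Zᵀ *ᵥ x)) := by
  rw [← mulVec_mulVec, ← mulVec_mulVec, dotProduct_mulVec, ← mulVec_transpose]

omit [DecidableEq H] in
lemma Cent.mono {U U' : Finset H} {A : Matrix H H ℝ} (h : Cent U A) (hU : U ⊆ U') : Cent U' A :=
  ⟨h.symm, fun k l hk => h.supp k l fun h' => hk (hU h'), h.row⟩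

end Vale.Agent.P049
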